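import Vale.Agent.P161E.Bay

namespace Vale.Agent.P161E

open MeasureTheory unitInterval Classical SimpleGraph Filter Topology
open Vale.Agent.P161
open Vale.Agent.P143 (BM iidUniform)

variable {V : Type} {G : SimpleGraph V} [G.LocallyFinite] {d : ℕ} {θ : ℝ} {D : Finset V}

noncomputable def chMgf (x : ℝ) : ℝ := Real.exp x + Real.exp (-x)

lemma ch_pos_mgf (x : ℝ) : 0 < chMgf x := add_pos (Real.exp_pos _) (Real.exp_pos _)

lemma ch_step_mgf (a : ℝ) {X B : ℝ} (h : X ^ 2 ≤ B) (hB : B ≤ 1) :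
    chMgf (a + X) ≤ chMgf a * (1 + B) + (Real.exp a - Real.exp (-a)) * X := by
  have h1 : |X| ≤ 1 := by
    rw [← sq_le_one_iff_abs_le_one]
    linarith
  have h2 := (abs_le.1 (Real.abs_exp_sub_one_sub_id_le h1)).2
  have h3 := (abs_le.1 (Real.abs_exp_sub_one_sub_id_le (x := -X) (by rwa [abs_neg]))).2
  rw [neg_sq] at h3
  have h4 := mul_le_mul_of_nonneg_left (show Real.exp X ≤ 1 + X + B by linarith)
    (Real.exp_pos a).le
  have h5 := mul_le_mul_of_nonneg_left (show Real.exp (-X) ≤ 1 - X + B by linarith)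
    (Real.exp_pos (-a)).le
  unfold chMgf
  rw [neg_add, Real.exp_add, Real.exp_add]
  linarith

lemma pow_le_ch_mgf (x : ℝ) : x ^ 10 ≤ (Nat.factorial 10 : ℝ) * chMgf x := by
  have h1 := Real.pow_div_factorial_le_exp |x| (abs_nonneg x) 10
  rw [div_le_iff₀ (by positivity), Even.pow_abs (by decide)] at h1
  have h2 : Real.exp |x| ≤ chMgf x := by
    unfold chMgf
    rcases abs_choice x with h | h <;> rw [h]
    · linarith [Real.exp_pos (-x)]
    · linarith [Real.exp_pos x]
  rw [mul_comm]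
  exact h1.trans (mul_le_mul_of_nonneg_right h2 (by positivity))

lemma bm_cont_mgf {f : I → ℝ} (hf : Continuous f) : BM f := by
  obtain ⟨C, hC⟩ := isCompact_univ.exists_bound_of_continuousOn hf.continuousOn
  exact ⟨hf.measurable, C, fun x => hC x (Set.mem_univ x)⟩

lemma int_step_mgf {t : ℝ} (ht : t ∈ Set.Icc (0 : ℝ) 1) (a p q : ℝ) {B : ℝ} (hB : B ≤ 1)
    (h : 2 * p ^ 2 + 26 * q ^ 2 ≤ B) :
    ∫ y : I, dens (1 / 2) t y * chMgf (a + (p - q * est (1 / 2) y)) ≤
      chMgf a * (1 + B) + (Real.exp a - Real.exp (-a)) * (p - q * t) := by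
  set s := Real.exp a - Real.exp (-a) with hs
  set K := chMgf a * (1 + B) + s * p + 5 / 2 * s * q with hK
  have h1 := P143.integral_cubic ((1 - (t - 1 / 2)) * K)
    (2 * (t - 1 / 2) * K - 6 * (1 - (t - 1 / 2)) * s * q) (-12 * (t - 1 / 2) * s * q) 0
  refine le_trans (integral_mono ?_ ?_ fun y => ?_) (h1.le.trans (le_of_eq ?_))
  · refine (bm_cont_mgf ?_).integrable _
    unfold dens chMgf est
    fun_prop
  · exact (bm_cont_mgf (by fun_prop)).integrable _
  · have h2 : (p - q * est (1 / 2) y) ^ 2 ≤ B := by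
      have h3 : est (1 / 2) y ^ 2 ≤ 13 := by
        unfold est
        nlinarith [y.2.1, y.2.2]
      have h4 := mul_le_mul_of_nonneg_left h3 (sq_nonneg q)
      nlinarith [sq_nonneg (p + q * est (1 / 2) y)]
    refine (mul_le_mul_of_nonneg_left (ch_step_mgf a h2 hB)
      (dens_mem ⟨by norm_num, le_rfl⟩ ht y.2).1).trans (le_of_eq ?_)
    simp only [hK, ← hs]
    unfold dens est
    ring
  · rw [hK]
    ring

omit [G.LocallyFinite] in
lemma lin_sq_mgf (f : V → ℝ) (T : Finset V) : lin D f T ^ 2 ≤ D.card * ∑ x ∈ D, f x ^ 2 := by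
  refine sq_sum_le_card_mul_sum_sq.trans (mul_le_mul_of_nonneg_left
    (Finset.sum_le_sum fun x _ => ?_) (by positivity))
  unfold ind
  split_ifs
  · simp
  · simp [sq_nonneg]

omit [G.LocallyFinite] in
lemma base_mgf (hθ : θ ∈ Set.Ico (0 : ℝ) 1) (f : V → ℝ) {lam : ℝ} (hlam : 0 < lam) (l : V → ℝ)
    (z : ℝ) : vrF G θ D f l ^ 5 ≤
      (Nat.factorial 10 : ℝ) / lam ^ 10 * ex G θ D l fun T => chMgf (lam * (lin D f T - z)) := by
  have h1 : vrF G θ D f l ≤ ex G θ D l fun T => (lin D f T - z) ^ 2 := by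
    rw [ex_congr l (h := fun T => lin D f T ^ 2 + ((-2 * z) * lin D f T + z ^ 2))
      fun T _ => by ring, ex_add, ex_add, ex_smul, ex_const hθ, vrF]
    nlinarith [sq_nonneg (ex G θ D l (lin D f) - z)]
  refine ((by decide : Odd 5).strictMono_pow.monotone h1).trans
    ((ex_pow_le hθ l (fun T => sq_nonneg _) 5).trans ?_)
  rw [← ex_smul]
  refine ex_mono hθ l fun T _ => ?_
  have h2 := pow_le_ch_mgf (lam * (lin D f T - z))
  rw [div_mul_eq_mul_div, le_div_iff₀ (by positivity)]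
  calc _ = (lam * (lin D f T - z)) ^ 10 := by ring
    _ ≤ _ := h2

omit [G.LocallyFinite] in
lemma step_mgf (hθ : θ ∈ Set.Ico (0 : ℝ) 1) {h : (V → ℝ) → ℝ} (hh : BM h) (l : V → ℝ) {K : ℝ}
    {ψ : V → Finset V → ℝ → ℝ} (hψ : ∀ w T, Continuous (ψ w T))
    (H : ∀ w l' y, h l' ≤ K * ex G θ D l' fun T => ψ w T y) :
    PP G θ D h l ≤ K * ex G θ D l fun T =>
      (1 / (D.card : ℝ)) * ∑ w ∈ D, ∫ y : I, dens (1 / 2) (ind T w) y * ψ w T y := by
  rw [ex_smul, ex_sum, Finset.mul_sum, Finset.mul_sum, PP, op, Finset.sum_div]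
  refine Finset.sum_le_sum fun w hw => ?_
  have hb : ∀ T, BM fun y : I => ψ w T y := fun T =>
    bm_cont_mgf ((hψ w T).comp continuous_subtype_val)
  rw [← bayes hθ l hw hb, mul_left_comm, one_div_mul_eq_div]
  refine div_le_div_of_nonneg_right ?_ (by positivity)
  have h1 : ∫ p : I × I, h (one (stp G θ D) l w p) = ∫ u : I, h (stp G θ D l w u) := by
    have := integral_fun_fst (μ := (volume : Measure I)) (ν := (volume : Measure I))
      fun u : I => h (stp G θ D l w u)
    rw [probReal_univ, one_smul] at this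
    exact this
  have hm : Measurable fun u : I => stp G θ D l w u :=
    (ms_stp w).comp (measurable_const.prodMk measurable_id)
  have he : ∀ u, stp G θ D l w u = st G θ D l w u := fun u => if_pos hw
  have hQ : ∀ u : I, Qf (1 / 2) (mI G θ D l w) u ∈ Set.Icc (0 : ℝ) 1 := fun u =>
    (Qf_spec ⟨by norm_num, le_rfl⟩ (mI_mem hθ D l w) u.2).1
  have h2 := bm_ex (G := G) (D := D) hθ hm
    (g := fun T (u : I) => ψ w T (Qf (1 / 2) (mI G θ D l w) u)) fun T =>
      (hb T).comp (g := fun u : I => (⟨_, hQ u⟩ : I))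
        (Measurable.subtype_mk (measurable_Qf measurable_const measurable_subtype_coe))
  rw [h1, ← integral_const_mul]
  simp only [← he]
  exact integral_mono ((hh.comp hm).integrable _) (((BM.const K).mul h2).integrable _)
    fun u => H w _ _

omit [G.LocallyFinite] in
/-- Fifth moment of the posterior variance. `N = D.card`, `β = 1 / j`, `λ² = j / (36 N σ2)`,
`F = lin D f`, `ch x = exp x + exp (-x)`. By induction on `i`, for all `l`, `z`:
`PP^[i] (vrF ^ 5) l ≤ 10! / λ^10 * exp (i / j) * ex l (ch (λ (F (1 - i β) - z)))`. -/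
theorem mgf : ∃ C : ℝ, 0 < C ∧ ∀ (V : Type) (G : SimpleGraph V) (θ : ℝ) (D : Finset V),
    θ ∈ Set.Ico (0 : ℝ) 1 → D.Nonempty → ∀ (f : V → ℝ) (σ2 M2 : ℝ) (j : ℕ), 0 < σ2 → 1 ≤ j →
    ∑ x ∈ D, f x ^ 2 ≤ σ2 → (∀ x ∈ D, f x ^ 2 ≤ M2) → D.card * M2 ≤ j * σ2 → ∀ l,
    (PP G θ D)^[j] (fun l => vrF G θ D f l ^ 5) l ≤ C * (D.card * σ2 / j) ^ 5 := by
  refine ⟨(Nat.factorial 10 : ℝ) * 36 ^ 5 * Real.exp 1 * 2, by positivity, ?_⟩
  intro V G θ D hθ hD f σ2 M2 j hσ hj hf hM hNM
  have hN : (0 : ℝ) < D.card := by exact_mod_cast hD.card_pos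
  have hj1 : (1 : ℝ) ≤ j := by exact_mod_cast hj
  set N : ℝ := (D.card : ℝ) with hNdef
  obtain ⟨lam, hlam, hl2⟩ : ∃ lam : ℝ, 0 < lam ∧ lam ^ 2 = j / (36 * N * σ2) :=
    ⟨√(j / (36 * N * σ2)), Real.sqrt_pos.2 (by positivity), Real.sq_sqrt (by positivity)⟩
  obtain ⟨β, hβ⟩ : ∃ β : ℝ, β = 1 / j := ⟨_, rfl⟩
  have hβ0 : 0 < β := by rw [hβ]; positivity
  have hβ1 : β ≤ 1 := by rw [hβ]; exact (div_le_one (by linarith)).2 hj1
  have hβj : β * j = 1 := by rw [hβ]; field_simp
  have hc : (lam * β) ^ 2 * (N * σ2) = β / 36 := by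
    rw [mul_pow, hl2, hβ]
    field_simp
  have hmk : MK (PP G θ D) := mk_op hD ms_stp.one
  have hg : BM fun l => vrF G θ D f l ^ 5 := bm_pow (bm_vrF hθ f) 5
  have main : ∀ (i : ℕ) (l : V → ℝ) (z : ℝ), (PP G θ D)^[i] (fun l => vrF G θ D f l ^ 5) l ≤
      (Nat.factorial 10 : ℝ) / lam ^ 10 * Real.exp (i * β) *
        ex G θ D l fun T => chMgf (lam * (lin D f T * (1 - i * β) - z)) := by
    intro i
    induction i with
    | zero =>
      intro l z
      simpa using base_mgf hθ f hlam l z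
    | succ i ih =>
      intro l z
      rw [Function.iterate_succ_apply']
      refine (step_mgf hθ ((hmk.iter i).bm _ hg) l
        (ψ := fun w T y => chMgf (lam * (lin D f T * (1 - i * β) -
          (z + β * N * f w * est (1 / 2) y)))) (fun w T => ?_) fun w l' y => ih l' _).trans ?_
      · unfold chMgf est
        fun_prop
      rw [Nat.cast_succ, add_mul (i : ℝ), one_mul, Real.exp_add, ← mul_assoc, mul_assoc _ (Real.exp β),
        ← ex_smul l (Real.exp β)]
      refine mul_le_mul_of_nonneg_left (ex_mono hθ l fun T _ => ?_) (by positivity)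
      set a := lam * (lin D f T * (1 - (i * β + β)) - z) with ha
      have hF := (lin_sq_mgf (D := D) f T).trans (mul_le_mul_of_nonneg_left hf hN.le)
      have h1 : ∀ w ∈ D, ∫ y : I, dens (1 / 2) (ind T w) y * chMgf (lam * (lin D f T * (1 - i * β) -
          (z + β * N * f w * est (1 / 2) y))) ≤
          chMgf a * (1 + (β / 18 + 26 * ((lam * β) ^ 2 * N ^ 2) * f w ^ 2)) +
            (Real.exp a - Real.exp (-a)) * (lam * β * lin D f T - lam * β * N * (f w * ind T w)) := by
        intro w hw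
        have h2 : (lam * β) ^ 2 * N ^ 2 * f w ^ 2 ≤ 1 / 36 := by
          calc _ ≤ (lam * β) ^ 2 * N ^ 2 * M2 := by gcongr; exact hM w hw
            _ = (lam * β) ^ 2 * N * (N * M2) := by ring
            _ ≤ (lam * β) ^ 2 * N * (j * σ2) := by gcongr
            _ = (lam * β) ^ 2 * (N * σ2) * j := by ring
            _ = _ := by rw [hc]; linarith
        have h3 := mul_le_mul_of_nonneg_left hF (sq_nonneg (lam * β))
        have h4 := int_step_mgf (ind_mem T w) a (lam * β * lin D f T) (lam * β * N * f w)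
          (B := β / 18 + 26 * ((lam * β) ^ 2 * N ^ 2) * f w ^ 2) (by linarith) (by
            rw [hc] at h3
            linarith [mul_pow (lam * β) (lin D f T) 2, mul_pow (lam * β * N) (f w) 2,
              congrArg (· * f w ^ 2) (mul_pow (lam * β) N 2)])
        rw [← mul_assoc (lam * β * N)]
        refine le_trans (le_of_eq ?_) h4
        congr 1
        funext y
        congr 2
        rw [ha]
        ring
      have h2 := Finset.sum_le_sum h1
      rw [Finset.sum_add_distrib, ← Finset.mul_sum, ← Finset.mul_sum, Finset.sum_sub_distrib,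
        Finset.sum_add_distrib, Finset.sum_add_distrib, ← Finset.mul_sum (a := lam * β * N),
        ← Finset.mul_sum (a := 26 * ((lam * β) ^ 2 * N ^ 2))] at h2
      simp only [Finset.sum_const, nsmul_eq_mul, mul_one] at h2
      have h3 : N * (lam * β * lin D f T) - lam * β * N * ∑ w ∈ D, f w * ind T w = 0 := by
        unfold lin
        ring
      rw [← hNdef, h3, mul_zero, add_zero] at h2
      have h4 : 26 * ((lam * β) ^ 2 * N ^ 2) * ∑ w ∈ D, f w ^ 2 ≤ 26 * (N * (β / 36)) := by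
        calc _ ≤ 26 * ((lam * β) ^ 2 * N ^ 2) * σ2 := by gcongr
          _ = 26 * (N * ((lam * β) ^ 2 * (N * σ2))) := by ring
          _ = _ := by rw [hc]
      have h5 : N + (N * (β / 18) + 26 * ((lam * β) ^ 2 * N ^ 2) * ∑ w ∈ D, f w ^ 2) ≤
          N * Real.exp β := by
        have h6 := mul_le_mul_of_nonneg_left (Real.add_one_le_exp β) hN.le
        have h7 := mul_pos hN hβ0
        linarith
      have h6 := h2.trans (mul_le_mul_of_nonneg_left h5 (ch_pos_mgf a).le)
      rw [one_div_mul_eq_div, div_le_iff₀ hN]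
      linarith
  intro l
  have h1 := main j l 0
  rw [mul_comm (j : ℝ) β, hβj] at h1
  simp only [sub_self, mul_zero] at h1
  rw [ex_const hθ] at h1
  refine h1.trans (le_of_eq ?_)
  rw [show lam ^ 10 = (lam ^ 2) ^ 5 by ring, hl2, chMgf, neg_zero, Real.exp_zero]
  field_simp
  ring

omit [G.LocallyFinite] in
theorem vr_decay : ∃ C : ℝ, 0 < C ∧ ∀ (V : Type) (G : SimpleGraph V) (θ : ℝ) (D : Finset V),
    θ ∈ Set.Ico (0 : ℝ) 1 → ∀ x ∈ D, ∀ j : ℕ, D.card ≤ j → ∀ l,
    (PP G θ D)^[j] (fun l => vr G θ D l x) l ≤ C * (D.card / j) := by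
  obtain ⟨C, hC, h⟩ := mgf
  refine ⟨1 + C, by positivity, fun V G θ D hθ x hx j hj l => ?_⟩
  have hD : D.Nonempty := ⟨x, hx⟩
  have h1 := h V G θ D hθ hD (fun v => if v = x then 1 else 0) 1 1 j one_pos
    (hD.card_pos.trans_le hj) (by simp [hx]) (fun v _ => by split_ifs <;> norm_num)
    (by simpa using hj) l
  have h2 : ∀ T, lin D (fun v => if v = x then 1 else 0) T = ind T x := fun T => by
    simp [lin, hx]
  have h3 : ∀ l, vrF G θ D (fun v => if v = x then 1 else 0) l = vr G θ D l x := fun l => by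
    have h4 : ∀ T, ind T x ^ 2 = ind T x := fun T => by
      unfold ind
      split_ifs <;> norm_num
    rw [vrF, funext h2]
    simp only [h4]
    rw [ex_ind, vr]
    ring
  simp only [h3, mul_one] at h1
  have hmk : MK (PP G θ D) := mk_op hD ms_stp.one
  have h4 := (hmk.iter j).pow_le (bm_vr (G := G) (D := D) hθ x) (fun l => (vr_mem hθ l x).1) 5 l
  refine (by decide : Odd 5).strictMono_pow.le_iff_le.1 (h4.trans (h1.trans ?_))
  have h5 : C ≤ (1 + C) ^ 5 := (by linarith : C ≤ 1 + C).trans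
    (le_self_pow₀ (by linarith) (by norm_num))
  rw [mul_pow]
  exact mul_le_mul_of_nonneg_right h5 (by positivity)

end Vale.Agent.P161E
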