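import Vale.Agent.P161E.Defs

namespace Vale.Agent.P161E

open MeasureTheory unitInterval Classical SimpleGraph Filter Topology
open Vale.Agent.P161
open Vale.Agent.P143 (BM iidUniform)

variable {V : Type} {G : SimpleGraph V} [G.LocallyFinite] {d : ℕ} {θ : ℝ} {D : Finset V}

lemma om_one (k : ℕ) : 1 ≤ om k := by
  unfold om
  exact Real.one_le_rpow (by have := k.cast_nonneg (α := ℝ); linarith) (by norm_num)

lemma om_add (j k : ℕ) : om (j + k) ≤ om j * om k := by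
  unfold om
  have hj := j.cast_nonneg (α := ℝ)
  have hk := k.cast_nonneg (α := ℝ)
  rw [← Real.mul_rpow (by linarith) (by linarith)]
  apply Real.rpow_le_rpow (by positivity) _ (by norm_num)
  push_cast
  nlinarith [mul_nonneg hj hk]

lemma om_mono {j k : ℕ} (h : j ≤ k) : om j ≤ om k := by
  unfold om
  apply Real.rpow_le_rpow (by positivity) _ (by norm_num)
  have : (j : ℝ) ≤ k := by exact_mod_cast h
  linarith

lemma om_le (k : ℕ) : om k ≤ (k : ℝ) + 1 := by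
  unfold om
  have hk := k.cast_nonneg (α := ℝ)
  calc (1 + (k : ℝ)) ^ (1 / 8 : ℝ) ≤ (1 + (k : ℝ)) ^ (1 : ℝ) :=
        Real.rpow_le_rpow_of_exponent_le (by linarith) (by norm_num)
    _ = k + 1 := by rw [Real.rpow_one]; ring

lemma om_succ (k : ℕ) : om (k + 1) ≤ 2 * om k := by
  have h1 := om_add k 1
  have h2 := om_le 1
  have h3 := om_one k
  push_cast at h2
  nlinarith

lemma om_sq (k : ℕ) : om k ^ 2 = (1 + (k : ℝ)) ^ (1 / 4 : ℝ) := by
  unfold om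
  rw [← Real.rpow_natCast, ← Real.rpow_mul (by positivity)]
  norm_num

lemma om_tendsto : Tendsto om atTop atTop := by
  unfold om
  exact (tendsto_rpow_atTop (by norm_num)).comp
    (tendsto_atTop_add_const_left _ _ tendsto_natCast_atTop_atTop)

omit [G.LocallyFinite] in
lemma om_dist (hG : G.Connected) (o x c : V) :
    om (G.dist o x) ≤ om (G.dist o c) * om (G.dist x c) := by
  refine le_trans (om_mono ?_) (om_add _ _)
  rw [SimpleGraph.dist_comm (u := x) (v := c)]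
  exact hG.dist_triangle

lemma rho_one (N j : ℕ) : 1 ≤ rho N j := by
  unfold rho
  have : (0 : ℝ) ≤ (N : ℝ) / (j + 1) := by positivity
  linarith

lemma step_num {γ x : ℝ} (hγ : 0 < γ) (hx : 0 < x) :
    (x + 1) ^ (-(1 + γ)) + (x + 1) ^ (-γ) / γ ≤ x ^ (-γ) / γ := by
  have hx1 : 0 < x + 1 := by linarith
  have h1 : (x + 1) ^ (-(1 + γ)) = (x + 1) ^ (-γ) / (x + 1) := by
    rw [show -(1 + γ) = -γ - 1 by ring, Real.rpow_sub_one hx1.ne']
  have h2 : x ^ (-γ) = (x + 1) ^ (-γ) * (x / (x + 1)) ^ (-γ) := by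
    rw [← Real.mul_rpow hx1.le (by positivity)]
    congr 1
    field_simp
  have h3 : 1 + γ / (x + 1) ≤ (x / (x + 1)) ^ (-γ) := by
    rw [Real.rpow_def_of_pos (by positivity)]
    have h4 := Real.log_le_sub_one_of_pos (x := x / (x + 1)) (by positivity)
    have h5 : x / (x + 1) - 1 = -(1 / (x + 1)) := by field_simp; ring
    have h6 : γ / (x + 1) ≤ Real.log (x / (x + 1)) * -γ := by
      rw [h5] at h4
      have : γ / (x + 1) = γ * (1 / (x + 1)) := by ring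
      nlinarith
    have := Real.add_one_le_exp (Real.log (x / (x + 1)) * -γ)
    linarith
  have hp : 0 < (x + 1) ^ (-γ) := Real.rpow_pos_of_pos hx1 _
  rw [h1, h2, le_div_iff₀ hγ]
  have h7 := mul_le_mul_of_nonneg_left h3 hp.le
  have h8 : ((x + 1) ^ (-γ) / (x + 1) + (x + 1) ^ (-γ) / γ) * γ =
      (x + 1) ^ (-γ) * (1 + γ / (x + 1)) := by
    field_simp
    ring
  rw [h8]
  exact h7

lemma tail_num {γ x : ℝ} (hγ : 0 < γ) (hx : 0 < x) (K : ℕ) :
    ∑ i ∈ Finset.range K, (x + i + 1) ^ (-(1 + γ)) ≤ x ^ (-γ) / γ := by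
  have key : ∀ K : ℕ, ∑ i ∈ Finset.range K, (x + i + 1) ^ (-(1 + γ)) + (x + K) ^ (-γ) / γ ≤
      x ^ (-γ) / γ := by
    intro K
    induction K with
    | zero => simp
    | succ K ih =>
      rw [Finset.sum_range_succ]
      have := step_num hγ (x := x + K) (by positivity)
      push_cast
      rw [← add_assoc x]
      linarith
  have h1 := key K
  have h2 : 0 ≤ (x + K) ^ (-γ) / γ := by positivity
  linarith

lemma tail_num' {γ : ℝ} (hγ : 0 < γ) {R : ℕ} (hR : 0 < R) (K : ℕ) :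
    ∑ k ∈ Finset.Ico R K, ((k : ℝ) + 1) ^ (-(1 + γ)) ≤ (R : ℝ) ^ (-γ) / γ := by
  rw [Finset.sum_Ico_eq_sum_range]
  have := tail_num hγ (x := (R : ℝ)) (by exact_mod_cast hR) (K - R)
  simpa using this

lemma num1 {a q : ℝ} (ha : 0 ≤ a) (h : a + 1 < 2 * q) :
    ∃ C, 0 < C ∧ ∀ ρ : ℝ, 1 ≤ ρ → ∀ K : ℕ,
      ∑ k ∈ Finset.range K, (1 + (k : ℝ)) ^ a * min 1 ((ρ / ((k : ℝ) + 1) ^ 2) ^ q) ≤
        C * ρ ^ ((1 + a) / 2) := by
  set γ := 2 * q - a - 1 with hγd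
  have hγ : 0 < γ := by linarith
  refine ⟨1 + 2 ^ γ / γ, by positivity, fun ρ hρ K => ?_⟩
  set s := ρ ^ (1 / 2 : ℝ) with hs
  have hρ0 : 0 < ρ := by linarith
  have hs1 : 1 ≤ s := Real.one_le_rpow hρ (by norm_num)
  have hs0 : 0 < s := by linarith
  have hsp : ∀ e : ℝ, ρ ^ (e / 2) = s ^ e := fun e => by
    rw [hs, ← Real.rpow_mul hρ0.le]
    congr 1
    ring
  set M := ⌊s⌋₊ with hM
  have hM1 : 0 < M := Nat.floor_pos.2 hs1
  have hMs : (M : ℝ) ≤ s := Nat.floor_le hs0.le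
  have hMs2 : s / 2 ≤ M := by
    have h1 := Nat.lt_floor_add_one s
    have h2 : (1 : ℝ) ≤ M := by exact_mod_cast hM1
    linarith
  set f : ℕ → ℝ := fun k => (1 + (k : ℝ)) ^ a * min 1 ((ρ / ((k : ℝ) + 1) ^ 2) ^ q) with hf
  have hf0 : ∀ k, 0 ≤ f k := fun k => by
    simp only [hf]
    positivity
  have hsub : ∑ k ∈ Finset.range K, f k ≤
      ∑ k ∈ Finset.range M, f k + ∑ k ∈ Finset.Ico M K, f k := by
    rw [← Finset.sum_union (by
      rw [Finset.disjoint_left]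
      intro k h1 h2
      rw [Finset.mem_range] at h1
      rw [Finset.mem_Ico] at h2
      omega)]
    apply Finset.sum_le_sum_of_subset_of_nonneg _ fun k _ _ => hf0 k
    intro k hk
    simp only [Finset.mem_range, Finset.mem_union, Finset.mem_Ico] at hk ⊢
    omega
  have h1 : ∑ k ∈ Finset.range M, f k ≤ s ^ (1 + a) := by
    have : ∀ k ∈ Finset.range M, f k ≤ s ^ a := by
      intro k hk
      rw [Finset.mem_range] at hk
      have hk' : (1 + (k : ℝ)) ≤ M := by exact_mod_cast (by omega : 1 + k ≤ M)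
      calc f k ≤ (1 + (k : ℝ)) ^ a * 1 :=
            mul_le_mul_of_nonneg_left (min_le_left _ _) (by positivity)
        _ ≤ s ^ a := by
            rw [mul_one]
            exact Real.rpow_le_rpow (by positivity) (by linarith) ha
    have h2 := Finset.sum_le_card_nsmul _ _ _ this
    rw [Finset.card_range, nsmul_eq_mul] at h2
    rw [Real.rpow_add hs0, Real.rpow_one]
    exact h2.trans (mul_le_mul_of_nonneg_right hMs (by positivity))
  have h2 : ∑ k ∈ Finset.Ico M K, f k ≤ 2 ^ γ / γ * s ^ (1 + a) := by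
    have h3 : ∀ k ∈ Finset.Ico M K, f k ≤ ρ ^ q * ((k : ℝ) + 1) ^ (-(1 + γ)) := by
      intro k _
      have hk : (0 : ℝ) < (k : ℝ) + 1 := by positivity
      calc f k ≤ (1 + (k : ℝ)) ^ a * (ρ / ((k : ℝ) + 1) ^ 2) ^ q :=
            mul_le_mul_of_nonneg_left (min_le_right _ _) (by positivity)
        _ = ρ ^ q * ((k : ℝ) + 1) ^ (-(1 + γ)) := by
            rw [Real.div_rpow hρ0.le (by positivity), ← Real.rpow_natCast,
              ← Real.rpow_mul hk.le, add_comm 1 (k : ℝ),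
              show -(1 + γ) = a - ((2 : ℕ) : ℝ) * q by rw [hγd]; push_cast; ring,
              Real.rpow_sub hk]
            ring
    refine (Finset.sum_le_sum h3).trans ?_
    rw [← Finset.mul_sum]
    have h4 := tail_num' hγ hM1 K
    have h5 : (M : ℝ) ^ (-γ) ≤ (s / 2) ^ (-γ) :=
      Real.rpow_le_rpow_of_nonpos (by positivity) hMs2 (by linarith)
    have h6 : (s / 2) ^ (-γ) = 2 ^ γ * s ^ (-γ) := by
      rw [Real.div_rpow hs0.le (by norm_num), Real.rpow_neg (by norm_num : (0 : ℝ) ≤ 2)]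
      field_simp
    have h7 : ρ ^ q * s ^ (-γ) = s ^ (1 + a) := by
      rw [show q = 2 * q / 2 by ring, hsp, ← Real.rpow_add hs0]
      congr 1
      rw [hγd]
      ring
    calc ρ ^ q * ∑ k ∈ Finset.Ico M K, ((k : ℝ) + 1) ^ (-(1 + γ))
        ≤ ρ ^ q * (2 ^ γ * s ^ (-γ) / γ) := by
          apply mul_le_mul_of_nonneg_left _ (by positivity)
          refine h4.trans ?_
          rw [← h6]
          exact div_le_div_of_nonneg_right h5 hγ.le
      _ = 2 ^ γ / γ * (ρ ^ q * s ^ (-γ)) := by ring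
      _ = _ := by rw [h7]
  rw [hsp]
  linarith

lemma sum78_num (n : ℕ) :
    ∑ j ∈ Finset.range n, ((j : ℝ) + 1) ^ (-(7 / 8) : ℝ) ≤ 8 * (n : ℝ) ^ (1 / 8 : ℝ) := by
  induction n with
  | zero => simp
  | succ n ih =>
    rw [Finset.sum_range_succ]
    have hn : (0 : ℝ) < (n : ℝ) + 1 := by positivity
    have h1 : (n : ℝ) ^ (1 / 8 : ℝ) =
        ((n : ℝ) + 1) ^ (1 / 8 : ℝ) * (1 + -(1 / ((n : ℝ) + 1))) ^ (1 / 8 : ℝ) := by
      have h0 : (1 + -(1 / ((n : ℝ) + 1))) = n / (n + 1) := by field_simp; ring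
      rw [h0, ← Real.mul_rpow hn.le (by positivity)]
      congr 1
      field_simp
    have h2 : (1 + -(1 / ((n : ℝ) + 1))) ^ (1 / 8 : ℝ) ≤ 1 + 1 / 8 * -(1 / ((n : ℝ) + 1)) := by
      apply rpow_one_add_le_one_add_mul_self _ (by norm_num) (by norm_num)
      have : 1 / ((n : ℝ) + 1) ≤ 1 := by
        rw [div_le_one hn]
        have := n.cast_nonneg (α := ℝ)
        linarith
      linarith
    have h3 : ((n : ℝ) + 1) ^ (-(7 / 8) : ℝ) = ((n : ℝ) + 1) ^ (1 / 8 : ℝ) * (1 / ((n : ℝ) + 1)) := by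
      rw [show (-(7 / 8) : ℝ) = 1 / 8 - 1 by norm_num, Real.rpow_sub_one hn.ne']
      ring
    have hp : 0 < ((n : ℝ) + 1) ^ (1 / 8 : ℝ) := Real.rpow_pos_of_pos hn _
    have h4 := mul_le_mul_of_nonneg_left h2 hp.le
    push_cast
    rw [h3]
    rw [h1] at ih
    nlinarith

lemma num2 {N : ℕ} (hN : 0 < N) (n : ℕ) :
    (∑ j ∈ Finset.range n, rho N j ^ (7 / 8 : ℝ)) / N ≤
      n / N + 8 * ((n : ℝ) / N) ^ (1 / 8 : ℝ) := by
  have hN' : (0 : ℝ) < N := by exact_mod_cast hN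
  have h1 : ∀ j ∈ Finset.range n, rho N j ^ (7 / 8 : ℝ) ≤
      1 + (N : ℝ) ^ (7 / 8 : ℝ) * ((j : ℝ) + 1) ^ (-(7 / 8) : ℝ) := by
    intro j _
    unfold rho
    have hj : (0 : ℝ) < (j : ℝ) + 1 := by positivity
    have := Real.rpow_add_le_add_rpow (a := 1) (b := (N : ℝ) / (j + 1)) (p := 7 / 8)
      (by norm_num) (by positivity) (by norm_num) (by norm_num)
    rw [Real.one_rpow, Real.div_rpow hN'.le hj.le] at this
    rw [Real.rpow_neg hj.le, ← div_eq_mul_inv]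
    exact this
  have h2 := Finset.sum_le_sum h1
  rw [Finset.sum_add_distrib, ← Finset.mul_sum, Finset.sum_const, Finset.card_range,
    nsmul_eq_mul, mul_one] at h2
  have h3 := mul_le_mul_of_nonneg_left (sum78_num n)
    (by positivity : 0 ≤ (N : ℝ) ^ (7 / 8 : ℝ))
  have h4 : (N : ℝ) = (N : ℝ) ^ (7 / 8 : ℝ) * (N : ℝ) ^ (1 / 8 : ℝ) := by
    rw [← Real.rpow_add hN']
    norm_num
  have hp : 0 < (N : ℝ) ^ (1 / 8 : ℝ) := Real.rpow_pos_of_pos hN' _
  rw [div_le_iff₀ hN', Real.div_rpow (by positivity) hN'.le]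
  have h5 : ((n : ℝ) / N + 8 * ((n : ℝ) ^ (1 / 8 : ℝ) / (N : ℝ) ^ (1 / 8 : ℝ))) * N =
      n + (N : ℝ) ^ (7 / 8 : ℝ) * (8 * (n : ℝ) ^ (1 / 8 : ℝ)) := by
    have h6 : (N : ℝ) ^ (7 / 8 : ℝ) = N / (N : ℝ) ^ (1 / 8 : ℝ) := by
      rw [eq_div_iff hp.ne']
      exact h4.symm
    rw [h6]
    field_simp
  rw [h5]
  linarith

lemma num2' {N : ℕ} (hN : 0 < N) (n : ℕ) :
    (∑ j ∈ Finset.range n, rho N j ^ (7 / 8 : ℝ)) / N ≤ 9 * (1 + (n : ℝ) / N) := by
  have h1 := num2 hN n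
  have h0 : (0 : ℝ) ≤ (n : ℝ) / N := by positivity
  have h2 : ((n : ℝ) / N) ^ (1 / 8 : ℝ) ≤ 1 + (n : ℝ) / N :=
    calc ((n : ℝ) / N) ^ (1 / 8 : ℝ) ≤ (1 + (n : ℝ) / N) ^ (1 / 8 : ℝ) :=
          Real.rpow_le_rpow h0 (by linarith) (by norm_num)
      _ ≤ (1 + (n : ℝ) / N) ^ (1 : ℝ) :=
          Real.rpow_le_rpow_of_exponent_le (by linarith) (by norm_num)
      _ = _ := Real.rpow_one _
  linarith

lemma pow98_num {y : ℝ} (hy : 0 ≤ y) : (1 + y) ^ (9 / 8 : ℝ) ≤ 4 * (1 + y ^ (9 / 8 : ℝ)) := by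
  have h2 : (2 : ℝ) ^ (9 / 8 : ℝ) ≤ 4 :=
    calc (2 : ℝ) ^ (9 / 8 : ℝ) ≤ 2 ^ (2 : ℝ) :=
          Real.rpow_le_rpow_of_exponent_le (by norm_num) (by norm_num)
      _ = 4 := by norm_num
  have h3 : 0 ≤ y ^ (9 / 8 : ℝ) := by positivity
  rcases le_total y 1 with h | h
  · have := Real.rpow_le_rpow (x := 1 + y) (y := 2) (z := 9 / 8) (by linarith) (by linarith)
      (by norm_num)
    linarith
  · have h4 := Real.rpow_le_rpow (x := 1 + y) (y := 2 * y) (z := 9 / 8) (by linarith)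
      (by linarith) (by norm_num)
    rw [Real.mul_rpow (by norm_num) hy] at h4
    nlinarith

lemma num3 {N n : ℕ} (hN : 0 < N) (hn : n ≤ N) (j : ℕ) :
    (∑ i ∈ Finset.range n, rho N (i + j) ^ (9 / 8 : ℝ)) / N ≤ 40 * rho N j ^ (1 / 8 : ℝ) := by
  have hN' : (0 : ℝ) < N := by exact_mod_cast hN
  have hj : (0 : ℝ) < (j : ℝ) + 1 := by positivity
  have h1 : ∀ i ∈ Finset.range n, rho N (i + j) ^ (9 / 8 : ℝ) ≤
      4 + 4 * (N : ℝ) ^ (9 / 8 : ℝ) * ((j : ℝ) + i + 1) ^ (-(1 + 1 / 8) : ℝ) := by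
    intro i _
    unfold rho
    have hi : (0 : ℝ) < (j : ℝ) + i + 1 := by positivity
    have h2 := pow98_num (y := (N : ℝ) / (((i + j : ℕ) : ℝ) + 1)) (by positivity)
    refine h2.trans (le_of_eq ?_)
    push_cast
    rw [add_comm (i : ℝ) j, Real.div_rpow hN'.le hi.le, Real.rpow_neg hi.le,
      show (1 + 1 / 8 : ℝ) = 9 / 8 by norm_num]
    ring
  have h2 := Finset.sum_le_sum h1
  rw [Finset.sum_add_distrib, ← Finset.mul_sum, Finset.sum_const, Finset.card_range,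
    nsmul_eq_mul] at h2
  have h3 : ∑ i ∈ Finset.range n, ((j : ℝ) + i + 1) ^ (-(1 + 1 / 8) : ℝ) ≤
      9 * ((j : ℝ) + 1) ^ (-(1 / 8) : ℝ) := by
    have h4 : ∑ i ∈ Finset.range n, ((j : ℝ) + i + 1) ^ (-(1 + 1 / 8) : ℝ) ≤
        ∑ i ∈ Finset.range (n + 1), ((j : ℝ) + i + 1) ^ (-(1 + 1 / 8) : ℝ) := by
      rw [Finset.sum_range_succ]
      have : 0 ≤ ((j : ℝ) + n + 1) ^ (-(1 + 1 / 8) : ℝ) := by positivity
      linarith
    rw [Finset.sum_range_succ'] at h4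
    have h5 := tail_num (γ := 1 / 8) (x := (j : ℝ) + 1) (by norm_num) hj n
    have h6 : ∑ i ∈ Finset.range n, ((j : ℝ) + ((i + 1 : ℕ) : ℝ) + 1) ^ (-(1 + 1 / 8) : ℝ) =
        ∑ i ∈ Finset.range n, ((j : ℝ) + 1 + i + 1) ^ (-(1 + 1 / 8) : ℝ) := by
      refine Finset.sum_congr rfl fun i _ => ?_
      push_cast
      congr 1
      ring
    have h7 : ((j : ℝ) + ((0 : ℕ) : ℝ) + 1) ^ (-(1 + 1 / 8) : ℝ) ≤
        ((j : ℝ) + 1) ^ (-(1 / 8) : ℝ) := by
      push_cast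
      rw [add_zero]
      apply Real.rpow_le_rpow_of_exponent_le _ (by norm_num)
      have := j.cast_nonneg (α := ℝ)
      linarith
    rw [h6] at h4
    linarith
  have h4 : (N : ℝ) ^ (9 / 8 : ℝ) * ((j : ℝ) + 1) ^ (-(1 / 8) : ℝ) =
      N * ((N : ℝ) / (j + 1)) ^ (1 / 8 : ℝ) := by
    rw [Real.div_rpow hN'.le hj.le, Real.rpow_neg hj.le,
      show (9 / 8 : ℝ) = 1 + 1 / 8 by norm_num, Real.rpow_add hN', Real.rpow_one]
    ring
  have h5 : ((N : ℝ) / (j + 1)) ^ (1 / 8 : ℝ) ≤ rho N j ^ (1 / 8 : ℝ) := by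
    unfold rho
    exact Real.rpow_le_rpow (by positivity) (by linarith) (by norm_num)
  have h6 : 1 ≤ rho N j ^ (1 / 8 : ℝ) := Real.one_le_rpow (rho_one N j) (by norm_num)
  have h7 : (n : ℝ) ≤ N := by exact_mod_cast hn
  have h8 := mul_le_mul_of_nonneg_left h3 (by positivity : 0 ≤ 4 * (N : ℝ) ^ (9 / 8 : ℝ))
  have h9 := mul_le_mul_of_nonneg_left h5 hN'.le
  have h10 := mul_le_mul_of_nonneg_left h6 hN'.le
  rw [div_le_iff₀ hN']
  nlinarith

lemma num4 {η : ℝ} (hη : 0 < η) : ∃ R : ℕ, ∀ ρ : ℝ, 1 ≤ ρ → ∀ K : ℕ,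
    ∑ k ∈ Finset.Ico R K, min 1 ((ρ / ((k : ℝ) + 1) ^ 2) ^ 5) ≤ η * ρ ^ (7 / 8 : ℝ) := by
  have ht : Tendsto (fun R : ℕ => (R : ℝ) ^ (-(3 / 4) : ℝ)) atTop (𝓝 0) :=
    (tendsto_rpow_neg_atTop (by norm_num)).comp tendsto_natCast_atTop_atTop
  obtain ⟨R, hR1, hR2⟩ := ((ht.eventually (gt_mem_nhds (show 0 < η * (3 / 4) by positivity))).and
    (eventually_gt_atTop 0)).exists
  refine ⟨R, fun ρ hρ K => ?_⟩
  have hρ0 : 0 < ρ := by linarith
  have h1 : ∀ k ∈ Finset.Ico R K, min 1 ((ρ / ((k : ℝ) + 1) ^ 2) ^ 5) ≤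
      ρ ^ (7 / 8 : ℝ) * ((k : ℝ) + 1) ^ (-(1 + 3 / 4) : ℝ) := by
    intro k _
    have hk : (0 : ℝ) < (k : ℝ) + 1 := by positivity
    have hz : 0 < ρ / ((k : ℝ) + 1) ^ 2 := by positivity
    have h2 : ρ ^ (7 / 8 : ℝ) * ((k : ℝ) + 1) ^ (-(1 + 3 / 4) : ℝ) =
        (ρ / ((k : ℝ) + 1) ^ 2) ^ (7 / 8 : ℝ) := by
      rw [Real.div_rpow hρ0.le (by positivity), ← Real.rpow_natCast, ← Real.rpow_mul hk.le,
        Real.rpow_neg hk.le]
      norm_num
      ring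
    rw [h2]
    rcases le_total (ρ / ((k : ℝ) + 1) ^ 2) 1 with h | h
    · refine (min_le_right _ _).trans ?_
      rw [← Real.rpow_natCast]
      exact Real.rpow_le_rpow_of_exponent_ge hz h (by norm_num)
    · exact (min_le_left _ _).trans (Real.one_le_rpow h (by norm_num))
  refine (Finset.sum_le_sum h1).trans ?_
  rw [← Finset.mul_sum, mul_comm]
  apply mul_le_mul_of_nonneg_right _ (by positivity)
  refine (tail_num' (γ := 3 / 4) (by norm_num) hR2 K).trans ?_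
  rw [div_le_iff₀ (by norm_num)]
  exact hR1.le

lemma num5 {t : ℝ} (ht : 1 < t) : ∃ C, 0 < C ∧ ∀ k : ℕ, (k : ℝ) + 1 ≤ C * t ^ k := by
  have h0 : 0 < t - 1 := by linarith
  refine ⟨1 + 1 / (t - 1), by positivity, fun k => ?_⟩
  have h1 := one_add_mul_le_pow (a := t - 1) (by linarith) k
  rw [show 1 + (t - 1) = t by ring] at h1
  have hk := k.cast_nonneg (α := ℝ)
  have h2 : (k : ℝ) ≤ 1 / (t - 1) * t ^ k := by
    rw [one_div, inv_mul_eq_div, le_div_iff₀ h0]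
    linarith
  have h3 : 0 ≤ (k : ℝ) * (t - 1) := by positivity
  linarith

end Vale.Agent.P161E
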