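import Vale.Agent.P161E.Var
import Vale.Agent.P161E.Mgf
import Vale.Agent.P161E.Num

namespace Vale.Agent.P161E

open MeasureTheory unitInterval Classical SimpleGraph Filter Topology
open Vale.Agent.P161
open Vale.Agent.P143 (BM iidUniform)

variable {V : Type} {G : SimpleGraph V} [G.LocallyFinite] {d : ℕ} {θ : ℝ} {D : Finset V}

omit [G.LocallyFinite] in
lemma lev_ak (D : Finset V) (c : V) : ∃ K, ∀ x ∈ D, G.dist x c < K :=
  ⟨D.sup (fun x => G.dist x c) + 1, fun _ hx =>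
    Nat.lt_succ_of_le (Finset.le_sup (f := fun x => G.dist x c) hx)⟩

lemma sph_ak (H : Cx G d θ D) (c : V) (i : ℕ) :
    ((D.filter fun x => G.dist x c = i).card : ℝ) * (θ ^ i) ^ 2 ≤ 3 / 2 := by
  have h3 : (3 : ℝ) ≤ d := by exact_mod_cast H.tr.hd
  refine (mul_le_mul_of_nonneg_right (card_sphere H.tr D c i) (sq_nonneg _)).trans ?_
  rw [← pow_mul, mul_comm i, pow_mul, mul_assoc, ← mul_pow]
  have := pow_le_one₀ (n := i) (mul_nonneg (by linarith) (sq_nonneg θ)) H.up
  linarith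

/-- from `var_lower` and `mgf` with `σ2 = 2 k`, `M2 = (1/2)^(k+1)`; for `j = 0` use `Cx.diam` -/
lemma ak_ten (h : Tr G d) : ∃ C, 0 < C ∧ ∀ θ D, Cx G d θ D → ∀ c ∈ D, ∀ j k : ℕ,
    rho D.card j ≤ (k : ℝ) ^ 2 → ∀ l, (PP G θ D)^[j] (fun l => Ak G θ D l c (2 * k) ^ 10) l ≤
      C * (rho D.card j / (k : ℝ) ^ 2) ^ 5 := by
  obtain ⟨C, C0, hC⟩ := mgf
  refine ⟨C * 768 ^ 5, by positivity, fun θ D H c hc j k hk l => ?_⟩
  obtain ⟨t1, t2, t3⟩ := H.theta
  have r1 := rho_one D.card j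
  have k1 : (1 : ℝ) ≤ k := by
    by_contra hn
    nlinarith [Nat.cast_nonneg (α := ℝ) k]
  rcases Nat.eq_zero_or_pos j with rfl | j0
  · have : Ak G θ D l c (2 * k) = 0 := Finset.sum_eq_zero fun x hx => by
      obtain ⟨h1, h2⟩ := Finset.mem_filter.1 hx
      have h3 := H.diam x h1 c hc
      rw [h2] at h3
      have h4 : ((2 * k : ℝ)) ^ 2 ≤ 4 * D.card := by exact_mod_cast h3
      simp only [rho, Nat.cast_zero, zero_add, div_one] at hk
      nlinarith
    simp only [Function.iterate_zero, id, this]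
    rw [zero_pow (by norm_num)]
    positivity
  have j1 : (1 : ℝ) ≤ j := by exact_mod_cast j0
  set f : V → ℝ := fun x => if k < G.dist x c ∧ G.dist x c ≤ 2 * k then θ ^ G.dist x c else 0
    with hf
  have n1 : (D.card : ℝ) / j ≤ 2 * rho D.card j := by
    have : (D.card : ℝ) / j ≤ 2 * (D.card / (j + 1)) := by
      rw [← mul_div_assoc, div_le_div_iff₀ (by linarith) (by linarith)]
      nlinarith [Nat.cast_nonneg (α := ℝ) D.card]
    unfold rho
    linarith
  have h1 := hC V G θ D t1 H.ne f (2 * k) ((1 / 2) ^ (k + 1)) j (by linarith) j0 (by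
    obtain ⟨K, hK⟩ := lev_ak (G := G) D c
    have := sum_levels (D := D) c (fun i => (if k < i ∧ i ≤ 2 * k then θ ^ i else 0) ^ 2)
      (fun _ => 1) hK
    simp only [mul_one] at this
    rw [this]
    calc _ ≤ ∑ i ∈ Finset.range K, if i ∈ Finset.Ioc k (2 * k) then (2 : ℝ) else 0 :=
          Finset.sum_le_sum fun i _ => by
            simp only [Finset.mem_Ioc]
            split_ifs
            · have := sph_ak H c i
              rw [Finset.sum_const, nsmul_eq_mul]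
              linarith
            · simp
      _ ≤ ∑ i ∈ Finset.Ioc k (2 * k), (2 : ℝ) := by
          rw [Finset.sum_ite_mem]
          exact Finset.sum_le_sum_of_subset_of_nonneg Finset.inter_subset_right
            fun _ _ _ => zero_le_two
      _ = _ := by
          rw [Finset.sum_const, Nat.card_Ioc, show 2 * k - k = k by omega, nsmul_eq_mul, mul_comm])
    (fun x _ => by
      simp only [hf]
      split_ifs with h
      · rw [← pow_mul, mul_comm, pow_mul]
        exact (pow_le_pow_left₀ (sq_nonneg _) t2 _).trans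
          (pow_le_pow_of_le_one (by norm_num) (by norm_num) h.1)
      · rw [zero_pow (by norm_num)]; positivity)
    (by
      have a : (k : ℝ) ≤ 2 ^ k := by exact_mod_cast Nat.lt_two_pow_self.le
      have b : (D.card : ℝ) ≤ 2 * k ^ 2 * j := by
        rw [← div_le_iff₀ (by linarith)]; linarith
      have e : (k : ℝ) * (1 / 2) ^ (k + 1) ≤ 1 := by
        rw [one_div, inv_pow, ← div_eq_mul_inv, div_le_one (by positivity), pow_succ]
        nlinarith [pow_pos (two_pos (α := ℝ)) k]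
      calc _ ≤ 2 * (k : ℝ) ^ 2 * j * (1 / 2) ^ (k + 1) := by gcongr
        _ = j * (2 * k) * (k * (1 / 2) ^ (k + 1)) := by ring
        _ ≤ j * (2 * k) * 1 := by gcongr
        _ = _ := mul_one _) l
  have M := H.mkP.iter j
  have b1 := bm_pow (bm_vrF (G := G) (D := D) t1 f) 5
  refine (M.mono _ (fun l => (192 / (k : ℝ) ^ 3) ^ 5 * vrF G θ D f l ^ 5) (bm_pow (H.bm_Ak c _) 10)
    ((BM.const _).mul b1) (fun l => ?_) l).trans ?_
  · rw [← mul_pow, show 10 = 2 * 5 from rfl, pow_mul]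
    refine pow_le_pow_left₀ (sq_nonneg _) ?_ 5
    rw [div_mul_eq_mul_div, le_div_iff₀ (by positivity), mul_comm]
    exact H.var_lower l hc k
  · rw [M.smul]
    refine (mul_le_mul_of_nonneg_left h1 (by positivity)).trans ?_
    rw [mul_left_comm, mul_assoc, ← mul_pow, ← mul_pow]
    refine mul_le_mul_of_nonneg_left (pow_le_pow_left₀ (by positivity) ?_ 5) C0.le
    calc _ = 384 * (D.card / j) / (k : ℝ) ^ 2 := by field_simp; ring
      _ ≤ 384 * (2 * rho D.card j) / (k : ℝ) ^ 2 := by gcongr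
      _ = _ := by ring

/-- strong induction on `k` (all `c`, `l`): `k = i + 2 k'`, `k' = k / 4`, `Ak_add`,
`A ≤ η + A^10 / η^9` with `η` a small constant, `card_sphere` -/
theorem ak_decay (h : Tr G d) : ∃ C, 0 < C ∧ ∀ θ D, Cx G d θ D → ∀ c ∈ D, ∀ (j k : ℕ) (l : V → ℝ),
    (PP G θ D)^[j] (fun l => Ak G θ D l c k) l ≤
      C * min 1 ((rho D.card j / ((k : ℝ) + 1) ^ 2) ^ 5) := by
  obtain ⟨C, C0, hC⟩ := ak_ten h
  obtain ⟨η, hη⟩ : ∃ η : ℝ, η = 1 / 2048 := ⟨_, rfl⟩
  have η0 : 0 < η := by rw [hη]; norm_num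
  obtain ⟨B, hB⟩ : ∃ B : ℝ, B = 3 * C / η ^ 9 := ⟨_, rfl⟩
  have B0 : 0 < B := by rw [hB]; positivity
  refine ⟨64 ^ 5 * (2 + B), by positivity, fun θ D H c hc j k l => ?_⟩
  have M := H.mkP.iter j
  have r1 := rho_one D.card j
  have triv : ∀ c ∈ D, ∀ k l, (PP G θ D)^[j] (fun l => Ak G θ D l c k) l ≤ 2 := fun c hc k l =>
    M.le_const (H.bm_Ak c k) (fun l => (H.Ak_mem l hc k).2) l
  rw [mul_min_of_nonneg _ _ (by positivity)]
  refine le_min ((triv c hc k l).trans (by nlinarith)) ?_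
  induction k using Nat.strong_induction_on generalizing c l with
  | _ k ih =>
  obtain ⟨m, hm⟩ : ∃ m, m = k / 4 := ⟨_, rfl⟩
  have m1 : (k : ℝ) + 1 ≤ 4 * m + 4 := by exact_mod_cast (by omega : k + 1 ≤ 4 * m + 4)
  have m0 := Nat.cast_nonneg (α := ℝ) m
  have k0 := Nat.cast_nonneg (α := ℝ) k
  have m2 : ((k : ℝ) + 1) ^ 2 ≤ (4 * m + 4) ^ 2 := by gcongr
  obtain ⟨X, hX⟩ : ∃ X, X = rho D.card j / ((k : ℝ) + 1) ^ 2 := ⟨_, rfl⟩
  have X0 : 0 < X := by rw [hX]; positivity
  have X1 : rho D.card j = X * ((k : ℝ) + 1) ^ 2 := by rw [hX]; field_simp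
  rw [← hX]
  rcases le_or_gt (rho D.card j) ((m : ℝ) ^ 2) with hr | hr
  swap
  · have a : 1 ≤ 64 * X := by
      rw [hX, ← mul_div_assoc, one_le_div (by positivity)]
      nlinarith [sq_nonneg ((m : ℝ) - 1)]
    have b := one_le_pow₀ (n := 5) a
    refine (triv c hc k l).trans ?_
    rw [mul_right_comm, ← mul_pow]
    nlinarith
  have m3 : (1 : ℝ) ≤ m := by
    by_contra hn
    nlinarith
  have m4 : 1 ≤ m := by exact_mod_cast m3
  obtain ⟨i, hi⟩ : ∃ i, k = i + 2 * m := ⟨k - 2 * m, by omega⟩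
  have i1 : (k : ℝ) + 1 ≤ 2 * (i + 1) := by exact_mod_cast (by omega : k + 1 ≤ 2 * (i + 1))
  have a1 : (PP G θ D)^[j] (fun l => Ak G θ D l c i) l ≤ 64 ^ 5 * (2 + B) * (4 * X) ^ 5 := by
    refine (ih i (by omega) c hc l).trans ?_
    gcongr
    rw [div_le_iff₀ (by positivity), X1]
    have : ((k : ℝ) + 1) ^ 2 ≤ (2 * (i + 1)) ^ 2 := by gcongr
    nlinarith
  have a2 : ∀ z ∈ D, (PP G θ D)^[j] (fun l => Ak G θ D l z (2 * m) ^ 10) l ≤
      C * (64 * X) ^ 5 := fun z hz => by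
    refine (hC θ D H z hz j m hr l).trans ?_
    gcongr
    rw [div_le_iff₀ (by positivity), X1]
    have : ((k : ℝ) + 1) ^ 2 ≤ (8 * m) ^ 2 := by gcongr; linarith
    nlinarith
  have b1 := fun z => (BM.const ((θ ^ i) ^ 2 / η ^ 9)).mul (bm_pow (H.bm_Ak z (2 * m)) 10)
  have b2 := (BM.const η).mul (H.bm_Ak c i)
  have b3 := BM.sum (D.filter fun z => G.dist z c = i) fun z _ => b1 z
  refine (M.mono _ _ (H.bm_Ak c k) (b2.add b3) (fun l => ?_) l).trans ?_
  · rw [hi]
    refine (H.Ak_add l hc i (2 * m)).trans ?_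
    rw [Ak, Finset.mul_sum, ← Finset.sum_add_distrib]
    refine Finset.sum_le_sum fun z hz => ?_
    obtain ⟨z1, z2⟩ := Finset.mem_filter.1 hz
    have c1 := H.aa_mem l z1 hc
    have c2 := (H.Ak_mem l z1 (2 * m)).1
    rw [z2] at c1
    have c3 := pow_le_pow_left₀ c1.1 c1.2 2
    generalize Ak G θ D l z (2 * m) = A at c2 ⊢
    have c4 : 0 ≤ (θ ^ i) ^ 2 / η ^ 9 * A ^ 10 := by positivity
    rcases le_total A η with c5 | c5
    · nlinarith [sq_nonneg (aa G θ D l z c)]
    · have c6 : A ≤ A ^ 10 / η ^ 9 := by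
        rw [le_div_iff₀ (by positivity), pow_succ' A]
        gcongr
      have c7 := mul_le_mul c3 c6 c2 (sq_nonneg _)
      have c8 := mul_nonneg η0.le (sq_nonneg (aa G θ D l z c))
      rw [div_mul_eq_mul_div, mul_div_assoc]
      linarith
  · rw [M.add _ _ b2 b3, M.smul, M.sum _ fun z _ => b1 z]
    simp only [M.smul]
    have c1 := Finset.sum_le_card_nsmul (D.filter fun z => G.dist z c = i) _ _ fun z hz =>
      mul_le_mul_of_nonneg_left (a2 z (Finset.mem_filter.1 hz).1)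
        (show 0 ≤ (θ ^ i) ^ 2 / η ^ 9 by positivity)
    have c2 := mul_le_mul_of_nonneg_right (sph_ak H c i)
      (show 0 ≤ C / η ^ 9 * (64 * X) ^ 5 by positivity)
    have c3 := mul_le_mul_of_nonneg_left a1 η0.le
    have c4 : 3 / 2 * (C / η ^ 9 * (64 * X) ^ 5) = 64 ^ 5 * (B * X ^ 5) / 2 := by rw [hB]; ring
    have c5 : η * (64 ^ 5 * (2 + B) * (4 * X) ^ 5) = 64 ^ 5 * ((2 + B) * X ^ 5) / 2 := by
      rw [hη]; ring
    have c6 := pow_pos X0 5
    rw [nsmul_eq_mul] at c1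
    have c7 : ((D.filter fun z => G.dist z c = i).card : ℝ) *
        ((θ ^ i) ^ 2 / η ^ 9 * (C * (64 * X) ^ 5)) = (D.filter fun z => G.dist z c = i).card *
        (θ ^ i) ^ 2 * (C / η ^ 9 * (64 * X) ^ 5) := by ring
    linarith

/-- `MK.mink` twice, `sum_levels`, `num1` with `a = 1/8`, `q = 5/8` -/
theorem hh_moment (h : Tr G d) : ∃ C, 0 < C ∧ ∀ θ D, Cx G d θ D → ∀ y ∈ D, ∀ (j : ℕ) (l : V → ℝ),
    (PP G θ D)^[j] (fun l => HH G θ D l y ^ 8) l ≤ (C * rho D.card j ^ (9 / 16 : ℝ)) ^ 8 := by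
  obtain ⟨C, C0, hC⟩ := ak_decay h
  obtain ⟨C₁, c1, h1⟩ := num1 (a := 1 / 8) (q := 5 / 8) (by norm_num) (by norm_num)
  refine ⟨(d + 1) ^ 2 * (2 * (1 + C) * C₁), by positivity, fun θ D H y hy j l => ?_⟩
  have M := H.mkP.iter j
  have r1 := rho_one D.card j
  have hG : ∀ c ∈ D, (PP G θ D)^[j] (fun l => Gw G θ D l c ^ 8) l ≤
      (2 * (1 + C) * C₁ * rho D.card j ^ (9 / 16 : ℝ)) ^ 8 := fun c hc => by
    obtain ⟨K, hK⟩ := lev_ak (G := G) D c
    have e : ∀ l, Gw G θ D l c = ∑ k ∈ Finset.range K, om k * Ak G θ D l c k := fun l =>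
      sum_levels c om _ hK
    have p : ∀ k : ℕ, 0 < min 1 ((rho D.card j / ((k : ℝ) + 1) ^ 2) ^ (5 / 8 : ℝ)) := fun k =>
      lt_min one_pos (by positivity)
    have o : ∀ k, 0 < om k := fun k => one_pos.trans_le (om_one k)
    simp only [e]
    refine (M.mink _ (fun k _ => (BM.const _).mul (H.bm_Ak c k))
      (fun k _ l => mul_nonneg (o k).le (H.Ak_mem l hc k).1)
      (e := fun k => 2 * (1 + C) *
        (om k * min 1 ((rho D.card j / ((k : ℝ) + 1) ^ 2) ^ (5 / 8 : ℝ))))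
      (fun k _ => by have := p k; have := o k; positivity) (by norm_num) l fun k _ => ?_).trans ?_
    · refine (M.mono _ (fun l => om k ^ 8 * 128 * Ak G θ D l c k)
        (bm_pow ((BM.const _).mul (H.bm_Ak c k)) 8) ((BM.const _).mul (H.bm_Ak c k))
        (fun l => ?_) l).trans ?_
      · have a := H.Ak_mem l hc k
        have b := pow_le_pow_left₀ a.1 a.2 7
        rw [mul_pow, mul_assoc, pow_succ (Ak G θ D l c k)]
        gcongr
        · exact a.1
        · linarith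
      · have a : min 1 ((rho D.card j / ((k : ℝ) + 1) ^ 2) ^ 5) ≤
            min 1 ((rho D.card j / ((k : ℝ) + 1) ^ 2) ^ (5 / 8 : ℝ)) ^ 8 := by
          rcases le_total 1 ((rho D.card j / ((k : ℝ) + 1) ^ 2) ^ (5 / 8 : ℝ)) with h | h
          · rw [min_eq_left h, one_pow]; exact min_le_left _ _
          · rw [min_eq_right h, ← Real.rpow_natCast _ 8, ← Real.rpow_mul (by positivity)]
            refine (min_le_right _ _).trans_eq ?_
            rw [← Real.rpow_natCast]; norm_num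
        have b : C ≤ (1 + C) ^ 8 := (le_add_of_nonneg_left zero_le_one).trans
          (le_self_pow₀ (by linarith) (by norm_num))
        rw [M.smul]
        calc _ ≤ om k ^ 8 * 128 * ((1 + C) ^ 8 *
              min 1 ((rho D.card j / ((k : ℝ) + 1) ^ 2) ^ (5 / 8 : ℝ)) ^ 8) := by
              refine mul_le_mul_of_nonneg_left ((hC θ D H c hc j k l).trans ?_) (by positivity)
              exact mul_le_mul b a (le_min zero_le_one (by positivity)) (by positivity)
          _ ≤ om k ^ 8 * 2 ^ 8 * ((1 + C) ^ 8 *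
              min 1 ((rho D.card j / ((k : ℝ) + 1) ^ 2) ^ (5 / 8 : ℝ)) ^ 8) := by
              gcongr; norm_num
          _ = _ := by ring
    · refine pow_le_pow_left₀ (Finset.sum_nonneg fun k _ => by
        have := p k; have := o k; positivity) ?_ 8
      rw [← Finset.mul_sum, mul_assoc _ C₁]
      refine mul_le_mul_of_nonneg_left ((h1 _ r1 K).trans_eq ?_) (by positivity)
      norm_num
  refine (M.mink _ (fun c _ => H.bm_Gw c)
    (fun c hc l => zero_le_one.trans (H.Gw_one l (Finset.mem_filter.1 hc).1))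
    (e := fun _ => 2 * (1 + C) * C₁ * rho D.card j ^ (9 / 16 : ℝ)) (fun _ _ => by positivity)
    (by norm_num) l fun c hc => hG c (Finset.mem_filter.1 hc).1).trans ?_
  rw [Finset.sum_const, nsmul_eq_mul, mul_assoc ((d + 1 : ℝ) ^ 2)]
  gcongr
  exact card_ball_two h D y

end Vale.Agent.P161E
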