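import Vale.Agent.P161E.Ak

namespace Vale.Agent.P161E

open MeasureTheory unitInterval Classical SimpleGraph Filter Topology
open Vale.Agent.P161
open Vale.Agent.P143 (BM iidUniform)

variable {V : Type} {G : SimpleGraph V} [G.LocallyFinite] {d : ℕ} {θ : ℝ} {D : Finset V}

lemma root_am {S : Type} [MeasurableSpace S] {E : (S → ℝ) → S → ℝ} (h : MK E) {g : S → ℝ}
    (hg : BM g) (h0 : ∀ x, 0 ≤ g x) (p : ℕ) {q : ℕ} (hq : q ≠ 0) {e : ℝ} (he : 0 ≤ e) {s : S}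
    (H : E (fun x => g x ^ (p * q)) s ≤ e ^ (p * q)) : E (fun x => g x ^ p) s ≤ e ^ p := by
  have h1 := h.pow_le (bm_pow hg p) (fun x => pow_nonneg (h0 x) p) q s
  simp only [← pow_mul] at h1
  refine le_of_pow_le_pow_left₀ hq (pow_nonneg he p) ?_
  rw [← pow_mul]
  exact h1.trans H

lemma rho_pos_am (N j : ℕ) : 0 < rho N j := zero_lt_one.trans_le (rho_one N j)

lemma ph_moment (h : Tr G d) : ∃ C, 0 < C ∧ ∀ θ D, Cx G d θ D → ∀ y ∈ D, ∀ (i j : ℕ)
    (s : (V → ℝ) × (V → ℝ)), (P2 G θ D)^[j] (fun x => ph G θ D y i x ^ 4) s ≤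
      (C * rho D.card (i + j) ^ (9 / 8 : ℝ)) ^ 4 := by
  obtain ⟨C, hC, H⟩ := hh_moment h
  refine ⟨2 * C ^ 2, by positivity, fun θ D h y hy i j s => ?_⟩
  have b0 := bm_pow (h.bm_Ph1 y i) 2
  have key : ∀ l, (PP G θ D)^[j] (fun l => Ph1 G θ D y i l ^ 2) l ≤
      (C * rho D.card (i + j) ^ (9 / 16 : ℝ)) ^ 8 := by
    intro l
    refine le_trans ?_ (H θ D h y hy (i + j) l)
    rw [add_comm i j, Function.iterate_add_apply]
    refine (h.mkP.iter j).mono _ _ b0 ((h.mkP.iter i).bm _ (bm_pow (h.bm_HH y) 8)) (fun x => ?_) l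
    have := (h.mkP.iter i).pow_le (bm_pow (h.bm_HH y) 4) (fun x => by positivity) 2 x
    simp only [← pow_mul] at this
    exact this
  have b1 := b0.comp (measurable_fst (β := V → ℝ))
  have b2 := b0.comp (measurable_snd (α := V → ℝ))
  have h1 := (h.mk2.iter j).mono _ _ (bm_pow (h.bm_ph y i) 4) ((BM.const 2).mul (b1.add b2))
    (fun x => by
      have a1 := h.Ph1_one hy i x.1
      have a2 := h.Ph1_one hy i x.2
      have e : ph G θ D y i x ^ 4 = (Ph1 G θ D y i x.1 + Ph1 G θ D y i x.2) ^ 2 := by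
        rw [show 4 = 2 * 2 by norm_num, pow_mul, ph, Real.sq_sqrt (by linarith)]
      rw [e]
      nlinarith [sq_nonneg (Ph1 G θ D y i x.1 - Ph1 G θ D y i x.2)]) s
  rw [(h.mk2.iter j).smul, (h.mk2.iter j).add _ _ b1 b2,
    h.P2_fst (fun l => Ph1 G θ D y i l ^ 2), h.P2_snd (fun l => Ph1 G θ D y i l ^ 2)] at h1
  have r0 := rho_pos_am D.card (i + j)
  have e : rho D.card (i + j) ^ (9 / 8 : ℝ) = (rho D.card (i + j) ^ (9 / 16 : ℝ)) ^ 2 := by
    rw [← Real.rpow_natCast, ← Real.rpow_mul r0.le]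
    norm_num
  rw [e]
  have h2 : 0 ≤ (C * rho D.card (i + j) ^ (9 / 16 : ℝ)) ^ 8 := by positivity
  have e2 : (2 * C ^ 2 * (rho D.card (i + j) ^ (9 / 16 : ℝ)) ^ 2) ^ 4 =
      16 * (C * rho D.card (i + j) ^ (9 / 16 : ℝ)) ^ 8 := by ring
  rw [e2]
  linarith [key s.1, key s.2]

lemma ww_moment (h : Tr G d) : ∃ C, 0 < C ∧ ∀ θ D, Cx G d θ D → ∀ y ∈ D, ∀ n ≤ D.card, ∀ (j : ℕ)
    (s : (V → ℝ) × (V → ℝ)), (P2 G θ D)^[j] (fun x => WW G θ D n y x ^ 4) s ≤
      (C * rho D.card j ^ (1 / 8 : ℝ)) ^ 4 := by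
  obtain ⟨C, hC, H⟩ := ph_moment h
  refine ⟨C * 40, by positivity, fun θ D h y hy n hn j s => ?_⟩
  have hN : 0 < D.card := h.ne.card_pos
  have h1 := (h.mk2.iter j).mink (Finset.range n) (g := fun i => ph G θ D y i)
    (fun i _ => h.bm_ph y i) (fun i _ x => Real.sqrt_nonneg _)
    (e := fun i => C * rho D.card (i + j) ^ (9 / 8 : ℝ))
    (fun i _ => mul_pos hC (Real.rpow_pos_of_pos (rho_pos_am _ _) _)) (p := 4) (by norm_num) s
    fun i _ => H θ D h y hy i j s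
  have e : (fun x => WW G θ D n y x ^ 4) =
      fun x => (1 / (D.card : ℝ)) ^ 4 * (∑ i ∈ Finset.range n, ph G θ D y i x) ^ 4 := by
    funext x
    rw [WW]
    ring
  rw [e, (h.mk2.iter j).smul]
  refine (mul_le_mul_of_nonneg_left h1 (by positivity)).trans ?_
  rw [← mul_pow, ← Finset.mul_sum]
  have h2 := mul_le_mul_of_nonneg_left (num3 hN hn j) hC.le
  have h3 : 0 ≤ ∑ i ∈ Finset.range n, rho D.card (i + j) ^ (9 / 8 : ℝ) :=
    Finset.sum_nonneg fun i _ => (Real.rpow_pos_of_pos (rho_pos_am _ _) _).le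
  refine pow_le_pow_left₀ (by positivity) (le_of_eq_of_le ?_ (h2.trans_eq ?_)) 4 <;> ring

lemma min_sq_am {x : ℝ} (hx : 0 < x) : min 1 (x ^ 5) ≤ min 1 (x ^ (5 / 2 : ℝ)) ^ 2 := by
  have e : x ^ 5 = (x ^ (5 / 2 : ℝ)) ^ 2 := by
    rw [← Real.rpow_natCast, ← Real.rpow_natCast, ← Real.rpow_mul hx.le]
    norm_num
  rw [e]
  rcases le_total 1 (x ^ (5 / 2 : ℝ)) with h | h
  · rw [min_eq_left h, one_pow]
    exact min_le_left _ _
  · rw [min_eq_right h]
    exact min_le_right _ _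

lemma ll_aux_am (h : Tr G d) : ∃ C, 0 < C ∧ ∀ θ D, Cx G d θ D → ∀ c ∈ D, ∀ n ≤ D.card, ∀ (j : ℕ)
    (s : (V → ℝ) × (V → ℝ)) (π : (V → ℝ) × (V → ℝ) → V → ℝ), Measurable π →
      (∀ g, (P2 G θ D)^[j] (fun x => g (π x)) s = (PP G θ D)^[j] g (π s)) →
      (P2 G θ D)^[j] (fun x => LL G θ D n x (π x) c) s ≤ C * rho D.card j ^ (7 / 8 : ℝ) := by
  obtain ⟨C1, c1, H1⟩ := ww_moment h
  obtain ⟨C2, c2, H2⟩ := ak_decay h
  obtain ⟨C3, c3, H3⟩ := num1 (a := 1 / 4) (q := 5 / 2) (by norm_num) (by norm_num)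
  refine ⟨(C1 ^ 4 + C2) * C3, by positivity, fun θ D h c hc n hn j s π hπ hP => ?_⟩
  have hθ := h.theta.1
  have hm := h.mk2.iter j
  have r1 := rho_one D.card j
  have r0 := rho_pos_am D.card j
  have hd : (3 : ℝ) ≤ d := by exact_mod_cast h.tr.hd
  have hd0 : (0 : ℝ) < d - 1 := by linarith
  obtain ⟨μ, hμ⟩ : ∃ μ : ℕ → ℝ, ∀ k, μ k =
    min 1 ((rho D.card j / ((k : ℝ) + 1) ^ 2) ^ (5 / 2 : ℝ)) := ⟨_, fun _ => rfl⟩
  have μ0 : ∀ k, 0 < μ k := fun k => hμ k ▸ lt_min one_pos (by positivity)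
  obtain ⟨r, hr⟩ : ∃ r, r = rho D.card j ^ (1 / 8 : ℝ) := ⟨_, rfl⟩
  have hr0 : 0 < r := hr ▸ by positivity
  have hr5 : rho D.card j ^ ((1 + 1 / 4) / 2 : ℝ) = r ^ 5 := by
    rw [hr, ← Real.rpow_natCast, ← Real.rpow_mul r0.le]
    norm_num
  have hr7 : rho D.card j ^ (7 / 8 : ℝ) = r ^ 7 := by
    rw [hr, ← Real.rpow_natCast, ← Real.rpow_mul r0.le]
    norm_num
  have hs : ∀ K, ∑ k ∈ Finset.range K, om k ^ 2 * μ k ≤ C3 * r ^ 5 := fun K => by
    simp only [om_sq, hμ, ← hr5]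
    exact H3 _ r1 K
  have ba : ∀ z, BM fun x => aa G θ D (π x) z c ^ 2 := fun z => bm_pow ((bm_aa hθ z c).comp hπ) 2
  have bl : ∀ z, BM fun x => om (G.dist z c) ^ 2 * WW G θ D n z x ^ 2 * aa G θ D (π x) z c ^ 2 :=
    fun z => ((BM.const _).mul (bm_pow (h.bm_WW n z) 2)).mul (ba z)
  have step : ∀ z ∈ D, (P2 G θ D)^[j] (fun x =>
      om (G.dist z c) ^ 2 * WW G θ D n z x ^ 2 * aa G θ D (π x) z c ^ 2) s ≤
      om (G.dist z c) ^ 2 * μ (G.dist z c) * (C1 ^ 4 * r ^ 2 / 2) / ((d : ℝ) - 1) ^ G.dist z c +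
      om (G.dist z c) ^ 2 * r ^ 2 / μ (G.dist z c) *
        (P2 G θ D)^[j] (fun x => aa G θ D (π x) z c ^ 2) s := by
    intro z hz
    have m0 := μ0 (G.dist z c)
    have h1 := hm.mono _ _ (bl z) (((BM.const (om (G.dist z c) ^ 2 * μ (G.dist z c) / (2 * r ^ 2) /
      ((d : ℝ) - 1) ^ G.dist z c)).mul (bm_pow (h.bm_WW n z) 4)).add
      ((BM.const (om (G.dist z c) ^ 2 * r ^ 2 / μ (G.dist z c))).mul (ba z))) (fun x => by
        have a1 := h.aa_mem (π x) hz hc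
        have a2 := pow_le_pow_left₀ a1.1 a1.2 2
        have a3 : (θ ^ G.dist z c) ^ 2 ≤ 1 / ((d : ℝ) - 1) ^ G.dist z c := by
          rw [← pow_mul, mul_comm, pow_mul, ← one_div_pow]
          refine pow_le_pow_left₀ (sq_nonneg _) ?_ _
          rw [le_div_iff₀' hd0]
          exact h.up
        have a4 := a2.trans a3
        generalize aa G θ D (π x) z c ^ 2 = A, WW G θ D n z x = W, μ (G.dist z c) = m,
          om (G.dist z c) ^ 2 = o, sq_nonneg (aa G θ D (π x) z c) = A0,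
          sq_nonneg (om (G.dist z c)) = o0 at *
        have a5 : W ^ 2 ≤ m / (2 * r ^ 2) * W ^ 4 + r ^ 2 / m := by
          have e : m / (2 * r ^ 2) * W ^ 4 + r ^ 2 / m - W ^ 2 =
              ((m * W ^ 2 - r ^ 2) ^ 2 + r ^ 4) / (2 * r ^ 2 * m) := by
            field_simp
            ring
          have : 0 ≤ ((m * W ^ 2 - r ^ 2) ^ 2 + r ^ 4) / (2 * r ^ 2 * m) := by positivity
          linarith
        have a6 := mul_le_mul_of_nonneg_left a4
          (by positivity : 0 ≤ o * (m / (2 * r ^ 2) * W ^ 4))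
        have a7 := mul_le_mul_of_nonneg_left a5 (mul_nonneg o0 A0)
        calc o * W ^ 2 * A = o * A * W ^ 2 := by ring
          _ ≤ _ := a7
          _ = o * (m / (2 * r ^ 2) * W ^ 4) * A + o * r ^ 2 / m * A := by ring
          _ ≤ _ := add_le_add (a6.trans_eq (by ring)) le_rfl) s
    rw [hm.add _ _ ((BM.const _).mul (bm_pow (h.bm_WW n z) 4)) ((BM.const _).mul (ba z)),
      hm.smul, hm.smul] at h1
    refine h1.trans (add_le_add ?_ le_rfl)
    have h2 := H1 θ D h z hz n hn j s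
    rw [← hr] at h2
    refine (mul_le_mul_of_nonneg_left h2 (by positivity)).trans_eq ?_
    field_simp
  unfold LL
  rw [hm.sum _ fun z _ => bl z]
  refine (Finset.sum_le_sum step).trans ?_
  rw [Finset.sum_add_distrib, hr7]
  obtain ⟨K, hK⟩ := sum_radial h.tr D c (f := fun k =>
    om k ^ 2 * μ k * (C1 ^ 4 * r ^ 2 / 2) / ((d : ℝ) - 1) ^ k) fun k => by
      have := μ0 k
      positivity
  have t1 : ∑ k ∈ Finset.range K, 3 / 2 * ((d : ℝ) - 1) ^ k *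
      (om k ^ 2 * μ k * (C1 ^ 4 * r ^ 2 / 2) / ((d : ℝ) - 1) ^ k) ≤ C1 ^ 4 * r ^ 2 * (C3 * r ^ 5) := by
    refine le_trans ?_ (mul_le_mul_of_nonneg_left (hs K) (by positivity))
    rw [Finset.mul_sum]
    refine Finset.sum_le_sum fun k _ => ?_
    have m0 := μ0 k
    have e : 3 / 2 * ((d : ℝ) - 1) ^ k *
        (om k ^ 2 * μ k * (C1 ^ 4 * r ^ 2 / 2) / ((d : ℝ) - 1) ^ k) =
        3 / 4 * (C1 ^ 4 * r ^ 2 * (om k ^ 2 * μ k)) := by
      field_simp
      ring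
    have : 0 ≤ C1 ^ 4 * r ^ 2 * (om k ^ 2 * μ k) := by positivity
    linarith
  have t2 : ∑ z ∈ D, om (G.dist z c) ^ 2 * r ^ 2 / μ (G.dist z c) *
      (P2 G θ D)^[j] (fun x => aa G θ D (π x) z c ^ 2) s ≤ C2 * r ^ 2 * (C3 * r ^ 5) := by
    rw [sum_levels c (fun k => om k ^ 2 * r ^ 2 / μ k) _ (K := D.sup (fun z => G.dist z c) + 1)
      fun z hz => Nat.lt_succ_of_le (Finset.le_sup (f := fun z => G.dist z c) hz)]
    refine le_trans ?_ (mul_le_mul_of_nonneg_left (hs (D.sup (fun z => G.dist z c) + 1)) (by positivity))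
    rw [Finset.mul_sum]
    refine Finset.sum_le_sum fun k _ => ?_
    have m0 := μ0 k
    rw [← hm.sum _ fun z _ => ba z]
    have h1 := (hP fun l => Ak G θ D l c k).trans_le ((H2 θ D h c hc j k (π s)).trans
      (mul_le_mul_of_nonneg_left (min_sq_am (by positivity)) c2.le))
    rw [← hμ] at h1
    refine (mul_le_mul_of_nonneg_left h1 (by positivity)).trans_eq ?_
    field_simp
  calc _ ≤ _ := add_le_add (hK.trans t1) t2
    _ = _ := by ring

/-- on level `k`: `W² a² ≤ (t β^k W⁴ + a² / t) / 2` with `β = 1/(d-1)`,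
`t = ρ^(-1/4) * min 1 ((ρ/(k+1)²)^(5/2))`; then `ak_decay`, `ww_moment`, `num1` -/
lemma ll_moment (h : Tr G d) : ∃ C, 0 < C ∧ ∀ θ D, Cx G d θ D → ∀ c ∈ D, ∀ n ≤ D.card, ∀ (j : ℕ)
    (s : (V → ℝ) × (V → ℝ)),
      (P2 G θ D)^[j] (fun x => LL G θ D n x x.1 c + LL G θ D n x x.2 c) s ≤
        C * rho D.card j ^ (7 / 8 : ℝ) := by
  obtain ⟨C, hC, H⟩ := ll_aux_am h
  refine ⟨2 * C, by positivity, fun θ D h c hc n hn j s => ?_⟩
  have b : ∀ π : (V → ℝ) × (V → ℝ) → V → ℝ, Measurable π → BM fun x => LL G θ D n x (π x) c :=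
    fun π hπ => BM.sum _ fun z _ => ((BM.const _).mul (bm_pow (h.bm_WW n z) 2)).mul
      (bm_pow ((bm_aa h.theta.1 z c).comp hπ) 2)
  rw [(h.mk2.iter j).add _ _ (b _ measurable_fst) (b _ measurable_snd)]
  linarith [H θ D h c hc n hn j s _ measurable_fst fun g => h.P2_fst g j s,
    H θ D h c hc n hn j s _ measurable_snd fun g => h.P2_snd g j s]

theorem aa_moment (h : Tr G d) : ∃ C, 0 < C ∧ ∀ θ D, Cx G d θ D → ∀ y ∈ D, ∀ n ≤ D.card,
    ∀ (j : ℕ) (s : (V → ℝ) × (V → ℝ)),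
      (P2 G θ D)^[j] (AA G θ D d n y) s ≤ C * rho D.card j ^ (7 / 8 : ℝ) := by
  have hd : (3 : ℝ) ≤ d := by exact_mod_cast h.hd
  have hd0 : (0 : ℝ) < d - 1 := by linarith
  have k0 : 0 ≤ kap d := by
    unfold kap
    positivity
  obtain ⟨C1, c1, H1⟩ := ww_moment h
  obtain ⟨C2, c2, H2⟩ := ll_moment h
  obtain ⟨C3, c3, H3⟩ := hh_moment h
  obtain ⟨C4, c4, H4⟩ := sum_geo h k0 (by
    have e : kap d * ((d : ℝ) - 1) = 3 / 2 / ((d : ℝ) - 1) := by
      unfold kap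
      field_simp
    rw [e, div_lt_one hd0]
    linarith)
  refine ⟨1 + (d + 1) * C2 + 2 * (C3 + C1 * C3) + C4 * C1, by positivity,
    fun θ D h y hy n hn j s => ?_⟩
  have hm := h.mk2.iter j
  have r1 := rho_one D.card j
  have r0 := rho_pos_am D.card j
  obtain ⟨r, hr⟩ : ∃ r, r = rho D.card j ^ (1 / 16 : ℝ) := ⟨_, rfl⟩
  have hr1 : 1 ≤ r := hr ▸ Real.one_le_rpow r1 (by norm_num)
  have hp : ∀ (k : ℕ) (a : ℝ), a = k / 16 → rho D.card j ^ a = r ^ k := fun k a ha => by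
    rw [hr, ← Real.rpow_natCast, ← Real.rpow_mul r0.le, ha]
    ring_nf
  have W0 : ∀ z x, 0 ≤ WW G θ D n z x := fun z x => (h.nonneg n x z).2.2.2.1
  have hW : ∀ z ∈ D, (P2 G θ D)^[j] (fun x => WW G θ D n z x ^ 4) s ≤ (C1 * r ^ 2) ^ 4 :=
    fun z hz => hp 2 (1 / 8) (by norm_num) ▸ H1 θ D h z hz n hn j s
  have side : ∀ π : (V → ℝ) × (V → ℝ) → V → ℝ, Measurable π →
      (∀ g, (P2 G θ D)^[j] (fun x => g (π x)) s = (PP G θ D)^[j] g (π s)) →
      (P2 G θ D)^[j] (fun x => (1 + WW G θ D n y x) * HH G θ D (π x) y) s ≤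
        (C3 + C1 * C3) * r ^ 14 := by
    intro π hπ hP
    have b := (h.bm_HH y).comp hπ
    have H0 : ∀ x, 0 ≤ HH G θ D (π x) y := fun x => (h.nonneg n (π x, π x) y).1
    have h8 : (P2 G θ D)^[j] (fun x => HH G θ D (π x) y ^ 8) s ≤ (C3 * r ^ 9) ^ 8 :=
      (hP fun l => HH G θ D l y ^ 8).trans_le
        (hp 9 (9 / 16) (by norm_num) ▸ H3 θ D h y hy j (π s))
    have a1 := root_am hm b H0 1 (q := 8) (by norm_num) (by positivity) h8
    have a2 := root_am hm b H0 2 (q := 4) (by norm_num) (by positivity) h8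
    have a3 := root_am hm (h.bm_WW n y) (W0 y) 2 (q := 2) (by norm_num) (by positivity) (hW y hy)
    have a4 := (hm.cs (h.bm_WW n y) b s).trans (mul_le_mul a3 a2
      (hm.nonneg (bm_pow b 2) (fun x => sq_nonneg _) s) (by positivity))
    rw [← mul_pow] at a4
    have a5 := le_of_pow_le_pow_left₀ two_ne_zero (by positivity) a4
    simp only [pow_one] at a1
    simp only [add_mul, one_mul]
    rw [hm.add _ _ b ((h.bm_WW n y).mul b)]
    have a6 : C3 * r ^ 9 ≤ C3 * r ^ 14 := by gcongr <;> norm_num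
    have a7 : C1 * C3 * r ^ 11 ≤ C1 * C3 * r ^ 14 := by gcongr <;> norm_num
    have a8 : C1 * r ^ 2 * (C3 * r ^ 9) = C1 * C3 * r ^ 11 := by ring
    linarith
  have bl : ∀ c, BM fun x : (V → ℝ) × (V → ℝ) => LL G θ D n x x.1 c + LL G θ D n x x.2 c :=
    fun c => (BM.sum _ fun z _ => ((BM.const _).mul (bm_pow (h.bm_WW n z) 2)).mul
      (bm_pow ((bm_aa h.theta.1 z c).comp measurable_fst) 2)).add
      (BM.sum _ fun z _ => ((BM.const _).mul (bm_pow (h.bm_WW n z) 2)).mul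
        (bm_pow ((bm_aa h.theta.1 z c).comp measurable_snd) 2))
  have b1 := ((BM.const 1).add (h.bm_WW n y)).mul ((h.bm_HH y).comp measurable_fst)
  have b2 := ((BM.const 1).add (h.bm_WW n y)).mul ((h.bm_HH y).comp measurable_snd)
  have b3 : ∀ z, BM fun x => om (G.dist z y) * kap d ^ G.dist z y * WW G θ D n z x :=
    fun z => (BM.const _).mul (h.bm_WW n z)
  have b4 := BM.sum (D.filter fun c => G.dist c y ≤ 1) fun c _ => bl c
  have e : AA G θ D d n y = fun x => 1 + ∑ c ∈ D.filter fun c => G.dist c y ≤ 1,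
      (LL G θ D n x x.1 c + LL G θ D n x x.2 c) +
      ((1 + WW G θ D n y x) * HH G θ D x.1 y + (1 + WW G θ D n y x) * HH G θ D x.2 y) +
      ∑ z ∈ D, om (G.dist z y) * kap d ^ G.dist z y * WW G θ D n z x := by
    funext x
    rw [AA, mul_add]
  rw [e, hm.add _ _ (((BM.const 1).add b4).add (b1.add b2)) (BM.sum _ fun z _ => b3 z),
    hm.add _ _ ((BM.const 1).add b4) (b1.add b2), hm.add _ _ (BM.const 1) b4, hm.add _ _ b1 b2,
    hm.const, hm.sum _ fun c _ => bl c, hm.sum _ fun z _ => b3 z, hp 14 (7 / 8) (by norm_num)]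
  have t1 : (1 : ℝ) ≤ r ^ 14 := one_le_pow₀ hr1
  have t2 := (Finset.sum_le_card_nsmul (D.filter fun c => G.dist c y ≤ 1) _ (C2 * r ^ 14)
    fun c hc => hp 14 (7 / 8) (by norm_num) ▸ H2 θ D h c (Finset.mem_filter.1 hc).1 n hn j s)
  rw [nsmul_eq_mul] at t2
  have t3 := mul_le_mul_of_nonneg_right (card_ball_one h.tr D y)
    (by positivity : 0 ≤ C2 * r ^ 14)
  have t4 : ∑ z ∈ D, (P2 G θ D)^[j]
      (fun x => om (G.dist z y) * kap d ^ G.dist z y * WW G θ D n z x) s ≤ C4 * (C1 * r ^ 14) := by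
    refine le_trans ?_ (mul_le_mul_of_nonneg_right (H4 D y) (by positivity))
    rw [Finset.sum_mul]
    refine Finset.sum_le_sum fun z hz => ?_
    rw [hm.smul]
    have a1 := root_am hm (h.bm_WW n z) (W0 z) 1 (q := 4) (by norm_num) (by positivity) (hW z hz)
    simp only [pow_one] at a1
    have a2 : C1 * r ^ 2 ≤ C1 * r ^ 14 := by gcongr <;> norm_num
    exact mul_le_mul (mul_le_mul_of_nonneg_right (om_le _) (by positivity)) (a1.trans a2)
      (hm.nonneg (h.bm_WW n z) (W0 z) s) (by positivity)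
  linarith [side _ measurable_fst fun g => h.P2_fst g j s,
    side _ measurable_snd fun g => h.P2_snd g j s]

end Vale.Agent.P161E
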