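import Vale.Agent.P161E.Gib

namespace Vale.Agent.P161E

open MeasureTheory unitInterval Classical SimpleGraph Filter Topology
open Vale.Agent.P161
open Vale.Agent.P143 (BM iidUniform)

variable {V : Type} {G : SimpleGraph V} [G.LocallyFinite] {d : ℕ} {θ : ℝ} {D : Finset V}

section
omit [G.LocallyFinite]

lemma half_bay : (1 / 2 : ℝ) ∈ Set.Ioc (0 : ℝ) (1 / 2) := ⟨by norm_num, le_rfl⟩

lemma int_ex_bay {X : Type*} [MeasurableSpace X] (μ : Measure X) (l : V → ℝ)
    {g : Finset V → X → ℝ} (hg : ∀ T, Integrable (g T) μ) :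
    ∫ x, ex G θ D l (fun T => g T x) ∂μ = ex G θ D l fun T => ∫ x, g T x ∂μ := by
  unfold ex SI
  rw [integral_div, integral_finsetSum _ fun T _ => (hg T).const_mul _]
  simp only [integral_const_mul]

lemma bm_dens_bay {X : Type*} [MeasurableSpace X] (T : Finset V) (w : V) {y : X → I}
    (hy : Measurable y) : BM fun x => dens (1 / 2) (ind T w) (y x) :=
  BM.of_mem (measurable_dens measurable_const (measurable_subtype_coe.comp hy))
    fun x => dens_mem half_bay (ind_mem T w) (y x).2

lemma meas_st_bay (l : V → ℝ) (w : V) : Measurable (st G θ D l w) := by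
  have := (ms_stA (G := G) (θ := θ) (D := D) {w} w).comp (measurable_prodMk_left (x := l))
  simpa only [Function.comp_def, stA, Finset.mem_singleton, if_true] using this

/-- Bayes identity, from `integral_Qf`, `ex_addf`, `dens_one_eq`, `dens_affine` -/
lemma bayes (hθ : θ ∈ Set.Ico (0 : ℝ) 1) (l : V → ℝ) {w : V} (hw : w ∈ D)
    {ψ : Finset V → ℝ → ℝ} (hψ : ∀ T, BM fun y : I => ψ T y) :
    ∫ u : I, ex G θ D (st G θ D l w u) (fun T => ψ T (Qf (1 / 2) (mI G θ D l w) u)) =
      ex G θ D l fun T => ∫ y : I, dens (1 / 2) (ind T w) y * ψ T y := by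
  refine (integral_Qf half_bay (mI_mem hθ D l w)
    fun y => ex G θ D (addf l w (lam (1 / 2) y)) fun T => ψ T y).trans ?_
  rw [← int_ex_bay volume l fun T => ((bm_dens_bay T w measurable_id').mul (hψ T)).integrable _]
  refine integral_congr_ae (Eventually.of_forall fun y => ?_)
  have hm := mI_mem (G := G) hθ D l w
  have e := Real.exp_pos (lam (1 / 2) y)
  have hp : 0 < 1 + mI G θ D l w * (Real.exp (lam (1 / 2) y) - 1) := by
    rcases le_total 1 (Real.exp (lam (1 / 2) y)) with c | c
    · nlinarith [hm.1]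
    · nlinarith [hm.2]
  beta_reduce
  rw [ex_addf hθ l hw, dens_affine, dens_one_eq half_bay y.2]
  have h1 : ∀ T, dens (1 / 2) (ind T w) y * ψ T y =
      dens (1 / 2) 0 y * (Real.exp (lam (1 / 2) y * ind T w) * ψ T y) := fun T => by
    unfold ind
    split_ifs
    · rw [dens_one_eq half_bay y.2, mul_one, mul_assoc]
    · rw [mul_zero, Real.exp_zero, one_mul]
  simp only [h1, ex_smul]
  field_simp

lemma bayes2_bay (hθ : θ ∈ Set.Ico (0 : ℝ) 1) (l : V → ℝ) {w : V} (hw : w ∈ D)
    {ψ : Finset V → ℝ → I → ℝ} (hψ : ∀ T, BM fun q : I × I => ψ T q.1 q.2) :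
    ∫ p : I × I, ex G θ D (st G θ D l w p.1) (fun T => ψ T (Qf (1 / 2) (mI G θ D l w) p.1) p.2) =
      ex G θ D l fun T => ∫ p : I × I, dens (1 / 2) (ind T w) p.1 * ψ T p.1 p.2 := by
  have hm := mI_mem (G := G) hθ D l w
  have mq : Measurable fun u : I =>
      (⟨Qf (1 / 2) (mI G θ D l w) u, (Qf_spec half_bay hm u.2).1⟩ : I) :=
    (measurable_Qf measurable_const measurable_subtype_coe).subtype_mk
  have b1 : ∀ T, BM fun p : I × I => ψ T (Qf (1 / 2) (mI G θ D l w) p.1) p.2 := fun T =>
    (hψ T).comp ((mq.comp measurable_fst).prodMk measurable_snd)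
  have b2 := bm_ex (G := G) (D := D) (l := fun p : I × I => st G θ D l w p.1) hθ
    ((meas_st_bay l w).comp measurable_fst) b1
  rw [Measure.volume_eq_prod, integral_prod _ (b2.integrable _)]
  have e1 : ∀ u : I, ∫ v : I, ex G θ D (st G θ D l w u)
      (fun T => ψ T (Qf (1 / 2) (mI G θ D l w) u) v) = ex G θ D (st G θ D l w u)
      (fun T => ∫ v : I, ψ T (Qf (1 / 2) (mI G θ D l w) u) v) := fun u =>
    int_ex_bay volume _ fun T => ((b1 T).comp (measurable_prodMk_left (x := u))).integrable _
  simp only [e1]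
  rw [bayes hθ l hw (ψ := fun T y => ∫ v : I, ψ T y v) fun T => (hψ T).integral_right]
  refine ex_congr l fun T _ => ?_
  rw [integral_prod _ (((bm_dens_bay T w measurable_fst).mul (hψ T)).integrable _)]
  simp only [integral_const_mul]

lemma planted_aux_bay (hθ : θ ∈ Set.Ico (0 : ℝ) 1) {Z : Type} [MeasurableSpace Z]
    (A : Finset V) {h : (V → ℝ) × Z → V → ℝ → I → Z}
    (hh : ∀ w, Measurable fun q : ((V → ℝ) × Z) × ℝ × I => h q.1 w q.2.1 q.2.2)
    {g : Finset V → (V → ℝ) × Z → ℝ} (hg : ∀ T, BM (g T)) (s : (V → ℝ) × Z) :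
    op D (ax G θ D A h) (fun x => ex G θ D x.1 fun T => g T x) s =
      ex G θ D s.1 fun T => opT D T (axT A h) (g T) s := by
  unfold op opT
  simp only [div_eq_inv_mul _ (D.card : ℝ), ex_smul, ex_sum]
  refine congrArg _ (Finset.sum_congr rfl fun w hw => ?_)
  by_cases c : w ∈ A
  · simp only [ax, axT, stA, stT, c, if_true]
    refine bayes2_bay hθ s.1 hw (ψ := fun T y v => g T (addf s.1 w (lam (1 / 2) y), h s w y v))
      fun T => (hg T).comp (Measurable.prodMk ?_ ((hh w).comp (measurable_const.prodMk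
        ((measurable_subtype_coe.comp measurable_fst).prodMk measurable_snd))))
    have : Measurable fun p : I × I => stT A s.1 w p.1 :=
      (ms_stT A w).comp (measurable_const.prodMk measurable_fst)
    simpa only [stT, c, if_true] using this
  · simp only [ax, axT, stA, stT, c, if_false]
    have b1 : ∀ T, BM fun v : I => g T (s.1, h s w 0 v) := fun T =>
      (hg T).comp (measurable_const.prodMk ((hh w).comp (measurable_const.prodMk
        (measurable_const.prodMk measurable_id))))
    rw [int_ex_bay volume s.1 fun T => ((b1 T).comp (measurable_snd (α := I))).integrable _]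
    refine ex_congr _ fun T _ => ?_
    rw [Measure.volume_eq_prod, integral_prod_mul (fun y : I => dens (1 / 2) (ind T w) y)
      (fun v : I => g T (s.1, h s w 0 v)), integral_dens, one_mul,
      integral_fun_snd (fun v : I => g T (s.1, h s w 0 v))]
    simp

/-- planted form of one step -/
lemma planted_one (hθ : θ ∈ Set.Ico (0 : ℝ) 1) (A : Finset V) {g : Finset V → (V → ℝ) → ℝ}
    (hg : ∀ T, BM (g T)) (l : V → ℝ) :
    PS G θ D A (fun x => ex G θ D x fun T => g T x) l =
      ex G θ D l fun T => opT D T (one (stT A)) (g T) l := by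
  exact planted_aux_bay (Z := Unit) hθ A (h := fun _ _ _ _ => ()) (fun _ => measurable_const)
    (g := fun T x => g T x.1) (fun T => (hg T).comp measurable_fst) (l, ())

lemma planted (hθ : θ ∈ Set.Ico (0 : ℝ) 1) (hD : D.Nonempty) (A : Finset V)
    {g : Finset V → (V → ℝ) → ℝ} (hg : ∀ T, BM (g T)) (n : ℕ) (l : V → ℝ) :
    (PS G θ D A)^[n] (fun x => ex G θ D x fun T => g T x) l =
      ex G θ D l fun T => (opT D T (one (stT A)))^[n] (g T) l := by
  induction n generalizing g with
  | zero => rfl
  | succ n ih =>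
    rw [Function.iterate_succ_apply, funext (planted_one hθ A hg),
      ih fun T => (mk_opT hD T (ms_stT A).one).bm _ (hg T)]
    rfl

lemma ms_ax {Z : Type} [MeasurableSpace Z] (A : Finset V) {h : (V → ℝ) × Z → V → ℝ → I → Z}
    (hh : ∀ w, Measurable fun q : ((V → ℝ) × Z) × ℝ × I => h q.1 w q.2.1 q.2.2) :
    Ms (ax G θ D A h) ∧ Ms (axT A h) := by
  refine ⟨fun w => Measurable.prodMk ((ms_stA A w).comp ((measurable_fst.comp measurable_fst).prodMk
    (measurable_fst.comp measurable_snd))) ((hh w).comp (measurable_fst.prodMk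
      (Measurable.prodMk ?_ (measurable_snd.comp measurable_snd)))),
    fun w => Measurable.prodMk ((ms_stT A w).comp ((measurable_fst.comp measurable_fst).prodMk
    (measurable_fst.comp measurable_snd))) ((hh w).comp (measurable_fst.prodMk
      (Measurable.prodMk ?_ (measurable_snd.comp measurable_snd))))⟩
  · exact Measurable.ite (p := fun _ => w ∈ A) (MeasurableSet.const _)
      (measurable_Qf (measurable_mI D (fun v => (measurable_pi_apply v).comp
        (measurable_fst.comp measurable_fst)) w)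
        (measurable_subtype_coe.comp (measurable_fst.comp measurable_snd))) measurable_const
  · exact Measurable.ite (p := fun _ => w ∈ A) (MeasurableSet.const _)
      (measurable_subtype_coe.comp (measurable_fst.comp measurable_snd)) measurable_const

/-- planted form with an auxiliary component -/
lemma planted_aux (hθ : θ ∈ Set.Ico (0 : ℝ) 1) (hD : D.Nonempty) {Z : Type} [MeasurableSpace Z]
    (A : Finset V) {h : (V → ℝ) × Z → V → ℝ → I → Z}
    (hh : ∀ w, Measurable fun q : ((V → ℝ) × Z) × ℝ × I => h q.1 w q.2.1 q.2.2)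
    {g : (V → ℝ) × Z → ℝ} (hg : BM g) (n : ℕ) (s : (V → ℝ) × Z) :
    (op D (ax G θ D A h))^[n] g s = ex G θ D s.1 fun T => (opT D T (axT A h))^[n] g s := by
  have key : ∀ (n : ℕ) {g : Finset V → (V → ℝ) × Z → ℝ}, (∀ T, BM (g T)) →
      (op D (ax G θ D A h))^[n] (fun x => ex G θ D x.1 fun T => g T x) s =
        ex G θ D s.1 fun T => (opT D T (axT A h))^[n] (g T) s := by
    intro n
    induction n with
    | zero => exact fun _ => rfl
    | succ n ih =>
      intro g hg
      rw [Function.iterate_succ_apply, funext (planted_aux_bay hθ A hh hg),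
        ih fun T => (mk_opT hD T (ms_ax (G := G) (θ := θ) (D := D) A hh).2).bm _ (hg T)]
      rfl
  have := key n (g := fun _ => g) fun _ => hg
  simpa only [ex_const hθ] using this

lemma PS_ex (hθ : θ ∈ Set.Ico (0 : ℝ) 1) (hD : D.Nonempty) (A : Finset V) (g : Finset V → ℝ)
    (l : V → ℝ) : PS G θ D A (fun x => ex G θ D x g) l = ex G θ D l g := by
  rw [planted_one hθ A (g := fun T _ => g T) fun T => BM.const _]
  exact ex_congr l fun T _ => (mk_opT hD T (ms_stT A).one).const _ _

lemma bm_two_bay (T A B : Finset V) {g : (V → ℝ) → ℝ} (hg : BM g) (l : V → ℝ) (w w' : V) :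
    BM fun q : (I × I) × (I × I) => dens (1 / 2) (ind T w) q.1.1 *
      (dens (1 / 2) (ind T w') q.2.1 * g (stT B (stT A l w q.1.1) w' q.2.1)) :=
  (bm_dens_bay T w (measurable_fst.comp measurable_fst)).mul
    ((bm_dens_bay T w' (measurable_fst.comp measurable_snd)).mul (hg.comp ((ms_stT B w').comp
      (((ms_stT A w).comp (measurable_const.prodMk (measurable_fst.comp measurable_fst))).prodMk
        (measurable_fst.comp measurable_snd)))))

lemma opT_two_bay (T A B : Finset V) {g : (V → ℝ) → ℝ} (hg : BM g) (l : V → ℝ) :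
    opT D T (one (stT A)) (opT D T (one (stT B)) g) l =
      (∑ w ∈ D, ∑ w' ∈ D, ∫ p : I × I, ∫ p' : I × I, dens (1 / 2) (ind T w) p.1 *
        (dens (1 / 2) (ind T w') p'.1 * g (stT B (stT A l w p.1) w' p'.1))) / D.card / D.card := by
  unfold opT one
  rw [Finset.sum_div _ _ (D.card : ℝ), Finset.sum_div _ _ (D.card : ℝ), Finset.sum_div]
  refine Finset.sum_congr rfl fun w _ => congrArg (· / (D.card : ℝ)) ?_
  rw [← integral_finsetSum _ fun w' _ =>
    ((bm_two_bay T A B hg l w w').integrable (Measure.prod volume volume)).integral_prod_left,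
    ← integral_div]
  simp only [integral_const_mul, ← Finset.mul_sum, mul_div_assoc]

lemma stT_comm_bay (A B : Finset V) (l : V → ℝ) (w w' : V) (y y' : I) :
    stT B (stT A l w y) w' y' = stT A (stT B l w' y') w y := by
  unfold stT
  split_ifs
  · ext z
    simp only [addf]
    ring
  all_goals rfl

lemma PS_comm (hθ : θ ∈ Set.Ico (0 : ℝ) 1) (hD : D.Nonempty) (A B : Finset V)
    {g : (V → ℝ) → ℝ} (hg : BM g) :
    PS G θ D A (PS G θ D B g) = PS G θ D B (PS G θ D A g) := by
  have e : ∀ C : Finset V, PS G θ D C g = fun x => ex G θ D x fun T =>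
      opT D T (one (stT C)) g x := fun C => funext fun x => by
    have := planted_one (G := G) (D := D) hθ C (g := fun _ => g) (fun _ => hg) x
    simpa only [ex_const hθ] using this
  ext l
  rw [e A, e B, planted_one hθ A fun T => (mk_opT hD T (ms_stT B).one).bm _ hg,
    planted_one hθ B fun T => (mk_opT hD T (ms_stT A).one).bm _ hg]
  refine ex_congr l fun T _ => ?_
  rw [opT_two_bay T A B hg, opT_two_bay T B A hg, Finset.sum_comm]
  refine congrArg (· / (D.card : ℝ) / (D.card : ℝ)) (Finset.sum_congr rfl fun w' _ =>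
    Finset.sum_congr rfl fun w _ => ?_)
  rw [integral_integral_swap ((bm_two_bay T A B hg l w w').integrable _)]
  simp only [stT_comm_bay A B, mul_left_comm (dens (1 / 2) (ind T w) _)]

end

lemma Cx.mart (h : Cx G d θ D) (x : V) (l : V → ℝ) :
    PP G θ D (fun l => mI G θ D l x) l = mI G θ D l x := by
  exact PS_ex h.theta.1 h.ne D (fun T => ind T x) l

lemma Cx.mart_Dd (h : Cx G d θ D) (x : V) (s : (V → ℝ) × (V → ℝ)) :
    P2 G θ D (fun s => Dd G θ D s x) s = Dd G θ D s x := by
  have b := bm_mI (G := G) (D := D) h.theta.1 x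
  unfold Dd
  rw [h.mk2.sub (b.comp measurable_fst) (b.comp measurable_snd)]
  have h1 := h.P2_fst (fun l => mI G θ D l x) 1 s
  have h2 := h.P2_snd (fun l => mI G θ D l x) 1 s
  rw [Function.iterate_one, Function.iterate_one, h.mart] at h1 h2
  rw [h1, h2]

lemma Cx.mart_mu (h : Cx G d θ D) (x : V) (s : (V → ℝ) × (V → ℝ)) :
    P2 G θ D (fun s => mu G θ D s.1 x) s = mu G θ D s.1 x ∧
      P2 G θ D (fun s => mu G θ D s.2 x) s = mu G θ D s.2 x := by
  have b := bm_mI (G := G) (D := D) h.theta.1 x
  have k : ∀ l, PP G θ D (fun l => mu G θ D l x) l = mu G θ D l x := fun l => by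
    unfold mu
    rw [h.mkP.sub ((BM.const 2).mul b) (BM.const 1), h.mkP.smul, h.mkP.const, h.mart]
  have h1 := h.P2_fst (fun l => mu G θ D l x) 1 s
  have h2 := h.P2_snd (fun l => mu G θ D l x) 1 s
  rw [Function.iterate_one, Function.iterate_one, k] at h1 h2
  exact ⟨h1, h2⟩

end Vale.Agent.P161E
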