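import Vale.Agent.P161E.Carl0

namespace Vale.Agent.P161E

open MeasureTheory unitInterval Classical SimpleGraph Filter Topology
open Vale.Agent.P161
open Vale.Agent.P143 (BM iidUniform)

variable {V : Type} {G : SimpleGraph V} [G.LocallyFinite] {d : ℕ} {θ : ℝ} {D : Finset V}

variable {S : Type} [MeasurableSpace S]

omit [MeasurableSpace S] in
lemma opI_semi_carl {S' : Type} {f : ℕ → S → V → I × I → S} {f' : ℕ → S' → V → I × I → S'}
    {π : S → S'} (h : ∀ i w, (∀ s p, π (f i s w p) = f' i (π s) w p) ∨
      ∀ s p, π (f i s w p) = f' i (π s) w p.swap) (n : ℕ) (g : S' → ℝ) (s : S) :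
    opI (fun i => op D (f i)) n (fun x => g (π x)) s = opI (fun i => op D (f' i)) n g (π s) := by
  induction n generalizing g with
  | zero => rfl
  | succ n ih =>
    have e : op D (f n) (fun x => g (π x)) = fun x => op D (f' n) g (π x) := by
      funext x
      unfold op
      refine congrArg (· / _) (Finset.sum_congr rfl fun w _ => ?_)
      rcases h n w with h | h
      · simp only [h]
      · simp only [h]
        exact integral_prod_swap (μ := volume) (ν := volume) fun p => g (f' n (π x) w p)
    rw [opI, opI, e, ih]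

/-- four coupled copies -/
noncomputable def four_carl (f : S → V → I → S) (A B : Finset V) (s : (S × S) × (S × S)) (w : V)
    (p : I × I) : (S × S) × (S × S) :=
  ((f s.1.1 w p.1, f s.1.2 w (if w ∈ A then p.2 else p.1)),
    (f s.2.1 w (if w ∈ B then p.2 else p.1), f s.2.2 w (if w ∈ A ∪ B then p.2 else p.1)))

lemma ms_four_carl {f : S → V → I → S} (hf : Ms1 f) (A B : Finset V) : Ms (four_carl f A B) := by
  intro w
  have h : ∀ (c : Prop) [Decidable c], Measurable fun q : ((S × S) × (S × S)) × (I × I) =>
      if c then q.2.2 else q.2.1 := by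
    intro c _
    split_ifs
    exacts [measurable_snd.snd, measurable_snd.fst]
  exact (((hf w).comp (measurable_fst.fst.fst.prodMk measurable_snd.fst)).prodMk
    ((hf w).comp (measurable_fst.fst.snd.prodMk (h _)))).prodMk
    (((hf w).comp (measurable_fst.snd.fst.prodMk (h _))).prodMk
      ((hf w).comp (measurable_fst.snd.snd.prodMk (h _))))

lemma bm_diff_carl {S' : Type} [MeasurableSpace S'] {F : S → ℝ} (hF : BM F) {a b : S' → S}
    (ha : Measurable a) (hb : Measurable b) : BM fun x => (F (a x) - F (b x)) ^ 2 :=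
  bm_pow ((hF.comp ha).sub (hF.comp hb)) 2

/-- two-block subadditivity (Efron–Stein); use the four-fold chain and its two swap symmetries -/
theorem es_two {f : S → V → I → S} (hD : D.Nonempty) (hf : Ms1 f) {F : S → ℝ} (hF : BM F)
    (A B : ℕ → Finset V) (hAB : ∀ i, Disjoint (A i) (B i)) (n : ℕ) (s : S) :
    opI (fun i => op D (pr f (A i ∪ B i))) n (fun x => (F x.1 - F x.2) ^ 2) (s, s) ≤
      opI (fun i => op D (pr f (A i))) n (fun x => (F x.1 - F x.2) ^ 2) (s, s) +
      opI (fun i => op D (pr f (B i))) n (fun x => (F x.1 - F x.2) ^ 2) (s, s) := by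
  have h := MK.opI (fun i => mk_op hD (ms_four_carl hf (A i) (B i))) n
  have hn : ∀ i w, w ∈ A i → w ∉ B i := fun i w => fun h => Finset.disjoint_left.1 (hAB i) h
  have e1 := opI_semi_carl (D := D) (f := fun i => four_carl f (A i) (B i))
    (f' := fun i => pr f (A i)) (π := fun x => (x.1.1, x.1.2))
    (fun i w => Or.inl fun _ _ => rfl) n (fun x => (F x.1 - F x.2) ^ 2) ((s, s), (s, s))
  have e2 := opI_semi_carl (D := D) (f := fun i => four_carl f (A i) (B i))
    (f' := fun i => pr f (B i)) (π := fun x => (x.1.1, x.2.1))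
    (fun i w => Or.inl fun _ _ => rfl) n (fun x => (F x.1 - F x.2) ^ 2) ((s, s), (s, s))
  have e3 := opI_semi_carl (D := D) (f := fun i => four_carl f (A i) (B i))
    (f' := fun i => pr f (A i ∪ B i)) (π := fun x => (x.1.1, x.2.2))
    (fun i w => Or.inl fun _ _ => rfl) n (fun x => (F x.1 - F x.2) ^ 2) ((s, s), (s, s))
  have e4 := opI_semi_carl (D := D) (f := fun i => four_carl f (A i) (B i))
    (f' := fun i => pr f (A i)) (π := fun x => (x.2.1, x.2.2))
    (fun i w => by
      by_cases hb : w ∈ B i
      · have ha : w ∉ A i := fun ha => hn i w ha hb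
        exact Or.inr fun _ _ => by simp [four_carl, pr, ha, hb]
      · exact Or.inl fun _ _ => by simp [four_carl, pr, hb])
    n (fun x => (F x.1 - F x.2) ^ 2) ((s, s), (s, s))
  have e5 := opI_semi_carl (D := D) (f := fun i => four_carl f (A i) (B i))
    (f' := fun i => pr f (B i)) (π := fun x => (x.1.2, x.2.2))
    (fun i w => by
      by_cases ha : w ∈ A i
      · exact Or.inr fun _ _ => by simp [four_carl, pr, ha, hn i w ha]
      · exact Or.inl fun _ _ => by simp [four_carl, pr, ha])
    n (fun x => (F x.1 - F x.2) ^ 2) ((s, s), (s, s))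
  have e6 := opI_semi_carl (D := D) (f := fun i => four_carl f (A i) (B i))
    (f' := fun i => pr f (A i ∪ B i)) (π := fun x => (x.1.2, x.2.1))
    (fun i w => by
      by_cases ha : w ∈ A i
      · exact Or.inr fun _ _ => by simp [four_carl, pr, ha, hn i w ha]
      · exact Or.inl fun _ _ => by simp [four_carl, pr, ha])
    n (fun x => (F x.1 - F x.2) ^ 2) ((s, s), (s, s))
  have m1 : Measurable fun x : (S × S) × (S × S) => x.1.1 := measurable_fst.fst
  have m2 : Measurable fun x : (S × S) × (S × S) => x.1.2 := measurable_fst.snd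
  have m3 : Measurable fun x : (S × S) × (S × S) => x.2.1 := measurable_snd.fst
  have m4 : Measurable fun x : (S × S) × (S × S) => x.2.2 := measurable_snd.snd
  have b1 := bm_diff_carl hF m1 m2
  have b2 := bm_diff_carl hF m1 m3
  have b3 := bm_diff_carl hF m1 m4
  have b4 := bm_diff_carl hF m3 m4
  have b5 := bm_diff_carl hF m2 m4
  have b6 := bm_diff_carl hF m2 m3
  have k := h.mono _ _ (b3.add b6) ((b1.add b4).add (b2.add b5)) (fun x => by
    nlinarith [sq_nonneg (F x.1.1 - F x.1.2 - F x.2.1 + F x.2.2)]) ((s, s), (s, s))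
  rw [h.add _ _ b3 b6, h.add _ _ (b1.add b4) (b2.add b5), h.add _ _ b1 b4, h.add _ _ b2 b5,
    e1, e2, e3, e4, e5, e6] at k
  linarith

omit [MeasurableSpace S] in
lemma diag_carl {f : S → V → I → S} (g : S × S → ℝ) (n : ℕ) (s : S) :
    (op D (pr f ∅))^[n] g (s, s) = (op D (one f))^[n] (fun l => g (l, l)) s :=
  (op_semi (f := one f) (f' := pr f ∅) (π := fun l => (l, l))
    (fun _ _ _ _ => by simp [one, pr]) g n s).symm

lemma diag_zero_carl {f : S → V → I → S} (hD : D.Nonempty) (hf : Ms1 f) (F : S → ℝ) (n : ℕ)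
    (s : S) : (op D (pr f ∅))^[n] (fun x => (F x.1 - F x.2) ^ 2) (s, s) = 0 := by
  rw [diag_carl]
  simpa using ((mk_op hD hf.one).iter n).const 0 s

theorem es_one {f : S → V → I → S} (hD : D.Nonempty) (hf : Ms1 f) {F : S → ℝ} (hF : BM F)
    (A : Finset V) (n : ℕ) (s : S) :
    (op D (pr f A))^[n] (fun x => (F x.1 - F x.2) ^ 2) (s, s) ≤
      ∑ u ∈ A, (op D (pr f {u}))^[n] (fun x => (F x.1 - F x.2) ^ 2) (s, s) := by
  induction A using Finset.induction_on with
  | empty => rw [diag_zero_carl hD hf, Finset.sum_empty]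
  | insert u A hu ih =>
    have h := es_two hD hf hF (fun _ => {u}) (fun _ => A)
      (fun _ => Finset.disjoint_singleton_left.2 hu) n s
    rw [opI_const, opI_const, opI_const, ← Finset.insert_eq] at h
    rw [Finset.sum_insert hu]
    linarith

omit [MeasurableSpace S] in
lemma opI_congr_carl {E E' : ℕ → (S → ℝ) → S → ℝ} (n : ℕ) (h : ∀ i < n, E i = E' i) (g : S → ℝ) :
    opI E n g = opI E' n g := by
  induction n generalizing g with
  | zero => rfl
  | succ n ih => rw [opI, opI, h n (by omega), ih fun i hi => h i (by omega)]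

theorem es_event {f : S → V → I → S} (hD : D.Nonempty) (hf : Ms1 f) {F : S → ℝ} (hF : BM F)
    {u : V} (hu : u ∈ D) (n : ℕ) (s : S) :
    (op D (pr f {u}))^[n] (fun x => (F x.1 - F x.2) ^ 2) (s, s) ≤
      ∑ j ∈ Finset.range n, (op D (one f))^[j] (fun l => (∫ p : I × I,
        (op D (pr f ∅))^[n - 1 - j] (fun x => (F x.1 - F x.2) ^ 2) (f l u p.1, f l u p.2)) /
          D.card) s := by
  have key : ∀ m, opI (fun i => op D (pr f (if i < m then {u} else ∅))) n
      (fun x => (F x.1 - F x.2) ^ 2) (s, s) ≤ ∑ j ∈ Finset.range m,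
        opI (fun i => op D (pr f (if i = j then {u} else ∅))) n
          (fun x => (F x.1 - F x.2) ^ 2) (s, s) := by
    intro m
    induction m with
    | zero =>
      simp only [Nat.not_lt_zero, if_false]
      rw [opI_const, diag_zero_carl hD hf, Finset.sum_range_zero]
    | succ m ih =>
      have h := es_two hD hf hF (fun i => if i < m then {u} else ∅)
        (fun i => if i = m then {u} else ∅) (fun i => by
          split_ifs with h1 h2
          · omega
          all_goals simp) n s
      have e : ∀ i, ((if i < m then {u} else ∅) ∪ (if i = m then {u} else ∅) : Finset V) =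
          if i < m + 1 then {u} else ∅ := by
        intro i
        split_ifs <;> first | omega | simp
      simp only [e] at h
      rw [Finset.sum_range_succ]
      linarith
  have h := key n
  rw [opI_congr_carl (E' := fun _ => op D (pr f {u})) n (fun i hi => by rw [if_pos hi]),
    opI_const] at h
  refine h.trans_eq (Finset.sum_congr rfl fun j hj => ?_)
  rw [opI_congr_carl (E' := fun i => if i = j then op D (pr f {u}) else op D (pr f ∅)) n
    (fun i _ => by split_ifs <;> rfl), opI_single _ _ (Finset.mem_range.1 hj), diag_carl]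
  refine congrArg (fun g => (op D (one f))^[j] g s) (funext fun l => ?_)
  rw [op, Finset.sum_eq_single_of_mem u hu]
  · simp [pr]
  · intro w _ hw
    simp only [pr, Finset.mem_singleton, hw, if_false, diag_zero_carl hD hf, integral_zero]

end Vale.Agent.P161E
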