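import Vale.Agent.P161E.Op

namespace Vale.Agent.P161E

open MeasureTheory unitInterval Classical SimpleGraph Filter Topology
open Vale.Agent.P161
open Vale.Agent.P143 (BM iidUniform)

variable {V : Type} {G : SimpleGraph V} [G.LocallyFinite] {d : ℕ} {θ : ℝ} {D : Finset V}

variable {S : Type} [MeasurableSpace S] {E : (S → ℝ) → S → ℝ}

lemma MK.lin3_carl (h : MK E) {P Q R : S → ℝ} (hP : BM P) (hQ : BM Q) (hR : BM R) (a b c e : ℝ)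
    (s : S) : E (fun x => a * P x + b * Q x + c * R x + e) s =
      a * E P s + b * E Q s + c * E R s + e := by
  have h1 := (BM.const a).mul hP
  have h2 := (BM.const b).mul hQ
  have h3 := (BM.const c).mul hR
  rw [h.add _ _ ((h1.add h2).add h3) (BM.const e), h.add _ _ (h1.add h2) h3, h.add _ _ h1 h2,
    h.smul, h.smul, h.smul, h.const]

lemma tangent_carl {c a a₀ : ℝ} (hc : 0 < c) (h0 : 0 ≤ a) (h1 : a ≤ c) (h2 : 0 ≤ a₀) (h3 : a₀ ≤ c)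
    (m m₀ : ℝ) : (12 * c ^ 2 - 3 * c * a₀ + a₀ ^ 2) * m₀ ^ 2 + (2 * a₀ - 3 * c) * m₀ ^ 2 * (a - a₀)
      + 2 * (12 * c ^ 2 - 3 * c * a₀ + a₀ ^ 2) * m₀ * (m - m₀) ≤
      (12 * c ^ 2 - 3 * c * a + a ^ 2) * m ^ 2 := by
  have hG : 0 < 12 * c ^ 2 - 3 * c * a + a ^ 2 := by nlinarith
  have h4 : 0 ≤ (12 * c ^ 2 - 3 * c * a₀ + a₀ ^ 2) - (2 * a₀ - 3 * c) ^ 2
      - (2 * a₀ - 3 * c) * (a - a₀) := by
    nlinarith [mul_nonneg h0 (show 0 ≤ 3 * c - 2 * a₀ by linarith),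
      mul_nonneg h2 (show 0 ≤ 6 * c - a₀ by linarith)]
  refine le_of_mul_le_mul_left ?_ hG
  nlinarith [mul_nonneg (mul_nonneg h4 (sq_nonneg (a - a₀))) (sq_nonneg m₀),
    sq_nonneg ((12 * c ^ 2 - 3 * c * a + a ^ 2) * m - (12 * c ^ 2 - 3 * c * a₀ + a₀ ^ 2) * m₀)]

lemma MK.sum_succ_carl (h : MK E) {g : S → ℝ} (hg : BM g) (k : ℕ) (s : S) :
    ∑ j ∈ Finset.range (k + 1), E^[j] g s =
      g s + E (fun x => ∑ j ∈ Finset.range k, E^[j] g x) s := by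
  rw [Finset.sum_range_succ', h.sum _ fun j _ => (h.iter j).bm g hg, add_comm]
  simp only [Function.iterate_succ_apply', Function.iterate_zero, id]

/-- Carleson embedding. Bellman function `ψ k = 3 α k - α k ^ 2 / c`, `α k = ∑ j < k, E^[j] A`:
prove `∑ j < k, E^[j] (A M²) ≤ ψ k M² + 12 c (E^[k] M² - M²)` by induction on `k`. -/
theorem carleson (h : MK E) {M A : S → ℝ} (hM : BM M) (hA : BM A) (mart : ∀ s, E M s = M s)
    (A0 : ∀ s, 0 ≤ A s) {c : ℝ} (hc : 0 < c) {n : ℕ}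
    (H : ∀ k ≤ n, ∀ s, ∑ j ∈ Finset.range k, E^[j] A s ≤ c) (s : S) :
    ∑ j ∈ Finset.range n, E^[j] (fun x => A x * M x ^ 2) s ≤
      12 * c * E^[n] (fun x => M x ^ 2) s := by
  have hM2 : BM fun x => M x ^ 2 := bm_pow hM 2
  have hAM : BM fun x => A x * M x ^ 2 := hA.mul hM2
  have hα0 : ∀ k s, 0 ≤ ∑ j ∈ Finset.range k, E^[j] A s := fun k s =>
    Finset.sum_nonneg fun j _ => (h.iter j).nonneg hA A0 s
  have key : ∀ k ≤ n, ∀ s, c * ∑ j ∈ Finset.range k, E^[j] (fun x => A x * M x ^ 2) s ≤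
      12 * c ^ 2 * E^[k] (fun x => M x ^ 2) s - (12 * c ^ 2 - 3 * c *
        (∑ j ∈ Finset.range k, E^[j] A s) + (∑ j ∈ Finset.range k, E^[j] A s) ^ 2) * M s ^ 2 := by
    intro k
    induction k with
    | zero => intro _ s; simp
    | succ k ih =>
      intro hk s
      have hb : BM fun x => ∑ j ∈ Finset.range k, E^[j] A x :=
        BM.sum _ fun j _ => (h.iter j).bm A hA
      have hL : BM fun x => ∑ j ∈ Finset.range k, E^[j] (fun x => A x * M x ^ 2) x :=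
        BM.sum _ fun j _ => (h.iter j).bm _ hAM
      have hP := (h.iter k).bm _ hM2
      have h1 := H (k + 1) hk s
      rw [h.sum_succ_carl hA] at h1
      rw [h.sum_succ_carl hA, h.sum_succ_carl hAM, Function.iterate_succ_apply']
      have h2 := h.nonneg hb (hα0 k) s
      generalize ha₀ : E (fun x => ∑ j ∈ Finset.range k, E^[j] A x) s = a₀ at h1 h2
      have h3 := h.mono _ (fun x => 12 * c ^ 2 * E^[k] (fun x => M x ^ 2) x +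
          (-((2 * a₀ - 3 * c) * M s ^ 2)) * (∑ j ∈ Finset.range k, E^[j] A x) +
          (-(2 * (12 * c ^ 2 - 3 * c * a₀ + a₀ ^ 2) * M s)) * M x +
          ((12 * c ^ 2 - 3 * c * a₀ + a₀ ^ 2) * M s ^ 2 + (2 * a₀ - 3 * c) * M s ^ 2 * a₀))
        ((BM.const c).mul hL) (((((BM.const _).mul hP).add ((BM.const _).mul hb)).add
          ((BM.const _).mul hM)).add (BM.const _)) (fun x => by
            have h4 := ih (by omega) x
            have h5 := tangent_carl hc (hα0 k x) (H k (by omega) x) h2 (by linarith [A0 s])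
              (M x) (M s)
            linarith) s
      rw [h.lin3_carl hP hb hM, h.smul, ha₀, mart] at h3
      have h6 : 0 ≤ A s * (2 * c - 2 * a₀ - A s) * M s ^ 2 :=
        mul_nonneg (mul_nonneg (A0 s) (by linarith [A0 s])) (sq_nonneg _)
      nlinarith
  have h1 := key n le_rfl s
  have h2 := hα0 n s
  have h3 := H n le_rfl s
  refine le_of_mul_le_mul_left ?_ hc
  generalize ∑ j ∈ Finset.range n, E^[j] A s = a at h1 h2 h3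
  have h4 : 0 ≤ (12 * c ^ 2 - 3 * c * a + a ^ 2) * M s ^ 2 :=
    mul_nonneg (by nlinarith) (sq_nonneg _)
  nlinarith

lemma point_carl {φ ψ K a₀ b₀ a b α β : ℝ} (hφ : 0 < φ) (hK : 0 ≤ K) (hψ : ψ ≤ K * φ)
    (hα : (a - a₀) ^ 2 ≤ α) (hβ : (b - b₀) ^ 2 ≤ β) :
    ψ * (a * b) ^ 2 - ((a₀ * b₀) ^ 2 / (2 * φ) * ψ ^ 2 + 2 * φ * (a₀ * b₀) * b₀ * a +
      2 * φ * (a₀ * b₀) * a₀ * b + (φ * (a₀ * b₀) ^ 2 / 2 - 4 * φ * (a₀ * b₀) ^ 2)) ≤
      φ * (7 + 3 * K) * (a₀ ^ 2 * β + b₀ ^ 2 * α + α * β) := by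
  obtain ⟨u, rfl⟩ : ∃ u, a = a₀ + u := ⟨a - a₀, by ring⟩
  obtain ⟨v, rfl⟩ : ∃ v, b = b₀ + v := ⟨b - b₀, by ring⟩
  rw [add_sub_cancel_left] at hα hβ
  obtain ⟨ξ, hξ⟩ : ∃ ξ, ξ = a₀ * v + b₀ * u + u * v := ⟨_, rfl⟩
  obtain ⟨T, hT⟩ : ∃ T, T = a₀ ^ 2 * β + b₀ ^ 2 * α + α * β := ⟨_, rfl⟩
  have hα0 : 0 ≤ α := (sq_nonneg _).trans hα
  have t1 : a₀ ^ 2 * v ^ 2 ≤ a₀ ^ 2 * β := mul_le_mul_of_nonneg_left hβ (sq_nonneg _)
  have t2 : b₀ ^ 2 * u ^ 2 ≤ b₀ ^ 2 * α := mul_le_mul_of_nonneg_left hα (sq_nonneg _)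
  have t3 : u ^ 2 * v ^ 2 ≤ α * β := mul_le_mul hα hβ (sq_nonneg _) hα0
  have t4 : 0 ≤ u ^ 2 * v ^ 2 := by positivity
  have h1 : ξ ^ 2 ≤ 3 * T := by
    rw [hξ, hT]
    nlinarith [sq_nonneg (a₀ * v - b₀ * u), sq_nonneg (a₀ * v - u * v), sq_nonneg (b₀ * u - u * v)]
  have h2 : 2 * (a₀ * b₀) * (u * v) ≤ T := by
    rw [hT]
    nlinarith [sq_nonneg (a₀ * v - b₀ * u)]
  have e1 : (a₀ + u) * (b₀ + v) = a₀ * b₀ + ξ := by rw [hξ]; ring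
  have e2 : 2 * φ * (a₀ * b₀) * b₀ * (a₀ + u) + 2 * φ * (a₀ * b₀) * a₀ * (b₀ + v) =
      4 * φ * (a₀ * b₀) ^ 2 + 2 * φ * (a₀ * b₀) * ξ - φ * (2 * (a₀ * b₀) * (u * v)) := by
    rw [hξ]; ring
  rw [e1, ← hT, add_assoc _ (2 * φ * (a₀ * b₀) * b₀ * (a₀ + u)), e2]
  generalize a₀ * b₀ = N at *
  have h3 : 2 * (ψ - φ) * N * ξ ≤ N ^ 2 * (ψ - φ) ^ 2 / (2 * φ) + 2 * φ * ξ ^ 2 := by
    rw [← sub_nonneg]
    have : N ^ 2 * (ψ - φ) ^ 2 / (2 * φ) + 2 * φ * ξ ^ 2 - 2 * (ψ - φ) * N * ξ =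
        (N * (ψ - φ) - 2 * φ * ξ) ^ 2 / (2 * φ) := by
      field_simp
      ring
    rw [this]
    positivity
  have e3 : N ^ 2 / (2 * φ) * ψ ^ 2 =
      N ^ 2 * (ψ - φ) ^ 2 / (2 * φ) + N ^ 2 * ψ - φ * N ^ 2 / 2 := by
    field_simp
    ring
  have h4 : ψ * ξ ^ 2 ≤ K * φ * ξ ^ 2 := mul_le_mul_of_nonneg_right hψ (sq_nonneg _)
  have h5 : (2 + K) * φ * ξ ^ 2 ≤ (2 + K) * φ * (3 * T) :=
    mul_le_mul_of_nonneg_left h1 (by positivity)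
  have h6 := mul_le_mul_of_nonneg_left h2 hφ.le
  rw [e3]
  nlinarith

/-- weighted one-step inequality. With `φ' = √Φ`, `φ = √(op Φ s)`, `ξ = a b - a s * b s`:
pointwise `φ' (a b)² ≤ φ N² + N² (Φ - φ²) / (2 φ) + 2 φ N ξ + (2 + K) φ ξ²`, `N = a s * b s`;
then `ξ = a₀ δb + b₀ δa + δa δb`, and `δa`, `δb` have mean zero. -/
theorem weighted {f : S → V → I × I → S} (hD : D.Nonempty) (hf : Ms f) {Φ a b : S → ℝ}
    (hΦ : BM Φ) (ha : BM a) (hb : BM b) (Φ1 : ∀ x, 1 ≤ Φ x) {s : S}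
    (ma : op D f a s = a s) (mb : op D f b s = b s) {K : ℝ} (hK : 0 ≤ K)
    (rat : ∀ w ∈ D, ∀ p, Φ (f s w p) ≤ K ^ 2 * op D f Φ s) {α β : V → ℝ}
    (hα : ∀ w ∈ D, ∀ p, (a (f s w p) - a s) ^ 2 ≤ α w)
    (hβ : ∀ w ∈ D, ∀ p, (b (f s w p) - b s) ^ 2 ≤ β w) :
    op D f (fun x => √(Φ x) * (a x * b x) ^ 2) s ≤ √(op D f Φ s) * ((a s * b s) ^ 2 +
      (7 + 3 * K) / D.card * ∑ w ∈ D, (a s ^ 2 * β w + b s ^ 2 * α w + α w * β w)) := by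
  have h := mk_op hD hf
  have h1 : 1 ≤ op D f Φ s := by
    have := h.mono _ _ (BM.const 1) hΦ Φ1 s
    rwa [h.const] at this
  have hφ : 0 < √(op D f Φ s) := Real.sqrt_pos.2 (by linarith)
  have hsq : √(op D f Φ s) ^ 2 = op D f Φ s := Real.sq_sqrt (by linarith)
  have hr : ∀ w ∈ D, ∀ p, √(Φ (f s w p)) ≤ K * √(op D f Φ s) := fun w hw p => by
    refine Real.sqrt_le_iff.2 ⟨by positivity, ?_⟩
    rw [mul_pow, hsq]
    exact rat w hw p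
  generalize √(op D f Φ s) = φ at hφ hsq hr
  have b1 : BM fun x => √(Φ x) * (a x * b x) ^ 2 := (bm_sqrt hΦ).mul (bm_pow (ha.mul hb) 2)
  have b2 : BM fun x => (a s * b s) ^ 2 / (2 * φ) * Φ x + 2 * φ * (a s * b s) * b s * a x +
      2 * φ * (a s * b s) * a s * b x + (φ * (a s * b s) ^ 2 / 2 - 4 * φ * (a s * b s) ^ 2) :=
    ((((BM.const _).mul hΦ).add ((BM.const _).mul ha)).add ((BM.const _).mul hb)).add (BM.const _)
  have h2 := op_le_sum hf (b1.sub b2) (s := s)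
    (b := fun w => φ * (7 + 3 * K) * (a s ^ 2 * β w + b s ^ 2 * α w + α w * β w)) fun w hw p => by
      have h3 := point_carl hφ hK (hr w hw p) (hα w hw p) (hβ w hw p)
      rwa [Real.sq_sqrt (by linarith [Φ1 (f s w p)])] at h3
  rw [h.sub b1 b2, h.lin3_carl hΦ ha hb, ma, mb, ← hsq, ← Finset.mul_sum] at h2
  have e : (a s * b s) ^ 2 / (2 * φ) * φ ^ 2 = φ * (a s * b s) ^ 2 / 2 := by
    field_simp
  rw [e] at h2
  have e2 : ∀ T : ℝ, φ * (7 + 3 * K) * T / D.card = φ * ((7 + 3 * K) / D.card * T) := fun T => by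
    ring
  rw [e2] at h2
  linarith

end Vale.Agent.P161E
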