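import Vale.Agent.P161E.Bay
import Vale.Agent.P161E.Num

namespace Vale.Agent.P161E

open MeasureTheory unitInterval Classical SimpleGraph Filter Topology
open Vale.Agent.P161
open Vale.Agent.P143 (BM iidUniform)

variable {V : Type} {G : SimpleGraph V} [G.LocallyFinite] {d : ℕ} {θ : ℝ} {D : Finset V}

noncomputable def ut (G : SimpleGraph V) (θ : ℝ) (D D' : Finset V) (l : V → ℝ) (w : V) (y : ℝ) : I :=
  Set.projIcc 0 1 zero_le_one (cdfF (1 / 2) (mI G θ D' (rs D l) w) y)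

/-- auxiliary update: on `B` use the innovation of the small volume, elsewhere a fresh uniform -/
noncomputable def hA (G : SimpleGraph V) (θ : ℝ) (D D' B : Finset V) (s : (V → ℝ) × (V → ℝ))
    (w : V) (y : ℝ) (v : I) : V → ℝ :=
  stp G θ D' s.2 w (if w ∈ B then ut G θ D D' s.1 w y else v)

/-- chain B: small volume posterior, and a large volume chain resampled outside `B` -/
noncomputable def chB (G : SimpleGraph V) (θ : ℝ) (D D' B : Finset V) (s : (V → ℝ) × (V → ℝ))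
    (w : V) (p : I × I) : (V → ℝ) × (V → ℝ) :=
  (stA G θ D' D s.1 w p.1, stp G θ D' s.2 w (if w ∈ B then p.1 else p.2))

section aux
omit [G.LocallyFinite]

lemma he_cmp : (1 / 2 : ℝ) ∈ Set.Ioc (0 : ℝ) (1 / 2) := ⟨by norm_num, le_rfl⟩

lemma le_of_sq_le_sq_cmp {a b : ℝ} (h : a ^ 2 ≤ b ^ 2) (hb : 0 ≤ b) : a ≤ b :=
  (le_abs_self a).trans (abs_le_of_sq_le_sq' h hb |> abs_le.2)

lemma ms_ite_cmp {X Y : Type} [MeasurableSpace X] [MeasurableSpace Y] (c : Prop) [Decidable c]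
    {f g : X → Y} (hf : Measurable f) (hg : Measurable g) :
    Measurable fun q => if c then f q else g q := by
  split_ifs <;> assumption

lemma rs_addf_cmp (l : V → ℝ) (w : V) (t : ℝ) :
    rs D (addf l w t) = if w ∈ D then addf (rs D l) w t else rs D l := by
  funext z
  by_cases hw : w ∈ D <;> by_cases hz : z ∈ D <;> by_cases e : z = w <;>
    simp_all [rs, addf]

lemma opT_semi_cmp {S S' : Type} (T : Finset V) {f : S → V → I × I → S}
    {f' : S' → V → I × I → S'} {π : S → S'}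
    (h : ∀ s, ∀ w ∈ D, ∀ p, π (f s w p) = f' (π s) w p) (g : S' → ℝ) (n : ℕ) (s : S) :
    (opT D T f)^[n] (fun x => g (π x)) s = (opT D T f')^[n] g (π s) := by
  induction n generalizing s with
  | zero => rfl
  | succ n ih =>
    rw [Function.iterate_succ_apply', Function.iterate_succ_apply', funext ih]
    unfold opT
    congr 1
    exact Finset.sum_congr rfl fun w hw => by simp only [h s w hw]

lemma ms_ut_cmp {X : Type} [MeasurableSpace X] {l : X → V → ℝ} (hθ : θ ∈ Set.Ico (0 : ℝ) 1)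
    (hl : Measurable l) {y : X → ℝ} (hy : Measurable y) (w : V) : Measurable fun q =>
      Set.projIcc (0 : ℝ) 1 zero_le_one (cdfF (1 / 2) (mI G θ D (l q) w) (y q)) := by
  refine continuous_projIcc.measurable.comp ?_
  have := ((bm_mI (G := G) (D := D) hθ w).comp hl).meas
  unfold cdfF
  fun_prop

noncomputable def hB (G : SimpleGraph V) (θ : ℝ) (D' B : Finset V) (s : (V → ℝ) × (V → ℝ))
    (w : V) (y : ℝ) (v : I) : V → ℝ :=
  stp G θ D' s.2 w (if w ∈ B then
    Set.projIcc (0 : ℝ) 1 zero_le_one (cdfF (1 / 2) (mI G θ D' s.1 w) y) else v)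

lemma ms_hB (hθ : θ ∈ Set.Ico (0 : ℝ) 1) (D' B : Finset V) (w : V) :
    Measurable fun q : ((V → ℝ) × (V → ℝ)) × ℝ × I => hB G θ D' B q.1 w q.2.1 q.2.2 := by
  exact (ms_stp w).comp (measurable_fst.snd.prodMk (ms_ite_cmp _
    (ms_ut_cmp hθ measurable_fst.fst measurable_snd.fst w) measurable_snd.snd))

lemma ms_hA (hθ : θ ∈ Set.Ico (0 : ℝ) 1) (D D' B : Finset V) (w : V) :
    Measurable fun q : ((V → ℝ) × (V → ℝ)) × ℝ × I => hA G θ D D' B q.1 w q.2.1 q.2.2 := by
  exact (ms_stp w).comp (measurable_fst.snd.prodMk (ms_ite_cmp _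
    (ms_ut_cmp hθ (measurable_rs.comp measurable_fst.fst) measurable_snd.fst w) measurable_snd.snd))

lemma chB_eq (hθ : θ ∈ Set.Ico (0 : ℝ) 1) {D' B : Finset V} (hB' : B ⊆ D) :
    chB G θ D D' B = ax G θ D' D (hB G θ D' B) := by
  funext s w p
  unfold chB ax hB
  by_cases hw : w ∈ B
  · simp only [if_pos hw, if_pos (hB' hw), (Qf_spec he_cmp (mI_mem hθ _ _ _) p.1.2).2,
      Set.projIcc_val]
  · simp only [if_neg hw]

lemma rs_zero_cmp : rs D (0 : V → ℝ) = 0 := by
  funext z; simp [rs]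

end aux

/-- law identity, from `planted_aux` applied to both chains -/
lemma Cx.law_AB {D' B : Finset V} (h : Cx G d θ D') (hsub : D ⊆ D') (hB : B ⊆ D)
    {g : (V → ℝ) × (V → ℝ) → ℝ} (hg : BM g) (n : ℕ) :
    (op D' (ax G θ D' D' (hA G θ D D' B)))^[n] (fun s => g (rs D s.1, s.2)) (0, 0) =
      (op D' (chB G θ D D' B))^[n] g (0, 0) := by
  have hθ := h.theta.1
  rw [chB_eq hθ hB, planted_aux hθ h.ne D (ms_hB hθ D' B) hg,
    planted_aux hθ h.ne D' (ms_hA hθ D D' B) (g := fun s => g (rs D s.1, s.2))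
      (hg.comp ((measurable_rs.comp measurable_fst).prodMk measurable_snd))]
  congr 1
  funext T
  rw [opT_semi_cmp T (π := fun s : (V → ℝ) × (V → ℝ) => (rs D s.1, s.2))
    (f' := axT D (P161E.hB G θ D' B)) ?_ g n, rs_zero_cmp]
  intro s w hw p
  unfold axT stT hA P161E.hB ut
  simp only [if_pos hw, rs_addf_cmp]
  by_cases hb : w ∈ B
  · simp only [if_pos hb, if_pos (hB hb)]
  · simp only [if_neg hb]

section aux2
omit [G.LocallyFinite]
variable {S : Type}

/-- add a copy of the big chain resampled off `B` -/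
noncomputable def x3 (G : SimpleGraph V) (θ : ℝ) (D B : Finset V) (F : S → V → I × I → S)
    (s : S × (V → ℝ)) (w : V) (p : I × I) : S × (V → ℝ) :=
  (F s.1 w p, stp G θ D s.2 w (if w ∈ B then p.1 else p.2))

lemma x3_fst (B : Finset V) (F : S → V → I × I → S) (g : S → ℝ) (n : ℕ) (s : S × (V → ℝ)) :
    (op D (x3 G θ D B F))^[n] (fun s => g s.1) s = (op D F)^[n] g s.1 :=
  op_semi (π := Prod.fst) (fun _ _ _ _ => rfl) g n s

lemma int_snd_cmp (k : I → ℝ) : ∫ p : I × I, k p.2 = ∫ p : I × I, k p.1 :=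
  integral_prod_swap (μ := volume) (ν := volume) fun p : I × I => k p.1

lemma x3_snd (B : Finset V) (F : S → V → I × I → S) (g : (V → ℝ) → ℝ) (n : ℕ)
    (s : S × (V → ℝ)) :
    (op D (x3 G θ D B F))^[n] (fun s => g s.2) s = (PP G θ D)^[n] g s.2 := by
  induction n generalizing s with
  | zero => rfl
  | succ n ih =>
    rw [Function.iterate_succ_apply', Function.iterate_succ_apply', funext ih]
    unfold PP op
    congr 1
    refine Finset.sum_congr rfl fun w _ => ?_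
    unfold x3 one
    split_ifs
    · rfl
    · exact int_snd_cmp fun u => (op D fun s w p => stp G θ D s w p.1)^[n] g (stp G θ D s.2 w u)

variable [MeasurableSpace S]

lemma ms_x3 (B : Finset V) {F : S → V → I × I → S} (hF : Ms F) : Ms (x3 G θ D B F) := by
  intro w
  exact ((hF w).comp (measurable_fst.fst.prodMk measurable_snd)).prodMk
    ((ms_stp w).comp (measurable_fst.snd.prodMk
      (ms_ite_cmp _ measurable_snd.fst measurable_snd.snd)))

lemma duhamel_cmp {E : (S → ℝ) → S → ℝ} (h : MK E) {a : ℕ → S → ℝ} {b : S → ℝ}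
    (ha : ∀ k, BM (a k)) (hb : BM b) {m : ℕ} (H : ∀ k < m, ∀ s, E (a k) s ≤ a (k + 1) s + b s)
    (n k : ℕ) (hk : k + n ≤ m) (s : S) :
    E^[n] (a k) s ≤ a (k + n) s + ∑ j ∈ Finset.range n, E^[j] b s := by
  induction n generalizing k with
  | zero => simp
  | succ n ih =>
    rw [Function.iterate_succ_apply, Finset.sum_range_succ]
    refine ((h.iter n).mono _ _ (h.bm _ (ha k)) ((ha _).add hb) (H k (by omega)) s).trans ?_
    rw [(h.iter n).add _ _ (ha _) hb, show k + (n + 1) = k + 1 + n by omega]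
    linarith [ih (k + 1) (by omega)]

end aux2

lemma Cx.x3_pair {S : Type} [MeasurableSpace S] (h : Cx G d θ D) (B : Finset V)
    {F : S → V → I × I → S} {φ : S → V → ℝ}
    (hφ : ∀ s, ∀ w ∈ D, ∀ p, φ (F s w p) = stp G θ D (φ s) w p.1) {s : S} (h0 : φ s = 0) (x : V)
    (n : ℕ) : (op D (x3 G θ D B F))^[n] (fun s => |Dd G θ D (φ s.1, s.2) x|) (s, 0) ≤
      √(ESn G θ D x (D \ B) n) := by
  rw [op_semi (π := fun s : S × (V → ℝ) => (φ s.1, s.2)) (f' := pr (stp G θ D) (D \ B)) ?_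
    (fun s => |Dd G θ D s x|) n, h0]
  · exact ((mk_op h.ne (ms_stp.pr _)).iter n).abs_le_sqrt (h.bm_Dd x) _
  · intro s w hw p
    unfold x3 pr
    by_cases hb : w ∈ B <;> simp [hφ s.1 w hw, hb, hw]

lemma Cx.dk_tri (h : Cx G d θ D) (x : V) (k : ℕ) (a b c : V → ℝ) :
    (P2 G θ D)^[k] (fun s => |Dd G θ D s x|) (a, c) ≤
      (P2 G θ D)^[k] (fun s => |Dd G θ D s x|) (a, b) +
        (P2 G θ D)^[k] (fun s => |Dd G θ D s x|) (b, c) := by
  induction k generalizing a b c with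
  | zero => exact abs_sub_le _ _ _
  | succ k ih =>
    simp only [Function.iterate_succ_apply']
    have bd := (h.mk2.iter k).bm _ (h.bm_Dd x).abs
    generalize (P2 G θ D)^[k] (fun s => |Dd G θ D s x|) = f at ih bd
    have bi : ∀ s w, Integrable fun p : I × I => f (pr (stp G θ D) ∅ s w p) := fun s w =>
      (bd.comp (((ms_stp.pr ∅) w).comp measurable_prodMk_left)).integrable _
    unfold P2 op
    rw [← add_div, ← Finset.sum_add_distrib]
    refine div_le_div_of_nonneg_right (Finset.sum_le_sum fun w _ => ?_) (Nat.cast_nonneg _)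
    rw [← integral_add (bi _ w) (bi _ w)]
    refine integral_mono (bi _ w) ((bi _ w).add (bi _ w)) fun p => ?_
    simpa [pr] using ih _ _ _

lemma Cx.hyb_step {D' B : Finset V} (h : Cx G d θ D') (hB : B ⊆ D') {x : V} {K : ℝ} (k : ℕ)
    {Z : V → (V → ℝ) → ℝ} (hZ : ∀ w ∈ B, ∀ (l : V → ℝ) (a a' : I),
      (P2 G θ D')^[k] (fun s => Dd G θ D' s x ^ 2) (st G θ D' l w a, st G θ D' l w a') ≤
        K * ((a : ℝ) - a') ^ 2 * Z w l) (s : ((V → ℝ) × (V → ℝ)) × (V → ℝ)) :
    op D' (x3 G θ D' B (ax G θ D' D' (hA G θ D D' B)))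
      (fun s => (P2 G θ D')^[k] (fun s => |Dd G θ D' s x|) (s.2, s.1.2)) s ≤
      (P2 G θ D')^[k + 1] (fun s => |Dd G θ D' s x|) (s.2, s.1.2) + (∑ w ∈ B, √(K * Z w s.1.2) *
        |mI G θ D' s.1.1 w - mI G θ D' (rs D s.1.1) w|) / D'.card := by
  have hθ := h.theta.1
  rw [Function.iterate_succ_apply']
  have bd := (h.mk2.iter k).bm _ (h.bm_Dd x).abs
  have tri := h.dk_tri x k
  have sq := fun s => (h.mk2.iter k).abs_le_sqrt (h.bm_Dd x) s
  generalize (P2 G θ D')^[k] (fun s => |Dd G θ D' s x|) = f at tri bd sq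
  have ms := ms_x3 (G := G) (θ := θ) (D := D') B
    (ms_ax (G := G) (θ := θ) (D := D') D' (ms_hA (G := G) hθ D D' B)).1
  have bi : ∀ s w, Integrable fun p : I × I => f (pr (stp G θ D') ∅ s w p) := fun s w =>
    (bd.comp (((ms_stp.pr ∅) w).comp measurable_prodMk_left)).integrable _
  unfold P2 op
  rw [← add_div, ← Finset.inter_eq_right.2 hB, ← Finset.sum_ite_mem, ← Finset.sum_add_distrib,
    Finset.inter_eq_right.2 hB]
  refine div_le_div_of_nonneg_right (Finset.sum_le_sum fun w hw => ?_) (Nat.cast_nonneg _)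
  by_cases hb : w ∈ B
  · rw [if_pos hb]
    refine (integral_mono (((bd.comp (measurable_snd.prodMk measurable_fst.snd)).comp
      ((ms w).comp measurable_prodMk_left)).integrable _) ((bi (s.2, s.1.2) w).add
      (integrable_const (√(K * Z w s.1.2) * |mI G θ D' s.1.1 w - mI G θ D' (rs D s.1.1) w|)))
      fun p => ?_).trans (le_of_eq ?_)
    · simp only [x3, ax, hA, pr, if_pos hb, if_pos hw, Finset.notMem_empty, if_false,
        Function.comp_apply, Pi.add_apply]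
      refine (tri _ (stp G θ D' s.1.2 w p.1) _).trans (add_le_add le_rfl ?_)
      simp only [stp, stA, if_pos hw]
      refine (sq _).trans ((Real.sqrt_le_sqrt (hZ w hb _ _ _)).trans ?_)
      rw [mul_right_comm, Real.sqrt_mul' _ (sq_nonneg _), Real.sqrt_sq_eq_abs]
      refine mul_le_mul_of_nonneg_left ?_ (Real.sqrt_nonneg _)
      obtain ⟨q1, q2⟩ := Qf_spec he_cmp (mI_mem (G := G) hθ D' s.1.1 w) p.1.2
      have := cdfF_lip he_cmp (mI G θ D' s.1.1 w) (mI G θ D' (rs D s.1.1) w) q1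
      rw [q2] at this
      rw [ut, Set.projIcc_of_mem _ (cdfF_mem he_cmp (mI_mem hθ _ _ _) q1)]
      refine this.trans ?_
      linarith [abs_nonneg (mI G θ D' s.1.1 w - mI G θ D' (rs D s.1.1) w)]
    · simp only [Pi.add_apply]
      rw [integral_add (bi _ w) (integrable_const _)]
      simp
  · rw [if_neg hb, add_zero]
    simp only [x3, ax, hA, pr, if_neg hb, Finset.notMem_empty, if_false]
    exact le_of_eq (int_snd_cmp fun u => f (stp G θ D' s.2 w u, stp G θ D' s.1.2 w u))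

lemma Cx.bm_er {D' : Finset V} (h : Cx G d θ D') (w : V) :
    BM fun l => mI G θ D' l w - mI G θ D' (rs D l) w :=
  (bm_mI h.theta.1 w).sub ((bm_mI h.theta.1 w).comp measurable_rs)

omit [G.LocallyFinite] in
lemma Cx.er_eq {D' : Finset V} (B : Finset V) (w : V) (j : ℕ) :
    (op D' (x3 G θ D' B (ax G θ D' D' (hA G θ D D' B))))^[j]
      (fun s => (mI G θ D' s.1.1 w - mI G θ D' (rs D s.1.1) w) ^ 2) ((0, 0), 0) =
      Err G θ D D' w j :=
  op_semi (π := fun s : ((V → ℝ) × (V → ℝ)) × (V → ℝ) => s.1.1) (f' := one (stp G θ D'))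
    (fun _ _ _ _ => rfl) (fun l => (mI G θ D' l w - mI G θ D' (rs D l) w) ^ 2) j _

lemma Cx.hyb_b {D' B : Finset V} (h : Cx G d θ D') (hsub : D ⊆ D') (hB : B ⊆ D) {K e : ℝ}
    (hK : 0 ≤ K) (w : V) (j : ℕ) (herr : Err G θ D D' w j ≤ e) {Z : (V → ℝ) → ℝ} (z1 : BM Z)
    (z2 : ∀ l, 0 ≤ Z l) (z3 : (PP G θ D')^[j] Z 0 ≤ K * rho D'.card j ^ (7 / 8 : ℝ)) :
    (op D' (x3 G θ D' B (ax G θ D' D' (hA G θ D D' B))))^[j] (fun s => √(K * Z s.1.2) *
      |mI G θ D' s.1.1 w - mI G θ D' (rs D s.1.1) w|) ((0, 0), 0) ≤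
      K * √e * rho D'.card j ^ (7 / 8 : ℝ) := by
  have mk := (mk_op h.ne (ms_x3 (G := G) (θ := θ) (D := D') B
    (ms_ax (G := G) (θ := θ) (D := D') D' (ms_hA (G := G) h.theta.1 D D' B)).1)).iter j
  have b1 : BM fun s : ((V → ℝ) × (V → ℝ)) × (V → ℝ) => √(K * Z s.1.2) :=
    bm_sqrt ((BM.const K).mul (z1.comp measurable_fst.snd))
  have b2 := (h.bm_er (D := D) w).comp (g := fun s : ((V → ℝ) × (V → ℝ)) × (V → ℝ) => s.1.1)
    measurable_fst.fst
  have cs := mk.cs b1 b2.abs ((0, 0), 0)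
  simp only [sq_abs, fun l => Real.sq_sqrt (mul_nonneg hK (z2 l))] at cs
  have e0 : 0 ≤ Err G θ D D' w j := (h.mkP.iter j).nonneg (bm_pow (h.bm_er w) 2)
    (fun _ => sq_nonneg _) _
  rw [Cx.er_eq, mk.smul, x3_fst B _ (fun s : (V → ℝ) × (V → ℝ) => Z s.2), h.law_AB hsub hB (g := fun s => Z s.2)
    (z1.comp measurable_snd)] at cs
  have e1 : (op D' (chB G θ D D' B))^[j] (fun s => Z s.2) (0, 0) = (PP G θ D')^[j] Z 0 :=
    x3_snd B (one (stA G θ D' D)) Z j (0, 0)
  rw [e1] at cs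
  have r1 : 1 ≤ rho D'.card j ^ (7 / 8 : ℝ) := Real.one_le_rpow (rho_one _ _) (by norm_num)
  refine le_of_sq_le_sq_cmp ?_ (by positivity)
  refine cs.trans ((mul_le_mul (mul_le_mul_of_nonneg_left z3 hK) herr e0 (by positivity)).trans ?_)
  rw [mul_pow, mul_pow, Real.sq_sqrt (e0.trans herr)]
  have := mul_le_mul_of_nonneg_left r1 (mul_nonneg (mul_nonneg (sq_nonneg K) (e0.trans herr))
    (zero_le_one.trans r1))
  nlinarith

theorem Cx.cmp {D' B : Finset V} (h : Cx G d θ D') {o : V} (hD : GoodAt G o D) (hsub : D ⊆ D')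
    (hB : B ⊆ D) {x : V} (hx : x ∈ D) (n : ℕ) {e K : ℝ} (he : 0 ≤ e) (hK : 0 ≤ K)
    (herr : ∀ w ∈ insert x B, ∀ j ≤ n, Err G θ D D' w j ≤ e)
    (hZ : ∀ w ∈ B, ∃ Zf : (V → ℝ) → ℝ, BM Zf ∧ (∀ l, 0 ≤ Zf l) ∧
      (∀ (j : ℕ) l, (PP G θ D')^[j] Zf l ≤ K * rho D'.card j ^ (7 / 8 : ℝ)) ∧
      ∀ k ≤ n, ∀ (l : V → ℝ) (a a' : I), (P2 G θ D')^[k] (fun s => Dd G θ D' s x ^ 2)
        (st G θ D' l w a, st G θ D' l w a') ≤ K * ((a : ℝ) - a') ^ 2 * Zf l) :
    Dl G θ D D' x n ≤ 2 * √(ESn G θ D' x (D' \ B) n) + √e +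
      B.card * K * √e * (9 * (1 + (n : ℝ) / D'.card)) := by
  have hθ := h.theta.1
  have hN : (0 : ℝ) < D'.card := by exact_mod_cast h.ne.card_pos
  choose! Z z1 z2 z3 z4 using hZ
  have bm := bm_mI (G := G) (D := D') hθ x
  have bD := (h.bm_Dd x).abs
  have m1 := (mk_op h.ne (ms_x3 (G := G) (θ := θ) (D := D') B (ms_two (G := G) (θ := θ) (D := D)
    D'))).iter n
  have mA := mk_op h.ne (ms_x3 (G := G) (θ := θ) (D := D') B
    (ms_ax (G := G) (θ := θ) (D := D') D' (ms_hA (G := G) hθ D D' B)).1)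
  have m2 := mA.iter n
  have r1 : Measurable fun s : ((V → ℝ) × (V → ℝ)) × (V → ℝ) => rs D s.1.1 :=
    measurable_rs.comp measurable_fst.fst
  -- first triangle inequality
  have a1 : Dl G θ D D' x n ≤ (op D' (chB G θ D D' B))^[n] (fun s => |Dd G θ D' s x|) (0, 0) +
      √(ESn G θ D' x (D' \ B) n) := by
    refine le_trans ?_ (add_le_add le_rfl (h.x3_pair B (F := two G θ D D') (φ := Prod.snd)
      (fun _ _ _ _ => rfl) (s := (0, 0)) rfl x n))
    have e1 := op_semi (D := D') (f := x3 G θ D' B (two G θ D D')) (f' := chB G θ D D' B)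
      (π := fun s => (rs D s.1.1, s.2)) (fun s w _ p => by
        simp only [x3, two, chB, stp, stA, st]
        split_ifs with hw
        all_goals first | rfl | rw [rs_addf_cmp, if_pos hw, mI_rs h.tr.tree hθ hD hsub _ hw])
      (fun s => |Dd G θ D' s x|) n ((0, 0), 0)
    simp only [rs_zero_cmp] at e1
    have c1 := bD.comp (r1.prodMk measurable_snd)
    have c2 := bD.comp (measurable_fst.snd.prodMk
      (measurable_snd (α := (V → ℝ) × (V → ℝ)) (β := V → ℝ)))
    rw [← e1, ← m1.add _ _ c1 c2, Dl, ← x3_fst (G := G) (θ := θ) B _ _ n ((0, 0), 0)]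
    refine m1.mono _ _ (((bm_mI hθ x).comp measurable_fst.fst).sub
      (bm.comp measurable_fst.snd)).abs (c1.add c2) (fun s => ?_) _
    simp only [Dd, mI_rs h.tr.tree hθ hD hsub _ hx]
    rw [abs_sub_comm (mI G θ D' s.1.2 x)]
    exact abs_sub_le _ _ _
  -- hybrid term
  have bb : BM fun s : ((V → ℝ) × (V → ℝ)) × (V → ℝ) => (∑ w ∈ B, √(K * Z w s.1.2) *
      |mI G θ D' s.1.1 w - mI G θ D' (rs D s.1.1) w|) / D'.card :=
    bm_div (BM.sum _ fun w hw => (bm_sqrt ((BM.const K).mul ((z1 w hw).comp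
      measurable_fst.snd))).mul ((h.bm_er w).comp measurable_fst.fst).abs) _
  have sw : Measurable fun s : ((V → ℝ) × (V → ℝ)) × (V → ℝ) => (s.2, s.1.2) :=
    measurable_snd.prodMk measurable_fst.snd
  have a2 := duhamel_cmp mA
    (a := fun k s => (P2 G θ D')^[k] (fun s => |Dd G θ D' s x|) (s.2, s.1.2))
    (fun k => ((h.mk2.iter k).bm _ bD).comp sw) bb (m := n)
    (fun k hk s => h.hyb_step (hB.trans hsub) k (fun w hw => z4 w hw k hk.le) s) n 0
    (by omega) ((0, 0), 0)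
  have a3 : (P2 G θ D')^[0 + n] (fun s => |Dd G θ D' s x|) (0, 0) = 0 := by
    rw [← h.P2_diag]
    simpa [Dd] using (h.mkP.iter (0 + n)).const 0 0
  have a4 : ∀ j ∈ Finset.range n, (op D' (x3 G θ D' B (ax G θ D' D' (hA G θ D D' B))))^[j]
      (fun s => (∑ w ∈ B, √(K * Z w s.1.2) * |mI G θ D' s.1.1 w - mI G θ D' (rs D s.1.1) w|) /
        D'.card) ((0, 0), 0) ≤ B.card * K * √e * (rho D'.card j ^ (7 / 8 : ℝ) / D'.card) := by
    intro j hj
    simp only [div_eq_inv_mul]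
    rw [(mA.iter j).smul, (mA.iter j).sum _ fun w hw => (bm_sqrt ((BM.const K).mul ((z1 w hw).comp
      measurable_fst.snd))).mul ((h.bm_er w).comp measurable_fst.fst).abs]
    refine (mul_le_mul_of_nonneg_left (Finset.sum_le_card_nsmul _ _ _ fun w hw =>
      h.hyb_b hsub hB hK w j (herr w (Finset.mem_insert_of_mem hw) j
        (Finset.mem_range.1 hj).le) (z1 w hw) (z2 w hw) (z3 w hw j 0)) (by positivity)).trans ?_
    rw [nsmul_eq_mul, div_eq_inv_mul (7 : ℝ)]
    exact le_of_eq (by ring)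
  have a5 := a2.trans (add_le_add a3.le ((Finset.sum_le_sum a4).trans
    (show _ ≤ B.card * K * √e * (9 * (1 + (n : ℝ) / D'.card)) by
      rw [← Finset.mul_sum, ← Finset.sum_div]
      exact mul_le_mul_of_nonneg_left (num2' h.ne.card_pos n) (by positivity))))
  have a6 := h.x3_pair B (F := ax G θ D' D' (hA G θ D D' B)) (φ := Prod.fst)
    (fun _ _ _ _ => rfl) (s := (0, 0)) rfl x n
  have c0 := (h.bm_er (D := D) x).comp (g := fun s : ((V → ℝ) × (V → ℝ)) × (V → ℝ) => s.1.1)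
    measurable_fst.fst
  have a7 := m2.abs_le_sqrt c0 ((0, 0), 0)
  rw [Cx.er_eq] at a7
  have a8 := a7.trans (Real.sqrt_le_sqrt (herr x (Finset.mem_insert_self _ _) n le_rfl))
  have c1 := bD.comp (measurable_fst.fst.prodMk
    (measurable_snd (α := (V → ℝ) × (V → ℝ)) (β := V → ℝ)))
  have a9 : (op D' (chB G θ D D' B))^[n] (fun s => |Dd G θ D' s x|) (0, 0) ≤
      √e + √(ESn G θ D' x (D' \ B) n) + (0 + B.card * K * √e * (9 * (1 + (n : ℝ) / D'.card))) := by
    rw [← h.law_AB hsub hB bD, ← x3_fst (G := G) (θ := θ) B _ _ n ((0, 0), 0)]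
    refine (m2.mono _ _ (bD.comp (r1.prodMk measurable_fst.snd))
      ((c0.abs.add c1).add (bD.comp sw)) (fun s => ?_) _).trans ?_
    · simp only [Dd]
      rw [abs_sub_comm (mI G θ D' s.1.1 x) (mI G θ D' (rs D s.1.1) x)]
      exact (abs_sub_le _ _ _).trans (add_le_add (abs_sub_le _ _ _) le_rfl)
    · rw [m2.add _ _ (c0.abs.add c1) (bD.comp sw), m2.add _ _ c0.abs c1]
      exact add_le_add (add_le_add a8 a6) a5
  linarith

end Vale.Agent.P161E
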