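import Vale.Agent.P161.Final

namespace Vale.Agent.P161E

open MeasureTheory unitInterval Classical SimpleGraph
open Vale.Agent.P161
open Vale.Agent.P143 (BM iidUniform)

variable {V : Type}

/-! tree notions -/

def Btw (G : SimpleGraph V) (x c w : V) : Prop := G.dist x c + G.dist c w = G.dist x w

/-- next vertex from `c` towards `w` -/
noncomputable def nx (G : SimpleGraph V) (c w : V) : V :=
  if h : ∃ p, G.Adj c p ∧ G.dist w p + 1 = G.dist w c then h.choose else c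

structure Tr (G : SimpleGraph V) [G.LocallyFinite] (d : ℕ) : Prop where
  tree : G.IsTree
  deg : ∀ v, G.degree v ≤ d
  hd : 3 ≤ d

structure Cx (G : SimpleGraph V) [G.LocallyFinite] (d : ℕ) (θ : ℝ) (D : Finset V) : Prop where
  tr : Tr G d
  h0 : 0 ≤ θ
  up : ((d : ℝ) - 1) * θ ^ 2 ≤ 1
  low : 1 ≤ 2 * ((d : ℝ) - 1) * θ ^ 2
  ne : D.Nonempty
  cvx : ∀ x ∈ D, ∀ y ∈ D, ∀ c, Btw G x c y → c ∈ D
  diam : ∀ x ∈ D, ∀ y ∈ D, G.dist x y ^ 2 ≤ 4 * D.card

/-! averaging operators -/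

noncomputable def op {S : Type} (D : Finset V) (f : S → V → I × I → S) (g : S → ℝ) (s : S) : ℝ :=
  (∑ w ∈ D, ∫ p : I × I, g (f s w p)) / D.card

noncomputable def opT {S : Type} (D T : Finset V) (f : S → V → I × I → S) (g : S → ℝ) (s : S) :
    ℝ :=
  (∑ w ∈ D, ∫ p : I × I, dens (1 / 2) (ind T w) p.1 * g (f s w p)) / D.card

def Ms {S : Type} [MeasurableSpace S] (f : S → V → I × I → S) : Prop :=
  ∀ w, Measurable fun q : S × (I × I) => f q.1 w q.2

def Ms1 {S : Type} [MeasurableSpace S] (f : S → V → I → S) : Prop :=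
  ∀ w, Measurable fun q : S × I => f q.1 w q.2

structure MK {S : Type} [MeasurableSpace S] (E : (S → ℝ) → S → ℝ) : Prop where
  bm : ∀ g, BM g → BM (E g)
  add : ∀ g h, BM g → BM h → ∀ s, E (fun x => g x + h x) s = E g s + E h s
  smul : ∀ (c : ℝ) g s, E (fun x => c * g x) s = c * E g s
  mono : ∀ g h, BM g → BM h → (∀ x, g x ≤ h x) → ∀ s, E g s ≤ E h s
  const : ∀ (c : ℝ) s, E (fun _ => c) s = c

/-- time-inhomogeneous iteration: `E 0 (E 1 (… (E (n-1) g)))` -/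
def opI {S : Type} (E : ℕ → (S → ℝ) → S → ℝ) : ℕ → (S → ℝ) → S → ℝ
  | 0, g => g
  | n + 1, g => opI E n (E n g)

def one {S : Type} (f : S → V → I → S) : S → V → I × I → S := fun s w p => f s w p.1

noncomputable def pr {S : Type} (f : S → V → I → S) (A : Finset V) :
    S × S → V → I × I → S × S :=
  fun s w p => (f s.1 w p.1, f s.2 w (if w ∈ A then p.2 else p.1))

noncomputable def om (k : ℕ) : ℝ := (1 + (k : ℝ)) ^ (1 / 8 : ℝ)

noncomputable def rho (N j : ℕ) : ℝ := 1 + (N : ℝ) / (j + 1)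

noncomputable def kap (d : ℕ) : ℝ := 3 / 2 / ((d : ℝ) - 1) ^ 2

noncomputable def addf (l : V → ℝ) (w : V) (t : ℝ) : V → ℝ := fun z => l z + if z = w then t else 0

noncomputable def rs (D : Finset V) (l : V → ℝ) : V → ℝ := fun z => if z ∈ D then l z else 0

noncomputable def gam (m u : ℝ) : ℝ :=
  m * (1 - m) * (2 * Qf (1 / 2) m u - 1) / dens (1 / 2) m (Qf (1 / 2) m u)

section gibbs
variable (G : SimpleGraph V) (θ : ℝ) (D : Finset V)

noncomputable def ex (l : V → ℝ) (g : Finset V → ℝ) : ℝ :=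
  SI G θ D l g / SI G θ D l fun _ => 1

noncomputable def cov (l : V → ℝ) (x y : V) : ℝ :=
  ex G θ D l (fun T => ind T x * ind T y) - mI G θ D l x * mI G θ D l y

noncomputable def vr (l : V → ℝ) (x : V) : ℝ := mI G θ D l x * (1 - mI G θ D l x)

/-- influence of the spin at `c` on the spin at `x` -/
noncomputable def aa (l : V → ℝ) (x c : V) : ℝ := cov G θ D l x c / vr G θ D l c

noncomputable def mu (l : V → ℝ) (x : V) : ℝ := 2 * mI G θ D l x - 1

noncomputable def lin (f : V → ℝ) (T : Finset V) : ℝ := ∑ x ∈ D, f x * ind T x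

noncomputable def vrF (f : V → ℝ) (l : V → ℝ) : ℝ :=
  ex G θ D l (fun T => lin D f T ^ 2) - ex G θ D l (lin D f) ^ 2

noncomputable def st (l : V → ℝ) (w : V) (u : I) : V → ℝ :=
  addf l w (lam (1 / 2) (Qf (1 / 2) (mI G θ D l w) u))

/-- observe only the sites of `A` -/
noncomputable def stA (A : Finset V) (l : V → ℝ) (w : V) (u : I) : V → ℝ :=
  if w ∈ A then st G θ D l w u else l

noncomputable def stT (A : Finset V) (l : V → ℝ) (w : V) (y : I) : V → ℝ :=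
  if w ∈ A then addf l w (lam (1 / 2) y) else l

noncomputable def stp : (V → ℝ) → V → I → V → ℝ := stA G θ D D

noncomputable def PS (A : Finset V) : ((V → ℝ) → ℝ) → (V → ℝ) → ℝ := op D (one (stA G θ D A))

noncomputable def PP : ((V → ℝ) → ℝ) → (V → ℝ) → ℝ := op D (one (stp G θ D))

noncomputable def P2 : ((V → ℝ) × (V → ℝ) → ℝ) → (V → ℝ) × (V → ℝ) → ℝ :=
  op D (pr (stp G θ D) ∅)

/-- chain with an auxiliary component that sees the observation `y` and a fresh uniform -/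
noncomputable def ax {Z : Type} (A : Finset V) (h : (V → ℝ) × Z → V → ℝ → I → Z)
    (s : (V → ℝ) × Z) (w : V) (p : I × I) : (V → ℝ) × Z :=
  (stA G θ D A s.1 w p.1, h s w (if w ∈ A then Qf (1 / 2) (mI G θ D s.1 w) p.1 else 0) p.2)

noncomputable def axT {Z : Type} (A : Finset V) (h : (V → ℝ) × Z → V → ℝ → I → Z)
    (s : (V → ℝ) × Z) (w : V) (p : I × I) : (V → ℝ) × Z :=
  (stT A s.1 w p.1, h s w (if w ∈ A then (p.1 : ℝ) else 0) p.2)

noncomputable def Ak (l : V → ℝ) (c : V) (k : ℕ) : ℝ :=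
  ∑ x ∈ D.filter fun x => G.dist x c = k, aa G θ D l x c ^ 2

noncomputable def Gw (l : V → ℝ) (c : V) : ℝ := ∑ x ∈ D, om (G.dist x c) * aa G θ D l x c ^ 2

noncomputable def HH (l : V → ℝ) (y : V) : ℝ :=
  ∑ c ∈ D.filter fun c => G.dist c y ≤ 2, Gw G θ D l c

noncomputable def MM (l : V → ℝ) (y : V) : ℝ :=
  ∑ z ∈ D.filter fun z => G.dist z y ≤ 1, mu G θ D l z ^ 2

noncomputable def Dd (s : (V → ℝ) × (V → ℝ)) (x : V) : ℝ := mI G θ D s.1 x - mI G θ D s.2 x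

noncomputable def ZZ (s : (V → ℝ) × (V → ℝ)) (y : V) : ℝ :=
  (MM G θ D s.1 y + MM G θ D s.2 y) * Dd G θ D s y ^ 2

noncomputable def FF (s : (V → ℝ) × (V → ℝ)) (c : V) : ℝ :=
  ∑ y ∈ D.filter fun y => G.Adj c y, |aa G θ D s.1 c y - aa G θ D s.2 c y|

noncomputable def tq (s : (V → ℝ) × (V → ℝ)) (x w : V) : ℝ :=
  ∑ c ∈ D.filter fun c => Btw G x c w ∧ c ≠ w,
    aa G θ D s.1 x c * FF G θ D s c * aa G θ D s.2 w (nx G c w)

noncomputable def qq (s : (V → ℝ) × (V → ℝ)) (x w : V) : ℝ :=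
  (tq G θ D s x w + aa G θ D s.1 x w * |Dd G θ D s w|) ^ 2

noncomputable def yy (o : V) (s : (V → ℝ) × (V → ℝ)) : ℝ :=
  ∑ x ∈ D, om (G.dist o x) * Dd G θ D s x ^ 2

noncomputable def B2 (o : V) (s : (V → ℝ) × (V → ℝ)) : ℝ :=
  ∑ y ∈ D, om (G.dist o y) * ((HH G θ D s.1 y ^ 2 + HH G θ D s.2 y ^ 2) * ZZ G θ D s y)

noncomputable def Ph1 (y : V) (i : ℕ) : (V → ℝ) → ℝ := (PP G θ D)^[i] fun l => HH G θ D l y ^ 4

noncomputable def ph (y : V) (i : ℕ) (s : (V → ℝ) × (V → ℝ)) : ℝ :=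
  √(Ph1 G θ D y i s.1 + Ph1 G θ D y i s.2)

noncomputable def WW (n : ℕ) (y : V) (s : (V → ℝ) × (V → ℝ)) : ℝ :=
  (∑ i ∈ Finset.range n, ph G θ D y i s) / D.card

noncomputable def LL (n : ℕ) (s : (V → ℝ) × (V → ℝ)) (l : V → ℝ) (c : V) : ℝ :=
  ∑ x ∈ D, om (G.dist x c) ^ 2 * WW G θ D n x s ^ 2 * aa G θ D l x c ^ 2

noncomputable def rr (s : (V → ℝ) × (V → ℝ)) (y : V) : ℝ :=
  MM G θ D s.1 y * ∑ w ∈ D, qq G θ D s y w + MM G θ D s.2 y * ∑ w ∈ D, qq G θ D s.swap y w +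
    (HH G θ D s.1 y + HH G θ D s.2 y) * Dd G θ D s y ^ 2 +
    ∑ z ∈ D.filter fun z => G.dist z y ≤ 1, ∑ w ∈ D, θ ^ (2 * G.dist z w) * qq G θ D s y w

noncomputable def AA (d n : ℕ) (y : V) (s : (V → ℝ) × (V → ℝ)) : ℝ :=
  1 + ∑ c ∈ D.filter fun c => G.dist c y ≤ 1, (LL G θ D n s s.1 c + LL G θ D n s s.2 c) +
    (1 + WW G θ D n y s) * (HH G θ D s.1 y + HH G θ D s.2 y) +
    ∑ x ∈ D, om (G.dist x y) * kap d ^ G.dist x y * WW G θ D n x s

noncomputable def UU (o : V) (n : ℕ) (s : (V → ℝ) × (V → ℝ)) : ℝ :=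
  yy G θ D o s + ∑ y ∈ D, om (G.dist o y) * (WW G θ D n y s * ZZ G θ D s y)

noncomputable def ESn (x : V) (A : Finset V) (n : ℕ) : ℝ :=
  (op D (pr (stp G θ D) A))^[n] (fun s => Dd G θ D s x ^ 2) (0, 0)

/-- `D` is the small volume, `D'` the large one -/
noncomputable def two (D' : Finset V) (s : (V → ℝ) × (V → ℝ)) (w : V) (p : I × I) :
    (V → ℝ) × (V → ℝ) :=
  (stp G θ D s.1 w p.1, stp G θ D' s.2 w p.1)

noncomputable def Dl (D' : Finset V) (x : V) (n : ℕ) : ℝ :=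
  (op D' (two G θ D D'))^[n] (fun s => |mI G θ D s.1 x - mI G θ D' s.2 x|) (0, 0)

noncomputable def Err (D' : Finset V) (w : V) (n : ℕ) : ℝ :=
  (PP G θ D')^[n] (fun l => (mI G θ D' l w - mI G θ D' (rs D l) w) ^ 2) 0

end gibbs

/-! Poisson clocks -/

abbrev Lab := Option (ℕ × Fin 3)

noncomputable def pq : I → ℕ :=
  (Measure.exists_measurable_map_eq (ProbabilityTheory.poissonMeasure 1)).choose

lemma pq_spec : Measurable pq ∧ Measure.map pq volume = ProbabilityTheory.poissonMeasure 1 :=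
  (Measure.exists_measurable_map_eq (ProbabilityTheory.poissonMeasure 1)).choose_spec

noncomputable def cnt (ω : V × Lab → I) (v : V) : ℕ := pq (ω (v, none))

noncomputable def evs (D : Finset V) (ω : V × Lab → I) : Finset (V × ℕ) :=
  D.biUnion fun v => (Finset.range (cnt ω v)).image fun i => (v, i)

def ky (ω : V × Lab → I) (e : V × ℕ) : I := ω (e.1, some (e.2, 0))

def mk2 (ω : V × Lab → I) (e : V × ℕ) : I × I := (ω (e.1, some (e.2, 1)), ω (e.1, some (e.2, 2)))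

noncomputable def evl (D : Finset V) (ω : V × Lab → I) : List (V × ℕ) :=
  (evs D ω).toList.mergeSort fun e e' => decide (ky ω e ≤ ky ω e')

noncomputable def rnd {S : Type} (D : Finset V) (f : S → V → I × I → S) (s : S)
    (ω : V × Lab → I) : S :=
  if Set.InjOn (ky ω) (evs D ω) then (evl D ω).foldl (fun s e => f s e.1 (mk2 ω e)) s else s

def sl (Ω : V × (ℕ × Lab) → I) (j : ℕ) : V × Lab → I := fun p => Ω (p.1, (j, p.2))

noncomputable def rnds {S : Type} (D : Finset V) (f : S → V → I × I → S) (s : S)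
    (Ω : V × (ℕ × Lab) → I) : ℕ → S
  | 0 => s
  | J + 1 => rnd D f (rnds D f s Ω J) (sl Ω J)

noncomputable def ncnt (D : Finset V) (ω : V × Lab → I) : ℕ := ∑ v ∈ D, cnt ω v

noncomputable def tot (D : Finset V) (J : ℕ) (Ω : V × (ℕ × Lab) → I) : ℕ :=
  ∑ j ∈ Finset.range J, ncnt D (sl Ω j)

noncomputable def Fm (G : SimpleGraph V) (θ : ℝ) (D : Finset V) (J : ℕ) (x : V)
    (Ω : V × (ℕ × Lab) → I) : ℝ :=
  mI G θ D (rnds D (one (stp G θ D)) 0 Ω J) x

/-- exchange the two innovations at the sites of `A` -/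
noncomputable def sw (A : Finset V) (Ω : V × (ℕ × Lab) → I) : V × (ℕ × Lab) → I :=
  fun p => Ω (p.1, (p.2.1, if p.1 ∈ A then p.2.2.map fun q => (q.1, Equiv.swap 1 2 q.2)
    else p.2.2))

noncomputable def Inf (G : SimpleGraph V) (θ : ℝ) (D : Finset V) (J : ℕ) (x : V) (A : Finset V) :
    ℝ :=
  ∫ Ω, (Fm G θ D J x Ω - Fm G θ D J x (sw A Ω)) ^ 2 ∂(iidUniform (V × (ℕ × Lab)))

noncomputable def Del (G : SimpleGraph V) (θ : ℝ) (D D' : Finset V) (J : ℕ) (x : V) : ℝ :=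
  ∫ Ω, |Fm G θ D J x Ω - Fm G θ D' J x Ω| ∂(iidUniform (V × (ℕ × Lab)))

end Vale.Agent.P161E
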