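import Vale.Agent.P161E.Defs

namespace Vale.Agent.P161E

open MeasureTheory unitInterval Classical SimpleGraph Filter Topology
open Vale.Agent.P161
open Vale.Agent.P143 (BM iidUniform)

variable {V : Type} {G : SimpleGraph V} [G.LocallyFinite] {d : ℕ} {θ : ℝ} {D : Finset V}

noncomputable def eg (θ α : ℝ) : ℝ := θ * (1 - α ^ 2) / (1 - θ ^ 2 * α ^ 2)

noncomputable def em (θ α β : ℝ) : ℝ := (α + θ * β) / (1 + θ * α * β)

variable {α β α' β' : ℝ}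

lemma th_edge (h0 : 0 ≤ θ) (h1 : θ ^ 2 ≤ 1 / 2) : θ ≤ 71 / 100 := by nlinarith

lemma sq_edge (hα : |α| < 1) : α ^ 2 < 1 := by
  have := abs_lt.1 hα
  nlinarith

lemma den_edge (h0 : 0 ≤ θ) (hα : |α| < 1) (hβ : |β| < 1) :
    1 - θ ≤ 1 + θ * α * β ∧ 1 + θ * α * β ≤ 1 + θ ∧
      1 - θ ≤ 1 - θ * α * β ∧ 1 - θ * α * β ≤ 1 + θ := by
  have h : |α * β| ≤ 1 := by
    rw [abs_mul]; exact mul_le_one₀ hα.le (abs_nonneg _) hβ.le
  have := abs_le.1 h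
  refine ⟨?_, ?_, ?_, ?_⟩ <;> nlinarith

lemma q_edge (h1 : θ ^ 2 ≤ 1 / 2) (hα : |α| < 1) : 1 / 2 ≤ 1 - θ ^ 2 * α ^ 2 := by
  have := sq_edge hα
  nlinarith [sq_nonneg θ, sq_nonneg α]

lemma eg_le_edge (h0 : 0 ≤ θ) (h1 : θ ^ 2 ≤ 1 / 2) (hα : |α| < 1) :
    0 ≤ eg θ α ∧ eg θ α ≤ θ * (1 - α ^ 2 / 2) := by
  have a := sq_edge hα
  have b := q_edge h1 hα
  refine ⟨div_nonneg (mul_nonneg h0 (by linarith)) (by linarith), ?_⟩
  rw [eg, div_le_iff₀ (by linarith), mul_assoc]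
  gcongr
  nlinarith [sq_nonneg α, mul_nonneg (sq_nonneg θ) (sq_nonneg (α ^ 2)),
    mul_le_mul_of_nonneg_right h1 (sq_nonneg α)]

lemma em_sub_edge (h0 : 0 ≤ θ) (h1 : θ ^ 2 ≤ 1 / 2) (hα : |α| < 1) (hβ : |β| < 1) :
    em θ α β - θ * em θ β α = α * ((1 - θ ^ 2) / (1 + θ * α * β)) := by
  have a := den_edge h0 hα hβ
  have b := th_edge h0 h1
  have c : 1 + θ * α * β ≠ 0 := by linarith [a.1]
  rw [em, em, show θ * β * α = θ * α * β by ring]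
  field_simp
  ring

lemma abs_le_edge (h0 : 0 ≤ θ) (h1 : θ ^ 2 ≤ 1 / 2) (hα : |α| < 1) (hβ : |β| < 1) :
    |α| ≤ 4 * (|em θ α β| + |em θ β α|) := by
  have a := den_edge h0 hα hβ
  have b := th_edge h0 h1
  have c : 1 / 4 ≤ (1 - θ ^ 2) / (1 + θ * α * β) := by
    rw [le_div_iff₀ (by linarith [a.1])]; linarith [a.2.1]
  have e := congrArg abs (em_sub_edge h0 h1 hα hβ)
  rw [abs_mul, abs_of_nonneg (a := _ / _) (by linarith)] at e
  have f := abs_sub (em θ α β) (θ * em θ β α)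
  rw [abs_mul, abs_of_nonneg h0] at f
  nlinarith [abs_nonneg α, abs_nonneg (em θ β α)]

lemma key_edge {u v p q r x : ℝ} (huv : 0 ≤ u * v) (hp : 1 / 4 ≤ p) (hq : 0 ≤ q) (hr : 1 / 16 ≤ r)
    (h : x = r * (u * p + v * q)) : |u| ≤ 64 * |x| := by
  have h1 : |u| * (1 / 4) ≤ |u * p + v * q| := by
    rcases lt_trichotomy u 0 with h0 | h0 | h0
    · have : v ≤ 0 := by nlinarith
      rw [abs_of_neg h0, abs_of_nonpos (by nlinarith)]
      nlinarith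
    · rw [h0, abs_zero, zero_mul]; exact abs_nonneg _
    · have : 0 ≤ v := by nlinarith
      rw [abs_of_pos h0, abs_of_nonneg (by nlinarith)]
      nlinarith
  rw [h, abs_mul, abs_of_nonneg (a := r) (by linarith)]
  nlinarith [abs_nonneg u]

lemma inv_edge (h0 : 0 ≤ θ) (h1 : θ ^ 2 ≤ 1 / 2) (hα : |α| < 1) (hβ : |β| < 1)
    (hα' : |α'| < 1) (hβ' : |β'| < 1) :
    |α - α'| ≤ 64 * (|em θ α β - em θ α' β'| + |em θ β α - em θ β' α'|) := by
  have a := den_edge h0 hα hβ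
  have a' := den_edge h0 hα' hβ'
  have b := th_edge h0 h1
  have c := den_edge h0 hα hα'
  have c' := den_edge h0 hβ hβ'
  have p : 0 < 1 + θ * α * β := by linarith [a.1]
  have p' : 0 < 1 + θ * α' * β' := by linarith [a'.1]
  have m : (1 + θ * α * β) * (1 + θ * α' * β') ≤ 2 * 2 := by
    gcongr <;> linarith [a.2.1, a'.2.1]
  rcases le_total 0 ((α - α') * (β - β')) with h | h
  · refine (key_edge h (p := 1 - θ * β * β') (q := 1 - θ * α * α')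
      (r := (1 + θ) / ((1 + θ * α * β) * (1 + θ * α' * β'))) (by linarith [c'.2.2.1])
      (by linarith [c.2.2.1]) (by rw [le_div_iff₀ (by positivity)]; linarith) ?_).trans
      (mul_le_mul_of_nonneg_left (abs_add_le _ _) (by norm_num))
    simp only [em, show θ * β * α = θ * α * β by ring, show θ * β' * α' = θ * α' * β' by ring]
    rw [div_sub_div _ _ p.ne' p'.ne', div_sub_div _ _ p.ne' p'.ne']
    ring
  · refine (key_edge (v := -(β - β')) (by linarith) (p := 1 + θ * β * β') (q := 1 + θ * α * α')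
      (r := (1 - θ) / ((1 + θ * α * β) * (1 + θ * α' * β'))) (by linarith [c'.1])
      (by linarith [c.1]) (by rw [le_div_iff₀ (by positivity)]; linarith) ?_).trans
      (mul_le_mul_of_nonneg_left (abs_sub _ _) (by norm_num))
    simp only [em, show θ * β * α = θ * α * β by ring, show θ * β' * α' = θ * α' * β' by ring]
    rw [div_sub_div _ _ p.ne' p'.ne', div_sub_div _ _ p.ne' p'.ne']
    ring

lemma eg_mem (h0 : 0 ≤ θ) (h1 : θ ^ 2 ≤ 1 / 2) (hα : |α| < 1) : 0 ≤ eg θ α ∧ eg θ α ≤ θ := by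
  have h := eg_le_edge h0 h1 hα
  exact ⟨h.1, h.2.trans (by nlinarith [sq_nonneg α])⟩

lemma eg_vr (h0 : 0 ≤ θ) (h1 : θ ^ 2 ≤ 1 / 2) (hα : |α| < 1) (hβ : |β| < 1) :
    eg θ α ^ 2 ≤ 12 * θ ^ 2 * (1 - em θ α β ^ 2) := by
  have a := sq_edge hα
  have b := q_edge h1 hα
  have b' := q_edge h1 hβ
  have c := den_edge h0 hα hβ
  have t := th_edge h0 h1
  have p : 0 < 1 + θ * α * β := by linarith [c.1]
  have e : 1 - em θ α β ^ 2 = (1 - α ^ 2) * ((1 - θ ^ 2 * β ^ 2) / (1 + θ * α * β) ^ 2) := by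
    rw [em, div_pow, one_sub_div (pow_ne_zero 2 p.ne')]; ring
  have f : 1 / 6 ≤ (1 - θ ^ 2 * β ^ 2) / (1 + θ * α * β) ^ 2 := by
    rw [le_div_iff₀ (by positivity)]; nlinarith [c.2.1]
  have g : (1 - α ^ 2) / (1 - θ ^ 2 * α ^ 2) ^ 2 ≤ 2 := by
    rw [div_le_iff₀ (by positivity)]
    have : 1 - α ^ 2 ≤ 1 - θ ^ 2 * α ^ 2 := by nlinarith [sq_nonneg α]
    nlinarith
  calc eg θ α ^ 2 = θ ^ 2 * (1 - α ^ 2) * ((1 - α ^ 2) / (1 - θ ^ 2 * α ^ 2) ^ 2) := by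
        rw [eg]; field_simp
    _ ≤ θ ^ 2 * (1 - α ^ 2) * (12 * ((1 - θ ^ 2 * β ^ 2) / (1 + θ * α * β) ^ 2)) :=
        mul_le_mul_of_nonneg_left (by linarith) (mul_nonneg (sq_nonneg _) (by linarith))
    _ = _ := by rw [e]; ring

/-- `eg² ≤ θ² (1 - α²/2)` and `em α β - θ em β α = α (1 - θ²) / (1 + θ α β)` -/
lemma eg_mu (h0 : 0 ≤ θ) (h1 : θ ^ 2 ≤ 1 / 2) (hα : |α| < 1) (hβ : |β| < 1) :
    θ ^ 2 * em θ α β ^ 2 ≤ 42 * (θ ^ 2 - eg θ α ^ 2) + 7 / 6 * θ ^ 4 * em θ β α ^ 2 := by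
  have a := sq_edge hα
  have c := den_edge h0 hα hβ
  have t := th_edge h0 h1
  have e := eg_le_edge h0 h1 hα
  have e1 : eg θ α ^ 2 ≤ θ ^ 2 * (1 - α ^ 2 / 2) := by
    refine (pow_le_pow_left₀ e.1 e.2 2).trans ?_
    rw [mul_pow]
    gcongr
    nlinarith [sq_nonneg α]
  have f := em_sub_edge h0 h1 hα hβ
  have g0 : 0 ≤ (1 - θ ^ 2) / (1 + θ * α * β) := div_nonneg (by linarith) (by linarith [c.1])
  have g : (1 - θ ^ 2) / (1 + θ * α * β) ≤ 1 + θ := by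
    rw [div_le_iff₀ (by linarith [c.1])]; nlinarith [c.1]
  have g2 : (em θ α β - θ * em θ β α) ^ 2 ≤ α ^ 2 * 3 := by
    rw [f, mul_pow]
    gcongr
    nlinarith
  have g3 : em θ α β ^ 2 ≤ 21 * α ^ 2 + 7 / 6 * θ ^ 2 * em θ β α ^ 2 := by
    nlinarith [sq_nonneg (6 * (em θ α β - θ * em θ β α) - θ * em θ β α)]
  nlinarith [mul_le_mul_of_nonneg_left g3 (sq_nonneg θ)]

/-- `|eg α - eg α'| ≤ C (|α| + |α'|) |α - α'|`, `|α| ≤ 4 (|em α β| + |em β α|)`, and the map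
`(α, β) ↦ (em α β, em β α)` has a Lipschitz inverse in the `ℓ¹` norm (split on the sign of
`(α - α') (β - β')`; use the sum, resp. the difference, of the two coordinates). -/
lemma eg_lip : ∃ C : ℝ, 0 < C ∧ ∀ θ α β α' β' : ℝ, 0 ≤ θ → θ ^ 2 ≤ 1 / 2 → |α| < 1 → |β| < 1 →
    |α'| < 1 → |β'| < 1 → |eg θ α - eg θ α'| ≤
      C * (|em θ α β| + |em θ β α| + |em θ α' β'| + |em θ β' α'|) *
        (|em θ α β - em θ α' β'| + |em θ β α - em θ β' α'|) := by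
  refine ⟨1024, by norm_num, fun θ α β α' β' h0 h1 hα hβ hα' hβ' => ?_⟩
  have b := q_edge h1 hα
  have b' := q_edge h1 hα'
  have t := th_edge h0 h1
  have e : eg θ α - eg θ α' = -(θ * (1 - θ ^ 2) / ((1 - θ ^ 2 * α ^ 2) * (1 - θ ^ 2 * α' ^ 2)) *
      ((α + α') * (α - α'))) := by
    have : 1 - θ ^ 2 * α ^ 2 ≠ 0 := by linarith
    have : 1 - θ ^ 2 * α' ^ 2 ≠ 0 := by linarith
    rw [eg, eg, div_sub_div _ _ ‹_› ‹_›]
    ring
  have f0 : 0 ≤ θ * (1 - θ ^ 2) := mul_nonneg h0 (by linarith)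
  have f : θ * (1 - θ ^ 2) / ((1 - θ ^ 2 * α ^ 2) * (1 - θ ^ 2 * α' ^ 2)) ≤ 4 := by
    rw [div_le_iff₀ (by positivity)]
    nlinarith [mul_nonneg h0 (sq_nonneg θ)]
  have g : |α + α'| ≤ 4 * (|em θ α β| + |em θ β α| + |em θ α' β'| + |em θ β' α'|) := by
    linarith [abs_add_le α α', abs_le_edge h0 h1 hα hβ, abs_le_edge h0 h1 hα' hβ']
  rw [e, abs_neg, abs_mul, abs_mul, abs_of_nonneg (by positivity)]
  refine (mul_le_mul f (mul_le_mul g (inv_edge h0 h1 hα hβ hα' hβ') (abs_nonneg _)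
    (by positivity)) (by positivity) (by norm_num)).trans_eq ?_
  ring

end Vale.Agent.P161E
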