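import Vale.Agent.P161E.Q0

namespace Vale.Agent.P161E

open MeasureTheory unitInterval Classical SimpleGraph Filter Topology
open Vale.Agent.P161
open Vale.Agent.P143 (BM iidUniform)

variable {V : Type} {G : SimpleGraph V} [G.LocallyFinite] {d : ℕ} {θ : ℝ} {D : Finset V}

lemma near_q (h : Tr G d) (D : Finset V) {f g k : V → ℝ} (hg : ∀ y, 0 ≤ g y) (hk : ∀ y, 0 ≤ k y)
    (H : ∀ c ∈ D, ∀ y ∈ D, G.dist y c ≤ 1 → f c ≤ k y) :
    ∑ c ∈ D, f c * ∑ y ∈ D.filter fun y => G.dist y c ≤ 1, g y ≤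
      (d + 1) * ∑ y ∈ D, k y * g y := by
  have h1 : ∑ c ∈ D, f c * ∑ y ∈ D.filter fun y => G.dist y c ≤ 1, g y ≤
      ∑ c ∈ D, ∑ y ∈ D, if G.dist c y ≤ 1 then k y * g y else 0 := by
    refine Finset.sum_le_sum fun c hc => ?_
    rw [← Finset.sum_filter, Finset.mul_sum, Finset.filter_congr (p := fun y => G.dist c y ≤ 1)
      (q := fun y => G.dist y c ≤ 1) fun y _ => by rw [SimpleGraph.dist_comm]]
    exact Finset.sum_le_sum fun y hy => mul_le_mul_of_nonneg_right
      (H c hc y (Finset.mem_filter.1 hy).1 (Finset.mem_filter.1 hy).2) (hg y)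
  refine h1.trans ?_
  rw [Finset.sum_comm, Finset.mul_sum]
  refine Finset.sum_le_sum fun y _ => ?_
  rw [← Finset.sum_filter, Finset.sum_const, nsmul_eq_mul]
  exact mul_le_mul_of_nonneg_right (card_ball_one h D y) (mul_nonneg (hk y) (hg y))

omit [G.LocallyFinite] in
lemma card_geo_q (hG : G.IsTree) (D : Finset V) (x w : V) :
    ((D.filter fun c => Btw G x c w ∧ c ≠ w).card : ℝ) ≤ G.dist x w + 1 := by
  have h := Finset.card_le_card_of_injOn (s := D.filter fun c => Btw G x c w ∧ c ≠ w)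
    (t := Finset.range (G.dist x w + 1)) (fun c => G.dist c w) (fun c hc => by
      have := (Finset.mem_filter.1 hc).2.1
      unfold Btw at this
      exact Finset.mem_coe.2 (Finset.mem_range.2 (by show G.dist c w < _; omega)))
    fun c hc c' hc' e => btw_unique hG (Finset.mem_filter.1 hc).2.1 (Finset.mem_filter.1 hc').2.1 e
  rw [Finset.card_range] at h
  exact_mod_cast h

lemma Cx.pow_q (h : Cx G d θ D) (m : ℕ) : θ ^ (2 * m) ≤ (1 / ((d : ℝ) - 1)) ^ m := by
  have h3 : (3 : ℝ) ≤ d := by exact_mod_cast h.tr.hd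
  rw [pow_mul]
  refine pow_le_pow_left₀ (sq_nonneg _) ?_ m
  rw [le_div_iff₀' (by linarith)]
  exact h.up

lemma shift_q {b : ℝ} (hb : 1 ≤ b) {m n : ℕ} (h : n ≤ m + 1) : (1 / b) ^ m ≤ b * (1 / b) ^ n := by
  have h1 : (1 / b) ^ (m + 1) ≤ (1 / b) ^ n :=
    pow_le_pow_of_le_one (by positivity) (div_le_one_of_le₀ hb (by linarith)) h
  have h2 : (1 / b) ^ m = b * (1 / b) ^ (m + 1) := by
    rw [pow_succ]
    field_simp
  rw [h2]
  exact mul_le_mul_of_nonneg_left h1 (by linarith)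

lemma Cx.tq_sq_q (h : Cx G d θ D) (s : (V → ℝ) × (V → ℝ)) {x w : V} (hx : x ∈ D) (hw : w ∈ D) :
    tq G θ D s x w ^ 2 ≤ (G.dist x w + 1) * (((d : ℝ) - 1) * (1 / ((d : ℝ) - 1)) ^ G.dist x w) *
      ∑ c ∈ D, if Btw G x c w then FF G θ D s c ^ 2 else 0 := by
  have h3 : (3 : ℝ) ≤ d := by exact_mod_cast h.tr.hd
  have h4 : (0 : ℝ) < (d : ℝ) - 1 := by linarith
  refine sq_sum_le_card_mul_sum_sq.trans ?_
  rw [mul_assoc]
  refine mul_le_mul (card_geo_q h.tr.tree D x w) ?_ (Finset.sum_nonneg fun _ _ => sq_nonneg _)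
    (by positivity)
  rw [← Finset.sum_filter, Finset.mul_sum]
  refine le_trans (Finset.sum_le_sum fun c hc => ?_) (Finset.sum_le_sum_of_subset_of_nonneg
    (Finset.monotone_filter_right D fun c _ hc => hc.1) fun _ _ _ => by positivity)
  obtain ⟨c1, c2, c3⟩ := Finset.mem_filter.1 hc
  have a1 := h.aa_mem s.1 hx c1
  have a2 := h.aa_mem s.2 hw (h.nx_mem c1 hw)
  have a3 := pow_le_pow_left₀ (mul_nonneg a1.1 a2.1) (mul_le_mul a1.2 a2.2 a2.1
    (pow_nonneg h.h0 _)) 2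
  rw [← pow_add, ← pow_mul, mul_comm _ 2] at a3
  have a4 := (a3.trans (h.pow_q _)).trans (shift_q (n := G.dist x w) (by linarith) (by
    have := (nx_spec h.tr.tree c3).2
    rw [dist_comm (u := w)]
    unfold Btw at c2
    omega))
  rw [mul_right_comm, mul_pow]
  exact mul_le_mul_of_nonneg_right a4 (sq_nonneg _)

/-- crude local bound: all `aa ≤ θ ^ dist`, `θ² ≤ 1/(d-1)`, `FF_le`, `card_sphere` -/
lemma q3 (h : Tr G d) : ∃ C, 0 < C ∧ ∀ θ D, Cx G d θ D → ∀ (s : (V → ℝ) × (V → ℝ)),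
    ∀ x ∈ D, ∀ z ∈ D, G.dist z x ≤ 1 →
      ∑ w ∈ D, θ ^ (2 * G.dist z w) * qq G θ D s x w ≤
        C * ∑ c ∈ D, kap d ^ G.dist x c * Dd G θ D s c ^ 2 := by
  have h3 : (3 : ℝ) ≤ d := by exact_mod_cast h.hd
  obtain ⟨b, hb⟩ : ∃ b : ℝ, b = (d : ℝ) - 1 := ⟨_, rfl⟩
  have b2 : 2 ≤ b := by linarith
  have b0 : 0 < b := by linarith
  obtain ⟨CF, hF0, hF⟩ := FF_le h
  obtain ⟨Cg, hg0, hg⟩ := sum_geo h (κ := 1 / b * (1 / b)) (by positivity) (by
    rw [← hb, mul_assoc, one_div_mul_cancel b0.ne', mul_one, div_lt_one b0]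
    linarith)
  obtain ⟨C5, h50, h5⟩ := num5 (t := 3 / 2) (by norm_num)
  have ek : kap d = 3 / 2 * (1 / b * (1 / b)) := by
    rw [kap, ← hb]
    field_simp
  have k0 : 0 < kap d := by rw [ek]; positivity
  have k1 : kap d ≤ 1 := by
    rw [kap, ← hb, div_le_one (by positivity)]
    nlinarith
  refine ⟨2 * (b ^ 2 * (C5 * Cg) * (CF * ((d + 1) * (2 * (d + 1) / kap d)))) + 2 * b,
    by positivity, fun θ D hc s x hx z _ hz => ?_⟩
  have t1 : ∀ w, θ ^ (2 * G.dist z w) ≤ b * (1 / b) ^ G.dist x w := fun w => by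
    refine (hb ▸ hc.pow_q _).trans (shift_q (by linarith) ?_)
    have := h.tree.connected.dist_triangle (u := x) (v := z) (w := w)
    rw [dist_comm] at hz
    omega
  have s1 : ∑ w ∈ D, θ ^ (2 * G.dist z w) * tq G θ D s x w ^ 2 ≤
      b ^ 2 * (C5 * Cg) * ∑ c ∈ D, kap d ^ G.dist x c * FF G θ D s c ^ 2 := by
    refine le_trans (Finset.sum_le_sum fun w hw => mul_le_mul (t1 w) (hc.tq_sq_q s hx hw)
      (sq_nonneg _) (by positivity)) ?_
    rw [← hb]
    simp only [Finset.mul_sum]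
    rw [Finset.sum_comm]
    refine Finset.sum_le_sum fun c _ => ?_
    have a1 : ((G.dist x c : ℝ) + 1) * (1 / b * (1 / b)) ^ G.dist x c ≤
        C5 * kap d ^ G.dist x c := by
      rw [ek, mul_pow (3 / 2 : ℝ), ← mul_assoc]
      exact mul_le_mul_of_nonneg_right (h5 _) (by positivity)
    refine le_trans (Finset.sum_le_sum (g := fun w => b ^ 2 * (C5 * kap d ^ G.dist x c) *
      FF G θ D s c ^ 2 * (((G.dist w c : ℝ) + 1) * (1 / b * (1 / b)) ^ G.dist w c))
      fun w _ => ?_) ?_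
    · split_ifs with hw
      · have e : G.dist x w = G.dist x c + G.dist w c := by rw [← hw, dist_comm (u := w)]
        have a2 : ((G.dist x w : ℝ) + 1) ≤ ((G.dist x c : ℝ) + 1) * ((G.dist w c : ℝ) + 1) := by
          rw [e]
          push_cast
          nlinarith [mul_nonneg (Nat.cast_nonneg (α := ℝ) (G.dist x c))
            (Nat.cast_nonneg (α := ℝ) (G.dist w c))]
        calc _ = b ^ 2 * ((G.dist x w : ℝ) + 1) * (1 / b * (1 / b)) ^ G.dist x w *
              FF G θ D s c ^ 2 := by rw [mul_pow]; ring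
          _ ≤ b ^ 2 * (((G.dist x c : ℝ) + 1) * ((G.dist w c : ℝ) + 1)) *
              (1 / b * (1 / b)) ^ G.dist x w * FF G θ D s c ^ 2 := by gcongr
          _ = b ^ 2 * (((G.dist x c : ℝ) + 1) * (1 / b * (1 / b)) ^ G.dist x c) *
              FF G θ D s c ^ 2 * (((G.dist w c : ℝ) + 1) * (1 / b * (1 / b)) ^ G.dist w c) := by
            rw [e, pow_add]; ring
          _ ≤ _ := by gcongr
      · simp only [mul_zero]
        positivity
    · rw [← Finset.mul_sum]
      refine (mul_le_mul_of_nonneg_left (hg D c) (by positivity)).trans (le_of_eq (by ring))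
  have s2 : ∑ c ∈ D, kap d ^ G.dist x c * FF G θ D s c ^ 2 ≤
      CF * ((d + 1) * (2 * (d + 1) / kap d)) * ∑ c ∈ D, kap d ^ G.dist x c * Dd G θ D s c ^ 2 := by
    have a1 := near_q h D (f := fun c => kap d ^ G.dist x c) (g := fun y => ZZ G θ D s y)
      (k := fun y => kap d ^ G.dist x y / kap d) (fun y => (hc.nonneg 0 s y).2.2.1)
      (fun y => by positivity) fun c _ y _ hy => by
        rw [le_div_iff₀ k0, ← pow_succ]
        refine pow_le_pow_of_le_one k0.le k1 ?_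
        have := h.tree.connected.dist_triangle (u := x) (v := c) (w := y)
        rw [dist_comm] at hy
        omega
    refine le_trans (Finset.sum_le_sum fun c hc' => mul_le_mul_of_nonneg_left (hF θ D hc s c hc')
      (by positivity)) ?_
    simp only [mul_left_comm _ CF]
    rw [← Finset.mul_sum, mul_assoc]
    refine mul_le_mul_of_nonneg_left (a1.trans ?_) hF0.le
    rw [mul_assoc, Finset.mul_sum D _ (_ / _)]
    refine mul_le_mul_of_nonneg_left (Finset.sum_le_sum fun y _ => ?_) (by positivity)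
    have a2 : ZZ G θ D s y ≤ 2 * (d + 1) * Dd G θ D s y ^ 2 :=
      mul_le_mul_of_nonneg_right (by linarith [(hc.MM_le s.1 y).2, (hc.MM_le s.2 y).2])
        (sq_nonneg _)
    exact (mul_le_mul_of_nonneg_left a2 (by positivity)).trans (le_of_eq (by ring))
  have s3 : ∑ w ∈ D, θ ^ (2 * G.dist z w) * (aa G θ D s.1 x w * |Dd G θ D s w|) ^ 2 ≤
      b * ∑ c ∈ D, kap d ^ G.dist x c * Dd G θ D s c ^ 2 := by
    rw [Finset.mul_sum]
    refine Finset.sum_le_sum fun w hw => ?_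
    have a1 := hc.aa_mem s.1 hx hw
    have a2 := pow_le_pow_left₀ a1.1 a1.2 2
    rw [← pow_mul, mul_comm] at a2
    have a3 : (1 / b) ^ G.dist x w * (1 / b) ^ G.dist x w ≤ kap d ^ G.dist x w := by
      rw [← mul_pow, ek]
      exact pow_le_pow_left₀ (by positivity)
        (le_mul_of_one_le_left (by positivity) (by norm_num)) _
    rw [mul_pow, sq_abs, ← mul_assoc, ← mul_assoc]
    refine mul_le_mul_of_nonneg_right ((mul_le_mul (t1 w) (a2.trans (hb ▸ hc.pow_q _))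
      (sq_nonneg _) (by positivity)).trans ?_) (sq_nonneg _)
    rw [mul_assoc]
    exact mul_le_mul_of_nonneg_left a3 b0.le
  have s4 : ∑ w ∈ D, θ ^ (2 * G.dist z w) * qq G θ D s x w ≤
      2 * ∑ w ∈ D, θ ^ (2 * G.dist z w) * tq G θ D s x w ^ 2 +
      2 * ∑ w ∈ D, θ ^ (2 * G.dist z w) * (aa G θ D s.1 x w * |Dd G θ D s w|) ^ 2 := by
    rw [← mul_add, ← Finset.sum_add_distrib, Finset.mul_sum]
    refine Finset.sum_le_sum fun w _ => ?_
    rw [← mul_add, mul_left_comm]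
    exact mul_le_mul_of_nonneg_left add_sq_le (pow_nonneg hc.h0 _)
  have s5 := mul_le_mul_of_nonneg_left s2 (by positivity : 0 ≤ b ^ 2 * (C5 * Cg))
  rw [← mul_assoc] at s5
  rw [add_mul, mul_assoc 2, mul_assoc 2]
  linarith

/-- `q2`, `om_dist`, `schur` with `κ = 6 / 5 / (d - 1)`, `num5`, `FF_le` -/
theorem q0 (h : Tr G d) : ∃ C, 0 < C ∧ ∀ θ D, Cx G d θ D → ∀ (o : V) (s : (V → ℝ) × (V → ℝ))
    (lam : V → ℝ), (∀ x, 0 ≤ lam x) → ∀ η : ℝ, 0 < η →
      ∑ x ∈ D, om (G.dist o x) * (lam x * ∑ w ∈ D, qq G θ D s x w) ≤ η * B2 G θ D o s +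
        C / η * ∑ c ∈ D, om (G.dist o c) *
          ((∑ x ∈ D, om (G.dist x c) * lam x * aa G θ D s.1 x c ^ 2) ^ 2 * FF G θ D s c ^ 2) +
        C * ∑ c ∈ D, om (G.dist o c) *
          ((∑ x ∈ D, om (G.dist x c) * lam x * aa G θ D s.1 x c ^ 2) * Dd G θ D s c ^ 2) := by
  have h3 : (3 : ℝ) ≤ d := by exact_mod_cast h.hd
  have b0 : (0 : ℝ) < d - 1 := by linarith
  have hG := h.tree.connected
  obtain ⟨CF, hF0, hF⟩ := FF_le h
  obtain ⟨Cs, hs0, hs⟩ := schur h (κ := 6 / 5 * (1 / ((d : ℝ) - 1))) (by positivity) (by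
    rw [show (6 / 5 * (1 / ((d : ℝ) - 1))) ^ 2 * (d - 1) = 36 / 25 / (d - 1) by
      field_simp; norm_num, div_lt_one b0]
    linarith)
  obtain ⟨C5, h50, h5⟩ := num5 (t := 6 / 5) (by norm_num)
  obtain ⟨K, hK⟩ : ∃ K : ℝ, K = 4 * C5 * (CF * ((d + 1) * 2)) := ⟨_, rfl⟩
  have K0 : 0 < K := by rw [hK]; positivity
  refine ⟨4 * C5 * Cs * K + 2, by positivity, fun θ D hc o s lam h0 η hη => ?_⟩
  have o0 : ∀ k, 0 ≤ om k := fun k => zero_le_one.trans (om_one k)
  set L : V → ℝ := fun c => ∑ x ∈ D, om (G.dist x c) * lam x * aa G θ D s.1 x c ^ 2 with hL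
  set W : V → ℝ := fun c => ∑ y ∈ D.filter fun y => G.Adj c y, ∑ w ∈ D, aa G θ D s.2 w y ^ 2
    with hW
  have L0 : ∀ c, 0 ≤ L c := fun c => Finset.sum_nonneg fun x _ =>
    mul_nonneg (mul_nonneg (o0 _) (h0 x)) (sq_nonneg _)
  have W0 : ∀ c, 0 ≤ W c := fun c => Finset.sum_nonneg fun _ _ =>
    Finset.sum_nonneg fun _ _ => sq_nonneg _
  have F0 := FF_nonneg_q0 (G := G) (θ := θ) (D := D) s
  have l1 : ∀ c, ∑ x ∈ D, om (G.dist o x) * lam x * aa G θ D s.1 x c ^ 2 ≤
      om (G.dist o c) * L c := fun c => by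
    rw [hL, Finset.mul_sum]
    refine Finset.sum_le_sum fun x _ => ?_
    rw [← mul_assoc, ← mul_assoc]
    exact mul_le_mul_of_nonneg_right (mul_le_mul_of_nonneg_right (om_dist hG o x c) (h0 x))
      (sq_nonneg _)
  have s1 := hc.q2 s (lam := fun x => om (G.dist o x) * lam x) fun x => mul_nonneg (o0 _) (h0 x)
  have s2 := hs D (fun c => √(om (G.dist o c)) * (L c * FF G θ D s c))
    (fun c => √(om (G.dist o c)) * (W c * FF G θ D s c)) (η / K) (by positivity)
  simp only [mul_pow, Real.sq_sqrt (o0 _)] at s2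
  have s3 : ∑ c ∈ D, ∑ c' ∈ D, θ ^ (2 * G.dist c c') *
      (((∑ x ∈ D, om (G.dist o x) * lam x * aa G θ D s.1 x c ^ 2) * FF G θ D s c) *
        (W c' * FF G θ D s c')) ≤ C5 * ∑ c ∈ D, ∑ c' ∈ D,
        (6 / 5) ^ G.dist c c' * (1 / ((d : ℝ) - 1)) ^ G.dist c c' *
          (√(om (G.dist o c)) * (L c * FF G θ D s c) *
            (√(om (G.dist o c')) * (W c' * FF G θ D s c'))) := by
    simp only [Finset.mul_sum D _ C5]
    refine Finset.sum_le_sum fun c _ => Finset.sum_le_sum fun c' _ => ?_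
    have a1 : √(om (G.dist o c)) ≤ √(om (G.dist o c')) * (C5 * (6 / 5) ^ G.dist c c') := by
      refine le_trans (Real.sqrt_le_iff.2 ⟨mul_nonneg (Real.sqrt_nonneg _) (o0 _), ?_⟩)
        (mul_le_mul_of_nonneg_left ((om_le _).trans (h5 _)) (Real.sqrt_nonneg _))
      rw [mul_pow, Real.sq_sqrt (o0 _)]
      exact (om_dist hG o c c').trans (mul_le_mul_of_nonneg_left
        (le_self_pow₀ (om_one _) two_ne_zero) (o0 _))
    have a2 : om (G.dist o c) ≤ √(om (G.dist o c)) *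
        (√(om (G.dist o c')) * (C5 * (6 / 5) ^ G.dist c c')) := by
      refine le_of_eq_of_le (Real.mul_self_sqrt (o0 _)).symm ?_
      exact mul_le_mul_of_nonneg_left a1 (Real.sqrt_nonneg _)
    have a3 := (l1 c).trans (mul_le_mul_of_nonneg_right a2 (L0 c))
    have a4 := mul_le_mul_of_nonneg_right (mul_le_mul_of_nonneg_right a3 (F0 c))
      (mul_nonneg (W0 c') (F0 c'))
    refine (mul_le_mul (hc.pow_q _) a4 (mul_nonneg (mul_nonneg (Finset.sum_nonneg fun x _ =>
      mul_nonneg (mul_nonneg (o0 _) (h0 x)) (sq_nonneg _)) (F0 c)) (mul_nonneg (W0 c') (F0 c')))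
      (by positivity)).trans (le_of_eq (by ring))
  have s4 : ∑ c ∈ D, om (G.dist o c) * (W c ^ 2 * FF G θ D s c ^ 2) ≤
      CF * ((d + 1) * 2) * B2 G θ D o s := by
    have a1 := near_q h D (f := fun c => om (G.dist o c) * W c ^ 2) (g := fun y => ZZ G θ D s y)
      (k := fun y => 2 * om (G.dist o y) * (HH G θ D s.1 y ^ 2 + HH G θ D s.2 y ^ 2))
      (fun y => (hc.nonneg 0 s y).2.2.1)
      (fun y => mul_nonneg (mul_nonneg zero_le_two (o0 _)) (by positivity)) fun c _ y _ hy => by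
        have b1 : om (G.dist o c) ≤ 2 * om (G.dist o y) := by
          refine (om_mono ?_).trans (om_succ _)
          have := hG.dist_triangle (u := o) (v := y) (w := c)
          omega
        have b2 : W c ≤ HH G θ D s.2 y := by
          refine le_trans (Finset.sum_le_sum fun y' _ => Finset.sum_le_sum fun w _ =>
            le_mul_of_one_le_left (sq_nonneg _) (om_one (G.dist w y')))
            (Finset.sum_le_sum_of_subset_of_nonneg (Finset.monotone_filter_right D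
              fun y' _ hy' => ?_) fun y' _ _ => Finset.sum_nonneg fun w _ =>
                mul_nonneg (o0 _) (sq_nonneg _))
          have := hG.dist_triangle (u := y') (v := c) (w := y)
          have := dist_eq_one_iff_adj.2 hy'.symm
          rw [SimpleGraph.dist_comm] at hy
          omega
        exact mul_le_mul b1 ((pow_le_pow_left₀ (W0 c) b2 2).trans
          (le_add_of_nonneg_left (sq_nonneg _))) (sq_nonneg _) (mul_nonneg zero_le_two (o0 _))
    refine le_trans (Finset.sum_le_sum fun c hc' => ?_) ((Finset.mul_sum _ _ _).symm.trans_le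
      ((mul_le_mul_of_nonneg_left a1 hF0.le).trans (le_of_eq ?_)))
    · rw [← mul_assoc, mul_left_comm CF]
      exact mul_le_mul_of_nonneg_left (hF θ D hc s c hc') (mul_nonneg (o0 _) (sq_nonneg _))
    · rw [mul_assoc, mul_assoc, B2, Finset.mul_sum D _ 2]
      simp only [mul_assoc]
  have s5 : ∑ x ∈ D, om (G.dist o x) * lam x *
      ∑ w ∈ D, (aa G θ D s.1 x w * |Dd G θ D s w|) ^ 2 ≤
      ∑ c ∈ D, om (G.dist o c) * (L c * Dd G θ D s c ^ 2) := by
    simp only [Finset.mul_sum D, mul_pow, sq_abs]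
    rw [Finset.sum_comm]
    refine Finset.sum_le_sum fun c _ => ?_
    simp only [← mul_assoc]
    rw [← Finset.sum_mul]
    exact mul_le_mul_of_nonneg_right (l1 c) (sq_nonneg _)
  have s6 : ∑ x ∈ D, om (G.dist o x) * (lam x * ∑ w ∈ D, qq G θ D s x w) ≤
      2 * ∑ x ∈ D, om (G.dist o x) * lam x * ∑ w ∈ D, tq G θ D s x w ^ 2 +
      2 * ∑ x ∈ D, om (G.dist o x) * lam x *
        ∑ w ∈ D, (aa G θ D s.1 x w * |Dd G θ D s w|) ^ 2 := by
    rw [← mul_add, ← Finset.sum_add_distrib, Finset.mul_sum]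
    refine Finset.sum_le_sum fun x _ => ?_
    rw [← mul_add, ← mul_assoc, mul_left_comm 2, ← Finset.sum_add_distrib, Finset.mul_sum D _ 2]
    exact mul_le_mul_of_nonneg_left (Finset.sum_le_sum fun w _ => add_sq_le)
      (mul_nonneg (o0 _) (h0 x))
  have U0 : 0 ≤ ∑ c ∈ D, om (G.dist o c) * (L c ^ 2 * FF G θ D s c ^ 2) :=
    Finset.sum_nonneg fun c _ => mul_nonneg (o0 _) (by positivity)
  have T0 : 0 ≤ ∑ c ∈ D, om (G.dist o c) * (L c * Dd G θ D s c ^ 2) :=
    Finset.sum_nonneg fun c _ => mul_nonneg (o0 _) (mul_nonneg (L0 c) (sq_nonneg _))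
  have s7 := mul_le_mul_of_nonneg_left (s2.trans (add_le_add_left
    (mul_le_mul_of_nonneg_left s4 (by positivity)) _)) (by positivity : 0 ≤ 4 * C5)
  have e1 : ∀ B U : ℝ, 4 * C5 * (η / K * (CF * ((d + 1) * 2) * B) + Cs / (η / K) * U) =
      η * B + 4 * C5 * Cs * K / η * U := fun B U => by
    rw [mul_add, show 4 * C5 * (η / K * (CF * ((d + 1) * 2) * B)) = η * B * (K / K) by
      rw [hK]; ring, div_self K0.ne']
    field_simp
  rw [e1] at s7
  have s8 := mul_nonneg (by positivity : 0 ≤ 2 / η) U0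
  have s9 := mul_nonneg (by positivity : 0 ≤ 4 * C5 * Cs * K) T0
  rw [add_div, add_mul, add_mul]
  linarith

end Vale.Agent.P161E
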