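import Vale.Agent.P161E.Ak
import Vale.Agent.P161E.Q
import Vale.Agent.P161E.Cmp

namespace Vale.Agent.P161E

open MeasureTheory unitInterval Classical SimpleGraph Filter Topology
open Vale.Agent.P161
open Vale.Agent.P143 (BM iidUniform)

variable {V : Type} {G : SimpleGraph V} [G.LocallyFinite] {d : ℕ} {θ : ℝ} {D : Finset V}

lemma Cx.law_err {D' : Finset V} (h : Cx G d θ D') {g : Finset V → (V → ℝ) → ℝ}
    (hg : ∀ T, BM (g T)) (n : ℕ) :
    (PP G θ D')^[n] (fun x => ex G θ D' x fun T => g T (rs D x)) 0 =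
      (PS G θ D' D)^[n] (fun x => ex G θ D' x fun T => g T x) 0 := by
  have hθ := h.theta.1
  have h1 := planted (G := G) hθ h.ne D' (g := fun T x => g T (rs D x))
    (fun T => (hg T).comp measurable_rs) n 0
  rw [planted hθ h.ne D hg]
  refine h1.trans (ex_congr _ fun T _ => ?_)
  rw [opT_semi_cmp T (f' := one (stT D)) (π := rs D) (fun s w hw p => ?_) (g T), rs_zero_cmp]
  simp only [one, stT, if_pos hw, rs_addf_cmp]

/-- orthogonality, from `planted` -/
lemma Cx.err_eq {D' : Finset V} (h : Cx G d θ D') (hsub : D ⊆ D') (w : V) (n : ℕ) :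
    Err G θ D D' w n = (PP G θ D')^[n] (fun l => mI G θ D' l w ^ 2) 0 -
      (PS G θ D' D)^[n] (fun l => mI G θ D' l w ^ 2) 0 := by
  have hθ := h.theta.1
  have b := bm_mI (G := G) (D := D') hθ w
  have b' := b.comp (measurable_rs (D := D))
  have h1 := h.law_err (D := D) (g := fun _ x => mI G θ D' x w ^ 2) (fun _ => bm_pow b 2) n
  have h2 := h.law_err (D := D) (g := fun T x => mI G θ D' x w * ind T w)
    (fun _ => b.mul (BM.const _)) n
  simp only [ex_const hθ] at h1
  simp only [ex_smul, ex_ind, ← sq] at h2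
  have hm := h.mkP.iter n
  have e : (fun l => (mI G θ D' l w - mI G θ D' (rs D l) w) ^ 2) = fun l => (mI G θ D' l w ^ 2 +
      -2 * (mI G θ D' (rs D l) w * mI G θ D' l w)) + mI G θ D' (rs D l) w ^ 2 := by
    funext l
    ring
  rw [Err, e, hm.add _ _ ((bm_pow b 2).add ((BM.const _).mul (b'.mul b))) (bm_pow b' 2),
    hm.add _ _ (bm_pow b 2) ((BM.const _).mul (b'.mul b)), hm.smul, h1, h2]
  ring

lemma Cx.one_err {D' : Finset V} (h : Cx G d θ D') {w : V} (hw : w ∈ D') (l : V → ℝ) :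
    PP G θ D' (fun l => mI G θ D' l w ^ 2) l ≤ PS G θ D' D (fun l => mI G θ D' l w ^ 2) l +
      1 / D'.card * ∑ z ∈ D' \ D, aa G θ D' l z w ^ 2 := by
  have hθ := h.theta.1
  have b := bm_mI (G := G) (D := D') hθ w
  have h1 := h.mkP.var_eq b (s := l) (PS_ex hθ h.ne D' (fun T => ind T w) l)
  have h2 := (h.mkS D).var_eq b (s := l) (PS_ex hθ h.ne D (fun T => ind T w) l)
  have h3 : PP G θ D' (fun x => (mI G θ D' x w - mI G θ D' l w) ^ 2) l ≤
      PS G θ D' D (fun x => (mI G θ D' x w - mI G θ D' l w) ^ 2) l +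
      1 / D'.card * ∑ z ∈ D' \ D, aa G θ D' l z w ^ 2 := by
    unfold PP PS op
    rw [one_div_mul_eq_div, ← add_div, Finset.sdiff_eq_filter, Finset.sum_filter,
      ← Finset.sum_add_distrib]
    refine div_le_div_of_nonneg_right (Finset.sum_le_sum fun z hz => ?_) (Nat.cast_nonneg _)
    by_cases c : z ∈ D
    · simp only [one, stp, stA, hz, c, if_true, not_true, if_false, add_zero, le_refl]
    · have h4 := integral_mono (μ := volume) ((bm_sec_op (ms_stp (G := G) (θ := θ) (D := D')).one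
        (bm_pow (b.sub (BM.const (mI G θ D' l w))) 2) l z).integrable _)
        (integrable_const (aa G θ D' l z w ^ 2)) fun p => by
          have h5 := h.dmu l hw hz p.1
          simp only [mu, one] at h5 ⊢
          nlinarith [sq_nonneg (mI G θ D' (stp G θ D' l z p.1) w - mI G θ D' l w)]
      simpa [one, stA, c] using h4
  linarith

/-- `P^n - R^n = ∑ R^(n-1-j) P^j (P - R)` by `PS_comm`, and
`(P - R) (m²) l ≤ (1/N) ∑ z ∈ D' \ D, aa l z w ^ 2` by `mI_st`, `gam_le`, `aa_flip` -/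
lemma Cx.err_le {D' : Finset V} (h : Cx G d θ D') (hsub : D ⊆ D') {w : V} (hw : w ∈ D') (n : ℕ)
    {b : ℕ → ℝ} (hb : ∀ j l, (PP G θ D')^[j] (fun l => ∑ z ∈ D' \ D, aa G θ D' l z w ^ 2) l ≤ b j) :
    Err G θ D D' w n ≤ (∑ j ∈ Finset.range n, b j) / D'.card := by
  have hθ := h.theta.1
  have b2 := bm_pow (bm_mI (G := G) (D := D') hθ w) 2
  have bF : BM fun l => ∑ z ∈ D' \ D, aa G θ D' l z w ^ 2 :=
    BM.sum _ fun z _ => bm_pow (bm_aa hθ z w) 2
  have comm : ∀ (n : ℕ) {g : (V → ℝ) → ℝ}, BM g →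
      (PP G θ D')^[n] (PS G θ D' D g) = PS G θ D' D ((PP G θ D')^[n] g) := by
    intro n
    induction n with
    | zero => exact fun _ => rfl
    | succ n ih =>
      intro g hg
      rw [Function.iterate_succ_apply, Function.iterate_succ_apply, ← ih (h.mkP.bm g hg)]
      exact congrArg _ (PS_comm hθ h.ne D' D hg)
  have key : ∀ (n : ℕ) l, (PP G θ D')^[n] (fun l => mI G θ D' l w ^ 2) l ≤
      (PS G θ D' D)^[n] (fun l => mI G θ D' l w ^ 2) l +
        (∑ j ∈ Finset.range n, b j) / D'.card := by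
    intro n
    induction n with
    | zero => simp
    | succ n ih =>
      intro l
      have hm := h.mkP.iter n
      have hs := h.mkS D
      have h1 := hm.mono _ _ (h.mkP.bm _ b2) ((hs.bm _ b2).add ((BM.const _).mul bF))
        (h.one_err (D := D) hw) l
      rw [hm.add _ _ (hs.bm _ b2) ((BM.const _).mul bF), hm.smul, comm n b2] at h1
      have h2 := hs.mono _ _ (hm.bm _ b2) (((hs.iter n).bm _ b2).add (BM.const _)) ih l
      rw [hs.add _ _ ((hs.iter n).bm _ b2) (BM.const _), hs.const] at h2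
      have h3 := mul_le_mul_of_nonneg_left (hb n l) (by positivity : (0 : ℝ) ≤ 1 / D'.card)
      rw [Function.iterate_succ_apply, Function.iterate_succ_apply', Finset.sum_range_succ,
        add_div, div_eq_mul_one_div (b n)]
      linarith
  rw [h.err_eq hsub]
  linarith [key n 0]

theorem err_small (h : Tr G d) {η : ℝ} (hη : 0 < η) : ∃ R : ℕ, ∀ θ D D', Cx G d θ D' → D ⊆ D' →
    ∀ w ∈ D', (∀ z ∈ D', G.dist z w ≤ R → z ∈ D) → ∀ n : ℕ,
      Err G θ D D' w n ≤ η * (1 + (n : ℝ) / D'.card) := by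
  obtain ⟨C, hC, H⟩ := ak_decay h
  obtain ⟨R, hR⟩ := num4 (η := η / (9 * C)) (by positivity)
  refine ⟨R, fun θ D D' h hsub w hw hD n => ?_⟩
  have hθ := h.theta.1
  obtain ⟨K, hK⟩ : ∃ K, ∀ z ∈ D', G.dist z w < K := ⟨D'.sup (fun z => G.dist z w) + 1,
    fun z hz => Nat.lt_succ_of_le (Finset.le_sup (f := fun z => G.dist z w) hz)⟩
  refine (h.err_le hsub hw n (b := fun j => η / 9 * rho D'.card j ^ (7 / 8 : ℝ))
    fun j l => ?_).trans ?_
  · have hm := h.mkP.iter j
    have h1 := hm.mono _ _ (BM.sum (D' \ D) fun z _ => bm_pow (bm_aa (G := G) (D := D') hθ z w) 2)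
      (BM.sum (Finset.Ico R K) fun k _ => h.bm_Ak w k) (fun x => by
        rw [← Finset.sum_fiberwise_of_maps_to (t := Finset.Ico R K) (g := fun z => G.dist z w)
          fun z hz => Finset.mem_Ico.2 ⟨le_of_not_ge fun c => (Finset.mem_sdiff.1 hz).2
            (hD z (Finset.mem_sdiff.1 hz).1 c), hK z (Finset.mem_sdiff.1 hz).1⟩]
        exact Finset.sum_le_sum fun k _ => Finset.sum_le_sum_of_subset_of_nonneg
          (Finset.filter_subset_filter _ Finset.sdiff_subset) fun _ _ _ => sq_nonneg _) l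
    rw [hm.sum _ fun k _ => h.bm_Ak w k] at h1
    refine h1.trans ((Finset.sum_le_sum fun k _ => H θ D' h w hw j k l).trans ?_)
    rw [← Finset.mul_sum]
    refine (mul_le_mul_of_nonneg_left (hR _ (rho_one _ j) K) hC.le).trans_eq ?_
    field_simp
  · rw [← Finset.mul_sum, mul_div_assoc]
    refine (mul_le_mul_of_nonneg_left (num2' h.ne.card_pos n) (by positivity)).trans_eq ?_
    ring

end Vale.Agent.P161E
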