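import Vale.Agent.P161E.Om

namespace Vale.Agent.P161E

open MeasureTheory unitInterval Classical SimpleGraph Filter Topology
open Vale.Agent.P161
open Vale.Agent.P143 (BM iidUniform)

variable {V : Type} {G : SimpleGraph V} [G.LocallyFinite] {d : ℕ} {θ : ℝ} {D : Finset V}

omit [G.LocallyFinite] in
lemma SI_cyl_fin (hG : G.IsTree) (hθ : θ ∈ Set.Ico (0 : ℝ) 1) {o : V} {D0 D : Finset V}
    (hD : GoodAt G o D0) (hsub : D0 ⊆ D) (η : V → Bool) :
    ex G θ D 0 (fun T => cylF (D0.filter fun v => η v = true) (D0.filter fun v => ¬ η v = true)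
      (ind T)) = 1 / 2 * wI G θ D0 (D0.filter fun v => η v = true) := by
  obtain ⟨c, hc, -, h1⟩ := SI_consistent hG hθ hD D hsub
  rw [ex, h1 _ (fun x hx T => by
    have : ∀ v ∈ D0, ind (insert x T) v = ind T v := fun v hv => by
      have : v ≠ x := fun e => hx (e ▸ hv)
      simp [ind, this]
    unfold cylF
    rw [Finset.prod_congr rfl fun v hv => this v (Finset.mem_filter.1 hv).1,
      Finset.prod_congr rfl fun v hv => congrArg (1 - ·) (this v (Finset.mem_filter.1 hv).1)]),
    h1 _ (fun _ _ _ => rfl), mul_div_mul_left _ _ hc.ne', SI_good hG hθ hD, SI_zero,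
    Finset.sum_eq_single (D0.filter fun v => η v = true)]
  · unfold ind
    rw [cylF_ind, if_pos ⟨fun e he => he, fun e he h => by
      rw [Finset.mem_filter] at he h; exact he.2 h.2⟩]
    ring
  · intro T hT hne
    unfold ind
    rw [cylF_ind, if_neg, mul_zero]
    rintro ⟨a, b⟩
    refine hne (Finset.Subset.antisymm (fun v hv => ?_) a)
    have hv' := Finset.mem_powerset.1 hT hv
    by_contra hcon
    exact b v (Finset.mem_filter.2 ⟨hv', fun e => hcon (Finset.mem_filter.2 ⟨hv', e⟩)⟩) hv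
  · intro hn
    exact (hn (Finset.mem_powerset.2 (Finset.filter_subset _ _))).elim

lemma decode_fin [Countable V] {Ω : Type} [MeasurableSpace Ω] (μ : Measure Ω)
    [IsProbabilityMeasure μ] {X : ℕ → V → Ω → ℝ} (bX : ∀ j e, BM (X j e))
    (mX : ∀ j e ω, X j e ω ∈ Set.Icc (0 : ℝ) 1) {C : ℝ}
    (hC : ∀ e j, ∫ ω, P143.psi (X j e ω) (X (j + 1) e ω) ∂μ ≤ C * (1 / 2) ^ j) (A B : Finset V) :
    Tendsto (fun j => ∫ ω, cylF A B (fun e => X j e ω) ∂μ) atTop
      (𝓝 (μ.real {ω | (∀ v ∈ A, ∀ᶠ j in atTop, 1 / 2 < X j v ω) ∧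
        ∀ v ∈ B, ¬ ∀ᶠ j in atTop, 1 / 2 < X j v ω})) := by
  have ae1 : ∀ e, ∀ᵐ ω ∂μ, Tendsto (fun j => X j e ω) atTop
      (𝓝 (if ∀ᶠ j in atTop, 1 / 2 < X j e ω then 1 else 0)) := by
    intro e
    filter_upwards [P143.ae_tendsto_zero (μ := μ)
      (ψ := fun j ω => P143.psi (X j e ω) (X (j + 1) e ω)) (fun j =>
        ((((BM.const 2).mul (bX _ _)).mul ((BM.const 1).sub (bX _ _))).add
          ((bX _ _).sub (bX _ _)).abs).add (((BM.const 2).mul (bX _ _)).mul
            ((BM.const 1).sub (bX _ _))))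
      (fun j ω => P143.psi_nonneg (mX _ _ _) (mX _ _ _)) (hC e)] with ω hω
    exact P143.tendsto_of_psi (fun j => mX _ _ _) hω
  have bmc : ∀ j, BM fun ω => cylF A B fun e => X j e ω := fun j =>
    (BM.prod _ fun e _ => bX _ _).mul (BM.prod _ fun e _ => (BM.const 1).sub (bX _ _))
  have mP : ∀ v, Measurable fun ω => ∀ᶠ j in atTop, 1 / 2 < X j v ω := fun v => by
    simp only [eventually_atTop]
    exact Measurable.exists fun M => Measurable.forall fun j => Measurable.imp measurable_const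
      (measurableSet_setOfPred.1 (measurableSet_lt measurable_const (bX _ _).meas))
  have mS : MeasurableSet {ω | (∀ v ∈ A, ∀ᶠ j in atTop, 1 / 2 < X j v ω) ∧
      ∀ v ∈ B, ¬ ∀ᶠ j in atTop, 1 / 2 < X j v ω} :=
    measurableSet_setOfPred.2 ((Measurable.forall fun v => measurable_const.imp (mP v)).and
      (Measurable.forall fun v => measurable_const.imp (mP v).not))
  rw [← integral_indicator_one mS]
  refine tendsto_integral_of_dominated_convergence (fun _ => 1)
    (fun j => (bmc j).meas.aestronglyMeasurable) (integrable_const _)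
    (fun j => Eventually.of_forall fun b => ?_) ?_
  · have := cylF_mem A B fun e => mX j e b
    rw [Real.norm_eq_abs, abs_of_nonneg this.1]; exact this.2
  · filter_upwards [ae_all_iff.2 ae1] with b hb
    have : Set.indicator {ω | (∀ v ∈ A, ∀ᶠ j in atTop, 1 / 2 < X j v ω) ∧
        ∀ v ∈ B, ¬ ∀ᶠ j in atTop, 1 / 2 < X j v ω} (1 : Ω → ℝ) b =
        cylF A B fun e => if ∀ᶠ j in atTop, 1 / 2 < X j e b then 1 else 0 := by
      rw [cylF_ind]
      split_ifs with h
      · exact Set.indicator_of_mem (by exact h) _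
      · exact Set.indicator_of_notMem (by exact h) _
    rw [this]
    exact (tendsto_finsetProd _ fun e _ => hb e).mul
      (tendsto_finsetProd _ fun e _ => tendsto_const_nhds.sub (hb e))

theorem factor_fin [Countable V] (hG : G.IsTree) (hθ : θ ∈ Set.Ico (0 : ℝ) 1)
    (H : ∀ (J : ℕ) (η : ℝ), 0 < η → ∃ R : ℕ, ∀ (x c1 c2 : V) (r1 r2 : ℕ),
      ballF hG.connected x R ⊆ ballF hG.connected c1 r1 →
      ballF hG.connected x R ⊆ ballF hG.connected c2 r2 →
      Del G θ (ballF hG.connected c1 r1) (ballF hG.connected c2 r2) J x ≤ η) :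
    ∃ Φ : (V × (ℕ × Lab) → I) → V → Bool, Measurable Φ ∧
      (∀ (g : G ≃g G) (Ω Ω' : V × (ℕ × Lab) → I), (∀ v k, Ω' (g v, k) = Ω (v, k)) →
        ∀ v, Φ Ω' (g v) = Φ Ω v) ∧
      IsFreeIsing G θ ((iidUniform (V × (ℕ × Lab))).map Φ) := by
  have hc := hG.connected
  obtain ⟨C, hC, var⟩ := Fm_var (G := G)
  choose R0 hR0 using fun j : ℕ => H (2 ^ j) ((1 / 2) ^ j) (by positivity)
  obtain ⟨R, hR, Rm⟩ : ∃ R : ℕ → ℕ, (∀ j, R0 j ≤ R j) ∧ ∀ j, R j ≤ R (j + 1) :=
    ⟨fun j => ∑ i ∈ Finset.range (j + 1), R0 i, fun j => by simp [Finset.sum_range_succ],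
      fun j => by simp [Finset.sum_range_succ _ (j + 1)]⟩
  set P := iidUniform (V × (ℕ × Lab)) with hP
  have mF : ∀ D J x Ω, Fm G θ D J x Ω ∈ Set.Icc (0 : ℝ) 1 := fun D J x Ω => mI_mem hθ _ _ _
  have bF : ∀ D J x, BM (Fm G θ D J x) := fun D J x => bm_Fm hθ J x
  have bV : ∀ D J x, BM fun Ω => Fm G θ D J x Ω * (1 - Fm G θ D J x Ω) := fun D J x =>
    (bF D J x).mul ((BM.const 1).sub (bF D J x))
  have vr : ∀ (D : Finset V), ∀ x ∈ D, ∀ j : ℕ, ∫ Ω, Fm G θ D (2 ^ j) x Ω *
      (1 - Fm G θ D (2 ^ j) x Ω) ∂P ≤ C * (1 / 2) ^ j := fun D x hx j =>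
    (var θ hθ D x hx _ Nat.one_le_two_pow).trans (le_of_eq (by
      rw [one_div, inv_pow, div_eq_mul_inv]; norm_cast))
  have xx : ∀ x r, x ∈ ballF hc x r := fun x r => by simp [mem_ballF]
  have hψ : ∀ e j, ∫ Ω, P143.psi (Fm G θ (ballF hc e (R j)) (2 ^ j) e Ω)
      (Fm G θ (ballF hc e (R (j + 1))) (2 ^ (j + 1)) e Ω) ∂P ≤ (5 * C + 1) * (1 / 2) ^ j := by
    intro e j
    have a1 := vr _ e (xx e (R j)) j
    have a2 := vr _ e (xx e (R (j + 1))) (j + 1)
    have a3 := vr _ e (xx e (R (j + 1))) j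
    have a4 := Fm_time (G := G) hθ (xx e (R (j + 1))) (2 ^ j) (2 ^ j)
    have a5 := hR0 j e e e (R j) (R (j + 1)) (ballF_mono _ _ (hR j))
      (ballF_mono _ _ ((hR j).trans (Rm j)))
    rw [← two_mul, ← pow_succ'] at a4
    rw [pow_succ (1 / 2 : ℝ)] at a2
    have b1 := ((bF (ballF hc e (R j)) (2 ^ j) e).sub (bF (ballF hc e (R (j + 1))) (2 ^ j) e)).abs
    have b2 := ((bF (ballF hc e (R (j + 1))) (2 ^ (j + 1)) e).sub
      (bF (ballF hc e (R (j + 1))) (2 ^ j) e)).abs
    have a6 : ∫ Ω, |Fm G θ (ballF hc e (R j)) (2 ^ j) e Ω -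
        Fm G θ (ballF hc e (R (j + 1))) (2 ^ (j + 1)) e Ω| ∂P ≤ _ :=
      (integral_mono (((bF _ _ _).sub (bF _ _ _)).abs.integrable _) ((b1.add b2).integrable _)
        fun Ω => (abs_sub_le _ (Fm G θ (ballF hc e (R (j + 1))) (2 ^ j) e Ω) _).trans
          (add_le_add le_rfl (abs_sub_comm _ _).le)).trans_eq
        (integral_add (b1.integrable _) (b2.integrable _))
    simp only [P143.psi, mul_assoc]
    rw [integral_add ((((BM.const 2).mul (bV _ _ _)).add ((bF _ _ _).sub (bF _ _ _)).abs).integrable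
      _) (((BM.const 2).mul (bV _ _ _)).integrable _), integral_add
      (((BM.const 2).mul (bV _ _ _)).integrable _) (((bF _ _ _).sub (bF _ _ _)).abs.integrable _),
      integral_const_mul, integral_const_mul]
    unfold Del at a5
    linarith
  have mP : ∀ v, Measurable fun Ω => ∀ᶠ j in atTop,
      1 / 2 < Fm G θ (ballF hc v (R j)) (2 ^ j) v Ω := fun v => by
    simp only [eventually_atTop]
    exact Measurable.exists fun M => Measurable.forall fun j => Measurable.imp measurable_const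
      (measurableSet_setOfPred.1 (measurableSet_lt measurable_const (bF _ _ _).meas))
  have mΦ : Measurable fun Ω v => decide (∀ᶠ j in atTop,
      1 / 2 < Fm G θ (ballF hc v (R j)) (2 ^ j) v Ω) :=
    measurable_pi_iff.2 fun v => (Measurable.of_discrete (f := fun p : Prop => decide p)).comp
      (mP v)
  refine ⟨_, mΦ, fun g Ω Ω' h1 v => ?_, Measure.isProbabilityMeasure_map mΦ.aemeasurable,
    fun D0 hD0 η => ?_⟩
  · have hb : ∀ c n, ballF hc (g c) n = (ballF hc c n).map g.toEquiv.toEmbedding := by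
      intro c n
      ext w
      obtain ⟨w, rfl⟩ := g.surjective w
      rw [mem_ballF, dist_iso hc, ← mem_ballF hc]
      exact (Finset.mem_map' g.toEquiv.toEmbedding).symm
    simp only [hb, fun D J => Fm_map (θ := θ) (D := D) g J v h1]
  obtain ⟨⟨o, ho⟩⟩ := hD0.nonempty
  have good := good_of_connected hG hD0 ho
  have law := decode_fin P (X := fun j e => Fm G θ (ballF hc e (R j)) (2 ^ j) e)
    (fun j e => bF _ _ _) (fun j e Ω => mF _ _ _ _) hψ
    (D0.filter fun v => η v = true) (D0.filter fun v => ¬ η v = true)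
  have un : (D0.filter fun v => η v = true) ∪ (D0.filter fun v => ¬ η v = true) = D0 :=
    Finset.filter_union_filter_not_eq _ _
  have bd : ∀ j, |∫ Ω, cylF (D0.filter fun v => η v = true) (D0.filter fun v => ¬ η v = true)
      (fun e => Fm G θ (ballF hc e (R j)) (2 ^ j) e Ω) ∂P -
      1 / 2 * wI G θ D0 (D0.filter fun v => η v = true)| ≤
      (D0.card * (2 + 4 * C)) * (1 / 2) ^ j := by
    intro j
    obtain ⟨n, hn⟩ := subset_ballF hc o (D0.biUnion fun e => ballF hc e (R j))
    have s1 : ∀ e ∈ D0, ballF hc e (R j) ⊆ ballF hc o n := fun e he =>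
      (Finset.subset_biUnion_of_mem (fun e => ballF hc e (R j)) he).trans (hn n le_rfl)
    have s2 : D0 ⊆ ballF hc o n := fun e he => s1 e he (xx _ _)
    have l1 := Fm_law (G := G) hθ ⟨o, xx o n⟩ ((Finset.filter_subset (fun v => η v = true) _).trans s2)
      ((Finset.filter_subset (fun v => ¬ η v = true) _).trans s2) (2 ^ j)
    rw [SI_cyl_fin hG hθ good s2, un] at l1
    have l2 := Finset.sum_le_card_nsmul D0 _ _ fun e he => vr _ e (s2 he) j
    have l3 := Finset.sum_le_card_nsmul D0 _ _ fun e he => hR0 j e e o (R j) n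
      (ballF_mono _ _ (hR j)) ((ballF_mono _ _ (hR j)).trans (s1 e he))
    rw [nsmul_eq_mul] at l2 l3
    have bc : ∀ X : V → (V × (ℕ × Lab) → I) → ℝ, (∀ e, BM (X e)) → BM fun Ω =>
        cylF (D0.filter fun v => η v = true) (D0.filter fun v => ¬ η v = true) fun e => X e Ω :=
      fun X hX => (BM.prod _ fun e _ => hX _).mul (BM.prod _ fun e _ => (BM.const 1).sub (hX _))
    have c1 := bc (fun e => Fm G θ (ballF hc e (R j)) (2 ^ j) e) fun e => bF _ _ _
    have c2 := bc (fun e => Fm G θ (ballF hc o n) (2 ^ j) e) fun e => bF _ _ _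
    have l4 := (abs_integral_le_integral_abs (μ := P)).trans (integral_mono
      ((c1.sub c2).abs.integrable _) (((BM.const 2).mul (BM.sum _ fun e _ =>
        ((bF _ _ _).sub (bF _ _ _)).abs)).integrable _) fun Ω =>
      cylF_sub _ _ (fun e => mF _ _ _ _) (fun e => mF _ _ _ _))
    rw [integral_sub (c1.integrable _) (c2.integrable _), integral_const_mul, un,
      integral_finsetSum _ fun e _ => ((bF _ _ _).sub (bF _ _ _)).abs.integrable _] at l4
    unfold Del at l3
    refine (abs_sub_le _ _ _).trans ((add_le_add l4 l1).trans ?_)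
    linarith
  have z := tendsto_nhds_unique law (tendsto_sub_nhds_zero_iff.1 (squeeze_zero_norm bd
    (P143.tendsto_half _)))
  have mS : MeasurableSet {τ : V → Bool | ∀ v ∈ D0, τ v = η v} :=
    measurableSet_setOfPred.2 (Measurable.forall fun v => measurable_const.imp
      (measurableSet_setOfPred.1 (measurableSet_eq_fun (measurable_pi_apply v) measurable_const)))
  rw [Measure.map_apply mΦ mS, ← ofReal_measureReal]
  congr 1
  refine Eq.trans (congrArg _ ?_) (z.trans (congrArg _ ?_))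
  · ext ω
    simp only [Set.mem_preimage, Set.mem_ofPred_eq, Finset.mem_filter, and_imp]
    constructor
    · intro H
      exact ⟨fun v hv e => of_decide_eq_true ((H v hv).trans e),
        fun v hv e x => e ((H v hv).symm.trans (decide_eq_true x))⟩
    · rintro ⟨H1, H2⟩ v hv
      cases e : η v
      · exact decide_eq_false (H2 v hv (by simp [e]))
      · exact decide_eq_true (H1 v hv e)
  · refine Finset.prod_congr rfl fun e he => ?_
    induction e using Sym2.ind with
    | _ a b =>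
      have he' := mk_mem_edgesIn.1 he
      simp [sp, spin, he'.1, he'.2.1]

/-- Decoding. Choose `T j`, `R j` increasing with `C / T j ≤ 2^(-j)` (`Fm_var`) and Cauchy error
`2^(-j)` at time `T j`; put `X j x = Fm θ (ball x (R j)) (T j) x` and
`Φ Ω x = decide (∀ᶠ j, 1/2 < X j x Ω)`; use `ae_tendsto_zero`, `tendsto_of_psi`, `Fm_time`,
`Fm_law`, and a copy of `SI_cyl`; finish with `exists_split (ℕ × Lab)` and `Fm_map`. -/
theorem factor_of_cauchy [Countable V] (hG : G.IsTree) (hθ : θ ∈ Set.Ico (0 : ℝ) 1)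
    (H : ∀ (J : ℕ) (η : ℝ), 0 < η → ∃ R : ℕ, ∀ (x c1 c2 : V) (r1 r2 : ℕ),
      ballF hG.connected x R ⊆ ballF hG.connected c1 r1 →
      ballF hG.connected x R ⊆ ballF hG.connected c2 r2 →
      Del G θ (ballF hG.connected c1 r1) (ballF hG.connected c2 r2) J x ≤ η) :
    ∃ Φ : (V → I) → V → Bool, Measurable Φ ∧
      (∀ (g : G ≃g G) (U : V → I), Φ (fun v => U (g.symm v)) = fun v => Φ U (g.symm v)) ∧
      IsFreeIsing G θ ((iidUniform V).map Φ) := by
  obtain ⟨Φ, m, e, l⟩ := factor_fin hG hθ H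
  obtain ⟨spl, -, hmp⟩ := P143.exists_split (ℕ × Lab)
  have mp := hmp V
  refine ⟨_, m.comp mp.measurable, fun g U => funext fun v => ?_, ?_⟩
  · obtain ⟨v, rfl⟩ := g.surjective v
    rw [g.symm_apply_apply]
    exact e g _ _ (fun v k => by simp) v
  · rwa [← mp.map_eq, Measure.map_map m mp.measurable] at l

end Vale.Agent.P161E
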