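import Vale.Agent.P161E.Gib0

namespace Vale.Agent.P161E

open MeasureTheory unitInterval Classical SimpleGraph Filter Topology
open Vale.Agent.P161
open Vale.Agent.P143 (BM iidUniform)

variable {V : Type} {G : SimpleGraph V} [G.LocallyFinite] {d : ℕ} {θ : ℝ} {D : Finset V}

section basic
omit [G.LocallyFinite]

lemma ms_addf_gb {X : Type*} [MeasurableSpace X] {l : X → V → ℝ} {t : X → ℝ} (w : V)
    (hl : Measurable l) (ht : Measurable t) : Measurable fun x => addf (l x) w (t x) := by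
  refine measurable_pi_iff.2 fun z => ((measurable_pi_apply z).comp hl).add ?_
  split_ifs
  · exact ht
  · exact measurable_const

lemma ms_ex_gb (g : Finset V → ℝ) : Measurable fun l => ex G θ D l g := by
  have : ∀ g, Measurable fun l => SI G θ D l g := fun g =>
    Finset.measurable_sum _ fun T _ => (measurable_const.mul
      (Finset.measurable_prod _ fun w _ => (measurable_pi_apply w).exp)).mul measurable_const
  exact (this _).div (this _)

lemma om_nn_gb (k : ℕ) : 0 ≤ om k := by unfold om; positivity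

lemma Gw_nn_gb (l : V → ℝ) (c : V) : 0 ≤ Gw G θ D l c :=
  Finset.sum_nonneg fun _ _ => mul_nonneg (om_nn_gb _) (sq_nonneg _)

lemma HH_nn_gb (l : V → ℝ) (y : V) : 0 ≤ HH G θ D l y :=
  Finset.sum_nonneg fun c _ => Gw_nn_gb l c

lemma MM_nn_gb (l : V → ℝ) (y : V) : 0 ≤ MM G θ D l y :=
  Finset.sum_nonneg fun _ _ => sq_nonneg _

lemma ms_stA (A : Finset V) : Ms1 (stA G θ D A) := by
  intro w
  unfold stA
  split_ifs
  · exact ms_addf_gb w measurable_fst ((measurable_lam _).comp (measurable_Qf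
      (measurable_mI D (fun v => (measurable_pi_apply v).comp measurable_fst) w)
      (measurable_subtype_coe.comp measurable_snd)))
  · exact measurable_fst

lemma ms_stT (A : Finset V) : Ms1 (stT A) := by
  intro w
  unfold stT
  split_ifs
  · exact ms_addf_gb w measurable_fst ((measurable_lam _).comp
      (measurable_subtype_coe.comp measurable_snd))
  · exact measurable_fst

lemma ms_stp : Ms1 (stp G θ D) := ms_stA D

lemma ms_two (D' : Finset V) : Ms (two G θ D D') := by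
  exact fun w => ((ms_stp w).comp (measurable_fst.fst.prodMk measurable_snd.fst)).prodMk
    ((ms_stp w).comp (measurable_fst.snd.prodMk measurable_snd.fst))

lemma measurable_rs : Measurable (rs D) := by
  refine measurable_pi_iff.2 fun z => ?_
  unfold rs
  split_ifs
  · exact measurable_pi_apply z
  · exact measurable_const

lemma measurable_aa (x c : V) : Measurable fun l => aa G θ D l x c := by
  have hm : ∀ v, Measurable fun l : V → ℝ => mI G θ D l v :=
    measurable_mI D fun v => measurable_pi_apply v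
  exact ((ms_ex_gb _).sub ((hm x).mul (hm c))).div ((hm c).mul (measurable_const.sub (hm c)))

lemma bm_mI (hθ : θ ∈ Set.Ico (0 : ℝ) 1) (x : V) : BM fun l => mI G θ D l x := by
  exact BM.of_mem (measurable_mI D (fun v => measurable_pi_apply v) x) fun l => mI_mem hθ D l x

lemma bm_aa (hθ : θ ∈ Set.Ico (0 : ℝ) 1) (x c : V) : BM fun l => aa G θ D l x c := by
  exact ⟨measurable_aa x c, 1, fun l => abs_aa_le hθ l x c⟩

lemma bm_mu (hθ : θ ∈ Set.Ico (0 : ℝ) 1) (x : V) : BM fun l => mu G θ D l x := by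
  exact ((BM.const 2).mul (bm_mI hθ x)).sub (BM.const 1)

lemma bm_vr (hθ : θ ∈ Set.Ico (0 : ℝ) 1) (x : V) : BM fun l => vr G θ D l x := by
  exact (bm_mI hθ x).mul ((BM.const 1).sub (bm_mI hθ x))

lemma bm_vrF (hθ : θ ∈ Set.Ico (0 : ℝ) 1) (f : V → ℝ) : BM (vrF G θ D f) := by
  exact (bm_ex hθ measurable_id (g := fun T _ => lin D f T ^ 2) fun _ => BM.const _).sub
    (bm_pow (bm_ex hθ measurable_id (g := fun T _ => lin D f T) fun _ => BM.const _) 2)

end basic

lemma Cx.mkP (h : Cx G d θ D) : MK (PP G θ D) := mk_op h.ne ms_stp.one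

lemma Cx.mkS (h : Cx G d θ D) (A : Finset V) : MK (PS G θ D A) := mk_op h.ne (ms_stA A).one

lemma Cx.mk2 (h : Cx G d θ D) : MK (P2 G θ D) := mk_op h.ne (ms_stp.pr ∅)

lemma Cx.bm_Ak (h : Cx G d θ D) (c : V) (k : ℕ) : BM fun l => Ak G θ D l c k := by
  exact BM.sum _ fun x _ => bm_pow (bm_aa h.theta.1 x c) 2

lemma Cx.bm_Gw (h : Cx G d θ D) (c : V) : BM fun l => Gw G θ D l c := by
  exact BM.sum _ fun x _ => (BM.const _).mul (bm_pow (bm_aa h.theta.1 x c) 2)

lemma Cx.bm_HH (h : Cx G d θ D) (y : V) : BM fun l => HH G θ D l y := by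
  exact BM.sum _ fun c _ => h.bm_Gw c

lemma Cx.bm_MM (h : Cx G d θ D) (y : V) : BM fun l => MM G θ D l y := by
  exact BM.sum _ fun z _ => bm_pow (bm_mu h.theta.1 z) 2

lemma Cx.bm_Dd (h : Cx G d θ D) (x : V) : BM fun s => Dd G θ D s x := by
  exact ((bm_mI h.theta.1 x).comp measurable_fst).sub ((bm_mI h.theta.1 x).comp measurable_snd)

lemma Cx.bm_ZZ (h : Cx G d θ D) (x : V) : BM fun s => ZZ G θ D s x := by
  exact (((h.bm_MM x).comp measurable_fst).add ((h.bm_MM x).comp measurable_snd)).mul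
    (bm_pow (h.bm_Dd x) 2)

lemma Cx.bm_qq (h : Cx G d θ D) (x w : V) : BM fun s => qq G θ D s x w := by
  have a1 := fun x c => (bm_aa (G := G) (D := D) h.theta.1 x c).comp
    (measurable_fst (β := V → ℝ))
  have a2 := fun x c => (bm_aa (G := G) (D := D) h.theta.1 x c).comp
    (measurable_snd (α := V → ℝ))
  exact bm_pow ((BM.sum _ fun c _ => ((a1 x c).mul
    (BM.sum _ fun y _ => ((a1 c y).sub (a2 c y)).abs)).mul (a2 _ _)).add
      ((a1 x w).mul (h.bm_Dd w).abs)) 2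

lemma Cx.bm_yy (h : Cx G d θ D) (o : V) : BM (yy G θ D o) := by
  exact BM.sum _ fun x _ => (BM.const _).mul (bm_pow (h.bm_Dd x) 2)

lemma Cx.bm_B2 (h : Cx G d θ D) (o : V) : BM (B2 G θ D o) := by
  exact BM.sum _ fun y _ => (BM.const _).mul (((bm_pow ((h.bm_HH y).comp measurable_fst) 2).add
    (bm_pow ((h.bm_HH y).comp measurable_snd) 2)).mul (h.bm_ZZ y))

lemma Cx.bm_Ph1 (h : Cx G d θ D) (y : V) (i : ℕ) : BM (Ph1 G θ D y i) := by
  exact (h.mkP.iter i).bm _ (bm_pow (h.bm_HH y) 4)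

lemma Cx.bm_ph (h : Cx G d θ D) (y : V) (i : ℕ) : BM (ph G θ D y i) := by
  exact bm_sqrt (((h.bm_Ph1 y i).comp measurable_fst).add ((h.bm_Ph1 y i).comp measurable_snd))

lemma Cx.bm_WW (h : Cx G d θ D) (n : ℕ) (y : V) : BM (WW G θ D n y) := by
  exact bm_div (BM.sum _ fun i _ => h.bm_ph y i) _

lemma Cx.bm_rr (h : Cx G d θ D) (y : V) : BM fun s => rr G θ D s y := by
  exact (((((h.bm_MM y).comp measurable_fst).mul (BM.sum _ fun w _ => h.bm_qq y w)).add
    (((h.bm_MM y).comp measurable_snd).mul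
      (BM.sum _ fun w _ => (h.bm_qq y w).comp measurable_swap))).add
    ((((h.bm_HH y).comp measurable_fst).add ((h.bm_HH y).comp measurable_snd)).mul
      (bm_pow (h.bm_Dd y) 2))).add
    (BM.sum _ fun z _ => BM.sum _ fun w _ => (BM.const _).mul (h.bm_qq y w))

lemma Cx.bm_AA (h : Cx G d θ D) (n : ℕ) (y : V) : BM (AA G θ D d n y) := by
  have a : ∀ {π : (V → ℝ) × (V → ℝ) → V → ℝ}, Measurable π → ∀ c,
      BM fun s => LL G θ D n s (π s) c := fun hπ c =>
    BM.sum _ fun x _ => ((BM.const _).mul (bm_pow (h.bm_WW n x) 2)).mul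
      (bm_pow ((bm_aa h.theta.1 x c).comp hπ) 2)
  exact (((BM.const 1).add (BM.sum _ fun c _ => (a measurable_fst c).add (a measurable_snd c))).add
    (((BM.const 1).add (h.bm_WW n y)).mul (((h.bm_HH y).comp measurable_fst).add
      ((h.bm_HH y).comp measurable_snd)))).add
    (BM.sum _ fun x _ => (BM.const _).mul (h.bm_WW n x))

lemma Cx.bm_UU (h : Cx G d θ D) (o : V) (n : ℕ) : BM (UU G θ D o n) := by
  exact (h.bm_yy o).add (BM.sum _ fun y _ => (BM.const _).mul ((h.bm_WW n y).mul (h.bm_ZZ y)))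

lemma Cx.Gw_one (h : Cx G d θ D) (l : V → ℝ) {c : V} (hc : c ∈ D) : 1 ≤ Gw G θ D l c := by
  have := Finset.single_le_sum (f := fun x => om (G.dist x c) * aa G θ D l x c ^ 2)
    (fun x _ => mul_nonneg (om_nn_gb _) (sq_nonneg _)) hc
  simpa [aa_self h.theta.1 l hc, om, Gw] using this

lemma Cx.Gw_le_HH (h : Cx G d θ D) (l : V → ℝ) {c y : V} (hc : c ∈ D) (hy : G.dist c y ≤ 2) :
    Gw G θ D l c ≤ HH G θ D l y := by
  exact Finset.single_le_sum (f := fun c => Gw G θ D l c) (fun c _ => Gw_nn_gb l c)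
    (Finset.mem_filter.2 ⟨hc, hy⟩)

lemma Cx.Ph1_one (h : Cx G d θ D) {y : V} (hy : y ∈ D) (i : ℕ) (l : V → ℝ) :
    1 ≤ Ph1 G θ D y i l := by
  have := (h.mkP.iter i).mono (fun _ => 1) _ (BM.const 1) (bm_pow (h.bm_HH y) 4)
    (fun l => one_le_pow₀ ((h.Gw_one l hy).trans (h.Gw_le_HH l hy (by simp)))) l
  rwa [(h.mkP.iter i).const] at this

lemma Cx.MM_le (h : Cx G d θ D) (l : V → ℝ) (y : V) :
    0 ≤ MM G θ D l y ∧ MM G θ D l y ≤ d + 1 := by
  refine ⟨MM_nn_gb l y, le_trans ?_ (card_ball_one h.tr D y)⟩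
  have := Finset.sum_le_card_nsmul (D.filter fun z => G.dist z y ≤ 1)
    (fun z => mu G θ D l z ^ 2) 1 fun z _ => mu_sq_le h.theta.1 l z
  simpa [MM] using this

lemma Cx.nonneg (h : Cx G d θ D) (n : ℕ) (s : (V → ℝ) × (V → ℝ)) (y : V) :
    0 ≤ HH G θ D s.1 y ∧ 0 ≤ HH G θ D s.2 y ∧ 0 ≤ ZZ G θ D s y ∧ 0 ≤ WW G θ D n y s ∧
      0 ≤ rr G θ D s y ∧ 1 ≤ AA G θ D d n y s ∧ 0 ≤ yy G θ D y s ∧ 0 ≤ B2 G θ D y s ∧
      yy G θ D y s ≤ UU G θ D y n s := by
  have hH := fun l y => HH_nn_gb (G := G) (θ := θ) (D := D) l y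
  have hM := fun l y => MM_nn_gb (G := G) (θ := θ) (D := D) l y
  have hZ : ∀ y, 0 ≤ ZZ G θ D s y := fun y =>
    mul_nonneg (add_nonneg (hM _ _) (hM _ _)) (sq_nonneg _)
  have hW : ∀ y, 0 ≤ WW G θ D n y s := fun y =>
    div_nonneg (Finset.sum_nonneg fun _ _ => Real.sqrt_nonneg _) (Nat.cast_nonneg _)
  have hq : ∀ s x w, 0 ≤ qq G θ D s x w := fun _ _ _ => sq_nonneg _
  have hL : ∀ l c, 0 ≤ LL G θ D n s l c := fun l c => Finset.sum_nonneg fun _ _ => by positivity
  have hk : 0 ≤ kap d := by unfold kap; positivity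
  refine ⟨hH _ _, hH _ _, hZ _, hW _, ?_, ?_,
    Finset.sum_nonneg fun _ _ => mul_nonneg (om_nn_gb _) (sq_nonneg _),
    Finset.sum_nonneg fun _ _ => mul_nonneg (om_nn_gb _) (mul_nonneg (by positivity) (hZ _)),
    le_add_of_nonneg_right (Finset.sum_nonneg fun _ _ =>
      mul_nonneg (om_nn_gb _) (mul_nonneg (hW _) (hZ _)))⟩
  · exact add_nonneg (add_nonneg (add_nonneg
      (mul_nonneg (hM _ _) (Finset.sum_nonneg fun _ _ => hq _ _ _))
      (mul_nonneg (hM _ _) (Finset.sum_nonneg fun _ _ => hq _ _ _)))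
      (mul_nonneg (add_nonneg (hH _ _) (hH _ _)) (sq_nonneg _)))
      (Finset.sum_nonneg fun _ _ => Finset.sum_nonneg fun _ _ =>
        mul_nonneg (pow_nonneg h.h0 _) (hq _ _ _))
  · unfold AA
    rw [add_assoc, add_assoc]
    exact le_add_of_nonneg_right (add_nonneg
      (Finset.sum_nonneg fun _ _ => add_nonneg (hL _ _) (hL _ _)) (add_nonneg
      (mul_nonneg (add_nonneg zero_le_one (hW _)) (add_nonneg (hH _ _) (hH _ _)))
      (Finset.sum_nonneg fun _ _ =>
        mul_nonneg (mul_nonneg (om_nn_gb _) (pow_nonneg hk _)) (hW _))))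

lemma Cx.P2_fst (h : Cx G d θ D) (g : (V → ℝ) → ℝ) (n : ℕ) (s : (V → ℝ) × (V → ℝ)) :
    (P2 G θ D)^[n] (fun x => g x.1) s = (PP G θ D)^[n] g s.1 := by
  exact op_semi (π := Prod.fst) (fun _ _ _ _ => rfl) g n s

lemma Cx.P2_snd (h : Cx G d θ D) (g : (V → ℝ) → ℝ) (n : ℕ) (s : (V → ℝ) × (V → ℝ)) :
    (P2 G θ D)^[n] (fun x => g x.2) s = (PP G θ D)^[n] g s.2 := by
  exact op_pr_snd _ ∅ g n s

lemma Cx.P2_diag (h : Cx G d θ D) (g : (V → ℝ) × (V → ℝ) → ℝ) (n : ℕ) (l : V → ℝ) :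
    (PP G θ D)^[n] (fun x => g (x, x)) l = (P2 G θ D)^[n] g (l, l) := by
  exact op_semi (π := fun x => (x, x)) (fun _ _ _ _ => by simp [pr, one]) g n l

end Vale.Agent.P161E
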