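import Vale.Agent.P161E.Defs

namespace Vale.Agent.P161E

open MeasureTheory unitInterval Classical SimpleGraph Filter Topology
open Vale.Agent.P161
open Vale.Agent.P143 (BM iidUniform)

variable {V : Type} {G : SimpleGraph V} [G.LocallyFinite] {d : ℕ} {θ : ℝ} {D : Finset V}

variable {S S' : Type} [MeasurableSpace S] [MeasurableSpace S'] {E : (S → ℝ) → S → ℝ}

lemma bm_int_op {F : S × (I × I) → ℝ} (hF : BM F) : BM fun x => ∫ p : I × I, F (x, p) := by
  obtain ⟨C, hC⟩ := hF.bdd
  refine ⟨(hF.meas.stronglyMeasurable.integral_prod_right' (ν := volume)).measurable, C,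
    fun x => ?_⟩
  have := norm_integral_le_of_norm_le_const (μ := (volume : Measure (I × I)))
    (f := fun p => F (x, p)) (C := C) (Eventually.of_forall fun p => hC _)
  simpa using this

lemma bm_sec_op {f : S → V → I × I → S} (hf : Ms f) {g : S → ℝ} (hg : BM g) (s : S) (w : V) :
    BM fun p : I × I => g (f s w p) :=
  hg.comp ((hf w).comp (measurable_const.prodMk measurable_id))

lemma mk_gen_op (hD : D.Nonempty) {ρ : V → I × I → ℝ} (h1 : ∀ w, BM (ρ w))
    (h2 : ∀ w p, 0 ≤ ρ w p) (h3 : ∀ w, ∫ p, ρ w p = 1) {f : S → V → I × I → S} (hf : Ms f) :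
    MK fun (g : S → ℝ) s => (∑ w ∈ D, ∫ p : I × I, ρ w p * g (f s w p)) / D.card := by
  have hc : (0 : ℝ) < D.card := by exact_mod_cast hD.card_pos
  have hi : ∀ g, BM g → ∀ s w, Integrable fun p : I × I => ρ w p * g (f s w p) :=
    fun g hg s w => ((h1 w).mul (bm_sec_op hf hg s w)).integrable _
  refine ⟨fun g hg => ?_, fun g h hg hh s => ?_, fun c g s => ?_, fun g h hg hh H s => ?_,
    fun c s => ?_⟩
  · have := (BM.sum D fun w _ => bm_int_op (F := fun q : S × (I × I) => ρ w q.2 * g (f q.1 w q.2))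
      (((h1 w).comp measurable_snd).mul (hg.comp (hf w)))).mul (BM.const (D.card : ℝ)⁻¹)
    simpa only [div_eq_mul_inv] using this
  · rw [← add_div, ← Finset.sum_add_distrib]
    congr 1
    refine Finset.sum_congr rfl fun w _ => ?_
    rw [← integral_add (hi g hg s w) (hi h hh s w)]
    simp only [mul_add]
  · rw [← mul_div_assoc, Finset.mul_sum]
    congr 1
    refine Finset.sum_congr rfl fun w _ => ?_
    rw [← integral_const_mul]
    simp only [mul_left_comm]
  · refine div_le_div_of_nonneg_right (Finset.sum_le_sum fun w _ => ?_) hc.le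
    exact integral_mono (hi g hg s w) (hi h hh s w) fun p =>
      mul_le_mul_of_nonneg_left (H _) (h2 w p)
  · simp only [integral_mul_const, h3, one_mul, Finset.sum_const, nsmul_eq_mul]
    field_simp

lemma mk_op (hD : D.Nonempty) {f : S → V → I × I → S} (hf : Ms f) : MK (op D f) := by
  have := mk_gen_op hD (ρ := fun _ _ => 1) (fun _ => BM.const 1) (fun _ _ => zero_le_one)
    (fun _ => by simp) hf
  simp only [one_mul] at this
  exact this

lemma mk_opT (hD : D.Nonempty) (T : Finset V) {f : S → V → I × I → S} (hf : Ms f) :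
    MK (opT D T f) := by
  have hε : (1 / 2 : ℝ) ∈ Set.Ioc (0 : ℝ) (1 / 2) := ⟨by norm_num, le_rfl⟩
  exact mk_gen_op hD (ρ := fun w p => dens (1 / 2) (ind T w) p.1)
    (fun w => BM.of_mem (measurable_dens measurable_const
      (measurable_subtype_coe.comp measurable_fst)) fun p => dens_mem hε (ind_mem _ _) p.1.2)
    (fun w p => (dens_mem hε (ind_mem _ _) p.1.2).1)
    (fun w => by
      rw [Measure.volume_eq_prod, integral_fun_fst (fun x : I => dens (1 / 2) (ind T w) x),
        integral_dens]
      simp) hf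

/-- comparison that only looks at the reachable states -/
lemma op_le {f : S → V → I × I → S} (hf : Ms f) {g h : S → ℝ} (hg : BM g) (hh : BM h) {s : S}
    (H : ∀ w ∈ D, ∀ p, g (f s w p) ≤ h (f s w p)) : op D f g s ≤ op D f h s := by
  refine div_le_div_of_nonneg_right (Finset.sum_le_sum fun w hw => ?_) (Nat.cast_nonneg _)
  exact integral_mono ((bm_sec_op hf hg s w).integrable _) ((bm_sec_op hf hh s w).integrable _)
    (H w hw)

lemma op_le_sum {f : S → V → I × I → S} (hf : Ms f) {g : S → ℝ} (hg : BM g) {s : S} {b : V → ℝ}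
    (H : ∀ w ∈ D, ∀ p, g (f s w p) ≤ b w) : op D f g s ≤ (∑ w ∈ D, b w) / D.card := by
  refine div_le_div_of_nonneg_right (Finset.sum_le_sum fun w hw => ?_) (Nat.cast_nonneg _)
  have := integral_mono (μ := volume) ((bm_sec_op hf hg s w).integrable _) (integrable_const (b w))
    (H w hw)
  simpa using this

omit [MeasurableSpace S] [MeasurableSpace S'] in
lemma op_semi {f : S → V → I × I → S} {f' : S' → V → I × I → S'} {π : S → S'}
    (h : ∀ s, ∀ w ∈ D, ∀ p, π (f s w p) = f' (π s) w p) (g : S' → ℝ) (n : ℕ) (s : S) :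
    (op D f)^[n] (fun x => g (π x)) s = (op D f')^[n] g (π s) := by
  induction n generalizing g with
  | zero => rfl
  | succ n ih =>
    have e : op D f (fun x => g (π x)) = fun x => op D f' g (π x) := by
      funext x
      unfold op
      congr 1
      exact Finset.sum_congr rfl fun w hw => by simp only [h x w hw]
    rw [Function.iterate_succ_apply, Function.iterate_succ_apply, e, ih]

omit [MeasurableSpace S] in
/-- with an empty or full resampling set the second component is a copy of the single chain -/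
lemma op_pr_snd (f : S → V → I → S) (A : Finset V) (g : S → ℝ) (n : ℕ) (s : S × S) :
    (op D (pr f A))^[n] (fun x => g x.2) s = (op D (one f))^[n] g s.2 := by
  induction n generalizing g with
  | zero => rfl
  | succ n ih =>
    have e : op D (pr f A) (fun x => g x.2) = fun x => op D (one f) g x.2 := by
      funext x
      unfold op
      congr 1
      refine Finset.sum_congr rfl fun w _ => ?_
      by_cases hw : w ∈ A
      · simp only [pr, one, if_pos hw]
        rw [Measure.volume_eq_prod, integral_fun_snd (fun u : I => g (f x.2 w u)),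
          integral_fun_fst (fun u : I => g (f x.2 w u))]
      · simp only [pr, one, if_neg hw]
    rw [Function.iterate_succ_apply, Function.iterate_succ_apply, e, ih]

lemma Ms1.one {f : S → V → I → S} (hf : Ms1 f) : Ms (one f) := by
  exact fun w => (hf w).comp (measurable_fst.prodMk measurable_snd.fst)

lemma Ms1.pr {f : S → V → I → S} (hf : Ms1 f) (A : Finset V) : Ms (pr f A) := by
  intro w
  refine Measurable.prodMk ((hf w).comp (measurable_fst.fst.prodMk measurable_snd.fst)) ?_
  by_cases hw : w ∈ A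
  · simp only [if_pos hw]
    exact (hf w).comp (measurable_fst.snd.prodMk measurable_snd.snd)
  · simp only [if_neg hw]
    exact (hf w).comp (measurable_fst.snd.prodMk measurable_snd.fst)

namespace MK

lemma id_op : MK fun g : S → ℝ => g :=
  ⟨fun _ hg => hg, fun _ _ _ _ _ => rfl, fun _ _ _ => rfl, fun _ _ _ _ H s => H s, fun _ _ => rfl⟩

lemma comp_op {F : (S → ℝ) → S → ℝ} (h : MK E) (h' : MK F) : MK fun g => E (F g) := by
  refine ⟨fun g hg => h.bm _ (h'.bm g hg), fun g k hg hk s => ?_, fun c g s => ?_,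
    fun g k hg hk H s => h.mono _ _ (h'.bm g hg) (h'.bm k hk) (h'.mono g k hg hk H) s,
    fun c s => ?_⟩
  · rw [show F (fun x => g x + k x) = fun x => F g x + F k x from funext (h'.add g k hg hk),
      h.add _ _ (h'.bm g hg) (h'.bm k hk)]
  · rw [show F (fun x => c * g x) = fun x => c * F g x from funext (h'.smul c g), h.smul]
  · rw [show F (fun _ => c) = fun _ => c from funext (h'.const c), h.const]

lemma iter (h : MK E) (n : ℕ) : MK E^[n] := by
  induction n with
  | zero => exact id_op
  | succ n ih => exact ih.comp_op h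

lemma opI {F : ℕ → (S → ℝ) → S → ℝ} (h : ∀ i, MK (F i)) (n : ℕ) : MK (opI F n) := by
  induction n with
  | zero => exact id_op
  | succ n ih => exact ih.comp_op (h n)

lemma sub (h : MK E) {g k : S → ℝ} (hg : BM g) (hk : BM k) (s : S) :
    E (fun x => g x - k x) s = E g s - E k s := by
  have h1 := h.add g (fun x => -1 * k x) hg ((BM.const _).mul hk) s
  rw [h.smul] at h1
  simp only [neg_mul, one_mul, ← sub_eq_add_neg] at h1
  exact h1

lemma sum (h : MK E) {ι : Type*} (A : Finset ι) {g : ι → S → ℝ} (hg : ∀ i ∈ A, BM (g i)) (s : S) :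
    E (fun x => ∑ i ∈ A, g i x) s = ∑ i ∈ A, E (g i) s := by
  induction A using Finset.induction_on with
  | empty => simpa using h.const 0 s
  | insert a A ha ih =>
    simp only [Finset.sum_insert ha]
    rw [h.add _ _ (hg a (Finset.mem_insert_self _ _))
      (BM.sum A fun i hi => hg i (Finset.mem_insert_of_mem hi)),
      ih fun i hi => hg i (Finset.mem_insert_of_mem hi)]

lemma nonneg (h : MK E) {g : S → ℝ} (hg : BM g) (h0 : ∀ x, 0 ≤ g x) (s : S) : 0 ≤ E g s := by
  have := h.mono _ g (BM.const 0) hg h0 s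
  rwa [h.const] at this

lemma le_const (h : MK E) {g : S → ℝ} (hg : BM g) {c : ℝ} (h0 : ∀ x, g x ≤ c) (s : S) :
    E g s ≤ c := by
  have := h.mono g _ hg (BM.const c) h0 s
  rwa [h.const] at this

lemma cs (h : MK E) {g k : S → ℝ} (hg : BM g) (hk : BM k) (s : S) :
    E (fun x => g x * k x) s ^ 2 ≤ E (fun x => g x ^ 2) s * E (fun x => k x ^ 2) s := by
  have b2 : ∀ {u : S → ℝ}, BM u → BM fun x => u x ^ 2 := fun hu => by
    simpa only [sq] using hu.mul hu
  have key : ∀ t : ℝ, 0 ≤ E (fun x => g x ^ 2) s * (t * t) + 2 * E (fun x => g x * k x) s * t +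
      E (fun x => k x ^ 2) s := by
    intro t
    have h1 := h.nonneg (b2 (((BM.const t).mul hg).add hk)) (fun x => sq_nonneg _) s
    have e : (fun x => (t * g x + k x) ^ 2) =
        fun x => (t * t * g x ^ 2 + 2 * t * (g x * k x)) + k x ^ 2 := by
      funext x; ring
    rw [e, h.add _ _ (((BM.const _).mul (b2 hg)).add ((BM.const _).mul (hg.mul hk))) (b2 hk),
      h.add _ _ ((BM.const _).mul (b2 hg)) ((BM.const _).mul (hg.mul hk)), h.smul, h.smul] at h1
    linarith
  have := discrim_le_zero key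
  unfold discrim at this
  linarith

lemma abs_le_sqrt (h : MK E) {g : S → ℝ} (hg : BM g) (s : S) :
    E (fun x => |g x|) s ≤ √(E (fun x => g x ^ 2) s) := by
  have h1 := h.cs hg.abs (BM.const 1) s
  simp only [mul_one, sq_abs, one_pow, h.const] at h1
  exact Real.le_sqrt_of_sq_le h1

/-- Jensen for natural powers (tangent line) -/
lemma pow_le (h : MK E) {g : S → ℝ} (hg : BM g) (h0 : ∀ x, 0 ≤ g x) (p : ℕ) (s : S) :
    E g s ^ p ≤ E (fun x => g x ^ p) s := by
  have ha := h.nonneg hg h0 s
  obtain ⟨a, hA⟩ : ∃ a, a = E g s := ⟨_, rfl⟩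
  rw [← hA] at ha ⊢
  have bp : BM fun x => g x ^ p := by
    simpa using BM.prod (Finset.range p) (F := fun _ => g) fun _ _ => hg
  have h1 := h.mono (fun x => (a ^ p - p * a ^ (p - 1) * a) + p * a ^ (p - 1) * g x) _
    ((BM.const _).add ((BM.const _).mul hg)) bp (fun x => by
      have := pow_add_mul_le_add_pow (b := g x - a) ha (by linarith [h0 x]) p
      rw [add_sub_cancel] at this
      linarith) s
  rw [h.add _ _ (BM.const _) ((BM.const _).mul hg), h.const, h.smul, ← hA] at h1
  linarith

/-- Minkowski in the form used: weighted power mean with weights `e i / ∑ e` -/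
lemma mink (h : MK E) {ι : Type*} (A : Finset ι) {g : ι → S → ℝ} (hg : ∀ i ∈ A, BM (g i))
    (h0 : ∀ i ∈ A, ∀ x, 0 ≤ g i x) {e : ι → ℝ} (he : ∀ i ∈ A, 0 < e i) {p : ℕ} (hp : 1 ≤ p)
    (s : S) (H : ∀ i ∈ A, E (fun x => g i x ^ p) s ≤ e i ^ p) :
    E (fun x => (∑ i ∈ A, g i x) ^ p) s ≤ (∑ i ∈ A, e i) ^ p := by
  rcases A.eq_empty_or_nonempty with rfl | hA
  · simp only [Finset.sum_empty, h.const, le_refl]
  have hW : 0 < ∑ i ∈ A, e i := Finset.sum_pos he hA
  obtain ⟨W, hWe⟩ : ∃ W, W = ∑ i ∈ A, e i := ⟨_, rfl⟩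
  rw [← hWe] at hW ⊢
  have bp : ∀ {u : S → ℝ}, BM u → BM fun x => u x ^ p := fun {u} hu => by
    simpa using BM.prod (Finset.range p) (F := fun _ => u) fun _ _ => hu
  have h1 := h.mono (fun x => (∑ i ∈ A, g i x) ^ p)
    (fun x => ∑ i ∈ A, (e i / W * (W / e i) ^ p) * g i x ^ p) (bp (BM.sum A hg))
    (BM.sum A fun i hi => (BM.const _).mul (bp (hg i hi))) (fun x => by
      have := Real.pow_arith_mean_le_arith_mean_pow A (fun i => e i / W)
        (fun i => W / e i * g i x) (fun i hi => (div_pos (he i hi) hW).le)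
        (by rw [← Finset.sum_div, ← hWe, div_self hW.ne'])
        (fun i hi => mul_nonneg (div_pos hW (he i hi)).le (h0 i hi x)) p
      have e1 : ∑ i ∈ A, e i / W * (W / e i * g i x) = ∑ i ∈ A, g i x :=
        Finset.sum_congr rfl fun i hi => by have := he i hi; field_simp
      rw [e1] at this
      simpa only [mul_pow, mul_assoc] using this) s
  rw [h.sum A fun i hi => (BM.const _).mul (bp (hg i hi))] at h1
  refine h1.trans ?_
  calc _ ≤ ∑ i ∈ A, e i / W * W ^ p := Finset.sum_le_sum fun i hi => by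
        have h2 := he i hi
        rw [h.smul]
        refine (mul_le_mul_of_nonneg_left (H i hi) (by positivity)).trans_eq ?_
        rw [mul_assoc, ← mul_pow, div_mul_cancel₀ _ h2.ne']
    _ = W ^ p := by rw [← Finset.sum_mul, ← Finset.sum_div, ← hWe, div_self hW.ne', one_mul]

/-- telescoping -/
lemma tele (h : MK E) {g : S → ℝ} (hg : BM g) (n : ℕ) (s : S) :
    E^[n] g s = g s + ∑ r ∈ Finset.range n, E^[r] (fun x => E g x - g x) s := by
  induction n with
  | zero => simp
  | succ n ih =>
    rw [Finset.sum_range_succ, (h.iter n).sub (h.bm g hg) hg, Function.iterate_succ_apply]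
    linarith

lemma gron (h : MK E) {g : S → ℝ} (hg : BM g) (h0 : ∀ x, 0 ≤ g x) {c : ℝ} (hc : 0 ≤ c)
    (H : ∀ x, E g x ≤ c * g x) (n : ℕ) (s : S) : E^[n] g s ≤ c ^ n * g s := by
  induction n with
  | zero => simp
  | succ n ih =>
    have h1 := (h.iter n).mono _ _ (h.bm g hg) ((BM.const c).mul hg) H s
    rw [(h.iter n).smul] at h1
    rw [Function.iterate_succ_apply, pow_succ', mul_assoc]
    exact h1.trans (mul_le_mul_of_nonneg_left ih hc)

lemma sub_mono (h : MK E) {g : S → ℝ} (hg : BM g) (H : ∀ x, g x ≤ E g x) {m n : ℕ} (hmn : m ≤ n)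
    (s : S) : E^[m] g s ≤ E^[n] g s := by
  refine monotone_nat_of_le_succ (f := fun n => E^[n] g s) (fun n => ?_) hmn
  exact (h.iter n).mono _ _ hg (h.bm g hg) H s

/-- variance identity for a martingale function -/
lemma var_eq (h : MK E) {g : S → ℝ} (hg : BM g) {s : S} (H : E g s = g s) :
    E (fun x => g x ^ 2) s - g s ^ 2 = E (fun x => (g x - g s) ^ 2) s := by
  have b2 : BM fun x => g x ^ 2 := by simpa only [sq] using hg.mul hg
  have e : (fun x => (g x - g s) ^ 2) = fun x => (g x ^ 2 + -2 * g s * g x) + g s ^ 2 := by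
    funext x; ring
  rw [e, h.add _ _ (b2.add ((BM.const _).mul hg)) (BM.const _),
    h.add _ _ b2 ((BM.const _).mul hg), h.smul, h.const, H]
  ring

end MK

omit [MeasurableSpace S] in
lemma opI_const (E : (S → ℝ) → S → ℝ) (n : ℕ) (g : S → ℝ) : opI (fun _ => E) n g = E^[n] g := by
  induction n generalizing g with
  | zero => rfl
  | succ n ih => exact ih (E g)

omit [MeasurableSpace S] in
lemma opI_congr_op {F : ℕ → (S → ℝ) → S → ℝ} (E : (S → ℝ) → S → ℝ) (n : ℕ)
    (h : ∀ i < n, F i = E) (g : S → ℝ) : opI F n g = E^[n] g := by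
  induction n generalizing g with
  | zero => rfl
  | succ n ih =>
    rw [opI, h n (Nat.lt_succ_self n), ih fun i hi => h i (Nat.lt_succ_of_lt hi)]
    rfl

omit [MeasurableSpace S] in
lemma opI_single (E B : (S → ℝ) → S → ℝ) {j n : ℕ} (hj : j < n) (g : S → ℝ) :
    opI (fun i => if i = j then B else E) n g = E^[j] (B (E^[n - 1 - j] g)) := by
  induction n, hj using Nat.le_induction generalizing g with
  | base =>
    rw [Nat.succ_eq_add_one, opI, opI_congr_op E j fun i hi => if_neg hi.ne]
    simp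
  | succ n hn ih =>
    rw [opI, ih, if_neg (by omega), show n + 1 - 1 - j = (n - 1 - j) + 1 by omega]
    rfl

lemma bm_sqrt {g : S → ℝ} (hg : BM g) : BM fun x => √(g x) := by
  obtain ⟨C, hC⟩ := hg.bdd
  exact BM.of_mem (a := 0) (b := √C) hg.meas.sqrt fun x =>
    ⟨Real.sqrt_nonneg _, Real.sqrt_le_sqrt ((le_abs_self _).trans (hC x))⟩

lemma bm_pow {g : S → ℝ} (hg : BM g) (p : ℕ) : BM fun x => g x ^ p := by
  simpa using BM.prod (Finset.range p) (F := fun _ => g) fun _ _ => hg

lemma bm_div {g : S → ℝ} (hg : BM g) (c : ℝ) : BM fun x => g x / c := by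
  simpa only [div_eq_mul_inv] using hg.mul (BM.const c⁻¹)

end Vale.Agent.P161E
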