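import Vale.Agent.P161E.Tr
import Vale.Agent.P161E.Op

namespace Vale.Agent.P161E

open MeasureTheory unitInterval Classical SimpleGraph Filter Topology
open Vale.Agent.P161
open Vale.Agent.P143 (BM iidUniform)

variable {V : Type} {G : SimpleGraph V} [G.LocallyFinite] {d : ℕ} {θ : ℝ} {D : Finset V}

section basic
omit [G.LocallyFinite]

lemma ex_add (l : V → ℝ) (g h : Finset V → ℝ) :
    ex G θ D l (fun T => g T + h T) = ex G θ D l g + ex G θ D l h := by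
  unfold ex SI
  rw [← add_div, ← Finset.sum_add_distrib]
  simp only [mul_add]

lemma ex_smul (l : V → ℝ) (c : ℝ) (g : Finset V → ℝ) :
    ex G θ D l (fun T => c * g T) = c * ex G θ D l g := by
  unfold ex
  rw [← mul_SI, mul_div_assoc]

lemma ex_sum (l : V → ℝ) {ι : Type*} (A : Finset ι) (g : ι → Finset V → ℝ) :
    ex G θ D l (fun T => ∑ i ∈ A, g i T) = ∑ i ∈ A, ex G θ D l (g i) := by
  induction A using Finset.induction_on with
  | empty => simp [ex, SI]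
  | insert a A ha ih =>
    simp only [Finset.sum_insert ha]
    rw [ex_add, ih]

lemma ex_const (hθ : θ ∈ Set.Ico (0 : ℝ) 1) (l : V → ℝ) (c : ℝ) :
    ex G θ D l (fun _ => c) = c := by
  have := ex_smul (G := G) (θ := θ) (D := D) l c fun _ => 1
  simp only [mul_one] at this
  rw [this, ex, div_self (SI_pos hθ D l).ne', mul_one]

lemma ex_mono (hθ : θ ∈ Set.Ico (0 : ℝ) 1) (l : V → ℝ) {g h : Finset V → ℝ}
    (H : ∀ T ⊆ D, g T ≤ h T) : ex G θ D l g ≤ ex G θ D l h := by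
  refine div_le_div_of_nonneg_right (Finset.sum_le_sum fun T hT => ?_) (SI_pos hθ D l).le
  exact mul_le_mul_of_nonneg_left (H T (Finset.mem_powerset.1 hT))
    (mul_pos (wI_pos hθ D T) (tilt_pos l T)).le

lemma ex_congr (l : V → ℝ) {g h : Finset V → ℝ} (H : ∀ T ⊆ D, g T = h T) :
    ex G θ D l g = ex G θ D l h := by
  unfold ex SI
  rw [Finset.sum_congr rfl fun T hT => by rw [H T (Finset.mem_powerset.1 hT)]]

lemma ex_ind (l : V → ℝ) (x : V) : ex G θ D l (fun T => ind T x) = mI G θ D l x := rfl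

lemma ex_nonneg_g0 (hθ : θ ∈ Set.Ico (0 : ℝ) 1) (l : V → ℝ) {g : Finset V → ℝ}
    (h0 : ∀ T, 0 ≤ g T) : 0 ≤ ex G θ D l g := by
  have := ex_mono (G := G) (D := D) hθ l (g := fun _ => 0) (h := g) fun T _ => h0 T
  rwa [ex_const hθ] at this

lemma ex_pos_g0 (hθ : θ ∈ Set.Ico (0 : ℝ) 1) (l : V → ℝ) {g : Finset V → ℝ}
    (h0 : ∀ T, 0 ≤ g T) {T : Finset V} (hT : T ⊆ D) (h1 : 0 < g T) : 0 < ex G θ D l g :=
  div_pos (Finset.sum_pos' (fun T _ => mul_nonneg (mul_pos (wI_pos hθ D T) (tilt_pos l T)).le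
    (h0 T)) ⟨T, Finset.mem_powerset.2 hT, mul_pos (mul_pos (wI_pos hθ D T) (tilt_pos l T)) h1⟩)
    (SI_pos hθ D l)

/-- `ex` as a Markov functional (on the discrete space of configurations) -/
lemma ex_pow_le (hθ : θ ∈ Set.Ico (0 : ℝ) 1) (l : V → ℝ) {g : Finset V → ℝ} (h0 : ∀ T, 0 ≤ g T)
    (p : ℕ) : ex G θ D l g ^ p ≤ ex G θ D l fun T => g T ^ p := by
  have ha := ex_nonneg_g0 (G := G) (D := D) hθ l h0
  obtain ⟨a, hA⟩ : ∃ a, a = ex G θ D l g := ⟨_, rfl⟩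
  rw [← hA] at ha ⊢
  have h1 : ex G θ D l (fun T => (a ^ p - p * a ^ (p - 1) * a) + p * a ^ (p - 1) * g T) ≤
      ex G θ D l fun T => g T ^ p := ex_mono hθ l fun T _ => by
    have := pow_add_mul_le_add_pow (a := a) (b := g T - a) ha (by linarith [h0 T]) p
    rw [add_sub_cancel] at this
    linarith
  rw [ex_add, ex_smul, ex_const hθ, ← hA] at h1
  linarith

lemma bm_ex (hθ : θ ∈ Set.Ico (0 : ℝ) 1) {X : Type*} [MeasurableSpace X] {l : X → V → ℝ}
    (hl : Measurable l) {g : Finset V → X → ℝ} (hg : ∀ T, BM (g T)) :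
    BM fun s => ex G θ D (l s) fun T => g T s := by
  have hm : ∀ T : Finset V, Measurable fun s => tilt (l s) T := fun T =>
    Finset.measurable_prod _ fun w _ => ((measurable_pi_apply w).comp hl).exp
  have hZ : Measurable fun s => SI G θ D (l s) fun _ => 1 :=
    Finset.measurable_sum _ fun T _ => (measurable_const.mul (hm T)).mul measurable_const
  have e : (fun s => ex G θ D (l s) fun T => g T s) = fun s => ∑ T ∈ D.powerset,
      (wI G θ D T * tilt (l s) T / SI G θ D (l s) fun _ => 1) * g T s := by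
    funext s
    rw [ex, SI, Finset.sum_div]
    exact Finset.sum_congr rfl fun T _ => by ring
  rw [e]
  refine BM.sum _ fun T hT => BM.mul (BM.of_mem (a := 0) (b := 1)
    ((measurable_const.mul (hm T)).div hZ) fun s => ⟨?_, ?_⟩) (hg T)
  · exact div_nonneg (mul_pos (wI_pos hθ D T) (tilt_pos _ T)).le (SI_pos hθ D _).le
  · rw [div_le_one (SI_pos hθ D _), SI]
    simp only [mul_one]
    exact Finset.single_le_sum (f := fun T => wI G θ D T * tilt (l s) T)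
      (fun T _ => (mul_pos (wI_pos hθ D T) (tilt_pos _ T)).le) hT

lemma mI_open (hθ : θ ∈ Set.Ico (0 : ℝ) 1) (l : V → ℝ) {x : V} (hx : x ∈ D) :
    0 < mI G θ D l x ∧ mI G θ D l x < 1 := by
  refine ⟨ex_pos_g0 hθ l (fun T => (ind_mem T x).1) (T := {x}) (by simpa using hx)
    (by simp [ind]), ?_⟩
  have h := ex_pos_g0 (G := G) (D := D) hθ l (g := fun T => 1 + -1 * ind T x)
    (fun T => by linarith [(ind_mem T x).2]) (T := ∅) (by simp) (by simp [ind])
  rw [ex_add, ex_smul, ex_const hθ, ex_ind] at h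
  linarith

lemma vr_mem (hθ : θ ∈ Set.Ico (0 : ℝ) 1) (l : V → ℝ) (x : V) :
    0 ≤ vr G θ D l x ∧ vr G θ D l x ≤ 1 / 4 := by
  obtain ⟨h0, h1⟩ := mI_mem (G := G) hθ D l x
  unfold vr
  exact ⟨mul_nonneg h0 (by linarith), by nlinarith [sq_nonneg (mI G θ D l x - 1 / 2)]⟩

lemma mu_sq_le (hθ : θ ∈ Set.Ico (0 : ℝ) 1) (l : V → ℝ) (x : V) : mu G θ D l x ^ 2 ≤ 1 := by
  obtain ⟨h0, h1⟩ := mI_mem (G := G) hθ D l x
  unfold mu
  nlinarith

lemma cov_comm (l : V → ℝ) (x y : V) : cov G θ D l x y = cov G θ D l y x := by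
  unfold cov
  simp only [mul_comm]

lemma cov_self_g0 (l : V → ℝ) (x : V) : cov G θ D l x x = vr G θ D l x := by
  rw [cov, vr, ex_congr l (h := fun T => ind T x) fun T _ => by unfold ind; split_ifs <;> simp,
    ex_ind]
  ring

lemma aa_self (hθ : θ ∈ Set.Ico (0 : ℝ) 1) (l : V → ℝ) {x : V} (hx : x ∈ D) :
    aa G θ D l x x = 1 := by
  obtain ⟨h0, h1⟩ := mI_open (G := G) hθ l hx
  rw [aa, cov_self_g0, div_self]
  exact (mul_pos h0 (by linarith)).ne'

lemma aa_vr (hθ : θ ∈ Set.Ico (0 : ℝ) 1) (l : V → ℝ) (x : V) {c : V} (hc : c ∈ D) :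
    aa G θ D l x c * vr G θ D l c = cov G θ D l x c := by
  obtain ⟨h0, h1⟩ := mI_open (G := G) hθ l hc
  exact div_mul_cancel₀ _ (mul_pos h0 (by linarith)).ne'

/-- `aa` is a difference of conditional probabilities, hence at most one in absolute value -/
lemma abs_aa_le (hθ : θ ∈ Set.Ico (0 : ℝ) 1) (l : V → ℝ) (x c : V) : |aa G θ D l x c| ≤ 1 := by
  obtain ⟨h0, h1⟩ := mI_mem (G := G) hθ D l c
  rw [aa, abs_div, abs_of_nonneg (vr_mem hθ l c).1]
  refine div_le_one_of_le₀ ?_ (vr_mem hθ l c).1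
  have a1 := ex_nonneg_g0 (G := G) (D := D) hθ l (g := fun T => ind T x * ind T c) fun T =>
    mul_nonneg (ind_mem T x).1 (ind_mem T c).1
  have a2 : ex G θ D l (fun T => ind T x * ind T c) ≤ mI G θ D l c :=
    ex_mono hθ l fun T _ => by nlinarith [ind_mem T x |>.2, ind_mem T c |>.1]
  have a3 : ex G θ D l (fun T => ind T x * ind T c) ≤ mI G θ D l x :=
    ex_mono hθ l fun T _ => by nlinarith [ind_mem T x |>.1, ind_mem T c |>.2]
  have a4 : ex G θ D l (fun T => ind T x + ind T c) ≤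
      ex G θ D l (fun T => 1 + ind T x * ind T c) :=
    ex_mono hθ l fun T _ => by
      nlinarith [mul_nonneg (sub_nonneg.2 (ind_mem T x).2) (sub_nonneg.2 (ind_mem T c).2)]
  rw [ex_add, ex_add, ex_const hθ, ex_ind, ex_ind] at a4
  unfold cov vr
  rw [abs_le]
  constructor
  · nlinarith [mul_nonneg a1 (sub_nonneg.2 h1), mul_nonneg h0 (sub_nonneg.2 a4)]
  · nlinarith [mul_nonneg (sub_nonneg.2 a2) (sub_nonneg.2 h1), mul_nonneg h0 (sub_nonneg.2 a3)]

lemma exp_ind_g0 (t : ℝ) (T : Finset V) (w : V) :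
    Real.exp (t * ind T w) = 1 + (Real.exp t - 1) * ind T w := by
  unfold ind; split_ifs <;> simp

lemma tilt_addf_g0 (l : V → ℝ) (w : V) (t : ℝ) (T : Finset V) :
    tilt (addf l w t) T = tilt l T * Real.exp (t * ind T w) := by
  unfold tilt addf ind
  simp only [Real.exp_add]
  rw [Finset.prod_mul_distrib, ← Real.exp_sum _ fun v => if v = w then t else 0,
    Finset.sum_ite_eq']
  split_ifs <;> simp

lemma den_pos_g0 (hθ : θ ∈ Set.Ico (0 : ℝ) 1) (l : V → ℝ) (w : V) (t : ℝ) :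
    0 < 1 + mI G θ D l w * (Real.exp t - 1) := by
  obtain ⟨m0, m1⟩ := mI_mem (G := G) hθ D l w
  have := Real.exp_pos t
  rcases m1.eq_or_lt with h | h
  · rw [h]; linarith
  · nlinarith [mul_nonneg m0 this.le]

lemma ex_addf (hθ : θ ∈ Set.Ico (0 : ℝ) 1) (l : V → ℝ) {w : V} (hw : w ∈ D) (t : ℝ)
    (g : Finset V → ℝ) :
    ex G θ D (addf l w t) g = ex G θ D l (fun T => Real.exp (t * ind T w) * g T) /
      (1 + mI G θ D l w * (Real.exp t - 1)) := by
  have e : ∀ g : Finset V → ℝ, SI G θ D (addf l w t) g =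
      SI G θ D l fun T => Real.exp (t * ind T w) * g T := fun g =>
    Finset.sum_congr rfl fun T _ => by rw [tilt_addf_g0]; ring
  have h1 : ex G θ D l (fun T => Real.exp (t * ind T w) * 1) =
      1 + mI G θ D l w * (Real.exp t - 1) := by
    rw [ex_congr l (h := fun T => 1 + (Real.exp t - 1) * ind T w) fun T _ => by
      rw [exp_ind_g0, mul_one], ex_add, ex_smul, ex_const hθ, ex_ind, mul_comm]
  rw [← h1, ex, e, e, ex, ex, div_div_div_cancel_right₀ (SI_pos hθ D l).ne']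

lemma ex_addf_le (hθ : θ ∈ Set.Ico (0 : ℝ) 1) (l : V → ℝ) {w : V} (hw : w ∈ D) (t : ℝ)
    {g : Finset V → ℝ} (h0 : ∀ T, 0 ≤ g T) :
    ex G θ D (addf l w t) g ≤ Real.exp |t| * ex G θ D l g := by
  obtain ⟨m0, m1⟩ := mI_mem (G := G) hθ D l w
  have hg := ex_nonneg_g0 (G := G) (D := D) hθ l h0
  rw [ex_addf hθ l hw, div_le_iff₀ (den_pos_g0 hθ l w t)]
  rcases le_total 0 t with ht | ht
  · have h1 : ex G θ D l (fun T => Real.exp (t * ind T w) * g T) ≤
        ex G θ D l fun T => Real.exp t * g T := ex_mono hθ l fun T _ =>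
      mul_le_mul_of_nonneg_right (Real.exp_le_exp.2 (by nlinarith [(ind_mem T w).2])) (h0 T)
    rw [ex_smul] at h1
    rw [abs_of_nonneg ht]
    have h2 : 0 ≤ mI G θ D l w * (Real.exp t - 1) :=
      mul_nonneg m0 (sub_nonneg.2 (Real.one_le_exp ht))
    have h3 := mul_nonneg (mul_nonneg (Real.exp_pos t).le hg) h2
    linarith
  · have h1 : ex G θ D l (fun T => Real.exp (t * ind T w) * g T) ≤ ex G θ D l g :=
      ex_mono hθ l fun T _ => mul_le_of_le_one_left (h0 T)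
        (Real.exp_le_one_iff.2 (by nlinarith [(ind_mem T w).1]))
    rw [abs_of_nonpos ht]
    have h2 : Real.exp t ≤ 1 + mI G θ D l w * (Real.exp t - 1) := by
      nlinarith [mul_nonneg (sub_nonneg.2 m1) (sub_nonneg.2 (Real.exp_le_one_iff.2 ht))]
    have h3 := mul_le_mul_of_nonneg_left h2 (mul_nonneg (Real.exp_pos (-t)).le hg)
    have h4 : Real.exp (-t) * Real.exp t = 1 := by rw [← Real.exp_add]; simp
    calc _ ≤ Real.exp (-t) * ex G θ D l g * Real.exp t := by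
          rw [mul_right_comm, h4, one_mul]; exact h1
      _ ≤ _ := h3

lemma mI_addf_g0 (hθ : θ ∈ Set.Ico (0 : ℝ) 1) (l : V → ℝ) {w : V} (hw : w ∈ D) (t : ℝ) (x : V) :
    mI G θ D (addf l w t) x - mI G θ D l x =
      cov G θ D l x w * ((Real.exp t - 1) / (1 + mI G θ D l w * (Real.exp t - 1))) := by
  have hp := den_pos_g0 (G := G) (D := D) hθ l w t
  rw [← ex_ind, ex_addf hθ l hw, ex_congr l
    (h := fun T => ind T x + (Real.exp t - 1) * (ind T x * ind T w)) fun T _ => by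
      rw [exp_ind_g0]; ring, ex_add, ex_smul, ex_ind, cov, ← mul_div_assoc, div_sub' hp.ne']
  congr 1
  ring

lemma dens_half_g0 {m y : ℝ} (hm : m ∈ Set.Icc (0 : ℝ) 1) (hy : y ∈ Set.Icc (0 : ℝ) 1) :
    1 / 2 ≤ dens (1 / 2) m y ∧ dens (1 / 2) m y ≤ 2 := by
  obtain ⟨a, b⟩ := hm; obtain ⟨c, d⟩ := hy
  unfold dens
  constructor <;> nlinarith [mul_nonneg a c, mul_nonneg (sub_nonneg.2 b) (sub_nonneg.2 d),
    mul_nonneg a (sub_nonneg.2 d), mul_nonneg (sub_nonneg.2 b) c]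

lemma quot_lip_g0 {a a' b b' c c' : ℝ} (ha : |a'| ≤ 1 / 4) (hb : |b| ≤ 1) (hb' : |b'| ≤ 1)
    (hc : 1 / 2 ≤ c) (hc' : 1 / 2 ≤ c') (hc2 : c' ≤ 2) :
    |a * b / c - a' * b' / c'| ≤ 8 * |a - a'| + 2 * |b - b'| + |c - c'| := by
  have h0 : 0 < c := by linarith
  have h0' : 0 < c' := by linarith
  have e : a * b / c - a' * b' / c' =
      ((a - a') * b * c' + a' * (b - b') * c' + a' * b' * (c' - c)) / (c * c') := by
    field_simp
    ring
  have h4 : 1 / 4 ≤ c * c' := by nlinarith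
  have t1 : |(a - a') * b * c'| ≤ |a - a'| * 1 * 2 := by
    rw [abs_mul, abs_mul, abs_of_pos h0']; gcongr
  have t2 : |a' * (b - b') * c'| ≤ 1 / 4 * |b - b'| * 2 := by
    rw [abs_mul, abs_mul, abs_of_pos h0']; gcongr
  have t3 : |a' * b' * (c' - c)| ≤ 1 / 4 * 1 * |c - c'| := by
    rw [abs_mul, abs_mul, abs_sub_comm c']; gcongr
  have t4 := abs_add_three ((a - a') * b * c') (a' * (b - b') * c') (a' * b' * (c' - c))
  rw [e, abs_div, abs_of_pos (mul_pos h0 h0'), div_le_iff₀ (mul_pos h0 h0')]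
  have : 0 ≤ 8 * |a - a'| + 2 * |b - b'| + |c - c'| := by positivity
  nlinarith [mul_le_mul_of_nonneg_left h4 this]

lemma mI_addf (hθ : θ ∈ Set.Ico (0 : ℝ) 1) (l : V → ℝ) {w : V} (hw : w ∈ D) (t : ℝ) (x : V) :
    mI G θ D (addf l w t) x - mI G θ D l x =
      aa G θ D l x w * (mI G θ D (addf l w t) w - mI G θ D l w) := by
  rw [mI_addf_g0 hθ l hw, mI_addf_g0 hθ l hw, cov_self_g0, ← mul_assoc, aa_vr hθ l x hw]

lemma mI_st (hθ : θ ∈ Set.Ico (0 : ℝ) 1) (l : V → ℝ) {w : V} (hw : w ∈ D) (u : I) (x : V) :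
    mI G θ D (st G θ D l w u) x - mI G θ D l x = aa G θ D l x w * gam (mI G θ D l w) u := by
  have hε : (1 / 2 : ℝ) ∈ Set.Ioc (0 : ℝ) (1 / 2) := ⟨by norm_num, le_rfl⟩
  have hm := mI_mem (G := G) hθ D l w
  have hy := (Qf_spec hε hm u.2).1
  rw [st, mI_addf_g0 hθ l hw, ← aa_vr hθ l x hw, mul_assoc, gam, vr, mul_div_assoc]
  congr 2
  have h0 := dens_half_g0 (m := 0) ⟨le_rfl, zero_le_one⟩ hy
  have h1 := dens_one_eq hε hy
  have h2 := dens_affine (1 / 2) (mI G θ D l w) (Qf (1 / 2) (mI G θ D l w) u)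
  have h3 : 2 * Qf (1 / 2) (mI G θ D l w) u - 1 = dens (1 / 2) 1 (Qf (1 / 2) (mI G θ D l w) u) -
      dens (1 / 2) 0 (Qf (1 / 2) (mI G θ D l w) u) := by unfold dens; ring
  rw [h2, h3, h1, ← mul_div_mul_left _ _ (show dens (1 / 2) 0 (Qf (1 / 2) (mI G θ D l w) u) ≠ 0 by
    linarith [h0.1])]
  congr 1 <;> ring

lemma abs_lam_le {y : ℝ} (hy : y ∈ Set.Icc (0 : ℝ) 1) : |lam (1 / 2) y| ≤ 2 := by
  have hε : (1 / 2 : ℝ) ∈ Set.Ioc (0 : ℝ) (1 / 2) := ⟨by norm_num, le_rfl⟩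
  have h := lam_lip hε hy (y := 1 / 2) ⟨by norm_num, by norm_num⟩
  have h0 : lam (1 / 2) (1 / 2) = 0 := by norm_num [lam]
  rw [h0, sub_zero] at h
  have : |y - 1 / 2| ≤ 1 / 2 := abs_le.2 ⟨by linarith [hy.1], by linarith [hy.2]⟩
  linarith

lemma gam_le {m u : ℝ} (hm : m ∈ Set.Icc (0 : ℝ) 1) (hu : u ∈ Set.Icc (0 : ℝ) 1) :
    |gam m u| ≤ 2 * (m * (1 - m)) := by
  have hε : (1 / 2 : ℝ) ∈ Set.Ioc (0 : ℝ) (1 / 2) := ⟨by norm_num, le_rfl⟩
  have hy := (Qf_spec hε hm hu).1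
  have h0 := dens_half_g0 hm hy
  have ha : 0 ≤ m * (1 - m) := mul_nonneg hm.1 (sub_nonneg.2 hm.2)
  have hb : |2 * Qf (1 / 2) m u - 1| ≤ 1 := abs_le.2 ⟨by linarith [hy.1], by linarith [hy.2]⟩
  have hp : 0 < dens (1 / 2) m (Qf (1 / 2) m u) := by linarith [h0.1]
  rw [gam, abs_div, abs_mul, abs_of_nonneg ha, abs_of_pos hp, div_le_iff₀ hp]
  nlinarith [mul_le_mul_of_nonneg_left hb ha, mul_le_mul_of_nonneg_left h0.1 ha]

lemma gam_lip {m m' u u' : ℝ} (hm : m ∈ Set.Icc (0 : ℝ) 1) (hm' : m' ∈ Set.Icc (0 : ℝ) 1)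
    (hu : u ∈ Set.Icc (0 : ℝ) 1) (hu' : u' ∈ Set.Icc (0 : ℝ) 1) :
    |gam m u - gam m' u'| ≤ 20 * (|m - m'| + |u - u'|) := by
  have hε : (1 / 2 : ℝ) ∈ Set.Ioc (0 : ℝ) (1 / 2) := ⟨by norm_num, le_rfl⟩
  have hy := (Qf_spec hε hm hu).1
  have hy' := (Qf_spec hε hm' hu').1
  have hq := Qf_lip hε hm hm' hu hu'
  unfold gam
  generalize Qf (1 / 2) m u = y at *
  generalize Qf (1 / 2) m' u' = y' at *
  have hb : |2 * y - 1| ≤ 1 := abs_le.2 ⟨by linarith [hy.1], by linarith [hy.2]⟩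
  have hb' : |2 * y' - 1| ≤ 1 := abs_le.2 ⟨by linarith [hy'.1], by linarith [hy'.2]⟩
  have ha' : |m' * (1 - m')| ≤ 1 / 4 := abs_le.2
    ⟨by nlinarith [hm'.1, hm'.2], by nlinarith [sq_nonneg (m' - 1 / 2)]⟩
  refine (quot_lip_g0 ha' hb hb' (dens_half_g0 hm hy).1 (dens_half_g0 hm' hy').1
    (dens_half_g0 hm' hy').2).trans ?_
  have e1 : |m * (1 - m) - m' * (1 - m')| ≤ |m - m'| := by
    rw [show m * (1 - m) - m' * (1 - m') = (m - m') * (1 - m - m') by ring, abs_mul]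
    exact mul_le_of_le_one_right (abs_nonneg _)
      (abs_le.2 ⟨by linarith [hm.2, hm'.2], by linarith [hm.1, hm'.1]⟩)
  have e2 : |2 * y - 1 - (2 * y' - 1)| = 2 * |y - y'| := by
    rw [show 2 * y - 1 - (2 * y' - 1) = 2 * (y - y') by ring, abs_mul, abs_two]
  have e3 : |dens (1 / 2) m y - dens (1 / 2) m' y'| ≤ |m - m'| + |y - y'| := by
    rw [show dens (1 / 2) m y - dens (1 / 2) m' y' =
      (m - m') * (2 * y - 1) + (y - y') * (2 * m' - 1) by unfold dens; ring]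
    refine (abs_add_le _ _).trans (add_le_add ?_ ?_) <;> rw [abs_mul]
    · exact mul_le_of_le_one_right (abs_nonneg _) hb
    · exact mul_le_of_le_one_right (abs_nonneg _)
        (abs_le.2 ⟨by linarith [hm'.1], by linarith [hm'.2]⟩)
  have := abs_nonneg (m - m')
  have := abs_nonneg (u - u')
  linarith

lemma mI_rs (hG : G.IsTree) (hθ : θ ∈ Set.Ico (0 : ℝ) 1) {o : V} (hD : GoodAt G o D)
    {D' : Finset V} (hsub : D ⊆ D') (l : V → ℝ) {x : V} (hx : x ∈ D) :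
    mI G θ D' (rs D l) x = mI G θ D l x := by
  obtain ⟨c, hc, -, h⟩ := SI_consistent hG hθ hD D' hsub
  have e : ∀ (E : Finset V) (g : Finset V → ℝ),
      SI G θ E (rs D l) g = SI G θ E 0 fun T => tilt (rs D l) T * g T := fun E g => by
    rw [SI_zero, SI]
    exact Finset.sum_congr rfl fun T _ => mul_assoc _ _ _
  have ht : ∀ y, y ∉ D → ∀ T, tilt (rs D l) (insert y T) = tilt (rs D l) T := fun y hy T =>
    Finset.prod_insert_of_eq_one_if_notMem fun _ => by simp [rs, hy]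
  rw [mI_congr (l := l) (l' := rs D l) (fun v hv => by simp [rs, hv]) x]
  unfold mI
  rw [e, e, e D, e D, h _ fun y hy T => ?_, h _ fun y hy T => ?_, mul_div_mul_left _ _ hc.ne']
  · rw [ht y hy]
  · have : x ≠ y := fun h => hy (h ▸ hx)
    rw [ht y hy]
    simp [ind, this]

end basic

end Vale.Agent.P161E
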