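import Vale.Agent.P161E.Q
import Vale.Agent.P161E.Bay
import Vale.Agent.P161E.Carl

namespace Vale.Agent.P161E

open MeasureTheory unitInterval Classical SimpleGraph Filter Topology
open Vale.Agent.P161
open Vale.Agent.P143 (BM iidUniform)

variable {V : Type} {G : SimpleGraph V} [G.LocallyFinite] {d : ℕ} {θ : ℝ} {D : Finset V}

omit [G.LocallyFinite] in
lemma opT_addf_rat (T A : Finset V) (w : V) (t : ℝ) (g : (V → ℝ) → ℝ) (n : ℕ) (l : V → ℝ) :
    (opT D T (one (stT A)))^[n] g (addf l w t) =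
      (opT D T (one (stT A)))^[n] (fun x => g (addf x w t)) l := by
  induction n generalizing g with
  | zero => rfl
  | succ n ih =>
    rw [Function.iterate_succ_apply, Function.iterate_succ_apply, ih]
    refine congrArg (fun k => (opT D T (one (stT A)))^[n] k l) (funext fun x => ?_)
    have e : ∀ (w' : V) (p : I × I),
        one (stT A) (addf x w t) w' p = addf (one (stT A) x w' p) w t := by
      intro w' p
      simp only [one, stT]
      split_ifs
      · funext z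
        simp only [addf]
        ring
      · rfl
    simp only [opT, e]

lemma Cx.HH_addf_rat (h : Cx G d θ D) (y : V) (l : V → ℝ) {w : V} (hw : w ∈ D) {t : ℝ}
    (ht : |t| ≤ 2) : HH G θ D (addf l w t) y ≤ Real.exp 16 * HH G θ D l y := by
  unfold HH Gw
  rw [Finset.mul_sum]
  refine Finset.sum_le_sum fun c hc => ?_
  rw [Finset.mul_sum]
  refine Finset.sum_le_sum fun x hx => ?_
  have hc' := (Finset.mem_filter.1 hc).1
  have h1 := h.aa_addf l hx hc' hw t
  have h2 : Real.exp (4 * |t|) ≤ Real.exp 8 := Real.exp_le_exp.2 (by linarith)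
  have h3 := (h.aa_mem l hx hc').1
  have h4 : aa G θ D (addf l w t) x c ^ 2 ≤ (Real.exp 8 * aa G θ D l x c) ^ 2 :=
    pow_le_pow_left₀ (h.aa_mem _ hx hc').1 (h1.trans (mul_le_mul_of_nonneg_right h2 h3)) 2
  rw [mul_pow, ← Real.exp_nat_mul] at h4
  norm_num at h4
  have h5 : 0 ≤ om (G.dist x c) := zero_le_one.trans (om_one _)
  rw [mul_left_comm]
  exact mul_le_mul_of_nonneg_left h4 h5

/-- `planted` with `g T = HH ^ 4`, `ex_addf_le`, `aa_addf` -/
lemma Cx.Ph1_addf (h : Cx G d θ D) (y : V) (i : ℕ) (l : V → ℝ) {w : V} (hw : w ∈ D) {t : ℝ}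
    (ht : |t| ≤ 2) : Ph1 G θ D y i (addf l w t) ≤ Real.exp 66 * Ph1 G θ D y i l := by
  have hθ := h.theta.1
  have hH : BM fun l => HH G θ D l y ^ 4 := bm_pow (h.bm_HH y) 4
  have key : ∀ l, Ph1 G θ D y i l =
      ex G θ D l fun T => (opT D T (one (stT D)))^[i] (fun l => HH G θ D l y ^ 4) l := by
    intro l
    rw [← planted hθ h.ne D (g := fun _ l => HH G θ D l y ^ 4) (fun _ => hH)]
    simp only [ex_const hθ]
    rfl
  have hm : ∀ T, MK (opT D T (one (stT D)))^[i] :=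
    fun T => (mk_opT h.ne T (ms_stT D).one).iter i
  have hπ : Measurable fun x : V → ℝ => addf x w t := by
    unfold addf
    fun_prop
  have h0 : ∀ x, 0 ≤ HH G θ D x y := fun x => (h.nonneg 0 (x, x) y).1
  rw [key, key]
  refine (ex_addf_le hθ l hw t fun T => (hm T).nonneg hH (fun x => by positivity) _).trans ?_
  have h1 : ex G θ D l (fun T => (opT D T (one (stT D)))^[i] (fun l => HH G θ D l y ^ 4)
      (addf l w t)) ≤ Real.exp 64 *
      ex G θ D l fun T => (opT D T (one (stT D)))^[i] (fun l => HH G θ D l y ^ 4) l := by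
    rw [← ex_smul]
    refine ex_mono hθ l fun T _ => ?_
    rw [opT_addf_rat, ← (hm T).smul]
    refine (hm T).mono _ _ (hH.comp hπ) ((BM.const _).mul hH) (fun x => ?_) l
    have h2 := pow_le_pow_left₀ (h0 _) (h.HH_addf_rat y x hw ht) 4
    rw [mul_pow, ← Real.exp_nat_mul] at h2
    norm_num at h2
    exact h2
  have h2 : 0 ≤ ex G θ D l fun T =>
      (opT D T (one (stT D)))^[i] (fun l => HH G θ D l y ^ 4) l := by
    rw [← ex_const (G := G) (D := D) hθ l 0]
    exact ex_mono hθ l fun T _ => (hm T).nonneg hH (fun x => by positivity) _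
  calc _ ≤ Real.exp 2 * (Real.exp 64 * _) :=
        mul_le_mul (Real.exp_le_exp.2 ht) h1 (by
          rw [← ex_const (G := G) (D := D) hθ l 0]
          exact ex_mono hθ l fun T _ => (hm T).nonneg hH (fun x => by positivity) _)
          (Real.exp_pos _).le
    _ = _ := by
        rw [← mul_assoc, ← Real.exp_add]
        norm_num

lemma Cx.lam_rat (h : Cx G d θ D) (l : V → ℝ) {w : V} (hw : w ∈ D) (u : I) :
    |lam (1 / 2) (Qf (1 / 2) (mI G θ D l w) u)| ≤ 2 :=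
  abs_lam_le (Qf_spec (by norm_num) ⟨(mI_open h.theta.1 l hw).1.le, (mI_open h.theta.1 l hw).2.le⟩
    u.2).1

lemma Cx.Ph1_step (h : Cx G d θ D) (y : V) (i : ℕ) (l : V → ℝ) {w : V} (hw : w ∈ D) (u : I) :
    Ph1 G θ D y i (stp G θ D l w u) ≤ Real.exp 132 * Ph1 G θ D y (i + 1) l := by
  have h1 : Ph1 G θ D y i (stp G θ D l w u) ≤ Real.exp 66 * Ph1 G θ D y i l := by
    simp only [stp, stA, if_pos hw]
    exact h.Ph1_addf y i l hw (h.lam_rat l hw u)
  have h2 : Ph1 G θ D y i l ≤ Real.exp 66 * Ph1 G θ D y (i + 1) l := by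
    have e : Ph1 G θ D y (i + 1) l = PP G θ D (Ph1 G θ D y i) l := by
      unfold Ph1
      rw [Function.iterate_succ_apply']
    rw [e, ← h.mkP.smul, ← h.mkP.const (Ph1 G θ D y i l) l]
    refine op_le ms_stp.one (BM.const _) ((BM.const _).mul (h.bm_Ph1 y i)) fun w' hw' p => ?_
    have h3 := h.Ph1_addf y i (st G θ D l w' p.1) hw'
      (t := -lam (1 / 2) (Qf (1 / 2) (mI G θ D l w') p.1)) (by
        rw [abs_neg]
        exact h.lam_rat l hw' p.1)
    have e2 : addf (st G θ D l w' p.1) w' (-lam (1 / 2) (Qf (1 / 2) (mI G θ D l w') p.1)) = l := by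
      funext z
      simp only [st, addf]
      split_ifs <;> ring
    rw [e2] at h3
    simpa only [one, stp, stA, if_pos hw'] using h3
  calc _ ≤ Real.exp 66 * (Real.exp 66 * _) :=
        h1.trans (mul_le_mul_of_nonneg_left h2 (Real.exp_pos _).le)
    _ = _ := by
        rw [← mul_assoc, ← Real.exp_add]
        norm_num

lemma Cx.WW_st (h : Cx G d θ D) (n : ℕ) (y : V) (l : V → ℝ) {w : V} (hw : w ∈ D) (a a' : I) :
    WW G θ D n y (st G θ D l w a, st G θ D l w a') ≤ Real.exp 33 * WW G θ D n y (l, l) := by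
  unfold WW
  rw [← mul_div_assoc, Finset.mul_sum]
  refine div_le_div_of_nonneg_right (Finset.sum_le_sum fun i _ => ?_) (Nat.cast_nonneg _)
  have h1 := h.Ph1_addf y i l hw (h.lam_rat l hw a)
  have h2 := h.Ph1_addf y i l hw (h.lam_rat l hw a')
  have e : Real.exp 33 = √(Real.exp 66) := by
    rw [show (66 : ℝ) = 33 + 33 by norm_num, Real.exp_add, Real.sqrt_mul_self (Real.exp_pos _).le]
  unfold ph
  rw [e, ← Real.sqrt_mul (Real.exp_pos _).le, mul_add]
  exact Real.sqrt_le_sqrt (add_le_add h1 h2)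

lemma Cx.wstep_rat (h : Cx G d θ D) {y : V} (hy : y ∈ D) (i : ℕ) (s : (V → ℝ) × (V → ℝ))
    {a : (V → ℝ) × (V → ℝ) → ℝ} (ha : BM a) (ma : P2 G θ D a s = a s) {α β : V → ℝ}
    (hα : ∀ w ∈ D, ∀ p, (a (pr (stp G θ D) ∅ s w p) - a s) ^ 2 ≤ α w)
    (hβ : ∀ w ∈ D, ∀ p, (Dd G θ D (pr (stp G θ D) ∅ s w p) y - Dd G θ D s y) ^ 2 ≤ β w) :
    P2 G θ D (fun x => ph G θ D y i x * (a x * Dd G θ D x y) ^ 2) s ≤
      ph G θ D y (i + 1) s * ((a s * Dd G θ D s y) ^ 2 + (7 + 3 * Real.exp 66) / D.card *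
        ∑ w ∈ D, (a s ^ 2 * β w + Dd G θ D s y ^ 2 * α w + α w * β w)) := by
  have b1 : BM fun x : (V → ℝ) × (V → ℝ) => Ph1 G θ D y i x.1 :=
    (h.bm_Ph1 y i).comp measurable_fst
  have b2 : BM fun x : (V → ℝ) × (V → ℝ) => Ph1 G θ D y i x.2 :=
    (h.bm_Ph1 y i).comp measurable_snd
  have e : op D (pr (stp G θ D) ∅) (fun x => Ph1 G θ D y i x.1 + Ph1 G θ D y i x.2) s =
      Ph1 G θ D y (i + 1) s.1 + Ph1 G θ D y (i + 1) s.2 := by
    have e1 := h.P2_fst (Ph1 G θ D y i) 1 s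
    have e2 := h.P2_snd (Ph1 G θ D y i) 1 s
    have e3 := h.mk2.add _ _ b1 b2 s
    simp only [Function.iterate_one] at e1 e2
    rw [e1, e2] at e3
    unfold Ph1
    rw [Function.iterate_succ_apply']
    exact e3
  have key := weighted h.ne (ms_stp.pr ∅) (b1.add b2) ha (h.bm_Dd y)
    (fun x => by linarith [h.Ph1_one hy i x.1, h.Ph1_one hy i x.2]) ma (h.mart_Dd y s)
    (K := Real.exp 66) (Real.exp_pos _).le (fun w hw p => by
      rw [e, ← Real.exp_nat_mul, mul_add]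
      norm_num
      exact add_le_add (h.Ph1_step y i s.1 hw p.1) (by simpa [pr] using h.Ph1_step y i s.2 hw p.1))
    hα hβ
  rw [e] at key
  exact key

lemma Cx.aa_sum_rat (h : Cx G d θ D) (l : V → ℝ) (y : V) :
    ∑ z ∈ D.filter fun z => G.dist z y ≤ 1, ∑ w ∈ D, aa G θ D l w z ^ 2 ≤ HH G θ D l y := by
  have h1 : ∀ z, ∑ w ∈ D, aa G θ D l w z ^ 2 ≤ Gw G θ D l z := fun z =>
    Finset.sum_le_sum fun w _ => le_mul_of_one_le_left (sq_nonneg _) (om_one _)
  refine (Finset.sum_le_sum fun z _ => h1 z).trans (Finset.sum_le_sum_of_subset_of_nonneg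
    (fun z hz => ?_) fun z _ _ => le_trans (by positivity) (h1 z))
  rw [Finset.mem_filter] at hz ⊢
  exact ⟨hz.1, hz.2.trans one_le_two⟩

lemma Cx.side_rat (h : Cx G d θ D) (l : V → ℝ) (y : V) (δ : ℝ) {β q q' : V → ℝ}
    (h0 : ∀ w, 0 ≤ β w) (h1 : ∀ w, β w ≤ 400 * q w) (h2 : ∀ w, β w ≤ 400 * q' w) :
    ∑ z ∈ D.filter fun z => G.dist z y ≤ 1, ∑ w ∈ D, (mu G θ D l z ^ 2 * β w +
        δ ^ 2 * aa G θ D l w z ^ 2 + aa G θ D l w z ^ 2 * β w) ≤
      400 * (MM G θ D l y * ∑ w ∈ D, q w) + HH G θ D l y * δ ^ 2 +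
        400 * ∑ z ∈ D.filter fun z => G.dist z y ≤ 1, ∑ w ∈ D, θ ^ (2 * G.dist z w) * q' w := by
  simp only [Finset.sum_add_distrib]
  refine add_le_add (add_le_add ?_ ?_) ?_
  · rw [MM, Finset.sum_mul, Finset.mul_sum]
    refine Finset.sum_le_sum fun z _ => ?_
    rw [Finset.mul_sum, Finset.mul_sum]
    refine Finset.sum_le_sum fun w _ => ?_
    rw [mul_left_comm]
    exact mul_le_mul_of_nonneg_left (h1 w) (sq_nonneg _)
  · simp only [← Finset.mul_sum]
    rw [mul_comm]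
    exact mul_le_mul_of_nonneg_right (h.aa_sum_rat l y) (sq_nonneg _)
  · rw [Finset.mul_sum]
    refine Finset.sum_le_sum fun z hz => ?_
    rw [Finset.mul_sum]
    refine Finset.sum_le_sum fun w hw => ?_
    have h3 := h.aa_mem l hw (Finset.mem_filter.1 hz).1
    have h4 := pow_le_pow_left₀ h3.1 h3.2 2
    rw [← pow_mul, mul_comm (G.dist w z), G.dist_comm] at h4
    rw [mul_left_comm]
    exact mul_le_mul h4 (h2 w) (h0 w) ((sq_nonneg _).trans h4)

/-- `weighted` for each `z` with `dist z y ≤ 1` and both components -/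
theorem wstep (h : Tr G d) : ∃ C, 0 < C ∧ ∀ θ D, Cx G d θ D → ∀ y ∈ D, ∀ (i : ℕ)
    (s : (V → ℝ) × (V → ℝ)), P2 G θ D (fun x => ph G θ D y i x * ZZ G θ D x y) s ≤
      ph G θ D y (i + 1) s * (ZZ G θ D s y + C / D.card * rr G θ D s y) := by
  refine ⟨800 * (7 + 3 * Real.exp 66), by positivity, fun θ D h y hy i s => ?_⟩
  have hθ := h.theta.1
  obtain ⟨β, hβ⟩ : ∃ β : V → ℝ, ∀ w, β w = min (400 * qq G θ D s y w)
    (400 * qq G θ D s.swap y w) := ⟨_, fun _ => rfl⟩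
  have q0 : ∀ s w, 0 ≤ qq G θ D s y w := fun s w => sq_nonneg _
  have β0 : ∀ w, 0 ≤ β w := fun w => by
    rw [hβ]
    exact le_min (by linarith [q0 s w]) (by linarith [q0 s.swap w])
  have β1 : ∀ w, β w ≤ 400 * qq G θ D s y w := fun w => hβ w ▸ min_le_left _ _
  have β2 : ∀ w, β w ≤ 400 * qq G θ D s.swap y w := fun w => hβ w ▸ min_le_right _ _
  have β3 : ∀ w ∈ D, ∀ p, (Dd G θ D (pr (stp G θ D) ∅ s w p) y - Dd G θ D s y) ^ 2 ≤ β w :=
    fun w hw p => hβ w ▸ le_min (h.q1 s hy hw p) (h.q1_swap s hy hw p)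
  have m1 : ∀ z, BM fun x : (V → ℝ) × (V → ℝ) => mu G θ D x.1 z :=
    fun z => (bm_mu hθ z).comp measurable_fst
  have m2 : ∀ z, BM fun x : (V → ℝ) × (V → ℝ) => mu G θ D x.2 z :=
    fun z => (bm_mu hθ z).comp measurable_snd
  have n1 := fun z => (h.bm_ph y i).mul (bm_pow ((m1 z).mul (h.bm_Dd y)) 2)
  have n2 := fun z => (h.bm_ph y i).mul (bm_pow ((m2 z).mul (h.bm_Dd y)) 2)
  have e : ∀ (c : ℝ) x, c * ZZ G θ D x y =
      ∑ z ∈ D.filter fun z => G.dist z y ≤ 1, c * (mu G θ D x.1 z * Dd G θ D x y) ^ 2 +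
      ∑ z ∈ D.filter fun z => G.dist z y ≤ 1, c * (mu G θ D x.2 z * Dd G θ D x y) ^ 2 := by
    intro c x
    simp only [ZZ, MM, mul_pow, ← Finset.mul_sum, ← Finset.sum_mul]
    ring
  have k1 := Finset.sum_le_sum (s := D.filter fun z => G.dist z y ≤ 1) fun z hz =>
    h.wstep_rat hy i s (m1 z) (h.mart_mu z s).1 (α := fun w => aa G θ D s.1 w z ^ 2)
      (fun w hw p => h.dmu s.1 (Finset.mem_filter.1 hz).1 hw p.1) β3
  have k2 := Finset.sum_le_sum (s := D.filter fun z => G.dist z y ≤ 1) fun z hz =>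
    h.wstep_rat hy i s (m2 z) (h.mart_mu z s).2 (α := fun w => aa G θ D s.2 w z ^ 2)
      (fun w hw p => by simpa [pr] using h.dmu s.2 (Finset.mem_filter.1 hz).1 hw p.1) β3
  have s1 := h.side_rat s.1 y (Dd G θ D s y) β0 β1 β1
  have s2 := h.side_rat s.2 y (Dd G θ D s y) β0 β2 β1
  simp only [mul_add, Finset.sum_add_distrib (f := fun z => ph G θ D y (i + 1) s * _),
    ← Finset.mul_sum (a := ph G θ D y (i + 1) s),
    ← Finset.mul_sum (a := (7 + 3 * Real.exp 66) / D.card)] at k1 k2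
  simp only [e]
  rw [h.mk2.add _ _ (BM.sum _ fun z _ => n1 z) (BM.sum _ fun z _ => n2 z),
    h.mk2.sum _ (fun z _ => n1 z), h.mk2.sum _ (fun z _ => n2 z)]
  have e1 := e 1 s
  simp only [one_mul] at e1
  have p0 : 0 ≤ ph G θ D y (i + 1) s := Real.sqrt_nonneg _
  have c0 : 0 ≤ (7 + 3 * Real.exp 66) / (D.card : ℝ) := by positivity
  obtain ⟨a1, a2, -⟩ := h.nonneg 0 s y
  have a3 := mul_nonneg (h.MM_le s.1 y).1 (Finset.sum_nonneg (s := D) fun w _ => q0 s w)
  have a4 := mul_nonneg (h.MM_le s.2 y).1 (Finset.sum_nonneg (s := D) fun w _ => q0 s.swap w)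
  have a5 := mul_nonneg a1 (sq_nonneg (Dd G θ D s y))
  have a6 := mul_nonneg a2 (sq_nonneg (Dd G θ D s y))
  have t := mul_le_mul_of_nonneg_left (mul_le_mul_of_nonneg_left
    ((add_le_add s1 s2).trans (show _ ≤ 800 * rr G θ D s y by unfold rr; linarith)) c0) p0
  rw [e1, mul_div_assoc]
  linarith

theorem witer (h : Tr G d) : ∃ C, 0 < C ∧ ∀ θ D, Cx G d θ D → ∀ y ∈ D, ∀ (r i : ℕ)
    (s : (V → ℝ) × (V → ℝ)), (P2 G θ D)^[r] (fun x => ph G θ D y i x * ZZ G θ D x y) s ≤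
      ph G θ D y (i + r) s * ZZ G θ D s y + C / D.card * ∑ v ∈ Finset.range r,
        (P2 G θ D)^[v] (fun x => ph G θ D y (i + r - v) x * rr G θ D x y) s := by
  obtain ⟨C, hC, H⟩ := wstep h
  refine ⟨C, hC, fun θ D h y hy r => ?_⟩
  induction r with
  | zero => intro i s; simp
  | succ r ih =>
    intro i s
    have b1 := fun i => (h.bm_ph y i).mul (h.bm_ZZ y)
    have b2 := (h.bm_ph y (i + 1)).mul (h.bm_rr y)
    have hm := h.mk2.iter r
    have h1 := hm.mono _ _ (h.mk2.bm _ (b1 i)) ((b1 (i + 1)).add ((BM.const (C / D.card)).mul b2))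
      (fun x => (H θ D h y hy i x).trans (le_of_eq (by ring))) s
    rw [hm.add _ _ (b1 (i + 1)) ((BM.const _).mul b2), hm.smul] at h1
    rw [Function.iterate_succ_apply, Finset.sum_range_succ, show i + (r + 1) = i + 1 + r by ring,
      Nat.add_sub_cancel]
    linarith [ih (i + 1) s]

end Vale.Agent.P161E
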