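import Vale.Agent.P161E.Rb
import Vale.Agent.P161E.Rat
import Vale.Agent.P161E.Am

namespace Vale.Agent.P161E

open MeasureTheory unitInterval Classical SimpleGraph Filter Topology
open Vale.Agent.P161
open Vale.Agent.P143 (BM iidUniform)

variable {V : Type} {G : SimpleGraph V} [G.LocallyFinite] {d : ℕ} {θ : ℝ} {D : Finset V}

lemma key_main {C : ℝ} (h : Cx G d θ D) (hC : 0 < C) {y : V}
    (hw : ∀ (r i : ℕ) (s : (V → ℝ) × (V → ℝ)),
      (P2 G θ D)^[r] (fun x => ph G θ D y i x * ZZ G θ D x y) s ≤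
      ph G θ D y (i + r) s * ZZ G θ D s y + C / D.card * ∑ v ∈ Finset.range r,
        (P2 G θ D)^[v] (fun x => ph G θ D y (i + r - v) x * rr G θ D x y) s)
    {n e : ℕ} (he : e ≤ n) (r a : ℕ → ℕ) (hr : ∀ i < n, r i ≤ n) (ha : ∀ i, a i + r i = i + e)
    (s : (V → ℝ) × (V → ℝ)) :
    ∑ i ∈ Finset.range n, (P2 G θ D)^[r i] (fun x => ph G θ D y (a i) x * ZZ G θ D x y) s ≤
      (∑ i ∈ Finset.range n, ph G θ D y (i + e) s) * ZZ G θ D s y + C * ∑ v ∈ Finset.range n,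
        (P2 G θ D)^[v] (fun x => WW G θ D (2 * n) y x * rr G θ D x y) s := by
  have hN : (0 : ℝ) < D.card := by exact_mod_cast h.ne.card_pos
  refine (Finset.sum_le_sum fun i _ => hw (r i) (a i) s).trans ?_
  simp only [ha]
  rw [Finset.sum_add_distrib, ← Finset.sum_mul, ← Finset.mul_sum]
  refine add_le_add le_rfl ?_
  have e1 : ∀ i ∈ Finset.range n, ∑ v ∈ Finset.range (r i),
      (P2 G θ D)^[v] (fun x => ph G θ D y (i + e - v) x * rr G θ D x y) s =
      ∑ v ∈ Finset.range n, if v < r i then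
        (P2 G θ D)^[v] (fun x => ph G θ D y (i + e - v) x * rr G θ D x y) s else 0 := by
    intro i hi
    rw [← Finset.sum_filter]
    refine Finset.sum_congr ?_ fun _ _ => rfl
    ext v
    have := hr i (Finset.mem_range.1 hi)
    simp only [Finset.mem_range, Finset.mem_filter]
    omega
  rw [Finset.sum_congr rfl e1, Finset.sum_comm, Finset.mul_sum, Finset.mul_sum]
  refine Finset.sum_le_sum fun v _ => ?_
  have mk := h.mk2.iter v
  rw [← Finset.sum_filter, ← mk.sum _ fun i _ => (h.bm_ph y _).mul (h.bm_rr y)]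
  have e2 : (P2 G θ D)^[v] (fun x => ∑ i ∈ (Finset.range n).filter fun i => v < r i,
      ph G θ D y (i + e - v) x * rr G θ D x y) s ≤
      (P2 G θ D)^[v] (fun x => (D.card : ℝ) * (WW G θ D (2 * n) y x * rr G θ D x y)) s := by
    refine mk.mono _ _ (BM.sum _ fun i _ => (h.bm_ph y _).mul (h.bm_rr y))
      ((BM.const _).mul ((h.bm_WW _ y).mul (h.bm_rr y))) (fun x => ?_) s
    rw [← Finset.sum_mul, ← mul_assoc]
    refine mul_le_mul_of_nonneg_right ?_ (h.nonneg 0 x y).2.2.2.2.1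
    rw [WW, mul_div_cancel₀ _ hN.ne']
    have inj : Set.InjOn (fun i => i + e - v)
        ((Finset.range n).filter fun i => v < r i : Finset ℕ) := by
      intro i hi j hj hij
      simp only [Finset.coe_filter, Finset.mem_range, Set.mem_ofPred_eq] at hi hj hij
      have := ha i
      have := ha j
      omega
    rw [← Finset.sum_image (f := fun i => ph G θ D y i x) inj]
    refine Finset.sum_le_sum_of_subset_of_nonneg (fun k hk => ?_) fun _ _ _ => Real.sqrt_nonneg _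
    obtain ⟨i, hi, rfl⟩ := Finset.mem_image.1 hk
    simp only [Finset.mem_filter, Finset.mem_range] at hi ⊢
    omega
  rw [mk.smul] at e2
  refine (mul_le_mul_of_nonneg_left e2 (by positivity)).trans (le_of_eq ?_)
  field_simp

omit [G.LocallyFinite] in
lemma hh_le_ph (y : V) (s : (V → ℝ) × (V → ℝ)) :
    HH G θ D s.1 y ^ 2 + HH G θ D s.2 y ^ 2 ≤ 2 * ph G θ D y 0 s := by
  unfold ph Ph1
  simp only [Function.iterate_zero, id]
  have a : HH G θ D s.1 y ^ 2 ≤ √(HH G θ D s.1 y ^ 4 + HH G θ D s.2 y ^ 4) :=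
    Real.le_sqrt_of_sq_le (by nlinarith [sq_nonneg (HH G θ D s.2 y ^ 2)])
  have b : HH G θ D s.2 y ^ 2 ≤ √(HH G θ D s.1 y ^ 4 + HH G θ D s.2 y ^ 4) :=
    Real.le_sqrt_of_sq_le (by nlinarith [sq_nonneg (HH G θ D s.1 y ^ 2)])
  linarith

lemma Cx.ZZ_le (h : Cx G d θ D) (s : (V → ℝ) × (V → ℝ)) (y : V) :
    ZZ G θ D s y ≤ 2 * (d + 1) * Dd G θ D s y ^ 2 :=
  mul_le_mul_of_nonneg_right (by linarith [(h.MM_le s.1 y).2, (h.MM_le s.2 y).2]) (sq_nonneg _)

lemma close_main {y I0 Q E X Y Cy Cw Cr η c0 : ℝ} (hCy : 0 < Cy) (hCw : 0 < Cw) (hCr : 0 < Cr)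
    (hη : η = 1 / (4 * Cw + 1)) (hc : c0 = 1 / (24 * Cy * (4 * Cw * (Cr / η) + 1)))
    (X0 : 0 ≤ X) (I1 : 0 ≤ Q) (h1 : Q ≤ 2 * I0 + 2 * Cw * E) (h2 : E ≤ η * Q + Cr / η * X)
    (h3 : X ≤ 12 * c0 * Y) (h4 : Y ≤ y + Cy * (Q + X)) :
    Y ≤ 2 * y + 8 * Cy * I0 ∧ E ≤ 4 * I0 + (4 * Cw + 1) * (Cr / η) * (12 * c0 * Y) := by
  have η0 : 0 < η := by rw [hη]; positivity
  have η1 : η * (4 * Cw + 1) = 1 := by rw [hη]; field_simp
  set K := Cr / η with hK
  have K0 : 0 < K := by positivity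
  have c1 : c0 * (24 * Cy * (4 * Cw * K + 1)) = 1 := by rw [hc]; field_simp
  have a1 : 2 * Cw * E ≤ 2 * Cw * (η * Q + K * X) := mul_le_mul_of_nonneg_left h2 (by positivity)
  have a2 : 4 * Cw * η * Q ≤ Q := by
    have : 4 * Cw * η ≤ 1 := by nlinarith
    nlinarith
  have a3 : Q ≤ 4 * I0 + 4 * Cw * K * X := by nlinarith
  have a4 : Cy * (Q + X) ≤ Cy * (4 * I0 + (4 * Cw * K + 1) * X) :=
    mul_le_mul_of_nonneg_left (by linarith) hCy.le
  have a5 : Cy * (4 * Cw * K + 1) * X ≤ Cy * (4 * Cw * K + 1) * (12 * c0 * Y) :=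
    mul_le_mul_of_nonneg_left h3 (by positivity)
  have a6 : Cy * (4 * Cw * K + 1) * (12 * c0 * Y) = Y / 2 := by
    linear_combination (Y / 2) * c1
  refine ⟨by nlinarith, ?_⟩
  have a7 : η * Q ≤ Q := mul_le_of_le_one_left I1 (by nlinarith)
  have a8 : (4 * Cw + 1) * K * X ≤ (4 * Cw + 1) * K * (12 * c0 * Y) :=
    mul_le_mul_of_nonneg_left h3 (by positivity)
  nlinarith

noncomputable def SS (G : SimpleGraph V) (θ : ℝ) (D : Finset V) (d : ℕ) (o : V) (n : ℕ)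
    (x : (V → ℝ) × (V → ℝ)) : ℝ :=
  ∑ y ∈ D, om (G.dist o y) * (AA G θ D d n y x * Dd G θ D x y ^ 2)

noncomputable def RR (G : SimpleGraph V) (θ : ℝ) (D : Finset V) (o : V) (n : ℕ)
    (x : (V → ℝ) × (V → ℝ)) : ℝ :=
  ∑ y ∈ D, om (G.dist o y) * (WW G θ D n y x * rr G θ D x y)

noncomputable def II (G : SimpleGraph V) (θ : ℝ) (D : Finset V) (o : V) (n : ℕ)
    (x : (V → ℝ) × (V → ℝ)) : ℝ :=
  ∑ y ∈ D, om (G.dist o y) * (WW G θ D n y x * ZZ G θ D x y)

lemma om_nn (k : ℕ) : 0 ≤ om k := zero_le_one.trans (om_one _)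

lemma Cx.bm_SS (h : Cx G d θ D) (o : V) (n : ℕ) : BM (SS G θ D d o n) :=
  BM.sum _ fun y _ => (BM.const _).mul ((h.bm_AA n y).mul (bm_pow (h.bm_Dd y) 2))

lemma Cx.bm_RR (h : Cx G d θ D) (o : V) (n : ℕ) : BM (RR G θ D o n) :=
  BM.sum _ fun y _ => (BM.const _).mul ((h.bm_WW n y).mul (h.bm_rr y))

lemma Cx.bm_II (h : Cx G d θ D) (o : V) (n : ℕ) : BM (II G θ D o n) :=
  BM.sum _ fun y _ => (BM.const _).mul ((h.bm_WW n y).mul (h.bm_ZZ y))

lemma Cx.lin_om (h : Cx G d θ D) (o : V) (v : ℕ) (s : (V → ℝ) × (V → ℝ))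
    {g : V → (V → ℝ) × (V → ℝ) → ℝ} (hg : ∀ y, BM (g y)) :
    (P2 G θ D)^[v] (fun x => ∑ y ∈ D, om (G.dist o y) * g y x) s =
      ∑ y ∈ D, om (G.dist o y) * (P2 G θ D)^[v] (g y) s := by
  rw [(h.mk2.iter v).sum _ fun y _ => (BM.const _).mul (hg y)]
  exact Finset.sum_congr rfl fun y _ => (h.mk2.iter v).smul _ _ _

lemma Cx.sum_RR (h : Cx G d θ D) (o : V) (m n : ℕ) (s : (V → ℝ) × (V → ℝ)) :
    ∑ y ∈ D, om (G.dist o y) * ∑ v ∈ Finset.range n,
      (P2 G θ D)^[v] (fun x => WW G θ D m y x * rr G θ D x y) s =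
      ∑ v ∈ Finset.range n, (P2 G θ D)^[v] (RR G θ D o m) s := by
  simp only [Finset.mul_sum]
  rw [Finset.sum_comm]
  exact Finset.sum_congr rfl fun v _ =>
    (h.lin_om o v s fun y => (h.bm_WW m y).mul (h.bm_rr y)).symm

def WI (G : SimpleGraph V) (θ : ℝ) (D : Finset V) (C : ℝ) : Prop :=
  ∀ y ∈ D, ∀ (r i : ℕ) (s : (V → ℝ) × (V → ℝ)),
    (P2 G θ D)^[r] (fun x => ph G θ D y i x * ZZ G θ D x y) s ≤
      ph G θ D y (i + r) s * ZZ G θ D s y + C / D.card * ∑ v ∈ Finset.range r,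
        (P2 G θ D)^[v] (fun x => ph G θ D y (i + r - v) x * rr G θ D x y) s

lemma short_one (hx : Cx G d θ D) {Cw : ℝ} (hCw : 0 < Cw) (wi : WI G θ D Cw) (o : V) (n : ℕ)
    (s : (V → ℝ) × (V → ℝ)) :
    (∑ r ∈ Finset.range n, (P2 G θ D)^[r] (B2 G θ D o) s) / D.card ≤ 2 * II G θ D o n s +
      2 * Cw * ((∑ r ∈ Finset.range n, (P2 G θ D)^[r] (RR G θ D o (2 * n)) s) / D.card) := by
  have hN : (0 : ℝ) < D.card := by exact_mod_cast hx.ne.card_pos
  have mk := fun v => hx.mk2.iter v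
  have b4 := fun y i => (hx.bm_ph y i).mul (hx.bm_ZZ y)
  have N1 : (1 : ℝ) ≤ D.card := by exact_mod_cast hx.ne.card_pos
  rw [div_le_iff₀ hN]
  have a1 : ∀ r, (P2 G θ D)^[r] (B2 G θ D o) s ≤ ∑ y ∈ D, om (G.dist o y) *
      (P2 G θ D)^[r] (fun x => 2 * (ph G θ D y 0 x * ZZ G θ D x y)) s := fun r => by
    rw [← hx.lin_om o r s fun y => (BM.const 2).mul (b4 y 0)]
    refine (mk r).mono _ _ (hx.bm_B2 o)
      (BM.sum _ fun y _ => (BM.const _).mul ((BM.const 2).mul (b4 y 0))) (fun x => ?_) s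
    refine Finset.sum_le_sum fun y _ => mul_le_mul_of_nonneg_left ?_ (om_nn _)
    rw [← mul_assoc]
    exact mul_le_mul_of_nonneg_right (hh_le_ph y x) (hx.nonneg 0 x y).2.2.1
  refine (Finset.sum_le_sum fun r _ => a1 r).trans ?_
  rw [Finset.sum_comm]
  have a2 : ∀ y ∈ D, ∑ r ∈ Finset.range n, om (G.dist o y) *
      (P2 G θ D)^[r] (fun x => 2 * (ph G θ D y 0 x * ZZ G θ D x y)) s ≤
      2 * D.card * (om (G.dist o y) * (WW G θ D n y s * ZZ G θ D s y)) +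
      2 * Cw * (om (G.dist o y) * ∑ v ∈ Finset.range n,
        (P2 G θ D)^[v] (fun x => WW G θ D (2 * n) y x * rr G θ D x y) s) := fun y hy => by
    have := key_main hx hCw (wi y hy) (Nat.zero_le n) id (fun _ => 0)
      (fun i hi => hi.le) (fun i => by simp) s
    simp only [id, add_zero] at this
    rw [← Finset.mul_sum, Finset.sum_congr rfl fun r _ => (mk r).smul 2 _ s, ← Finset.mul_sum]
    have e : ∑ i ∈ Finset.range n, ph G θ D y i s = D.card * WW G θ D n y s := by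
      rw [WW, mul_div_cancel₀ _ hN.ne']
    rw [e] at this
    linarith [mul_le_mul_of_nonneg_left this (om_nn (G.dist o y))]
  refine (Finset.sum_le_sum a2).trans (le_of_eq ?_)
  rw [Finset.sum_add_distrib, ← Finset.mul_sum, ← Finset.mul_sum, hx.sum_RR, II]
  field_simp

lemma short_three (hx : Cx G d θ D) {Ca c0 : ℝ} (hCa : 0 < Ca) (c00 : 0 < c0) {m n : ℕ}
    (am : ∀ y ∈ D, ∀ (j : ℕ) (s : (V → ℝ) × (V → ℝ)),
      (P2 G θ D)^[j] (AA G θ D d m y) s ≤ Ca * rho D.card j ^ (7 / 8 : ℝ))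
    (n1 : (n : ℝ) ≤ min 1 ((c0 / (9 * Ca)) ^ 8) * D.card) (o : V) (s : (V → ℝ) × (V → ℝ)) :
    (∑ r ∈ Finset.range n, (P2 G θ D)^[r] (SS G θ D d o m) s) / D.card ≤
      12 * c0 * (P2 G θ D)^[n] (yy G θ D o) s := by
  have hN : (0 : ℝ) < D.card := by exact_mod_cast hx.ne.card_pos
  have e0 : ∀ r, (P2 G θ D)^[r] (SS G θ D d o m) s = _ := fun r =>
    hx.lin_om o r s fun y => (hx.bm_AA m y).mul (bm_pow (hx.bm_Dd y) 2)
  have e : (P2 G θ D)^[n] (yy G θ D o) s = _ := hx.lin_om o n s fun y => bm_pow (hx.bm_Dd y) 2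
  rw [div_le_iff₀ hN, Finset.sum_congr rfl fun r _ => e0 r, Finset.sum_comm, e, Finset.mul_sum,
    Finset.sum_mul]
  refine Finset.sum_le_sum fun y hy => ?_
  rw [← Finset.mul_sum]
  have := carleson hx.mk2 (hx.bm_Dd y) (hx.bm_AA m y) (hx.mart_Dd y)
    (fun x => zero_le_one.trans (hx.nonneg _ x y).2.2.2.2.2.1) (c := c0 * D.card)
    (by positivity) (n := n) (fun k hk x => ?_) s
  · linarith [mul_le_mul_of_nonneg_left this (om_nn (G.dist o y))]
  refine (Finset.sum_le_sum fun j _ => am y hy j x).trans ?_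
  rw [← Finset.mul_sum]
  have a1 := num2 hx.ne.card_pos k
  rw [div_le_iff₀ hN] at a1
  have k1 : (k : ℝ) / D.card ≤ min 1 ((c0 / (9 * Ca)) ^ 8) := by
    rw [div_le_iff₀ hN]
    exact le_trans (by exact_mod_cast hk) n1
  have k0 : 0 ≤ (k : ℝ) / D.card := by positivity
  have k2 : ((k : ℝ) / D.card) ^ (1 / 8 : ℝ) ≤ c0 / (9 * Ca) := by
    refine (Real.rpow_le_rpow k0 (k1.trans (min_le_right _ _)) (by norm_num)).trans (le_of_eq ?_)
    rw [← Real.rpow_natCast, ← Real.rpow_mul (by positivity)]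
    norm_num
  have k3 : (k : ℝ) / D.card ≤ ((k : ℝ) / D.card) ^ (1 / 8 : ℝ) := by
    conv_lhs => rw [← Real.rpow_one ((k : ℝ) / D.card)]
    exact Real.rpow_le_rpow_of_exponent_ge' k0 (k1.trans (min_le_left _ _)) (by norm_num)
      (by norm_num)
  rw [le_div_iff₀ (by positivity)] at k2
  have a2 := mul_le_mul_of_nonneg_left a1 hCa.le
  linarith [mul_le_mul_of_nonneg_right k2 hN.le, mul_le_mul_of_nonneg_right
    (mul_le_mul_of_nonneg_left k3 hCa.le) hN.le]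

lemma short_ph (hx : Cx G d θ D) {Cp T : ℝ} (hCp : 0 < Cp) (T0 : 0 < T) {n : ℕ} {y : V}
    (pm : ∀ (i j : ℕ) (s : (V → ℝ) × (V → ℝ)), (P2 G θ D)^[j] (fun x => ph G θ D y i x ^ 4) s ≤
      (Cp * rho D.card (i + j) ^ (9 / 8 : ℝ)) ^ 4) (n2 : T * D.card ≤ 2 * n) (i : ℕ)
    (s : (V → ℝ) × (V → ℝ)) : ph G θ D y (i + n) s ≤ Cp * (1 + 2 / T) ^ (9 / 8 : ℝ) := by
  have h1 : ph G θ D y (i + n) s ^ 4 ≤ _ := pm (i + n) 0 s
  have r0 := rho_one D.card (i + n + 0)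
  have h2 : rho D.card (i + n + 0) ≤ 1 + 2 / T := by
    refine add_le_add le_rfl ?_
    rw [div_le_div_iff₀ (by positivity) T0]
    push_cast
    have : (0 : ℝ) ≤ i := Nat.cast_nonneg i
    linarith
  have h3 := mul_le_mul_of_nonneg_left
    (Real.rpow_le_rpow (by positivity) h2 (show (0 : ℝ) ≤ 9 / 8 by norm_num)) hCp.le
  exact (pow_le_pow_iff_left₀ (Real.sqrt_nonneg _) (by positivity) (by norm_num)).1
    (h1.trans (pow_le_pow_left₀ (by positivity) h3 4))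

lemma short_five (hx : Cx G d θ D) {Cw CT : ℝ} (hCw : 0 < Cw) (CT0 : 0 < CT) (wi : WI G θ D Cw)
    (o : V) {n : ℕ} (n3 : n ≤ D.card) (s : (V → ℝ) × (V → ℝ))
    (p1 : ∀ y ∈ D, ∀ i, ph G θ D y (i + n) s ≤ CT) :
    (P2 G θ D)^[n] (II G θ D o n) s ≤ CT * (2 * (d + 1)) * yy G θ D o s +
      Cw * ((∑ r ∈ Finset.range n, (P2 G θ D)^[r] (RR G θ D o (2 * n)) s) / D.card) := by
  have hN : (0 : ℝ) < D.card := by exact_mod_cast hx.ne.card_pos
  have mk := hx.mk2.iter n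
  have e0 : (P2 G θ D)^[n] (II G θ D o n) s = _ :=
    hx.lin_om o n s fun y => (hx.bm_WW n y).mul (hx.bm_ZZ y)
  rw [e0]
  have a2 : ∀ y ∈ D, om (G.dist o y) *
      (P2 G θ D)^[n] (fun x => WW G θ D n y x * ZZ G θ D x y) s ≤
      CT * (2 * (d + 1)) * (om (G.dist o y) * Dd G θ D s y ^ 2) +
      Cw / D.card * (om (G.dist o y) * ∑ v ∈ Finset.range n,
        (P2 G θ D)^[v] (fun x => WW G θ D (2 * n) y x * rr G θ D x y) s) := fun y hy => by
    have k := key_main hx hCw (wi y hy) (le_refl n) (fun _ => n) id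
      (fun i _ => le_rfl) (fun i => rfl) s
    simp only [id] at k
    rw [← mk.sum _ fun i _ => (hx.bm_ph y i).mul (hx.bm_ZZ y)] at k
    have e : (fun x => ∑ i ∈ Finset.range n, ph G θ D y i x * ZZ G θ D x y) =
        fun x => (D.card : ℝ) * (WW G θ D n y x * ZZ G θ D x y) := by
      funext x
      rw [← Finset.sum_mul, WW, ← mul_assoc, mul_div_cancel₀ _ hN.ne']
    rw [e, mk.smul] at k
    have p2 : ∑ i ∈ Finset.range n, ph G θ D y (i + n) s ≤ D.card * CT := by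
      refine (Finset.sum_le_sum fun i _ => p1 y hy i).trans ?_
      rw [Finset.sum_const, Finset.card_range, nsmul_eq_mul]
      exact mul_le_mul_of_nonneg_right (by exact_mod_cast n3) CT0.le
    have p3 := mul_le_mul p2 (hx.ZZ_le s y) (hx.nonneg 0 s y).2.2.1 (by positivity)
    have p4 := mul_le_mul_of_nonneg_left (k.trans (add_le_add p3 le_rfl)) (om_nn (G.dist o y))
    refine le_of_mul_le_mul_left ?_ hN
    have e2 : ∀ z : ℝ, (D.card : ℝ) * (Cw / D.card * z) = Cw * z := fun z => by field_simp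
    rw [mul_add, e2]
    linarith
  refine (Finset.sum_le_sum a2).trans (le_of_eq ?_)
  rw [Finset.sum_add_distrib, ← Finset.mul_sum, ← Finset.mul_sum, hx.sum_RR, yy]
  field_simp

lemma close_fin {y i Y E P Cy Cw K CT : ℝ} (hCy : 0 < Cy) (hCw : 0 < Cw) (K0 : 0 < K)
    (CT0 : 0 < CT) (y0 : 0 ≤ y) (i0 : 0 ≤ i) (c1 : Y ≤ 2 * y + 8 * Cy * i)
    (c2 : E ≤ 4 * i + K * Y) (h5 : P ≤ CT * y + Cw * E) :
    Y + P ≤ ((1 + Cw * K) * (2 + 8 * Cy) + CT + 4 * Cw) * (y + i) := by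
  have c3 : Y ≤ (2 + 8 * Cy) * (y + i) := by nlinarith
  have c4 : Cw * E ≤ Cw * (4 * i + K * ((2 + 8 * Cy) * (y + i))) :=
    mul_le_mul_of_nonneg_left (c2.trans (add_le_add le_rfl
      (mul_le_mul_of_nonneg_left c3 K0.le))) hCw.le
  have c5 : 0 ≤ CT * i := by positivity
  have c6 : 0 ≤ Cw * y := by positivity
  linarith

theorem short (h : Tr G d) : ∃ C T : ℝ, 1 ≤ C ∧ 0 < T ∧ T ≤ 1 / 2 ∧ ∀ θ D, Cx G d θ D → ∀ n : ℕ,
    (n : ℝ) ≤ T * D.card → T * D.card ≤ 2 * n → 2 * n ≤ D.card → ∀ (o : V)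
    (s : (V → ℝ) × (V → ℝ)), (P2 G θ D)^[n] (UU G θ D o n) s ≤ C * UU G θ D o n s := by
  obtain ⟨Cy, hCy, ys⟩ := ystep h
  obtain ⟨Cr, hCr, rb⟩ := rbound h
  obtain ⟨Cw, hCw, wi⟩ := witer h
  obtain ⟨Ca, hCa, am⟩ := aa_moment h
  obtain ⟨Cp, hCp, pm⟩ := ph_moment h
  obtain ⟨η, hη⟩ : ∃ η : ℝ, η = 1 / (4 * Cw + 1) := ⟨_, rfl⟩
  have η0 : 0 < η := by rw [hη]; positivity
  have η1 : η ≤ 1 := by rw [hη, div_le_one (by positivity)]; linarith
  obtain ⟨c0, hc0⟩ : ∃ c0 : ℝ, c0 = 1 / (24 * Cy * (4 * Cw * (Cr / η) + 1)) := ⟨_, rfl⟩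
  have c00 : 0 < c0 := by rw [hc0]; positivity
  have T0 : 0 < min (1 / 2) ((c0 / (9 * Ca)) ^ 8) := lt_min (by norm_num) (by positivity)
  obtain ⟨CT, hCT⟩ : ∃ CT : ℝ, CT = Cp *
    (1 + 2 / min (1 / 2) ((c0 / (9 * Ca)) ^ 8)) ^ (9 / 8 : ℝ) := ⟨_, rfl⟩
  have CT0 : 0 < CT := by rw [hCT]; positivity
  have K0 : 0 < (4 * Cw + 1) * (Cr / η) * (12 * c0) := by positivity
  refine ⟨(1 + Cw * ((4 * Cw + 1) * (Cr / η) * (12 * c0))) * (2 + 8 * Cy) + CT * (2 * (d + 1)) +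
    4 * Cw, _, ?_, T0, min_le_left _ _, fun θ D hx n n1 n2 n3 o s => ?_⟩
  · have : 0 ≤ Cw * ((4 * Cw + 1) * (Cr / η) * (12 * c0)) * (2 + 8 * Cy) := by positivity
    have : 0 ≤ CT * (2 * (d + 1)) := by positivity
    linarith
  have hN : (0 : ℝ) < D.card := by exact_mod_cast hx.ne.card_pos
  have mk := fun v => hx.mk2.iter v
  have bS := hx.bm_SS o (2 * n)
  have S0 : ∀ x, 0 ≤ SS G θ D d o (2 * n) x := fun x => Finset.sum_nonneg fun y _ =>
    mul_nonneg (om_nn _)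
      (mul_nonneg (zero_le_one.trans (hx.nonneg _ x y).2.2.2.2.2.1) (sq_nonneg _))
  have X0 := div_nonneg (Finset.sum_nonneg fun r (_ : r ∈ Finset.range n) =>
    (mk r).nonneg bS S0 s) hN.le
  have I1 := div_nonneg (Finset.sum_nonneg fun r (_ : r ∈ Finset.range n) =>
    (mk r).nonneg (hx.bm_B2 o) (fun x => (hx.nonneg 0 x o).2.2.2.2.2.2.2.1) s) hN.le
  have h1 := short_one hx hCw (wi θ D hx) o n s
  have h2 : (∑ r ∈ Finset.range n, (P2 G θ D)^[r] (RR G θ D o (2 * n)) s) / D.card ≤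
      η * ((∑ r ∈ Finset.range n, (P2 G θ D)^[r] (B2 G θ D o) s) / D.card) + Cr / η *
      ((∑ r ∈ Finset.range n, (P2 G θ D)^[r] (SS G θ D d o (2 * n)) s) / D.card) := by
    rw [← mul_div_assoc, ← mul_div_assoc, ← add_div, Finset.mul_sum, Finset.mul_sum,
      ← Finset.sum_add_distrib]
    refine div_le_div_of_nonneg_right (Finset.sum_le_sum fun r _ => ?_) hN.le
    rw [← (mk r).smul, ← (mk r).smul,
      ← (mk r).add _ _ ((BM.const _).mul (hx.bm_B2 o)) ((BM.const _).mul bS)]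
    exact (mk r).mono _ _ (hx.bm_RR o _) (((BM.const _).mul (hx.bm_B2 o)).add
      ((BM.const _).mul bS)) (fun x => rb θ D hx o _ x η η0 η1) s
  have h3 := short_three hx hCa c00 (fun y hy => am θ D hx y hy _ n3) (n1.trans
    (mul_le_mul_of_nonneg_right (min_le_min (by norm_num) le_rfl) hN.le)) o s
  have h4 : (P2 G θ D)^[n] (yy G θ D o) s ≤ yy G θ D o s +
      Cy * ((∑ r ∈ Finset.range n, (P2 G θ D)^[r] (B2 G θ D o) s) / D.card +
      (∑ r ∈ Finset.range n, (P2 G θ D)^[r] (SS G θ D d o (2 * n)) s) / D.card) := by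
    rw [hx.mk2.tele (hx.bm_yy o), ← add_div, ← Finset.sum_add_distrib,
      ← mul_div_assoc, mul_div_right_comm, Finset.mul_sum]
    refine add_le_add le_rfl (Finset.sum_le_sum fun r _ => ?_)
    rw [← (mk r).add _ _ (hx.bm_B2 o) bS, ← (mk r).smul]
    exact (mk r).mono _ _ ((hx.mk2.bm _ (hx.bm_yy o)).sub (hx.bm_yy o))
      ((BM.const _).mul ((hx.bm_B2 o).add bS)) (fun x => (ys θ D hx o _ x).2) s
  have h5 := short_five hx hCw CT0 (wi θ D hx) o (by omega : n ≤ D.card) s fun y hy i =>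
    hCT ▸ short_ph hx hCp T0 (pm θ D hx y hy) n2 i s
  obtain ⟨c1, c2⟩ := close_main hCy hCw hCr hη hc0 X0 I1 h1 h2 h3 h4
  have e : (P2 G θ D)^[n] (UU G θ D o n) s = _ := (mk n).add _ _ (hx.bm_yy o) (hx.bm_II o n) s
  have i0 : 0 ≤ II G θ D o n s := sub_nonneg.2 (hx.nonneg n s o).2.2.2.2.2.2.2.2 |>.trans
    (le_of_eq (add_sub_cancel_left _ _))
  rw [e]
  have CT1 : 0 < CT * (2 * (d + 1)) := by positivity
  have f := close_fin hCy hCw K0 CT1 (hx.nonneg n s o).2.2.2.2.2.2.1 i0 c1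
    (c2.trans_eq (by ring)) h5
  exact f

lemma Cx.UU_start (h : Cx G d θ D) (n : ℕ) {u : V} (hu : u ∈ D) (l : V → ℝ) (a a' : I) :
    UU G θ D u n (st G θ D l u a, st G θ D l u a') ≤ 400 * (1 + 2 * (d + 1) * (2 * Real.exp 33)) *
      ((a : ℝ) - a') ^ 2 * AA G θ D d (2 * n) u (l, l) := by
  have hθ := h.theta.1
  have hm := mI_mem (G := G) (D := D) hθ l u
  set κ := gam (mI G θ D l u) a - gam (mI G θ D l u) a' with hκ
  have k1 : κ ^ 2 ≤ 400 * ((a : ℝ) - a') ^ 2 := by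
    have := gam_lip hm hm a.2 a'.2
    rw [sub_self, abs_zero, zero_add] at this
    nlinarith [sq_abs κ, sq_abs ((a : ℝ) - a'), abs_nonneg κ, abs_nonneg ((a : ℝ) - a')]
  have dd : ∀ x, Dd G θ D (st G θ D l u a, st G θ D l u a') x = aa G θ D l x u * κ := fun x => by
    have h1 := mI_st (G := G) hθ l hu a x
    have h2 := mI_st (G := G) hθ l hu a' x
    simp only [Dd, hκ]
    linarith
  obtain ⟨n1, -, -, n2, -⟩ := h.nonneg (2 * n) (l, l) u
  have g0 := h.Gw_one l hu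
  have g1 := h.Gw_le_HH l hu (y := u) (by simp)
  have L0 : ∀ c, 0 ≤ LL G θ D (2 * n) (l, l) l c := fun c =>
    Finset.sum_nonneg fun _ _ => by positivity
  have l1 : LL G θ D (2 * n) (l, l) l u + LL G θ D (2 * n) (l, l) l u ≤
      ∑ c ∈ D.filter fun c => G.dist c u ≤ 1,
        (LL G θ D (2 * n) (l, l) l c + LL G θ D (2 * n) (l, l) l c) :=
    Finset.single_le_sum (f := fun c => LL G θ D (2 * n) (l, l) l c + LL G θ D (2 * n) (l, l) l c)
      (fun c _ => add_nonneg (L0 c) (L0 c)) (by simp [hu])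
  have k0 : 0 ≤ ∑ x ∈ D, om (G.dist x u) * kap d ^ G.dist x u * WW G θ D (2 * n) x (l, l) :=
    Finset.sum_nonneg fun x _ => mul_nonneg (mul_nonneg (om_nn _) (by unfold kap; positivity))
      (h.nonneg (2 * n) (l, l) x).2.2.2.1
  have a1 : Gw G θ D l u + LL G θ D (2 * n) (l, l) l u ≤ AA G θ D d (2 * n) u (l, l) := by
    unfold AA
    simp only at n1 ⊢
    nlinarith [L0 u, mul_nonneg n2 n1]
  have e1 : yy G θ D u (st G θ D l u a, st G θ D l u a') = κ ^ 2 * Gw G θ D l u := by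
    unfold yy Gw
    rw [Finset.mul_sum]
    exact Finset.sum_congr rfl fun x _ => by rw [dd, SimpleGraph.dist_comm]; ring
  have e2 : ∑ y ∈ D, om (G.dist u y) * (WW G θ D n y (st G θ D l u a, st G θ D l u a') *
      ZZ G θ D (st G θ D l u a, st G θ D l u a') y) ≤ κ ^ 2 * (2 * (d + 1) * Real.exp 33) *
      (Gw G θ D l u + LL G θ D (2 * n) (l, l) l u) := by
    unfold Gw LL
    rw [← Finset.sum_add_distrib, Finset.mul_sum]
    refine Finset.sum_le_sum fun y _ => ?_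
    have w1 : WW G θ D n y (l, l) ≤ WW G θ D (2 * n) y (l, l) :=
      div_le_div_of_nonneg_right (Finset.sum_le_sum_of_subset_of_nonneg
        (Finset.range_mono (by omega)) fun _ _ _ => Real.sqrt_nonneg _) (Nat.cast_nonneg _)
    have w2 := (h.WW_st n y l hu a a').trans
      (mul_le_mul_of_nonneg_left w1 (Real.exp_pos 33).le)
    have w0 := (h.nonneg (2 * n) (l, l) y).2.2.2.1
    have z1 := h.ZZ_le (st G θ D l u a, st G θ D l u a') y
    rw [dd] at z1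
    have := mul_le_mul_of_nonneg_left (mul_le_mul w2 z1 (h.nonneg 0 _ y).2.2.1 (by positivity))
      (om_nn (G.dist u y))
    refine this.trans ?_
    rw [SimpleGraph.dist_comm]
    have o1 := om_one (G.dist y u)
    generalize om (G.dist y u) = o at o1 ⊢
    generalize WW G θ D (2 * n) y (l, l) = W at w0 ⊢
    have q : o * W ≤ o + o ^ 2 * W ^ 2 := by nlinarith [sq_nonneg (o * W - 1)]
    have := mul_le_mul_of_nonneg_left q
      (show 0 ≤ κ ^ 2 * (2 * (d + 1) * Real.exp 33) * aa G θ D l y u ^ 2 by positivity)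
    linarith
  have A0 : 0 ≤ AA G θ D d (2 * n) u (l, l) := by linarith [L0 u]
  have c0 : (0 : ℝ) ≤ 2 * (d + 1) * Real.exp 33 := by positivity
  unfold UU
  rw [e1]
  have b1 := mul_le_mul_of_nonneg_left a1 (mul_nonneg (sq_nonneg κ) c0)
  have b2 := mul_le_mul_of_nonneg_left (show Gw G θ D l u ≤ AA G θ D d (2 * n) u (l, l) by
    linarith [L0 u]) (sq_nonneg κ)
  have b3 := mul_le_mul_of_nonneg_right k1
    (show 0 ≤ (1 + 2 * (d + 1) * (2 * Real.exp 33)) * AA G θ D d (2 * n) u (l, l) by positivity)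
  nlinarith [mul_nonneg (mul_nonneg (sq_nonneg κ) c0) A0]

lemma Cx.long (h : Cx G d θ D) {C : ℝ} (hC : 1 ≤ C) {n : ℕ} (hn : 0 < n) (o : V)
    (sub : ∀ s, yy G θ D o s ≤ P2 G θ D (yy G θ D o) s)
    (sh : ∀ s, (P2 G θ D)^[n] (UU G θ D o n) s ≤ C * UU G θ D o n s) (k : ℕ)
    (s : (V → ℝ) × (V → ℝ)) :
    (P2 G θ D)^[k] (yy G θ D o) s ≤ C ^ (k / n + 1) * UU G θ D o n s := by
  have h1 : k ≤ n * (k / n + 1) := (Nat.lt_mul_div_succ k hn).le
  refine (h.mk2.sub_mono (h.bm_yy o) sub h1 s).trans ?_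
  refine ((h.mk2.iter _).mono _ _ (h.bm_yy o) (h.bm_UU o n)
    (fun x => (h.nonneg n x o).2.2.2.2.2.2.2.2) s).trans ?_
  rw [Function.iterate_mul]
  exact (h.mk2.iter n).gron (h.bm_UU o n) (fun x => (h.nonneg n x o).2.2.2.2.2.2.1.trans
    (h.nonneg n x o).2.2.2.2.2.2.2.2) (by linarith) sh _ s

theorem influence (h : Tr G d) : ∃ (C : ℝ) (N0 : ℕ), 0 < C ∧ ∀ θ D, Cx G d θ D → N0 ≤ D.card →
    ∀ u ∈ D, ∃ Zf : (V → ℝ) → ℝ, BM Zf ∧ (∀ l, 0 ≤ Zf l) ∧
      (∀ (j : ℕ) l, (PP G θ D)^[j] Zf l ≤ C * rho D.card j ^ (7 / 8 : ℝ)) ∧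
      ∀ (k : ℕ) (l : V → ℝ) (a a' : I),
        (P2 G θ D)^[k] (yy G θ D u) (st G θ D l u a, st G θ D l u a') ≤
          C * Real.exp (C * k / D.card) * ((a : ℝ) - a') ^ 2 * Zf l := by
  obtain ⟨C, T, hC, hT, hT2, sh⟩ := short h
  obtain ⟨Ca, hCa, am⟩ := aa_moment h
  obtain ⟨Cy, -, ys⟩ := ystep h
  obtain ⟨C1, hC1⟩ : ∃ C1 : ℝ, C1 = 400 * (1 + 2 * (d + 1) * (2 * Real.exp 33)) := ⟨_, rfl⟩
  have C10 : 0 < C1 := by rw [hC1]; positivity
  have lg := Real.log_nonneg hC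
  have c1 : 0 ≤ C * C1 := by positivity
  have c2 : 0 ≤ 2 * Real.log C / T := by positivity
  refine ⟨Ca + C * C1 + 2 * Real.log C / T, ⌈2 / T⌉₊, by positivity, fun θ D hx hN0 u hu => ?_⟩
  have hN : (0 : ℝ) < D.card := by exact_mod_cast hx.ne.card_pos
  have t2 : 2 ≤ T * D.card := by
    have : 2 / T ≤ D.card := (Nat.le_ceil _).trans (by exact_mod_cast hN0)
    rw [div_le_iff₀ hT] at this
    linarith
  set n := ⌊T * D.card⌋₊ with hn
  have n1 : (n : ℝ) ≤ T * D.card := Nat.floor_le (by positivity)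
  have n2 : T * D.card ≤ 2 * n := by linarith [Nat.lt_floor_add_one (T * D.card)]
  have n3 : 2 * n ≤ D.card := by
    have : 2 * (n : ℝ) ≤ D.card := by nlinarith
    exact_mod_cast this
  have n0 : (0 : ℝ) < n := by linarith
  refine ⟨fun l => AA G θ D d (2 * n) u (l, l),
    (hx.bm_AA _ u).comp (measurable_id.prodMk measurable_id),
    fun l => zero_le_one.trans (hx.nonneg _ (l, l) u).2.2.2.2.2.1, fun j l => ?_,
    fun k l a a' => ?_⟩
  · rw [hx.P2_diag]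
    refine (am θ D hx u hu _ n3 j _).trans (mul_le_mul_of_nonneg_right (by linarith) ?_)
    have := rho_one D.card j
    positivity
  refine (hx.long hC (by exact_mod_cast n0) u (fun s => (ys θ D hx u 0 s).1)
    (sh θ D hx n n1 n2 n3 u) k _).trans ?_
  have A0 := zero_le_one.trans (hx.nonneg (2 * n) (l, l) u).2.2.2.2.2.1
  refine (mul_le_mul_of_nonneg_left (hx.UU_start n hu l a a') (by positivity)).trans ?_
  rw [← hC1, ← mul_assoc, ← mul_assoc]
  refine mul_le_mul_of_nonneg_right (mul_le_mul_of_nonneg_right ?_ (sq_nonneg _)) A0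
  have e1 : C ^ (k / n) ≤ Real.exp ((Ca + C * C1 + 2 * Real.log C / T) * k / D.card) := by
    rw [← Real.exp_log (show 0 < C ^ (k / n) by positivity), Real.log_pow, Real.exp_le_exp]
    have k1 : ((k / n : ℕ) : ℝ) ≤ 2 / T * k / D.card := by
      refine Nat.cast_div_le.trans ?_
      rw [div_le_div_iff₀ n0 hN, div_mul_eq_mul_div, div_mul_eq_mul_div, le_div_iff₀ hT]
      nlinarith [mul_le_mul_of_nonneg_left n2 (Nat.cast_nonneg (α := ℝ) k)]
    refine (mul_le_mul_of_nonneg_right k1 lg).trans ?_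
    rw [show 2 / T * k / D.card * Real.log C = 2 * Real.log C / T * k / D.card by ring]
    exact div_le_div_of_nonneg_right
      (mul_le_mul_of_nonneg_right (by linarith) (Nat.cast_nonneg k)) hN.le
  rw [pow_succ, mul_assoc, mul_comm]
  exact mul_le_mul (by linarith) e1 (by positivity) (by positivity)

theorem local_sum (h : Tr G d) : ∃ (C : ℝ) (N0 : ℕ), 0 < C ∧ ∀ θ D, Cx G d θ D → N0 ≤ D.card →
    ∀ u ∈ D, ∀ n : ℕ, ∑ z ∈ D, om (G.dist u z) * ESn G θ D z {u} n ≤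
      C * Real.exp (C * n / D.card) := by
  obtain ⟨C, N0, hC, inf⟩ := influence h
  refine ⟨9 * C ^ 2 + C + 1, N0, by positivity, fun θ D hx hN0 u hu n => ?_⟩
  obtain ⟨Zf, z1, z2, z3, z4⟩ := inf θ D hx hN0 u hu
  have hN : (0 : ℝ) < D.card := by exact_mod_cast hx.ne.card_pos
  have mp : Measurable fun q : (V → ℝ) × (I × I) =>
      (stp G θ D q.1 u q.2.1, stp G θ D q.1 u q.2.2) :=
    ((ms_stp u).comp (measurable_fst.prodMk measurable_snd.fst)).prodMk
      ((ms_stp u).comp (measurable_fst.prodMk measurable_snd.snd))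
  have bq : ∀ k z, BM fun q : (V → ℝ) × (I × I) => (P2 G θ D)^[k] (fun s => Dd G θ D s z ^ 2)
      (stp G θ D q.1 u q.2.1, stp G θ D q.1 u q.2.2) := fun k z =>
    ((hx.mk2.iter k).bm _ (bm_pow (hx.bm_Dd z) 2)).comp mp
  have bi : ∀ k z, BM fun l => (∫ p : I × I, (P2 G θ D)^[k] (fun s => Dd G θ D s z ^ 2)
      (stp G θ D l u p.1, stp G θ D l u p.2)) / D.card := fun k z => by
    obtain ⟨c, hc⟩ := (bq k z).bdd
    refine bm_div ⟨((bq k z).meas.stronglyMeasurable.integral_prod_right'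
      (ν := volume)).measurable, c, fun l => ?_⟩ _
    simpa using norm_integral_le_of_norm_le_const (μ := (volume : Measure (I × I))) (C := c)
      (f := fun p => (P2 G θ D)^[k] (fun s => Dd G θ D s z ^ 2)
        (stp G θ D l u p.1, stp G θ D l u p.2))
      (Eventually.of_forall fun p => hc (l, p))
  have a1 : ∀ z ∈ D, om (G.dist u z) * ESn G θ D z {u} n ≤ ∑ j ∈ Finset.range n,
      om (G.dist u z) * (PP G θ D)^[j] (fun l => (∫ p : I × I, (P2 G θ D)^[n - 1 - j]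
        (fun s => Dd G θ D s z ^ 2) (stp G θ D l u p.1, stp G θ D l u p.2)) / D.card) 0 := by
    intro z _
    rw [← Finset.mul_sum]
    exact mul_le_mul_of_nonneg_left
      (es_event hx.ne ms_stp (bm_mI hx.theta.1 z) hu n (0 : V → ℝ)) (om_nn _)
  refine (Finset.sum_le_sum a1).trans ?_
  rw [Finset.sum_comm]
  set E := Real.exp (C * n / D.card) with hE
  have E0 : 0 < E := Real.exp_pos _
  have a2 : ∀ j ∈ Finset.range n, ∑ z ∈ D, om (G.dist u z) * (PP G θ D)^[j]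
      (fun l => (∫ p : I × I, (P2 G θ D)^[n - 1 - j] (fun s => Dd G θ D s z ^ 2)
        (stp G θ D l u p.1, stp G θ D l u p.2)) / D.card) 0 ≤
      C * E / D.card * (C * rho D.card j ^ (7 / 8 : ℝ)) := by
    intro j _
    have mk := hx.mkP.iter j
    rw [Finset.sum_congr rfl fun z _ => (mk.smul _ _ _).symm,
      ← mk.sum _ fun z _ => (BM.const _).mul (bi _ z)]
    refine le_trans ?_ (mul_le_mul_of_nonneg_left (z3 j 0) (by positivity))
    rw [← mk.smul]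
    refine mk.mono _ _ (BM.sum _ fun z _ => (BM.const _).mul (bi _ z)) ((BM.const _).mul z1)
      (fun l => ?_) 0
    simp only [← mul_div_assoc, ← integral_const_mul]
    rw [← Finset.sum_div, ← integral_finsetSum _ fun z _ =>
      ((BM.const _).mul ((bq _ z).comp measurable_prodMk_left)).integrable _,
      div_mul_eq_mul_div]
    refine div_le_div_of_nonneg_right ?_ hN.le
    refine (integral_mono ((BM.sum _ fun z _ => (BM.const _).mul
      ((bq _ z).comp measurable_prodMk_left)).integrable _) (integrable_const (C * E * Zf l))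
      fun p => ?_).trans (by simp)
    simp only
    rw [← hx.lin_om u _ _ fun z => bm_pow (hx.bm_Dd z) 2]
    simp only [stp, stA, if_pos hu]
    refine (z4 _ l p.1 p.2).trans (mul_le_mul_of_nonneg_right ?_ (z2 l))
    have s1 : ((p.1 : ℝ) - p.2) ^ 2 ≤ 1 := by
      rw [← sq_abs]
      exact pow_le_one₀ (abs_nonneg _) (abs_le_one p.1.2 p.2.2)
    refine (mul_le_of_le_one_right (by positivity) s1).trans
      (mul_le_mul_of_nonneg_left (Real.exp_le_exp.2 (div_le_div_of_nonneg_right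
        (mul_le_mul_of_nonneg_left ?_ hC.le) hN.le)) hC.le)
    exact_mod_cast (by omega : n - 1 - j ≤ n)
  refine (Finset.sum_le_sum a2).trans ?_
  have a3 := num2' hx.ne.card_pos n
  have a4 : 1 + (n : ℝ) / D.card ≤ Real.exp (n / D.card) := by
    linarith [Real.add_one_le_exp ((n : ℝ) / D.card)]
  have a5 : E * Real.exp (n / D.card) ≤ Real.exp ((9 * C ^ 2 + C + 1) * n / D.card) := by
    rw [hE, ← Real.exp_add, Real.exp_le_exp, ← add_div]
    refine div_le_div_of_nonneg_right ?_ hN.le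
    have : 0 ≤ C ^ 2 * n := by positivity
    linarith
  rw [← Finset.mul_sum, ← Finset.mul_sum]
  calc _ = C ^ 2 * E * ((∑ j ∈ Finset.range n, rho D.card j ^ (7 / 8 : ℝ)) / D.card) := by ring
    _ ≤ C ^ 2 * E * (9 * Real.exp (n / D.card)) :=
        mul_le_mul_of_nonneg_left (by linarith) (by positivity)
    _ = 9 * C ^ 2 * (E * Real.exp (n / D.card)) := by ring
    _ ≤ _ := mul_le_mul (by linarith) a5 (by positivity) (by positivity)

end Vale.Agent.P161E
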