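import Vale.Agent.P161E.Mkv0
import Vale.Agent.P161E.Gib

namespace Vale.Agent.P161E

open MeasureTheory unitInterval Classical SimpleGraph Filter Topology
open Vale.Agent.P161
open Vale.Agent.P143 (BM iidUniform)

variable {V : Type} {G : SimpleGraph V} [G.LocallyFinite] {d : ℕ} {θ : ℝ} {D : Finset V}

lemma Cx.aa_mem (h : Cx G d θ D) (l : V → ℝ) {x c : V} (hx : x ∈ D) (hc : c ∈ D) :
    0 ≤ aa G θ D l x c ∧ aa G θ D l x c ≤ θ ^ G.dist x c := by
  obtain ⟨t1, t2, t3⟩ := h.theta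
  have hc' := h.tr.tree.connected
  induction hn : G.dist x c generalizing x with
  | zero =>
    rw [hc'.dist_eq_zero_iff.1 hn, aa_self t1 l hc]
    simp
  | succ n ih =>
    have hne : x ≠ c := fun e => by simp [e] at hn
    obtain ⟨h1, h2⟩ := nx_spec h.tr.tree hne
    have h3 := h.nx_mem hx hc
    obtain ⟨α, β, a1, -, -, -, a2, -⟩ := edge_struct h.tr.tree t1 l hx h3 h1
    have h4 := eg_mem t1.1 t2 a1
    have h5 := ih h3 (by omega)
    rw [aa_mul h.tr.tree t1 l h3 (show Btw G x (nx G x c) c by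
      unfold Btw; rw [dist_eq_one_iff_adj.2 h1]; omega), a2, pow_succ']
    exact ⟨mul_nonneg h4.1 h5.1, mul_le_mul h4.2 h5.2 h5.1 t1.1⟩

lemma Cx.aa_flip (h : Cx G d θ D) (l : V → ℝ) {x c : V} (hx : x ∈ D) (hc : c ∈ D) :
    aa G θ D l x c * vr G θ D l c = aa G θ D l c x * vr G θ D l x := by
  rw [aa_vr h.theta.1 l x hc, aa_vr h.theta.1 l c hx, cov_comm]

lemma Cx.edge_vr (h : Cx G d θ D) (l : V → ℝ) {z p : V} (hz : z ∈ D) (hp : p ∈ D)
    (hadj : G.Adj z p) : aa G θ D l z p ^ 2 ≤ 48 * θ ^ 2 * vr G θ D l z := by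
  obtain ⟨t1, t2, -⟩ := h.theta
  obtain ⟨α, β, a1, a2, a3, -, a4, -⟩ := edge_struct h.tr.tree t1 l hz hp hadj
  have := eg_vr t1.1 t2 a1 a2
  rw [← a3, ← a4] at this
  refine this.trans_eq ?_
  unfold mu vr
  ring

lemma Cx.edge_mu (h : Cx G d θ D) (l : V → ℝ) {z p : V} (hz : z ∈ D) (hp : p ∈ D)
    (hadj : G.Adj z p) : θ ^ 2 * mu G θ D l z ^ 2 ≤
      42 * (θ ^ 2 - aa G θ D l z p ^ 2) + 7 / 6 * θ ^ 4 * mu G θ D l p ^ 2 := by
  obtain ⟨t1, t2, -⟩ := h.theta
  obtain ⟨α, β, a1, a2, a3, a4, a5, -⟩ := edge_struct h.tr.tree t1 l hz hp hadj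
  rw [a3, a4, a5]
  exact eg_mu t1.1 t2 a1 a2

/-- from `eg_lip`, `edge_struct`; `mu s.1 - mu s.2 = 2 Dd` -/
lemma FF_le (h : Tr G d) : ∃ C, 0 < C ∧ ∀ θ D, Cx G d θ D → ∀ (s : (V → ℝ) × (V → ℝ)), ∀ c ∈ D,
    FF G θ D s c ^ 2 ≤ C * ∑ y ∈ D.filter fun y => G.dist y c ≤ 1, ZZ G θ D s y := by
  obtain ⟨C, C0, hC⟩ := eg_lip
  refine ⟨(d + 1) * ((d + 1) * (128 * C ^ 2)), by positivity, fun θ D H s c hc => ?_⟩
  obtain ⟨t1, t2, -⟩ := H.theta
  set Z := ∑ y ∈ D.filter fun y => G.dist y c ≤ 1, ZZ G θ D s y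
  have z0 : ∀ y, 0 ≤ ZZ G θ D s y := fun y => (H.nonneg 0 s y).2.2.1
  have z1 : ∀ y ∈ D, G.dist y c ≤ 1 → ZZ G θ D s y ≤ Z := fun y hy hd =>
    Finset.single_le_sum (f := ZZ G θ D s) (fun y _ => z0 y) (Finset.mem_filter.2 ⟨hy, hd⟩)
  have m1 : ∀ l, ∀ y ∈ D, ∀ z, G.dist y z ≤ 1 → |mu G θ D l y| ^ 2 ≤ MM G θ D l z :=
    fun l y hy z hd => (sq_abs _).trans_le (Finset.single_le_sum (f := fun y => mu G θ D l y ^ 2)
      (fun y _ => sq_nonneg _) (Finset.mem_filter.2 ⟨hy, hd⟩))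
  have Z0 : 0 ≤ Z := Finset.sum_nonneg fun y _ => z0 y
  have cd : ((D.filter fun y => G.Adj c y).card : ℝ) ≤ d + 1 := by
    refine le_trans ?_ (card_ball_one h D c)
    exact_mod_cast Finset.card_le_card (Finset.monotone_filter_right _ fun y _ hy =>
      (dist_eq_one_iff_adj.2 (G.adj_symm hy)).le)
  have key : ∀ y ∈ D.filter fun y => G.Adj c y,
      |aa G θ D s.1 c y - aa G θ D s.2 c y| ^ 2 ≤ 128 * C ^ 2 * Z := fun y hy => by
    obtain ⟨hy, hadj⟩ := Finset.mem_filter.1 hy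
    obtain ⟨α, β, a1, a2, a3, a4, a5, -⟩ := edge_struct h.tree t1 s.1 hc hy hadj
    obtain ⟨α', β', b1, b2, b3, b4, b5, -⟩ := edge_struct h.tree t1 s.2 hc hy hadj
    have k := hC θ α β α' β' t1.1 t2 a1 a2 b1 b2
    have e : ∀ x, mu G θ D s.1 x - mu G θ D s.2 x = 2 * Dd G θ D s x := fun x => by
      unfold mu Dd; ring
    rw [← a3, ← a4, ← a5, ← b3, ← b4, ← b5, e, e, abs_mul, abs_mul, abs_two] at k
    have d1 : G.dist y c ≤ 1 := (dist_eq_one_iff_adj.2 hadj.symm).le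
    have d2 : G.dist c y ≤ 1 := (dist_eq_one_iff_adj.2 hadj).le
    have q : ∀ z, G.dist c z ≤ 1 → G.dist y z ≤ 1 → (|mu G θ D s.1 c| + |mu G θ D s.1 y| +
        |mu G θ D s.2 c| + |mu G θ D s.2 y|) ^ 2 * |Dd G θ D s z| ^ 2 ≤ 8 * ZZ G θ D s z :=
      fun z h1 h2 => by
        have := m1 s.1 c hc z h1
        have := m1 s.1 y hy z h2
        have := m1 s.2 c hc z h1
        have := m1 s.2 y hy z h2
        rw [ZZ, sq_abs, ← mul_assoc]
        gcongr
        generalize |mu G θ D s.1 c| = p at *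
        generalize |mu G θ D s.1 y| = q at *
        generalize |mu G θ D s.2 c| = r at *
        generalize |mu G θ D s.2 y| = t at *
        nlinarith [sq_nonneg (p - q), sq_nonneg (p - r), sq_nonneg (p - t), sq_nonneg (q - r),
          sq_nonneg (q - t), sq_nonneg (r - t)]
    have q1 := q c (by simp) d1
    have q2 := q y d2 (by simp)
    have q3 := z1 c hc (by simp)
    have q4 := z1 y hy d1
    refine (pow_le_pow_left₀ (abs_nonneg _) k 2).trans ?_
    rw [mul_assoc C, mul_pow, mul_comm 128, mul_assoc]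
    gcongr
    generalize |mu G θ D s.1 c| + |mu G θ D s.1 y| + |mu G θ D s.2 c| + |mu G θ D s.2 y| = p at *
    nlinarith [sq_nonneg (p * (|Dd G θ D s c| - |Dd G θ D s y|))]
  refine sq_sum_le_card_mul_sum_sq.trans ?_
  have := Finset.sum_le_card_nsmul _ _ _ key
  rw [nsmul_eq_mul] at this
  calc _ ≤ (d + 1 : ℝ) * ((d + 1) * (128 * C ^ 2 * Z)) := by
        refine mul_le_mul cd (this.trans ?_) (Finset.sum_nonneg fun _ _ => sq_nonneg _)
          (by positivity)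
        gcongr
    _ = _ := by ring

omit [G.LocallyFinite] in
lemma vr_addf_mkv (hθ : θ ∈ Set.Ico (0 : ℝ) 1) (l : V → ℝ) {w : V} (hw : w ∈ D) (t : ℝ) (z : V) :
    vr G θ D (addf l w t) z ≤ Real.exp (2 * |t|) * vr G θ D l z := by
  have i0 : ∀ T, 0 ≤ ind T z := fun T => by unfold ind; split_ifs <;> norm_num
  have i1 : ∀ T, 0 ≤ 1 + -1 * ind T z := fun T => by unfold ind; split_ifs <;> norm_num
  have e : ∀ l, ex G θ D l (fun T => 1 + -1 * ind T z) = 1 - mI G θ D l z := fun l => by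
    rw [ex_add, ex_smul, ex_const hθ, ex_ind]; ring
  have h1 := ex_addf_le (G := G) hθ l hw t i0
  have h2 := ex_addf_le (G := G) hθ l hw t i1
  have h3 := ex_mono (G := G) (D := D) hθ (addf l w t) (g := fun _ => 0) fun T _ => i1 T
  have h4 := ex_mono (G := G) (D := D) hθ l (g := fun _ => 0) fun T _ => i0 T
  rw [e, ex_const hθ] at h3
  rw [ex_ind, ex_const hθ] at h4
  rw [e, e] at h2
  rw [ex_ind, ex_ind] at h1
  refine (mul_le_mul h1 h2 h3 (mul_nonneg (Real.exp_pos _).le h4)).trans_eq ?_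
  rw [two_mul, Real.exp_add, vr]
  ring

omit [G.LocallyFinite] in
lemma aa_inv_mkv (hG : G.IsTree) (hθ : θ ∈ Set.Ico (0 : ℝ) 1) (l : V → ℝ) {x z w : V} (hz : z ∈ D)
    (hw : w ∈ D) (hb : Btw G x z w) (t : ℝ) : aa G θ D (addf l w t) x z = aa G θ D l x z := by
  have h1 := mI_addf (G := G) hθ l hw t x
  rw [aa_mul hG hθ l hz hb, mul_assoc, ← mI_addf hθ l hw t z] at h1
  have h2 := aa_vr (G := G) hθ l x hz
  have h3 := markov hG hθ l hz hb 0 1
  set k := mI G θ D l x + aa G θ D l x z * (1 - mI G θ D l z) with hk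
  have h4 : ex G θ D (addf l w t) (fun T => ind T x * ind T z) =
      k * mI G θ D (addf l w t) z := by
    rw [← ex_ind, ex_addf hθ l hw, ex_addf hθ l hw, ← mul_div_assoc]
    congr 1
    rw [ex_congr l (h := fun T => ind T x * ind T z +
        (Real.exp t - 1) * (ind T x * ind T w * (0 + 1 * ind T z)))
        fun T _ => by unfold ind; split_ifs <;> simp,
      ex_congr l (g := fun T => Real.exp (t * ind T w) * ind T z)
        (h := fun T => ind T z + (Real.exp t - 1) * (ind T w * ind T z))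
        fun T _ => by unfold ind; split_ifs <;> simp,
      ex_add, ex_add, ex_smul, ex_smul, h3, ex_ind,
      ex_congr l (g := fun T => (mI G θ D l x + aa G θ D l x z * (ind T z - mI G θ D l z)) *
        ind T w * (0 + 1 * ind T z)) (h := fun T => k * (ind T w * ind T z))
        fun T _ => by rw [hk]; unfold ind; split_ifs <;> simp, ex_smul]
    unfold cov vr at h2
    linear_combination -h2
  have p := mI_open (G := G) hθ (addf l w t) hz
  rw [aa, vr, div_eq_iff (mul_pos p.1 (sub_pos.2 p.2)).ne', cov, h4]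
  linear_combination -(mI G θ D (addf l w t) z) * h1

/-- ratio bound through the median `z` of `x, c, w`: `cov x c = aa x z * aa c z * vr z`, and
`aa x z`, `aa c z` do not change when the field at `w` changes (`markov`, `ex_addf`). -/
lemma Cx.aa_addf (h : Cx G d θ D) (l : V → ℝ) {x c w : V} (hx : x ∈ D) (hc : c ∈ D) (hw : w ∈ D)
    (t : ℝ) : aa G θ D (addf l w t) x c ≤ Real.exp (4 * |t|) * aa G θ D l x c := by
  obtain ⟨t1, -, -⟩ := h.theta
  have hT := h.tr.tree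
  obtain ⟨z, z1, z2, z3⟩ := exists_median hT x c w
  have hz := h.cvx x hx c hc z z1
  have e : ∀ l, aa G θ D l x c = aa G θ D l x z * aa G θ D l c z *
      (vr G θ D l z / vr G θ D l c) := fun l => by
    rw [aa, cov_mul hT t1 l hz z1, cov_comm, ← aa_vr t1 l c hz]; ring
  have p : ∀ l, 0 < vr G θ D l c := fun l =>
    mul_pos (mI_open t1 l hc).1 (sub_pos.2 (mI_open t1 l hc).2)
  have v1 := vr_addf_mkv (G := G) t1 l hw t z
  have v2 := vr_addf_mkv (G := G) t1 (addf l w t) hw (-t) c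
  rw [show addf (addf l w t) w (-t) = l from funext fun y => by
    unfold addf; split_ifs <;> simp, abs_neg] at v2
  rw [e, e l, aa_inv_mkv hT t1 l hz hw z2, aa_inv_mkv hT t1 l hz hw z3, mul_left_comm]
  refine mul_le_mul_of_nonneg_left ?_ (mul_nonneg (h.aa_mem l hx hz).1 (h.aa_mem l hc hz).1)
  rw [← mul_div_assoc, div_le_div_iff₀ (p _) (p _)]
  refine (mul_le_mul v1 v2 (p _).le (mul_nonneg (Real.exp_pos _).le (vr_mem t1 l z).1)).trans_eq ?_
  rw [show 4 * |t| = 2 * |t| + 2 * |t| by ring, Real.exp_add]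
  ring

end Vale.Agent.P161E
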