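import Vale.Agent.P161E.Gib0
import Vale.Agent.P161E.Edge

namespace Vale.Agent.P161E

open MeasureTheory unitInterval Classical SimpleGraph Filter Topology
open Vale.Agent.P161
open Vale.Agent.P143 (BM iidUniform)

variable {V : Type} {G : SimpleGraph V} [G.LocallyFinite] {d : ℕ} {θ : ℝ} {D : Finset V}

section
omit [G.LocallyFinite]

lemma nx_adj_mkv (hG : G.IsTree) {z v v' : V} (hv : v ≠ z) (hv' : v' ≠ z) (h : G.Adj v v') :
    nx G z v = nx G z v' := by
  have key : ∀ {a b : V}, a ≠ z → G.Adj a b → G.dist z b = G.dist z a + 1 →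
      nx G z b = nx G z a := by
    intro a b ha hab hd
    obtain ⟨h1, h2⟩ := nx_spec hG (Ne.symm ha)
    refine nx_eq hG h1 ?_
    have h3 : G.dist (nx G z a) b ≤ G.dist (nx G z a) a + G.dist a b := hG.connected.dist_triangle
    have h4 : G.dist z b ≤ G.dist z (nx G z a) + G.dist (nx G z a) b := hG.connected.dist_triangle
    rw [dist_eq_one_iff_adj.2 hab] at h3
    rw [dist_eq_one_iff_adj.2 h1] at h4
    omega
  rcases hG.dist_eq_dist_add_one_of_adj z h with h1 | h1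
  · exact key hv' h.symm h1
  · exact (key hv h h1).symm

lemma sum_powerset_mkv {A : Finset V} (hA : A ⊆ D) (F : Finset V → Finset V → ℝ) :
    ∑ T ∈ D.powerset, F (T ∩ A) (T \ A) = ∑ U ∈ (D \ A).powerset, ∑ S ∈ A.powerset, F S U := by
  rw [← Finset.sum_product']
  refine Finset.sum_nbij' (fun T => (T \ A, T ∩ A)) (fun q => q.2 ∪ q.1) ?_ ?_ ?_ ?_ ?_
  · intro T hT
    rw [Finset.mem_powerset] at hT
    exact Finset.mem_product.2 ⟨Finset.mem_powerset.2 (Finset.sdiff_subset_sdiff hT le_rfl),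
      Finset.mem_powerset.2 Finset.inter_subset_right⟩
  · intro q hq
    obtain ⟨h1, h2⟩ := Finset.mem_product.1 hq
    rw [Finset.mem_powerset] at h1 h2 ⊢
    exact Finset.union_subset (h2.trans hA) (h1.trans Finset.sdiff_subset)
  · intro T _
    ext v
    simp only [Finset.mem_union, Finset.mem_inter, Finset.mem_sdiff]
    tauto
  · intro q hq
    obtain ⟨h1, h2⟩ := Finset.mem_product.1 hq
    rw [Finset.mem_powerset] at h1 h2
    refine Prod.ext ?_ ?_
    · ext v
      have h3 := fun h : v ∈ q.1 => (Finset.mem_sdiff.1 (h1 h)).2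
      have h4 := fun h : v ∈ q.2 => h2 h
      simp only [Finset.mem_union, Finset.mem_sdiff]
      tauto
    · ext v
      have h3 := fun h : v ∈ q.1 => (Finset.mem_sdiff.1 (h1 h)).2
      have h4 := fun h : v ∈ q.2 => h2 h
      simp only [Finset.mem_union, Finset.mem_inter]
      tauto
  · intro T _
    rfl

/-- the branch at `z` through the neighbour `p` -/
noncomputable def brMkv (G : SimpleGraph V) (D : Finset V) (z p : V) : Finset V :=
  D.filter fun v => v ≠ z ∧ nx G z v = p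

lemma wI_split_mkv (hG : G.IsTree) {z p : V} (hz : z ∈ D) (hp : G.Adj z p) (T : Finset V) :
    wI G θ D T = wI G θ (brMkv G D z p) (T ∩ brMkv G D z p) *
      wI G θ (D \ brMkv G D z p) (T \ brMkv G D z p) * ((if p ∈ D then 1 / 2 else 1) *
        (1 + (if p ∈ D then θ else 0) * (sp (T ∩ brMkv G D z p) p * sp (T \ brMkv G D z p) z))) := by
  set A := brMkv G D z p with hA
  have mA : ∀ v, v ∈ A ↔ v ∈ D ∧ v ≠ z ∧ nx G z v = p := fun v => Finset.mem_filter
  have hzA : z ∉ A := fun h => ((mA z).1 h).2.1 rfl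
  have hnp : nx G z p = p := nx_eq hG hp (by rw [SimpleGraph.dist_self, dist_eq_one_iff_adj.2 hp])
  have cross : ∀ a b, a ∈ A → b ∈ D → b ∉ A → G.Adj a b → a = p ∧ b = z := by
    intro a b ha hb hbA hab
    obtain ⟨-, h1, h2⟩ := (mA a).1 ha
    have hbz : b = z := by
      by_contra h
      exact hbA ((mA b).2 ⟨hb, h, (nx_adj_mkv hG h1 h hab).symm.trans h2⟩)
    subst hbz
    refine ⟨?_, rfl⟩
    rw [← h2]
    exact (nx_eq hG hab.symm (by rw [SimpleGraph.dist_self, dist_eq_one_iff_adj.2 hab.symm])).symm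
  have hdis : Disjoint (edgesIn G A) (edgesIn G (D \ A)) := by
    rw [Finset.disjoint_left]
    intro e h1 h2
    induction e using Sym2.ind with
    | _ a b =>
      rw [mk_mem_edgesIn] at h1 h2
      exact (Finset.mem_sdiff.1 h2.1).2 h1.1
  have w1 : wI G θ A (T ∩ A) = wI G θ A T := wI_congr fun v hv => by simp [hv]
  have w2 : wI G θ (D \ A) (T \ A) = wI G θ (D \ A) T :=
    wI_congr fun v hv => by simp [(Finset.mem_sdiff.1 hv).2]
  have hsub : ∀ v ∈ A, v ∈ D := fun v hv => ((mA v).1 hv).1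
  rw [w1, w2]
  by_cases hpD : p ∈ D
  · have hpA : p ∈ A := (mA p).2 ⟨hpD, hp.ne', hnp⟩
    have h1 : edgesIn G D = insert s(p, z) (edgesIn G A ∪ edgesIn G (D \ A)) := by
      ext e
      induction e using Sym2.ind with
      | _ a b =>
        simp only [Finset.mem_insert, Finset.mem_union, mk_mem_edgesIn, Finset.mem_sdiff,
          Sym2.eq_iff]
        constructor
        · rintro ⟨ha, hb, hab⟩
          by_cases h1 : a ∈ A <;> by_cases h2 : b ∈ A
          · exact Or.inr (Or.inl ⟨h1, h2, hab⟩)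
          · exact Or.inl (Or.inl (cross a b h1 hb h2 hab))
          · exact Or.inl (Or.inr (cross b a h2 ha h1 hab.symm).symm)
          · exact Or.inr (Or.inr ⟨⟨ha, h1⟩, ⟨hb, h2⟩, hab⟩)
        · rintro ((⟨rfl, rfl⟩ | ⟨rfl, rfl⟩) | ⟨ha, hb, hab⟩ | ⟨ha, hb, hab⟩)
          · exact ⟨hpD, hz, hp.symm⟩
          · exact ⟨hz, hpD, hp⟩
          · exact ⟨hsub a ha, hsub b hb, hab⟩
          · exact ⟨ha.1, hb.1, hab⟩
    have h2 : s(p, z) ∉ edgesIn G A ∪ edgesIn G (D \ A) := by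
      simp [mk_mem_edgesIn, hzA, hpA]
    have s1 : sp (T ∩ A) p = sp T p := by simp [sp, hpA]
    have s2 : sp (T \ A) z = sp T z := by simp [sp, hzA]
    unfold wI
    rw [h1, Finset.prod_insert h2, Finset.prod_union hdis, if_pos hpD, if_pos hpD, s1, s2,
      Sym2.map_mk, Sym2.mul_mk]
    ring
  · have h1 : edgesIn G D = edgesIn G A ∪ edgesIn G (D \ A) := by
      ext e
      induction e using Sym2.ind with
      | _ a b =>
        simp only [Finset.mem_union, mk_mem_edgesIn, Finset.mem_sdiff]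
        constructor
        · rintro ⟨ha, hb, hab⟩
          by_cases h1 : a ∈ A <;> by_cases h2 : b ∈ A
          · exact Or.inl ⟨h1, h2, hab⟩
          · exact absurd ((cross a b h1 hb h2 hab).1 ▸ ha) hpD
          · exact absurd ((cross b a h2 ha h1 hab.symm).1 ▸ hb) hpD
          · exact Or.inr ⟨⟨ha, h1⟩, ⟨hb, h2⟩, hab⟩
        · rintro (⟨ha, hb, hab⟩ | ⟨ha, hb, hab⟩)
          · exact ⟨hsub a ha, hsub b hb, hab⟩
          · exact ⟨ha.1, hb.1, hab⟩
    unfold wI
    rw [h1, Finset.prod_union hdis, if_neg hpD, if_neg hpD]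
    ring

lemma SI_split_mkv (hG : G.IsTree) (l : V → ℝ) {z p : V} (hz : z ∈ D) (hp : G.Adj z p)
    (F H : Finset V → ℝ) :
    SI G θ D l (fun T => F (T ∩ brMkv G D z p) * H (T \ brMkv G D z p)) =
      (if p ∈ D then 1 / 2 else 1) * SI G θ (D \ brMkv G D z p) l fun U =>
        (SI G θ (brMkv G D z p) l F + (if p ∈ D then θ else 0) *
          SI G θ (brMkv G D z p) l (fun S => F S * sp S p) * sp U z) * H U := by
  have h1 := fun T => wI_split_mkv (θ := θ) hG hz hp T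
  set A := brMkv G D z p with hA
  generalize (if p ∈ D then (1 / 2 : ℝ) else 1) = k at h1 ⊢
  generalize (if p ∈ D then θ else 0) = θ' at h1 ⊢
  have h2 : ∀ T, tilt l T = tilt l (T ∩ A) * tilt l (T \ A) := fun T =>
    (Finset.prod_inter_mul_prod_sdiff T A _).symm
  have h3 := sum_powerset_mkv (D := D) (A := A) (Finset.filter_subset _ _) fun S U =>
    wI G θ A S * wI G θ (D \ A) U * (k * (1 + θ' * (sp S p * sp U z))) * (tilt l S * tilt l U) *
      (F S * H U)
  unfold SI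
  rw [Finset.sum_congr rfl fun T _ => by rw [h1 T, h2 T], h3, Finset.mul_sum]
  refine Finset.sum_congr rfl fun U _ => ?_
  simp only [Finset.mul_sum, Finset.sum_mul, ← Finset.sum_add_distrib]
  exact Finset.sum_congr rfl fun S _ => by ring

lemma SI_congr_mkv (l : V → ℝ) {g h : Finset V → ℝ} (H : ∀ T ⊆ D, g T = h T) :
    SI G θ D l g = SI G θ D l h :=
  Finset.sum_congr rfl fun T hT => by rw [H T (Finset.mem_powerset.1 hT)]

lemma SI_lin_mkv (l : V → ℝ) (a b : ℝ) (g : Finset V → ℝ) :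
    SI G θ D l (fun T => a + b * g T) = a * SI G θ D l (fun _ => 1) + b * SI G θ D l g := by
  unfold SI
  simp only [Finset.mul_sum, ← Finset.sum_add_distrib]
  exact Finset.sum_congr rfl fun S _ => by ring

lemma sp_eq_mkv (T : Finset V) (v : V) : sp T v = -1 + 2 * ind T v := by
  unfold sp ind
  split_ifs <;> norm_num

lemma SI_eq_mkv (hθ : θ ∈ Set.Ico (0 : ℝ) 1) (l : V → ℝ) (v : V) :
    SI G θ D l (fun T => ind T v) = SI G θ D l (fun _ => 1) * mI G θ D l v :=
  (mul_div_cancel₀ _ (SI_pos hθ D l).ne').symm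

lemma core_mkv (hG : G.IsTree) (hθ : θ ∈ Set.Ico (0 : ℝ) 1) (l : V → ℝ) {x z : V} (hz : z ∈ D)
    (hx : x ≠ z) : ∃ r₀ r₁ : ℝ, ∀ H : Finset V → ℝ, (∀ T, H (T \ brMkv G D z (nx G z x)) = H T) →
      ex G θ D l (fun T => ind T x * H T) = ex G θ D l fun T => (r₀ + r₁ * ind T z) * H T := by
  have hp := (nx_spec hG hx.symm).1
  have h1 := SI_split_mkv (θ := θ) hG l hz hp
  set A := brMkv G D z (nx G z x) with hA
  have hθ' : (if nx G z x ∈ D then θ else 0) ∈ Set.Ico (0 : ℝ) 1 := by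
    split_ifs
    · exact hθ
    · exact ⟨le_rfl, zero_lt_one⟩
  generalize (if nx G z x ∈ D then (1 / 2 : ℝ) else 1) = k at h1
  generalize (if nx G z x ∈ D then θ else 0) = θ' at h1 hθ'
  have hzA : z ∉ A := fun h => (Finset.mem_filter.1 h).2.1 rfl
  have a0 := SI_pos (G := G) hθ A l
  have a1 : SI G θ A l (fun S => 1 * sp S (nx G z x)) =
      SI G θ A l (fun _ => 1) * (2 * mI G θ A l (nx G z x) - 1) := by
    simp only [one_mul, sp_eq_mkv]
    rw [SI_lin_mkv, SI_eq_mkv hθ]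
    ring
  obtain ⟨m0, m1⟩ := mI_mem (G := G) hθ A l (nx G z x)
  set m := mI G θ A l (nx G z x)
  set Z := SI G θ A l fun _ => 1
  set f₀ := SI G θ A l fun S => ind S x
  set f₁ := SI G θ A l fun S => ind S x * sp S (nx G z x)
  have p0 : 0 < Z - θ' * (Z * (2 * m - 1)) := by
    have : 0 < 1 - θ' * (2 * m - 1) := by nlinarith [hθ'.1, hθ'.2]
    nlinarith [mul_pos a0 this]
  have p1 : 0 < Z + θ' * (Z * (2 * m - 1)) := by
    have : 0 < 1 + θ' * (2 * m - 1) := by nlinarith [hθ'.1, hθ'.2]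
    nlinarith [mul_pos a0 this]
  refine ⟨(f₀ - θ' * f₁) / (Z - θ' * (Z * (2 * m - 1))),
    (f₀ + θ' * f₁) / (Z + θ' * (Z * (2 * m - 1))) - (f₀ - θ' * f₁) / (Z - θ' * (Z * (2 * m - 1))),
    fun H hH => ?_⟩
  set r₀ := (f₀ - θ' * f₁) / (Z - θ' * (Z * (2 * m - 1))) with hr₀
  set r₁ := (f₀ + θ' * f₁) / (Z + θ' * (Z * (2 * m - 1))) with hr₁
  have e0 : r₀ * (Z - θ' * (Z * (2 * m - 1))) = f₀ - θ' * f₁ := div_mul_cancel₀ _ p0.ne'
  have e1 : r₁ * (Z + θ' * (Z * (2 * m - 1))) = f₀ + θ' * f₁ := div_mul_cancel₀ _ p1.ne'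
  have h2 := h1 (fun S => ind S x) H
  have h3 := h1 (fun _ => 1) fun U => (r₀ + (r₁ - r₀) * ind U z) * H U
  rw [a1] at h3
  unfold ex
  congr 1
  rw [SI_congr_mkv l (h := fun T => ind (T ∩ A) x * H (T \ A)) fun T hT => ?_, h2,
    SI_congr_mkv (D := D) l (h := fun T => 1 * ((r₀ + (r₁ - r₀) * ind (T \ A) z) * H (T \ A)))
      fun T _ => ?_, h3]
  · congr 1
    refine SI_congr_mkv l fun U _ => ?_
    change (f₀ + θ' * f₁ * sp U z) * H U =
      (Z + θ' * (Z * (2 * m - 1)) * sp U z) * ((r₀ + (r₁ - r₀) * ind U z) * H U)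
    by_cases h : z ∈ U
    · rw [sp, ind, if_pos h, if_pos h]
      linear_combination (-H U) * e1
    · rw [sp, ind, if_neg h, if_neg h]
      linear_combination (-H U) * e0
  · rw [hH, one_mul]
    simp [ind, hzA]
  · rw [hH]
    congr 1
    unfold ind
    by_cases h : x ∈ T
    · have hxA : x ∈ A := Finset.mem_filter.2 ⟨hT h, hx, rfl⟩
      rw [if_pos h, if_pos (Finset.mem_inter.2 ⟨h, hxA⟩)]
    · rw [if_neg h, if_neg fun h' => h (Finset.mem_inter.1 h').1]

lemma ind_sq_mkv (T : Finset V) (v : V) : ind T v * ind T v = ind T v := by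
  unfold ind
  split_ifs <;> norm_num

lemma ex_lin_mkv (hθ : θ ∈ Set.Ico (0 : ℝ) 1) (l : V → ℝ) (a b : ℝ) (g : Finset V → ℝ) :
    ex G θ D l (fun T => a + b * g T) = a + b * ex G θ D l g := by
  rw [ex_add l (fun _ => a), ex_const hθ, ex_smul]

end

omit [G.LocallyFinite] in
/-- Markov property: given the spin at `z`, the spins at `x` and `w` are independent. Split
`D.erase z` into the branch at `z` containing `x` and the rest; no edge joins the two parts. -/
lemma markov (hG : G.IsTree) (hθ : θ ∈ Set.Ico (0 : ℝ) 1) (l : V → ℝ) {x z w : V} (hz : z ∈ D)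
    (hb : Btw G x z w) (a b : ℝ) :
    ex G θ D l (fun T => ind T x * ind T w * (a + b * ind T z)) =
      ex G θ D l (fun T => (mI G θ D l x + aa G θ D l x z * (ind T z - mI G θ D l z)) *
        ind T w * (a + b * ind T z)) := by
  by_cases hx : x = z
  · subst hx
    rw [aa_self hθ l hz]
    exact ex_congr l fun T _ => by ring
  obtain ⟨r₀, r₁, h⟩ := core_mkv hG hθ l hz hx
  have hzA : z ∉ brMkv G D z (nx G z x) := fun h => (Finset.mem_filter.1 h).2.1 rfl
  have hwA : w ∉ brMkv G D z (nx G z x) := by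
    intro h
    obtain ⟨-, h1, h2⟩ := Finset.mem_filter.1 h
    have h3 := (nx_spec hG (Ne.symm hx)).2
    have h4 := (nx_spec hG (Ne.symm h1)).2
    have h5 : G.dist x w ≤ G.dist x (nx G z x) + G.dist (nx G z x) w := hG.connected.dist_triangle
    unfold Btw at hb
    rw [h2] at h4
    rw [G.dist_comm (u := z), G.dist_comm (v := x)] at h3
    omega
  have h1 := h (fun _ => 1) fun _ => rfl
  have h2 := h (fun T => ind T z) fun T => by simp [ind, hzA]
  have h3 := h (fun T => ind T w * (a + b * ind T z)) fun T => by simp [ind, hzA, hwA]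
  simp only [mul_one] at h1
  rw [ex_lin_mkv hθ, ex_ind, ex_ind] at h1
  rw [ex_congr l (g := fun T => (r₀ + r₁ * ind T z) * ind T z) (h := fun T => (r₀ + r₁) * ind T z)
    fun T _ => by linear_combination r₁ * ind_sq_mkv T z, ex_smul, ex_ind] at h2
  obtain ⟨m0, m1⟩ := mI_open (G := G) hθ l hz
  have h4 : aa G θ D l x z = r₁ := by
    unfold aa cov vr
    rw [h2, h1, div_eq_iff (mul_pos m0 (by linarith)).ne']
    ring
  rw [h4, h1]
  simp only [mul_assoc]
  rw [h3]
  exact ex_congr l fun T _ => by ring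

omit [G.LocallyFinite] in
lemma cov_mul (hG : G.IsTree) (hθ : θ ∈ Set.Ico (0 : ℝ) 1) (l : V → ℝ) {x z w : V} (hz : z ∈ D)
    (hb : Btw G x z w) : cov G θ D l x w = aa G θ D l x z * cov G θ D l z w := by
  have h := markov hG hθ l hz hb 1 0
  simp only [zero_mul, add_zero, mul_one] at h
  rw [ex_congr l (g := fun T => (mI G θ D l x + aa G θ D l x z * (ind T z - mI G θ D l z)) * ind T w)
    (h := fun T => (mI G θ D l x - aa G θ D l x z * mI G θ D l z) * ind T w +
      aa G θ D l x z * (ind T z * ind T w)) fun T _ => by ring, ex_add, ex_smul, ex_smul,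
    ex_ind] at h
  unfold cov
  rw [h]
  ring

omit [G.LocallyFinite] in
lemma aa_mul (hG : G.IsTree) (hθ : θ ∈ Set.Ico (0 : ℝ) 1) (l : V → ℝ) {x z w : V} (hz : z ∈ D)
    (hb : Btw G x z w) : aa G θ D l x w = aa G θ D l x z * aa G θ D l z w := by
  rw [aa, cov_mul hG hθ l hz hb, mul_div_assoc]
  rfl

omit [G.LocallyFinite] in
lemma edge_half_mkv (hG : G.IsTree) (hθ : θ ∈ Set.Ico (0 : ℝ) 1) (l : V → ℝ) {c y : V}
    (hc : c ∈ D) (hy : y ∈ D) (hadj : G.Adj c y) :
    ∃ α β : ℝ, |α| < 1 ∧ |β| < 1 ∧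
      mI G θ D l c = (1 + α) / 2 * (1 + θ * β) / (1 + θ * α * β) ∧
      mI G θ D l y = (1 + β) / 2 * (1 + θ * α) / (1 + θ * α * β) ∧
      ex G θ D l (fun T => ind T c * ind T y) =
        (1 + α) / 2 * ((1 + β) / 2) * (1 + θ) / (1 + θ * α * β) := by
  have h1 := SI_split_mkv (θ := θ) hG l hy hadj.symm
  simp only [if_pos hc] at h1
  set A := brMkv G D y c with hA
  have hyA : y ∉ A := fun h => (Finset.mem_filter.1 h).2.1 rfl
  have hcA : c ∈ A := Finset.mem_filter.2 ⟨hc, hadj.ne,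
    nx_eq hG hadj.symm (by rw [SimpleGraph.dist_self, dist_eq_one_iff_adj.2 hadj.symm])⟩
  have hyB : y ∈ D \ A := Finset.mem_sdiff.2 ⟨hy, hyA⟩
  have a0 := SI_pos (G := G) hθ A l
  have b0 := SI_pos (G := G) hθ (D \ A) l
  obtain ⟨m0, m1⟩ := mI_open (G := G) hθ l hcA
  obtain ⟨n0, n1⟩ := mI_open (G := G) hθ l hyB
  have a1 : SI G θ A l (fun S => 1 * sp S c) =
      SI G θ A l (fun _ => 1) * (2 * mI G θ A l c - 1) := by
    simp only [one_mul, sp_eq_mkv]
    rw [SI_lin_mkv, SI_eq_mkv hθ]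
    ring
  have a2 : SI G θ A l (fun S => ind S c * sp S c) = SI G θ A l (fun _ => 1) * mI G θ A l c := by
    rw [← SI_eq_mkv hθ]
    refine SI_congr_mkv l fun S _ => ?_
    unfold ind sp
    split_ifs <;> norm_num
  have b1 : ∀ s t : ℝ, SI G θ (D \ A) l (fun U => (s + t * sp U y) * 1) =
      SI G θ (D \ A) l (fun _ => 1) * (s + t * (2 * mI G θ (D \ A) l y - 1)) := by
    intro s t
    rw [SI_congr_mkv l (h := fun U => (s - t) + (2 * t) * ind U y) fun U _ => by
      rw [sp_eq_mkv]; ring, SI_lin_mkv, SI_eq_mkv hθ]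
    ring
  have b2 : ∀ s t : ℝ, SI G θ (D \ A) l (fun U => (s + t * sp U y) * ind U y) =
      SI G θ (D \ A) l (fun _ => 1) * ((s + t) * mI G θ (D \ A) l y) := by
    intro s t
    rw [SI_congr_mkv l (h := fun U => 0 + (s + t) * ind U y) fun U _ => by
      unfold sp ind; split_ifs <;> ring, SI_lin_mkv, SI_eq_mkv hθ]
    ring
  have e00 := h1 (fun _ => 1) fun _ => 1
  have e10 := h1 (fun S => ind S c) fun _ => 1
  have e01 := h1 (fun _ => 1) fun U => ind U y
  have e11 := h1 (fun S => ind S c) fun U => ind U y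
  have i1 : ∀ T, ind (T ∩ A) c = ind T c := fun T => by simp [ind, hcA]
  have i2 : ∀ T, ind (T \ A) y = ind T y := fun T => by simp [ind, hyA]
  rw [a1, b1] at e00
  rw [a2, b1, SI_eq_mkv hθ] at e10
  rw [a1, b2] at e01
  rw [a2, b2, SI_eq_mkv hθ] at e11
  simp only [i1, i2, mul_one, one_mul] at e00 e10 e01 e11
  set m := mI G θ A l c
  set n := mI G θ (D \ A) l y
  have hden : 0 < 1 + θ * (2 * m - 1) * (2 * n - 1) := by
    have h2 : -1 ≤ (2 * m - 1) * (2 * n - 1) := by nlinarith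
    have := mul_le_mul_of_nonneg_left h2 hθ.1
    linarith [hθ.2]
  have hZ : SI G θ D l (fun _ => 1) = 1 / 2 * (SI G θ (D \ A) l fun _ => 1) *
      (SI G θ A l fun _ => 1) * (1 + θ * (2 * m - 1) * (2 * n - 1)) := by
    rw [e00]
    ring
  refine ⟨2 * m - 1, 2 * n - 1, abs_lt.2 ⟨by linarith, by linarith⟩,
    abs_lt.2 ⟨by linarith, by linarith⟩, ?_, ?_, ?_⟩
  · rw [mI, e10, hZ]
    field_simp
    ring
  · rw [mI, e01, hZ]
    field_simp
    ring
  · rw [ex, e11, hZ]
    field_simp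
    ring

omit [G.LocallyFinite] in
/-- the pair law on an edge is `∝ (1 + s α) (1 + t β) (1 + θ s t)` -/
lemma edge_struct (hG : G.IsTree) (hθ : θ ∈ Set.Ico (0 : ℝ) 1) (l : V → ℝ) {c y : V} (hc : c ∈ D)
    (hy : y ∈ D) (hadj : G.Adj c y) :
    ∃ α β : ℝ, |α| < 1 ∧ |β| < 1 ∧ mu G θ D l c = em θ α β ∧ mu G θ D l y = em θ β α ∧
      aa G θ D l c y = eg θ α ∧ aa G θ D l y c = eg θ β := by
  obtain ⟨α, β, hα, hβ, h1, h2, h3⟩ := edge_half_mkv hG hθ l hc hy hadj
  obtain ⟨a1, a2⟩ := abs_lt.1 hα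
  obtain ⟨b1, b2⟩ := abs_lt.1 hβ
  obtain ⟨t0, t1⟩ := hθ
  have key : ∀ t : ℝ, -1 ≤ t → 0 < 1 + θ * t := fun t ht => by
    have := mul_le_mul_of_nonneg_left ht t0
    linarith
  have d0 : 1 + θ * α * β ≠ 0 := by
    rw [mul_assoc]
    exact (key _ (by nlinarith)).ne'
  have d1 : 1 + θ * α ≠ 0 := (key _ a1.le).ne'
  have d2 : 1 + θ * β ≠ 0 := (key _ b1.le).ne'
  have d3 : 1 - θ * α ≠ 0 := by
    have h := key (-α) (by linarith)
    rw [mul_neg, ← sub_eq_add_neg] at h
    exact h.ne'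
  have d4 : 1 - θ * β ≠ 0 := by
    have h := key (-β) (by linarith)
    rw [mul_neg, ← sub_eq_add_neg] at h
    exact h.ne'
  have d5 : 1 + α ≠ 0 := by linarith
  have d6 : 1 + β ≠ 0 := by linarith
  have d7 : 1 - α ≠ 0 := by linarith
  have d8 : 1 - β ≠ 0 := by linarith
  obtain ⟨q, hq⟩ : ∃ q, q = 1 + θ * α * β := ⟨_, rfl⟩
  rw [← hq] at h1 h2 h3 d0
  have v1 : vr G θ D l y = (1 + β) * (1 - β) * ((1 + θ * α) * (1 - θ * α)) / (4 * q ^ 2) := by
    rw [vr, h2]
    field_simp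
    rw [hq]
    ring
  have v2 : vr G θ D l c = (1 + α) * (1 - α) * ((1 + θ * β) * (1 - θ * β)) / (4 * q ^ 2) := by
    rw [vr, h1]
    field_simp
    rw [hq]
    ring
  have c1 : cov G θ D l c y = θ * ((1 + α) * (1 - α)) * ((1 + β) * (1 - β)) / (4 * q ^ 2) := by
    rw [cov, h1, h2, h3]
    field_simp
    rw [hq]
    ring
  refine ⟨α, β, hα, hβ, ?_, ?_, ?_, ?_⟩
  · rw [mu, h1, em, ← hq]
    field_simp
    rw [hq]
    ring
  · rw [mu, h2, em, mul_right_comm θ β α, ← hq]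
    field_simp
    rw [hq]
    ring
  · rw [aa, c1, v1, eg, show 1 - θ ^ 2 * α ^ 2 = (1 + θ * α) * (1 - θ * α) by ring]
    field_simp
    ring
  · rw [aa, cov_comm, c1, v2, eg, show 1 - θ ^ 2 * β ^ 2 = (1 + θ * β) * (1 - θ * β) by ring]
    field_simp
    ring

end Vale.Agent.P161E
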