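import Vale.Agent.P161E.Rds
import Vale.Agent.P161E.Bay
import Vale.Agent.P161E.Mgf

namespace Vale.Agent.P161E

open MeasureTheory unitInterval Classical SimpleGraph Filter Topology
open Vale.Agent.P161
open Vale.Agent.P143 (BM iidUniform)

variable {V : Type} {G : SimpleGraph V} [G.LocallyFinite] {d : ℕ} {θ : ℝ} {D : Finset V}

variable [Countable V]

omit [G.LocallyFinite] in
lemma bm_Fm (hθ : θ ∈ Set.Ico (0 : ℝ) 1) (J : ℕ) (x : V) : BM (Fm G θ D J x) := by
  exact (bm_mI hθ x).comp (measurable_rnds (ms_stp (G := G) (θ := θ) (D := D)).one 0 J)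

omit [G.LocallyFinite] [Countable V] in
lemma Fm_map (g : G ≃g G) (J : ℕ) (x : V) {Ω Ω' : V × (ℕ × Lab) → I}
    (hΩ : ∀ v k, Ω' (g v, k) = Ω (v, k)) :
    Fm G θ (D.map g.toEquiv.toEmbedding) J (g x) Ω' = Fm G θ D J x Ω := by
  have h := rnds_map (D := D) g.toEquiv (f := one (stp G θ D))
    (f' := one (stp G θ (D.map g.toEquiv.toEmbedding))) (π := fun l v => l (g.symm v))
    (fun l w p => by
      have e := mI_map (θ := θ) g D (l := l) (l' := fun v => l (g.symm v)) (fun v => by simp) w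
      have m : g w ∈ D.map g.toEquiv.toEmbedding ↔ w ∈ D := Finset.mem_map' _
      change (fun v => stA G θ D D l w p.1 (g.symm v)) = stA G θ _ _ _ (g w) p.1
      unfold stA
      simp only [m]
      split_ifs
      · unfold st
        rw [e]
        funext z
        simp only [addf]
        congr 2
        exact propext g.toEquiv.symm_apply_eq
      · rfl) 0 hΩ J
  unfold Fm
  refine mI_map g D (fun v => ?_) x
  have := congrFun h (g v)
  simp only [RelIso.symm_apply_apply] at this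
  exact this.symm

omit [G.LocallyFinite] in
lemma Inf_map (hθ : θ ∈ Set.Ico (0 : ℝ) 1) (g : G ≃g G) (J : ℕ) (x u : V) :
    Inf G θ (D.map g.toEquiv.toEmbedding) J (g x) {g u} = Inf G θ D J x {u} := by
  have mp := reindex_mp (M := V × (ℕ × Lab)) (j := fun p => (g p.1, p.2)) fun a b h => by
    simp only [Prod.mk.injEq, EmbeddingLike.apply_eq_iff_eq] at h; exact Prod.ext h.1 h.2
  have bm := bm_sq ((bm_Fm (G := G) (D := D) hθ J x).sub
    ((bm_Fm (G := G) (D := D) hθ J x).comp (sw_mp {u}).measurable))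
  unfold Inf
  conv_rhs => rw [← mp.map_eq]
  rw [integral_map mp.measurable.aemeasurable bm.meas.aestronglyMeasurable]
  refine integral_congr_ae (Eventually.of_forall fun Ω => ?_)
  dsimp only
  rw [Fm_map g J x (Ω := fun m => Ω (g m.1, m.2)) fun _ _ => rfl,
    Fm_map g J x (Ω := sw {u} fun m => Ω (g m.1, m.2)) fun v k => by simp [sw]]

omit [G.LocallyFinite] in
lemma Inf_eq (hθ : θ ∈ Set.Ico (0 : ℝ) 1) (hD : D.Nonempty) (J : ℕ) (x : V) (A : Finset V) :
    Inf G θ D J x A = ∫ Ω, ESn G θ D x A (tot D J Ω) ∂(iidUniform (V × (ℕ × Lab))) := by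
  have := pppJ hD ((ms_stp (G := G) (θ := θ) (D := D)).pr A) (0, 0) J
    (g := fun s => Dd G θ D s x ^ 2) (bm_sq (((bm_mI hθ x).comp measurable_fst).sub
      ((bm_mI hθ x).comp measurable_snd)))
  simp only [rnds_sw] at this
  exact this

omit [G.LocallyFinite] in
lemma Del_eq (hθ : θ ∈ Set.Ico (0 : ℝ) 1) {D' : Finset V} (hD : D'.Nonempty) (hsub : D ⊆ D')
    (J : ℕ) (x : V) :
    Del G θ D D' J x = ∫ Ω, Dl G θ D D' x (tot D' J Ω) ∂(iidUniform (V × (ℕ × Lab))) := by
  have := pppJ hD (ms_two (G := G) (θ := θ) (D := D) D') (0, 0) J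
    (g := fun s => |mI G θ D s.1 x - mI G θ D' s.2 x|) (((bm_mI hθ x).comp measurable_fst).sub
      ((bm_mI hθ x).comp measurable_snd)).abs
  refine Eq.trans (integral_congr_ae ?_) this
  filter_upwards [rnds_sub hsub (f := one (stp G θ D)) (fun s w p hw => if_neg hw) 0] with Ω h
  rw [rnds_semi (f' := one (stp G θ D)) (π := Prod.fst) (fun _ _ _ _ => rfl),
    rnds_semi (f' := one (stp G θ D')) (π := Prod.snd) (fun _ _ _ _ => rfl), h J]
  rfl

omit [G.LocallyFinite] in
lemma Del_tri (hθ : θ ∈ Set.Ico (0 : ℝ) 1) (D1 D2 D3 : Finset V) (J : ℕ) (x : V) :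
    Del G θ D1 D2 J x ≤ Del G θ D1 D3 J x + Del G θ D2 D3 J x := by
  have b := fun D D' : Finset V => (((bm_Fm (G := G) (D := D) hθ J x).sub
    (bm_Fm (G := G) (D := D') hθ J x)).abs).integrable (iidUniform (V × (ℕ × Lab)))
  unfold Del
  rw [← integral_add (b _ _) (b _ _)]
  refine integral_mono (b _ _) ((b _ _).add (b _ _)) fun Ω => ?_
  dsimp only
  rw [abs_sub_comm (Fm G θ D2 J x Ω)]
  exact abs_sub_le _ _ _

omit [G.LocallyFinite] in
lemma Inf_le (hθ : θ ∈ Set.Ico (0 : ℝ) 1) (D1 D2 : Finset V) (J : ℕ) (x : V) (A : Finset V) :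
    Inf G θ D1 J x A ≤ 3 * Inf G θ D2 J x A + 6 * Del G θ D1 D2 J x := by
  have b := ((bm_Fm (G := G) (D := D1) hθ J x).sub (bm_Fm (G := G) (D := D2) hθ J x)).abs
  have b' := b.comp (sw_mp A).measurable
  have c := fun D : Finset V => (bm_sq ((bm_Fm (G := G) (D := D) hθ J x).sub
    ((bm_Fm (G := G) (D := D) hθ J x).comp (sw_mp A).measurable))).integrable
      (iidUniform (V × (ℕ × Lab)))
  have e : ∫ Ω, |Fm G θ D1 J x (sw A Ω) - Fm G θ D2 J x (sw A Ω)|
      ∂(iidUniform (V × (ℕ × Lab))) = Del G θ D1 D2 J x := by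
    unfold Del
    conv_rhs => rw [← (sw_mp A).map_eq]
    rw [integral_map (sw_mp A).measurable.aemeasurable b.meas.aestronglyMeasurable]
  have i1 := ((c D2).add (b.integrable _)).add (b'.integrable _)
  have h := integral_mono (c D1) (i1.const_mul 3) fun Ω => by
    have h1 : |Fm G θ D1 J x Ω - Fm G θ D2 J x Ω| ≤ 1 :=
      abs_le_one (mI_mem hθ _ _ _) (mI_mem hθ _ _ _)
    have h2 : |Fm G θ D1 J x (sw A Ω) - Fm G θ D2 J x (sw A Ω)| ≤ 1 :=
      abs_le_one (mI_mem hθ _ _ _) (mI_mem hθ _ _ _)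
    simp only [Pi.add_apply]
    generalize Fm G θ D1 J x Ω = a, Fm G θ D2 J x Ω = b, Fm G θ D1 J x (sw A Ω) = a',
      Fm G θ D2 J x (sw A Ω) = b' at h1 h2 ⊢
    have h3 := mul_le_of_le_one_left (abs_nonneg (a - b)) h1
    have h4 := mul_le_of_le_one_left (abs_nonneg (a' - b')) h2
    rw [abs_mul_abs_self] at h3 h4
    nlinarith [sq_nonneg ((a - b) - (b - b')), sq_nonneg ((a - b) + (a' - b')),
      sq_nonneg ((b - b') + (a' - b'))]
  rw [integral_const_mul, integral_add' ((c D2).add (b.integrable _)) (b'.integrable _),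
    integral_add' (c D2) (b.integrable _), e] at h
  unfold Inf
  unfold Del at h ⊢
  linarith

omit [G.LocallyFinite] [Countable V] in
lemma cont_mI_om {l : Set.Ico (0 : ℝ) 1 → V → ℝ} (hl : Continuous l) (x : V) :
    Continuous fun t : Set.Ico (0 : ℝ) 1 => mI G t D (l t) x := by
  have c : ∀ g, Continuous fun t : Set.Ico (0 : ℝ) 1 => SI G t D (l t) g := fun g => by
    unfold SI wI tilt
    refine continuous_finsetSum _ fun T _ => Continuous.mul (Continuous.mul
      (continuous_finsetProd _ fun e _ => by fun_prop)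
      (continuous_finsetProd _ fun e _ => by fun_prop)) continuous_const
  exact (c _).div (c _) fun t => (SI_pos t.2 D _).ne'

omit [G.LocallyFinite] [Countable V] in
lemma cont_stp_om {l : Set.Ico (0 : ℝ) 1 → V → ℝ} (hl : Continuous l) (w : V) (u : I) :
    Continuous fun t : Set.Ico (0 : ℝ) 1 => stp G t D (l t) w u := by
  unfold stp stA
  split_ifs
  swap
  · exact hl
  have hε : (1 / 2 : ℝ) ∈ Set.Ioc (0 : ℝ) (1 / 2) := ⟨by norm_num, le_rfl⟩
  have c1 := cont_mI_om (G := G) (D := D) hl w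
  have m := fun t : Set.Ico (0 : ℝ) 1 => mI_mem (G := G) t.2 D (l t) w
  have c2 : Continuous fun t : Set.Ico (0 : ℝ) 1 => Qf (1 / 2) (mI G t D (l t) w) u := by
    unfold Qf
    refine continuous_const.div (by fun_prop) fun t => ne_of_gt (add_pos_of_pos_of_nonneg ?_
      (Real.sqrt_nonneg _))
    linarith [(s_bound hε (m t)).2]
  have c3 : Continuous fun t : Set.Ico (0 : ℝ) 1 =>
      lam (1 / 2) (Qf (1 / 2) (mI G t D (l t) w) u) := by
    have q := fun t => s_bound hε (Qf_spec hε (m t) u.2).1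
    unfold lam
    exact (Continuous.log (by fun_prop) fun t => by linarith [(q t).1]).sub
      (Continuous.log (by fun_prop) fun t => by linarith [(q t).2])
  unfold st addf
  refine continuous_pi fun z => Continuous.add (by fun_prop) ?_
  split_ifs
  exacts [c3, continuous_const]

omit [G.LocallyFinite] [Countable V] in
lemma cont_rnds_om (Ω : V × (ℕ × Lab) → I) (J : ℕ) :
    Continuous fun t : Set.Ico (0 : ℝ) 1 => rnds D (one (stp G t D)) 0 Ω J := by
  have key : ∀ (ω : V × Lab → I) (L : List (V × ℕ)) (l : Set.Ico (0 : ℝ) 1 → V → ℝ),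
      Continuous l → Continuous fun t : Set.Ico (0 : ℝ) 1 =>
        L.foldl (fun s e => one (stp G t D) s e.1 (mk2 ω e)) (l t) := fun ω L => by
    induction L with
    | nil => exact fun l hl => hl
    | cons e L ih => exact fun l hl => ih _ (cont_stp_om hl _ _)
  induction J with
  | zero => exact continuous_const
  | succ J ih =>
    simp only [rnds, rnd]
    split_ifs
    exacts [key _ _ _ ih, ih]

omit [G.LocallyFinite] in
lemma Del_cont (D1 D2 : Finset V) (J : ℕ) (x : V) :
    ContinuousOn (fun θ => Del G θ D1 D2 J x) (Set.Ico 0 1) := by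
  rw [continuousOn_iff_continuous_domRestrict]
  refine continuous_of_dominated (bound := fun _ => 1)
    (F := fun (t : Set.Ico (0 : ℝ) 1) Ω => |Fm G t D1 J x Ω - Fm G t D2 J x Ω|)
    (fun t => ((bm_Fm t.2 J x).sub (bm_Fm t.2 J x)).abs.meas.aestronglyMeasurable)
    (fun t => Eventually.of_forall fun Ω => ?_) (integrable_const _)
    (Eventually.of_forall fun Ω => ((cont_mI_om (cont_rnds_om Ω J) x).sub
      (cont_mI_om (cont_rnds_om Ω J) x)).abs)
  rw [Real.norm_eq_abs, abs_abs]
  exact abs_le_one (mI_mem t.2 _ _ _) (mI_mem t.2 _ _ _)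

omit [G.LocallyFinite] in
/-- `vr_decay`, `tot_exp_neg`: `min (1/4) (C/τ) ≤ 4 C / J + exp (J/4 - τ)` for `J ≥ 4` -/
lemma Fm_var : ∃ C : ℝ, 0 < C ∧ ∀ θ ∈ Set.Ico (0 : ℝ) 1, ∀ (D : Finset V), ∀ x ∈ D, ∀ J : ℕ,
    1 ≤ J → ∫ Ω, Fm G θ D J x Ω * (1 - Fm G θ D J x Ω) ∂(iidUniform (V × (ℕ × Lab))) ≤ C / J := by
  obtain ⟨C, hC, h⟩ := vr_decay
  refine ⟨4 * C + 5, by positivity, fun θ hθ D x hx J hJ => ?_⟩
  have hD : D.Nonempty := ⟨x, hx⟩
  have hN : (0 : ℝ) < D.card := by exact_mod_cast hD.card_pos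
  have hJ' : (1 : ℝ) ≤ J := by exact_mod_cast hJ
  have ms := (ms_stp (G := G) (θ := θ) (D := D)).one
  have mk := mk_op hD ms
  have be : BM fun Ω => Real.exp (-((tot D J Ω : ℝ) / D.card)) :=
    BM.of_mem (a := 0) (b := 1)
      ((((measurable_from_top (f := fun n : ℕ => (n : ℝ))).comp (measurable_tot J)).div_const
        _).neg.exp) fun Ω => ⟨(Real.exp_pos _).le, Real.exp_le_one_iff.2 (neg_nonpos.2
          (by positivity))⟩
  refine (pppJ hD ms 0 J (bm_vr hθ x)).trans_le ?_
  refine (integral_mono (g := fun Ω => (4 * C + 1) / J +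
    Real.exp (J / 4) * Real.exp (-((tot D J Ω : ℝ) / D.card)))
    ((bm_iter mk (bm_vr hθ x) (measurable_tot J) measurable_const).integrable _)
    (((BM.const _).add ((BM.const _).mul be)).integrable _) fun Ω => ?_).trans ?_
  · dsimp only
    generalize tot D J Ω = n
    have h1 := (mk.iter n).le_const (bm_vr (G := G) (D := D) hθ x) (fun l => (vr_mem hθ l x).2) 0
    have p1 : 0 ≤ (4 * C + 1) / J := by positivity
    have p2 : 0 ≤ Real.exp (J / 4) * Real.exp (-((n : ℝ) / D.card)) := by positivity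
    by_cases c1 : (n : ℝ) / D.card ≤ J / 4
    · have := Real.one_le_exp (x := J / 4 + -((n : ℝ) / D.card)) (by linarith)
      rw [Real.exp_add] at this
      linarith
    by_cases c2 : (J : ℝ) ≤ 4
    · have : 1 / 4 ≤ (4 * C + 1) / J := by
        rw [le_div_iff₀ (by linarith)]; linarith
      linarith
    rw [not_le, lt_div_iff₀ hN] at c1
    have hn : (D.card : ℝ) ≤ n := by nlinarith
    have h2 := h V G θ D hθ x hx n (by exact_mod_cast hn) 0
    have h3 : C * ((D.card : ℝ) / n) ≤ (4 * C + 1) / J := by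
      rw [← mul_div_assoc, div_le_div_iff₀ (by linarith) (by linarith)]
      nlinarith
    exact h2.trans (h3.trans (le_add_of_nonneg_right p2))
  · rw [integral_add (integrable_const _) (((BM.const _).mul be).integrable _), integral_const,
      integral_const_mul]
    have h1 := mul_le_mul_of_nonneg_left (tot_exp_neg hD J) (Real.exp_pos (J / 4)).le
    have h2 : Real.exp (J / 4) * Real.exp (-(J / 2 : ℝ)) ≤ 4 / J := by
      rw [← Real.exp_add, show (J / 4 : ℝ) + -(J / 2) = -(J / 4) by ring, Real.exp_neg,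
        inv_le_comm₀ (Real.exp_pos _) (by positivity), inv_div]
      linarith [Real.add_one_le_exp (J / 4 : ℝ)]
    have h3 : (4 * C + 5) / J = (4 * C + 1) / J + 4 / J := by ring
    simp only [probReal_univ, one_smul]
    linarith

omit [G.LocallyFinite] in
/-- `|a - c| ≤ a (1 - c) + (1 - a) c` and `rnds_mart` -/
lemma Fm_time (hθ : θ ∈ Set.Ico (0 : ℝ) 1) {x : V} (hx : x ∈ D) (J K : ℕ) :
    ∫ Ω, |Fm G θ D (J + K) x Ω - Fm G θ D J x Ω| ∂(iidUniform (V × (ℕ × Lab))) ≤
      2 * ∫ Ω, Fm G θ D J x Ω * (1 - Fm G θ D J x Ω) ∂(iidUniform (V × (ℕ × Lab))) := by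
  have hD : D.Nonempty := ⟨x, hx⟩
  have bg : BM fun l => 1 - 2 * mI G θ D l x := (BM.const 1).sub ((BM.const 2).mul (bm_mI hθ x))
  have h := rnds_mart hD (ms_stp (G := G) (θ := θ) (D := D)).one 0 (bm_mI hθ x) bg
    (fun l => by
      have := PS_ex (G := G) hθ hD D (fun T => ind T x) l
      simp only [ex_ind] at this
      exact this) J K
  have b := fun J => bm_Fm (G := G) (D := D) hθ J x
  have b2 := fun K => (((BM.const 1).sub ((BM.const 2).mul (b J))).mul (b K)).integrable
    (iidUniform (V × (ℕ × Lab)))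
  refine (integral_mono (((b _).sub (b _)).abs.integrable _) (((b J).integrable _).add (b2 (J + K)))
    fun Ω => ?_).trans_eq ?_
  · have h1 : Fm G θ D J x Ω ∈ Set.Icc (0 : ℝ) 1 := mI_mem hθ _ _ _
    have h2 : Fm G θ D (J + K) x Ω ∈ Set.Icc (0 : ℝ) 1 := mI_mem hθ _ _ _
    simp only [Pi.add_apply]
    rw [abs_le]
    constructor <;> nlinarith [h1.1, h1.2, h2.1, h2.2]
  · rw [integral_add' ((b J).integrable _) (b2 _)]
    erw [h]
    rw [← integral_const_mul]
    refine (integral_add ((b J).integrable _) (b2 J)).symm.trans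
      (integral_congr_ae (Eventually.of_forall fun Ω => ?_))
    ring

omit [G.LocallyFinite] in
/-- `PS_ex`, `pppJ`, `cylF_sub` -/
lemma Fm_law (hθ : θ ∈ Set.Ico (0 : ℝ) 1) (hD : D.Nonempty) {A B : Finset V} (hA : A ⊆ D)
    (hB : B ⊆ D) (J : ℕ) :
    |∫ Ω, cylF A B (fun x => Fm G θ D J x Ω) ∂(iidUniform (V × (ℕ × Lab))) -
      ex G θ D 0 fun T => cylF A B (ind T)| ≤ 4 * ∑ x ∈ A ∪ B,
        ∫ Ω, Fm G θ D J x Ω * (1 - Fm G θ D J x Ω) ∂(iidUniform (V × (ℕ × Lab))) := by
  have ms := (ms_stp (G := G) (θ := θ) (D := D)).one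
  have bg : BM fun l => ex G θ D l fun T => cylF A B (ind T) :=
    bm_ex hθ measurable_id fun _ => BM.const _
  have h := pppJ hD ms 0 J bg
  have fix : op D (one (stp G θ D)) (fun l => ex G θ D l fun T => cylF A B (ind T)) =
      fun l => ex G θ D l fun T => cylF A B (ind T) := funext (PS_ex hθ hD D _)
  simp only [Function.iterate_fixed fix, integral_const, probReal_univ, one_smul] at h
  have b := fun x => bm_Fm (G := G) (D := D) hθ J x
  have bv := fun x => (b x).mul ((BM.const 1).sub (b x))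
  have bc : BM fun Ω => cylF A B fun x => Fm G θ D J x Ω :=
    (BM.prod _ fun e _ => b e).mul (BM.prod _ fun e _ => (BM.const 1).sub (b e))
  have bg' := bg.comp (measurable_rnds (D := D) ms 0 J)
  rw [← h, ← integral_sub (bc.integrable _) (bg'.integrable _),
    ← integral_finsetSum _ fun x _ => (bv x).integrable _, ← integral_const_mul]
  refine abs_integral_le_integral_abs.trans (integral_mono ((bc.sub bg').abs.integrable _)
    (((BM.const 4).mul (BM.sum _ fun x _ => bv x)).integrable _) fun Ω => ?_)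
  unfold Fm
  dsimp only
  generalize rnds D (one (stp G θ D)) 0 Ω J = l
  have key : ∀ T, |cylF A B (fun x => mI G θ D l x) - cylF A B (ind T)| ≤
      2 * ∑ e ∈ A ∪ B, (mI G θ D l e + (1 - 2 * mI G θ D l e) * ind T e) := fun T => by
    refine (cylF_sub A B (mI_mem hθ D l) (ind_mem T)).trans_eq ?_
    congr 1
    refine Finset.sum_congr rfl fun e _ => ?_
    have := mI_mem (G := G) hθ D l e
    unfold ind
    split_ifs
    · rw [abs_of_nonpos (by linarith [this.2])]; ring
    · rw [sub_zero, abs_of_nonneg this.1]; ring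
  have e : ex G θ D l (fun T => 2 * ∑ e ∈ A ∪ B,
      (mI G θ D l e + (1 - 2 * mI G θ D l e) * ind T e)) =
      4 * ∑ x ∈ A ∪ B, mI G θ D l x * (1 - mI G θ D l x) := by
    rw [ex_smul, ex_sum, Finset.mul_sum, Finset.mul_sum]
    refine Finset.sum_congr rfl fun e _ => ?_
    rw [ex_add, ex_smul, ex_const hθ, ex_ind]; ring
  have h1 := ex_mono (G := G) (D := D) hθ l fun T _ => sub_le_iff_le_add'.1 (abs_le.1 (key T)).2
  have h2 := ex_mono (G := G) (D := D) hθ l fun T _ =>
    sub_le_iff_le_add'.1 (abs_sub_le_iff.1 (key T)).2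
  rw [ex_add, e, ex_const hθ] at h1 h2
  rw [abs_le]
  constructor <;> linarith

end Vale.Agent.P161E
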