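import Vale.Agent.P161E.Rnd

namespace Vale.Agent.P161E

open MeasureTheory unitInterval Classical SimpleGraph Filter Topology
open Vale.Agent.P161
open Vale.Agent.P143 (BM iidUniform)

variable {V : Type} {G : SimpleGraph V} [G.LocallyFinite] {d : ℕ} {θ : ℝ} {D : Finset V}

variable {S : Type} [MeasurableSpace S]

/-- fold along a duplicate-free list of events: the marks are independent uniforms -/
noncomputable def foldOp (f : S → V → I × I → S) : List V → (S → ℝ) → S → ℝ
  | [], g => g
  | w :: L, g => fun s => ∫ p : I × I, foldOp f L g (f s w p)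

/-! words over `D` and enumerations of events -/

/-- words of length `n` over `D` -/
noncomputable def wdP (D : Finset V) : ℕ → Finset (List V)
  | 0 => {[]}
  | n + 1 => (D ×ˢ wdP D n).image fun q => q.1 :: q.2

lemma sum_wdP (n : ℕ) (F : List V → ℝ) :
    ∑ L ∈ wdP D (n + 1), F L = ∑ v ∈ D, ∑ L ∈ wdP D n, F (v :: L) := by
  rw [wdP, Finset.sum_image, Finset.sum_product]
  intro a _ b _ h
  simp only [List.cons.injEq] at h
  exact Prod.ext h.1 h.2

lemma mem_wdP {n : ℕ} {L : List V} : L ∈ wdP D n ↔ L.length = n ∧ ∀ v ∈ L, v ∈ D := by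
  induction n generalizing L with
  | zero =>
    simp only [wdP, Finset.mem_singleton, List.length_eq_zero_iff]
    exact ⟨fun h => ⟨h, by simp [h]⟩, fun h => h.1⟩
  | succ n ih =>
    simp only [wdP, Finset.mem_image, Finset.mem_product, ih]
    constructor
    · rintro ⟨⟨v, M⟩, ⟨h1, h2, h3⟩, rfl⟩
      refine ⟨by simp [h2], fun u hu => ?_⟩
      rcases List.mem_cons.1 hu with rfl | hu
      exacts [h1, h3 u hu]
    · rintro ⟨h1, h2⟩
      cases L with
      | nil => simp at h1
      | cons v M =>
        exact ⟨(v, M), ⟨h2 v List.mem_cons_self, by simpa using h1,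
          fun u hu => h2 u (List.mem_cons_of_mem _ hu)⟩, rfl⟩

lemma sum_wdP_const (n : ℕ) (c : ℝ) : ∑ _L ∈ wdP D n, c = (D.card : ℝ) ^ n * c := by
  induction n with
  | zero => simp [wdP]
  | succ n ih =>
    rw [sum_wdP n fun _ => c]
    simp only [ih, Finset.sum_const, nsmul_eq_mul]
    ring

/-- enumerations of `E` visiting the sites in the order `L` -/
noncomputable def enP : List V → Finset (V × ℕ) → Finset (List (V × ℕ))
  | [], E => if E = ∅ then {[]} else ∅
  | v :: L, E => (E.filter fun e => e.1 = v).biUnion fun e =>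
      (enP L (E.erase e)).image fun M => e :: M

lemma mem_enP {L : List V} {E : Finset (V × ℕ)} {M : List (V × ℕ)} :
    M ∈ enP L E ↔ M.Nodup ∧ M.toFinset = E ∧ M.map Prod.fst = L := by
  induction L generalizing E M with
  | nil =>
    rw [enP]
    split_ifs with h
    · simp only [Finset.mem_singleton, List.map_eq_nil_iff]
      exact ⟨fun h' => by simp [h', h], fun h' => h'.2.2⟩
    · simp only [Finset.notMem_empty, List.map_eq_nil_iff, false_iff]
      rintro ⟨-, h2, rfl⟩
      exact h (by simpa using h2.symm)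
  | cons v L ih =>
    simp only [enP, Finset.mem_biUnion, Finset.mem_filter, Finset.mem_image, ih]
    constructor
    · rintro ⟨e, ⟨h1, h2⟩, M', ⟨h3, h4, h5⟩, rfl⟩
      refine ⟨List.nodup_cons.2 ⟨fun h => ?_, h3⟩, ?_, by simp [h2, h5]⟩
      · have := List.mem_toFinset.2 h
        rw [h4] at this
        simp at this
      · rw [List.toFinset_cons, h4, Finset.insert_erase h1]
    · rintro ⟨h1, h2, h3⟩
      cases M with
      | nil => simp at h3
      | cons e M' =>
        simp only [List.map_cons, List.cons.injEq] at h3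
        rw [List.nodup_cons] at h1
        rw [List.toFinset_cons] at h2
        refine ⟨e, ⟨h2 ▸ Finset.mem_insert_self _ _, h3.1⟩, M', ⟨h1.2, ?_, h3.2⟩, rfl⟩
        rw [← h2, Finset.erase_insert fun h => h1.1 (List.mem_toFinset.1 h)]

lemma card_enP {L : List V} (hL : ∀ v ∈ L, v ∈ D) {E : Finset (V × ℕ)}
    (h : ∀ v, (E.filter fun e => e.1 = v).card = L.count v) :
    (enP L E).card = ∏ v ∈ D, (L.count v).factorial := by
  induction L generalizing E with
  | nil =>
    have : E = ∅ := by
      rw [Finset.eq_empty_iff_forall_notMem]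
      intro e he
      have h1 := h e.1
      rw [List.count_nil, Finset.card_eq_zero] at h1
      have : e ∈ E.filter fun e' => e'.1 = e.1 := Finset.mem_filter.2 ⟨he, rfl⟩
      simp [h1] at this
    simp [enP, this]
  | cons v L ih =>
    have hv : v ∈ D := hL v List.mem_cons_self
    rw [enP, Finset.card_biUnion]
    · rw [Finset.sum_congr rfl (g := fun _ => ∏ u ∈ D, (L.count u).factorial)]
      · rw [Finset.sum_const, h v, smul_eq_mul, ← Finset.mul_prod_erase D _ hv,
          ← Finset.mul_prod_erase D _ hv, List.count_cons_self, Nat.factorial_succ, mul_assoc]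
        congr 2
        refine Finset.prod_congr rfl fun u hu => ?_
        rw [List.count_cons_of_ne (Finset.ne_of_mem_erase hu).symm]
      · intro e he
        rw [Finset.mem_filter] at he
        rw [Finset.card_image_of_injective _ fun a b hab => (List.cons.inj hab).2]
        refine ih (fun u hu => hL u (List.mem_cons_of_mem _ hu)) fun u => ?_
        have h1 := h u
        rw [Finset.filter_erase]
        by_cases hu : v = u
        · subst hu
          rw [Finset.card_erase_of_mem (Finset.mem_filter.2 he), h1, List.count_cons_self]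
          simp
        · rw [Finset.erase_eq_of_notMem, h1, List.count_cons_of_ne hu]
          intro h2
          exact hu (he.2.symm.trans (Finset.mem_filter.1 h2).2)
    · intro a _ b _ hab
      rw [Function.onFun, Finset.disjoint_left]
      intro M h1 h2
      obtain ⟨M1, -, rfl⟩ := Finset.mem_image.1 h1
      obtain ⟨M2, -, h3⟩ := Finset.mem_image.1 h2
      exact hab (List.cons.inj h3).1.symm

/-- the events with counts `κ` -/
noncomputable def ekP (D : Finset V) (κ : V → ℕ) : Finset (V × ℕ) :=
  D.biUnion fun v => (Finset.range (κ v)).image fun i => (v, i)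

lemma mem_ekP {κ : V → ℕ} {e : V × ℕ} : e ∈ ekP D κ ↔ e.1 ∈ D ∧ e.2 < κ e.1 := by
  simp only [ekP, Finset.mem_biUnion, Finset.mem_image, Finset.mem_range]
  constructor
  · rintro ⟨v, hv, i, hi, rfl⟩
    exact ⟨hv, hi⟩
  · rintro ⟨h1, h2⟩
    exact ⟨e.1, h1, e.2, h2, rfl⟩

lemma ekP_congr {κ κ' : V → ℕ} (h : ∀ v ∈ D, κ v = κ' v) : ekP D κ = ekP D κ' := by
  ext e
  rw [mem_ekP, mem_ekP]
  exact and_congr_right fun he => by rw [h _ he]

lemma card_filter_ekP (κ : V → ℕ) (v : V) :
    ((ekP D κ).filter fun e => e.1 = v).card = if v ∈ D then κ v else 0 := by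
  split_ifs with hv
  · have : (ekP D κ).filter (fun e => e.1 = v) = (Finset.range (κ v)).image fun i => (v, i) := by
      ext e
      simp only [Finset.mem_filter, mem_ekP, Finset.mem_image, Finset.mem_range]
      constructor
      · rintro ⟨⟨-, h2⟩, rfl⟩
        exact ⟨e.2, h2, rfl⟩
      · rintro ⟨i, hi, rfl⟩
        exact ⟨⟨hv, hi⟩, rfl⟩
    rw [this, Finset.card_image_of_injective _ fun a b h => (Prod.ext_iff.1 h).2,
      Finset.card_range]
  · rw [Finset.card_eq_zero, Finset.filter_eq_empty_iff]
    rintro e he rfl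
    exact hv (mem_ekP.1 he).1

lemma card_ekP (κ : V → ℕ) : (ekP D κ).card = ∑ v ∈ D, κ v := by
  rw [Finset.card_eq_sum_card_fiberwise (f := Prod.fst) (t := D) fun e he => (mem_ekP.1 he).1]
  exact Finset.sum_congr rfl fun v hv => by rw [card_filter_ekP, if_pos hv]

lemma count_fst_P {M : List (V × ℕ)} (hM : M.Nodup) (v : V) :
    (M.map Prod.fst).count v = (M.toFinset.filter fun e => e.1 = v).card := by
  induction M with
  | nil => simp
  | cons e M ih =>
    rw [List.nodup_cons] at hM
    rw [List.map_cons, List.toFinset_cons, Finset.filter_insert]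
    split_ifs with h
    · rw [h, List.count_cons_self, Finset.card_insert_of_notMem, ih hM.2]
      intro h1
      exact hM.1 (List.mem_toFinset.1 (Finset.mem_filter.1 h1).1)
    · rw [List.count_cons_of_ne h, ih hM.2]

/-! independence -/

lemma bm_int_P {X Y : Type} [MeasurableSpace X] [MeasurableSpace Y] (ν : Measure Y)
    [IsProbabilityMeasure ν] {F : X × Y → ℝ} (hF : BM F) : BM fun x => ∫ t, F (x, t) ∂ν := by
  obtain ⟨C, hC⟩ := hF.bdd
  refine ⟨(hF.meas.stronglyMeasurable.integral_prod_right' (ν := ν)).measurable, C,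
    fun x => ?_⟩
  simpa using norm_integral_le_of_norm_le_const (μ := ν)
    (f := fun t => F (x, t)) (C := C) (Filter.Eventually.of_forall fun t => hC _)

/-- glue two configurations along `T` -/
noncomputable def pwP {N : Type} (T : Set N) (a b : N → I) : N → I := T.piecewise a b

lemma pwP_mem {N : Type} {T : Set N} (a b : N → I) {n : N} (h : n ∈ T) : pwP T a b n = a n :=
  Set.piecewise_eq_of_mem _ _ _ h

lemma pwP_not {N : Type} {T : Set N} (a b : N → I) {n : N} (h : n ∉ T) : pwP T a b n = b n :=
  Set.piecewise_eq_of_notMem _ _ _ h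

lemma pwP_mp {N : Type} (T : Set N) :
    MeasurePreserving (fun p : (N → I) × (N → I) => pwP T p.1 p.2)
      ((iidUniform N).prod (iidUniform N)) (iidUniform N) := Vale.Agent.P143.piecewise_mp T

lemma split_P {N : Type} (T : Set N) {F : (N → I) → ℝ} (hF : BM F) :
    ∫ ω, F ω ∂(iidUniform N) =
      ∫ a, ∫ b, F (pwP T a b) ∂(iidUniform N) ∂(iidUniform N) := by
  have h := pwP_mp T
  rw [← integral_prod (fun p : (N → I) × (N → I) => F (pwP T p.1 p.2))
    ((hF.comp h.measurable).integrable _)]
  conv_lhs => rw [← h.map_eq]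
  exact integral_map h.measurable.aemeasurable hF.meas.aestronglyMeasurable

lemma eval_int_P {N : Type} (a : N) {F : I → ℝ} (hF : BM F) :
    ∫ ω, F (ω a) ∂(iidUniform N) = ∫ t, F t := by
  have h : MeasurePreserving (Function.eval a) (iidUniform N) (volume : Measure I) :=
    measurePreserving_eval_infinitePi _ a
  conv_rhs => rw [← h.map_eq]
  exact (integral_map h.measurable.aemeasurable hF.meas.aestronglyMeasurable).symm

lemma pair_int_P {N : Type} {a b : N} (hab : a ≠ b) {F : I × I → ℝ} (hF : BM F) :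
    ∫ ω, F (ω a, ω b) ∂(iidUniform N) = ∫ p, F p := by
  rw [split_P {a} (F := fun ω => F (ω a, ω b)) (hF.comp (by fun_prop)), Measure.volume_eq_prod,
    integral_prod _ (hF.integrable _), ← eval_int_P a (bm_int_P volume hF)]
  refine integral_congr_ae (Eventually.of_forall fun x => ?_)
  simp only [pwP_mem _ _ (Set.mem_singleton a),
    pwP_not _ _ (show b ∉ ({a} : Set N) from hab.symm)]
  exact eval_int_P b (F := fun t => F (x a, t)) (hF.comp (by fun_prop))

lemma bm_foldOp {f : S → V → I × I → S} (hf : Ms f) {g : S → ℝ} (hg : BM g) (L : List V) :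
    BM (foldOp f L g) := by
  induction L with
  | nil => exact hg
  | cons w L ih => exact bm_int_P volume (F := fun q => foldOp f L g (f q.1 w q.2)) (ih.comp (hf w))

omit [MeasurableSpace S] in
lemma abs_foldOp_le (f : S → V → I × I → S) {g : S → ℝ} {C : ℝ} (hC : ∀ x, |g x| ≤ C)
    (L : List V) (s : S) : |foldOp f L g s| ≤ C := by
  induction L generalizing s with
  | nil => exact hC s
  | cons w L ih =>
    simpa [foldOp] using norm_integral_le_of_norm_le_const (μ := (volume : Measure (I × I)))
      (f := fun p => foldOp f L g (f s w p)) (C := C) (Filter.Eventually.of_forall fun t => ih _)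

lemma op_iter_wdP {f : S → V → I × I → S} (hf : Ms f) {g : S → ℝ} (hg : BM g) (n : ℕ) (s : S) :
    (op D f)^[n] g s = (∑ L ∈ wdP D n, foldOp f L g s) / (D.card : ℝ) ^ n := by
  induction n generalizing s with
  | zero => simp [wdP, foldOp]
  | succ n ih =>
    rw [Function.iterate_succ_apply', op, sum_wdP, pow_succ, ← div_div]
    congr 1
    rw [Finset.sum_div]
    refine Finset.sum_congr rfl fun w _ => ?_
    simp only [ih, foldOp]
    rw [integral_div, integral_finsetSum]
    intro L _
    exact ((bm_foldOp hf hg L).comp ((hf w).comp measurable_prodMk_left)).integrable _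

/-- run along a list of events -/
def runP (f : S → V → I × I → S) (M : List (V × ℕ)) (s : S) (ω : V × Lab → I) : S :=
  M.foldl (fun s e => f s e.1 (mk2 ω e)) s

lemma measurable_mk2_P (e : V × ℕ) : Measurable fun ω : V × Lab → I => mk2 ω e := by
  unfold mk2
  fun_prop

lemma measurable_runP {f : S → V → I × I → S} (hf : Ms f) (M : List (V × ℕ)) :
    Measurable fun q : S × (V × Lab → I) => runP f M q.1 q.2 := by
  induction M with
  | nil => exact measurable_fst
  | cons e M ih =>
    exact ih.comp (f := fun q : S × (V × Lab → I) => (f q.1 e.1 (mk2 q.2 e), q.2))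
      (((hf e.1).comp (measurable_fst.prodMk ((measurable_mk2_P e).comp measurable_snd))).prodMk
        measurable_snd)

omit [MeasurableSpace S] in
lemma runP_congr (f : S → V → I × I → S) {M : List (V × ℕ)} (s : S) {ω ω' : V × Lab → I}
    (h : ∀ e ∈ M, mk2 ω e = mk2 ω' e) : runP f M s ω = runP f M s ω' := by
  induction M generalizing s with
  | nil => rfl
  | cons e M ih =>
    simp only [runP, List.foldl_cons]
    rw [h e List.mem_cons_self]
    exact ih _ fun e' he' => h e' (List.mem_cons_of_mem _ he')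

lemma int_runP {f : S → V → I × I → S} (hf : Ms f) {g : S → ℝ} (hg : BM g) {M : List (V × ℕ)}
    (hM : M.Nodup) (s : S) :
    ∫ ω, g (runP f M s ω) ∂(iidUniform (V × Lab)) = foldOp f (M.map Prod.fst) g s := by
  induction M generalizing s with
  | nil => simp [runP, foldOp]
  | cons e M ih =>
    rw [List.nodup_cons] at hM
    rw [split_P {n : V × Lab | ∃ k, n = (e.1, some (e.2, k))}
      (F := fun ω => g (runP f (e :: M) s ω))
      (hg.comp ((measurable_runP hf _).comp measurable_prodMk_left))]
    refine Eq.trans ?_ (pair_int_P (N := V × Lab) (a := (e.1, some (e.2, 1)))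
      (b := (e.1, some (e.2, 2))) (by simp)
      (F := fun p => foldOp f (M.map Prod.fst) g (f s e.1 p))
      ((bm_foldOp hf hg _).comp ((hf e.1).comp measurable_prodMk_left)))
    refine integral_congr_ae (Eventually.of_forall fun a => ?_)
    simp only
    rw [← ih hM.2]
    refine integral_congr_ae (Eventually.of_forall fun b => ?_)
    have h1 : mk2 (pwP {n : V × Lab | ∃ k, n = (e.1, some (e.2, k))} a b) e = mk2 a e := by
      unfold mk2
      have h0 : ∀ k, (e.1, some (e.2, k)) ∈ {n : V × Lab | ∃ k, n = (e.1, some (e.2, k))} :=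
        fun k => ⟨k, rfl⟩
      rw [pwP_mem _ _ (h0 1), pwP_mem _ _ (h0 2)]
    change g (runP f M (f s e.1 (mk2 _ e)) _) = g (runP f M (f s e.1 (mk2 a e)) b)
    rw [h1]
    congr 1
    refine runP_congr f _ fun e' he' => ?_
    have h2 : ∀ k, (e'.1, some (e'.2, k)) ∉ {n : V × Lab | ∃ k, n = (e.1, some (e.2, k))} := by
      rintro k ⟨k', hk⟩
      simp only [Prod.mk.injEq, Option.some.injEq] at hk
      exact hM.1 (Prod.ext hk.1 hk.2.1 ▸ he')
    unfold mk2
    rw [pwP_not _ _ (h2 1), pwP_not _ _ (h2 2)]

lemma meas_mono_P {N : Type} {n : ℕ} (j : Fin n → N) :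
    MeasurableSet {b : N → I | StrictMono fun i => b (j i)} := by
  have : {b : N → I | StrictMono fun i => b (j i)} =
      ⋂ i, ⋂ k, ⋂ (_ : i < k), {b : N → I | b (j i) < b (j k)} := by
    ext b
    simp [StrictMono]
  rw [this]
  exact MeasurableSet.iInter fun i => MeasurableSet.iInter fun k => MeasurableSet.iInter fun _ =>
    measurableSet_lt (measurable_pi_apply _) (measurable_pi_apply _)

/-- a fixed strict order of `n` distinct keys has probability `1 / n!` -/
lemma order_prob {N : Type} {n : ℕ} {j : Fin n → N} (hj : Function.Injective j) :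
    (iidUniform N).real {b | StrictMono fun i => b (j i)} = 1 / n.factorial := by
  have key : ∀ j : Fin n → N, Function.Injective j →
      (iidUniform N).real {b | StrictMono fun i => b (j i)} =
        (iidUniform (Fin n)).real {b | StrictMono fun i => b (id i)} := fun j hj =>
    (reindex_mp hj).measureReal_preimage (meas_mono_P id).nullMeasurableSet
  have h1 : (iidUniform N).real (⋃ r ∈ (Finset.univ : Finset (Equiv.Perm (Fin n))),
      {b | StrictMono fun i => b ((j ∘ r) i)}) = 1 := by
    rw [← probReal_univ (μ := iidUniform N)]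
    refine measureReal_congr ?_
    rw [Filter.eventuallyEq_univ]
    filter_upwards [Vale.Agent.P143.ae_injective hj] with b hb
    simp only [Set.mem_iUnion]
    exact ⟨Tuple.sort fun i => b (j i), Finset.mem_univ _,
      (Tuple.monotone_sort fun i => b (j i)).strictMono_of_injective
        (hb.comp (Equiv.injective _))⟩
  rw [measureReal_biUnion_finset _ fun r _ => meas_mono_P _,
    Finset.sum_congr rfl fun r _ => (key _ (hj.comp r.injective)).trans (key j hj).symm,
    Finset.sum_const, Finset.card_univ, Fintype.card_perm, Fintype.card_fin, nsmul_eq_mul] at h1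
  · rw [eq_div_iff (by positivity), mul_comm, h1]
  · intro r _ τ _ hrt
    rw [Function.onFun, Set.disjoint_left]
    intro b h1 h2
    apply hrt
    have h3 := Tuple.unique_monotone (f := fun i => b (j i)) h1.monotone h2.monotone
    ext i
    have h4 : Function.Injective fun i => b (j i) := by
      have := h1.injective
      exact (Equiv.injective_comp r _).1 this
    exact congrArg Fin.val (h4 (congrFun h3 i))

/-- the event that the sorted list of events is `M` -/
def bsP (D : Finset V) (M : List (V × ℕ)) : Set (V × Lab → I) :=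
  {ω | ∀ v ∈ D, cnt ω v = (M.map Prod.fst).count v} ∩
    {ω | M.Pairwise fun e e' => ky ω e < ky ω e'}

lemma pairwise_eq_P (M : List (V × ℕ)) :
    {ω : V × Lab → I | M.Pairwise fun e e' => ky ω e < ky ω e'} =
      {ω | StrictMono fun i : Fin M.length =>
        ω ((fun i => ((M.get i).1, some ((M.get i).2, (0 : Fin 3)))) i)} := by
  ext ω
  simp only [Set.mem_ofPred_eq, List.pairwise_iff_get]
  exact ⟨fun h i j hij => h i j hij, fun h i j hij => h hij⟩

lemma meas_cnt_P (κ : V → ℕ) : MeasurableSet {ω : V × Lab → I | ∀ v ∈ D, cnt ω v = κ v} := by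
  have : {ω : V × Lab → I | ∀ v ∈ D, cnt ω v = κ v} =
      ⋂ v ∈ D, (fun ω : V × Lab → I => pq (ω (v, none))) ⁻¹' {κ v} := by
    ext ω
    simp [cnt]
  rw [this]
  exact Finset.measurableSet_biInter _ fun v _ =>
    (pq_spec.1.comp (measurable_pi_apply ((v, none) : V × Lab))) (measurableSet_singleton _)

lemma meas_pw_P (M : List (V × ℕ)) :
    MeasurableSet {ω : V × Lab → I | M.Pairwise fun e e' => ky ω e < ky ω e'} := by
  rw [pairwise_eq_P]
  exact meas_mono_P _

lemma meas_bsP (M : List (V × ℕ)) : MeasurableSet (bsP D M) :=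
  (meas_cnt_P _).inter (meas_pw_P M)

lemma prob_cnt_P (κ : V → ℕ) :
    (iidUniform (V × Lab)).real {ω | ∀ v ∈ D, cnt ω v = κ v} =
      ∏ v ∈ D, (Real.exp (-1) / (κ v).factorial) := by
  have hm : ∀ v, MeasurableSet (pq ⁻¹' {κ v}) := fun v => pq_spec.1 (measurableSet_singleton _)
  have h := (reindex_mp (j := fun v : V => ((v, none) : V × Lab))
    fun a b h => (Prod.ext_iff.1 h).1).measureReal_preimage
    (s := Set.pi D fun v => pq ⁻¹' {κ v})
    (MeasurableSet.pi D.countable_toSet fun v _ => hm v).nullMeasurableSet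
  refine Eq.trans ?_ (h.trans ?_)
  · congr 1
  · rw [measureReal_def, iidUniform, Measure.infinitePi_pi _ fun v _ => hm v,
      ENNReal.toReal_prod]
    refine Finset.prod_congr rfl fun v _ => ?_
    rw [← Measure.map_apply pq_spec.1 (measurableSet_singleton _), pq_spec.2, ← measureReal_def,
      ProbabilityTheory.poissonMeasure_real_singleton]
    simp

lemma prob_bsP {M : List (V × ℕ)} (hM : M.Nodup) :
    (iidUniform (V × Lab)).real (bsP D M) =
      (∏ v ∈ D, (Real.exp (-1) / ((M.map Prod.fst).count v).factorial)) *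
        (1 / M.length.factorial) := by
  have h := (pwP_mp {n : V × Lab | n.2 = none}).measureReal_preimage
    (meas_bsP (D := D) M).nullMeasurableSet
  have hj : Function.Injective fun i : Fin M.length =>
      (((M.get i).1, some ((M.get i).2, (0 : Fin 3))) : V × Lab) := by
    intro a b hab
    simp only [Prod.mk.injEq, Option.some.injEq, and_true] at hab
    exact hM.get_inj_iff.1 (Prod.ext hab.1 hab.2)
  rw [← h, ← prob_cnt_P, ← order_prob hj, ← pairwise_eq_P, ← measureReal_prod_prod]
  congr 1
  ext ⟨a, b⟩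
  have h1 : cnt (pwP {n : V × Lab | n.2 = none} a b) = cnt a := by
    funext v
    unfold cnt
    rw [pwP_mem _ _ (show ((v, none) : V × Lab) ∈ {n : V × Lab | n.2 = none} from rfl)]
  have h2 : ky (pwP {n : V × Lab | n.2 = none} a b) = ky b := by
    funext e
    unfold ky
    rw [pwP_not _ _ (by simp)]
  simp only [bsP, Set.mem_preimage, Set.mem_inter_iff, Set.mem_ofPred_eq, h1, h2, Set.mem_prod]

lemma int_bsP (M : List (V × ℕ)) {Φ : (V × Lab → I) → ℝ} (hΦ : BM Φ)
    (dep : ∀ ω ω', mk2 ω = mk2 ω' → Φ ω = Φ ω') :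
    ∫ ω, (bsP D M).indicator Φ ω ∂(iidUniform (V × Lab)) =
      (iidUniform (V × Lab)).real (bsP D M) * ∫ ω, Φ ω ∂(iidUniform (V × Lab)) := by
  have hb : BM ((bsP D M).indicator Φ) := by
    obtain ⟨C, hC⟩ := hΦ.bdd
    refine ⟨hΦ.meas.indicator (meas_bsP M), C, fun x => ?_⟩
    exact (norm_indicator_le_norm_self Φ x).trans (hC x)
  rw [split_P {n : V × Lab | n.2 = none ∨ ∃ i, n.2 = some (i, 0)} hb,
    ← integral_indicator_one (meas_bsP M), ← integral_mul_const]
  refine integral_congr_ae (Eventually.of_forall fun a => ?_)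
  simp only
  rw [← integral_const_mul]
  refine integral_congr_ae (Eventually.of_forall fun b => ?_)
  set T : Set (V × Lab) := {n : V × Lab | n.2 = none ∨ ∃ i, n.2 = some (i, 0)} with hT
  have h1 : cnt (pwP T a b) = cnt a := by
    funext v
    unfold cnt
    rw [pwP_mem _ _ (show ((v, none) : V × Lab) ∈ T from Or.inl rfl)]
  have h2 : ky (pwP T a b) = ky a := by
    funext e
    unfold ky
    rw [pwP_mem _ _
      (show ((e.1, some (e.2, 0)) : V × Lab) ∈ T from Or.inr ⟨e.2, rfl⟩)]
  have h3 : mk2 (pwP T a b) = mk2 b := by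
    funext e
    unfold mk2
    rw [pwP_not _ _ (by simp [hT]), pwP_not _ _ (by simp [hT])]
  have h4 : pwP T a b ∈ bsP D M ↔ a ∈ bsP D M := by
    simp only [bsP, Set.mem_inter_iff, Set.mem_ofPred_eq, h1, h2]
  simp only
  by_cases ha : a ∈ bsP D M
  · rw [Set.indicator_of_mem (h4.2 ha), Set.indicator_of_mem ha, dep _ _ h3]
    simp
  · rw [Set.indicator_of_notMem (mt h4.1 ha), Set.indicator_of_notMem ha, zero_mul]

lemma point_P {ω : V × Lab → I} (hω : Function.Injective (ky ω)) (n : ℕ)
    (Φ : List (V × ℕ) → (V × Lab → I) → ℝ) :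
    (ncnt D ⁻¹' {n}).indicator (fun ω => Φ (evl D ω) ω) ω =
      ∑ L ∈ wdP D n, ∑ M ∈ enP L (ekP D fun v => L.count v), (bsP D M).indicator (Φ M) ω := by
  obtain ⟨h1, h2⟩ := (evl_eq_iff (D := D) (ω := ω) (evl D ω)).1 ⟨hω.injOn, rfl⟩
  have h3 : (evl D ω).Nodup := h2.imp fun h => by rintro rfl; exact lt_irrefl _ h
  have h1' : (evl D ω).toFinset = ekP D (cnt ω) := h1
  have h4 : (evl D ω).length = ncnt D ω := by
    rw [← List.toFinset_card_of_nodup h3, h1', card_ekP, ncnt]
  have h5 : ∀ v ∈ D, cnt ω v = ((evl D ω).map Prod.fst).count v := fun v hv => by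
    rw [count_fst_P h3, h1', card_filter_ekP, if_pos hv]
  have key : ∀ L M, M ∈ enP L (ekP D fun v => L.count v) → ω ∈ bsP D M → M = evl D ω := by
    intro L M hM hb
    obtain ⟨-, a2, a3⟩ := mem_enP.1 hM
    refine ((evl_eq_iff M).2 ⟨?_, hb.2⟩).2.symm
    rw [a2]
    exact ekP_congr fun v hv => by rw [hb.1 v hv, a3]
  by_cases hn : ncnt D ω = n
  · have hL : (evl D ω).map Prod.fst ∈ wdP D n := by
      rw [mem_wdP]
      refine ⟨by rw [List.length_map, h4, hn], fun v hv => ?_⟩
      obtain ⟨e, he, rfl⟩ := List.mem_map.1 hv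
      have := List.mem_toFinset.2 he
      rw [h1'] at this
      exact (mem_ekP.1 this).1
    have hM : evl D ω ∈ enP ((evl D ω).map Prod.fst)
        (ekP D fun v => ((evl D ω).map Prod.fst).count v) :=
      mem_enP.2 ⟨h3, h1'.trans (ekP_congr h5), rfl⟩
    rw [Set.indicator_of_mem (show ω ∈ ncnt D ⁻¹' {n} from hn), Finset.sum_eq_single_of_mem _ hL,
      Finset.sum_eq_single_of_mem _ hM, Set.indicator_of_mem (show ω ∈ bsP D _ from ⟨h5, h2⟩)]
    · intro M hM' hne
      exact Set.indicator_of_notMem (fun hb => hne (key _ M hM' hb)) _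
    · intro L _ hne
      refine Finset.sum_eq_zero fun M hM' => Set.indicator_of_notMem (fun hb => hne ?_) _
      rw [← key L M hM' hb, (mem_enP.1 hM').2.2]
  · rw [Set.indicator_of_notMem (show ω ∉ ncnt D ⁻¹' {n} from hn)]
    refine (Finset.sum_eq_zero fun L hL => Finset.sum_eq_zero fun M hM' =>
      Set.indicator_of_notMem (fun hb => hn ?_) _).symm
    rw [← h4, ← key L M hM' hb, ← (mem_wdP.1 hL).1, ← (mem_enP.1 hM').2.2, List.length_map]

lemma level_P [Countable V] (n : ℕ) {Φ : List (V × ℕ) → (V × Lab → I) → ℝ}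
    (hΦ : ∀ M, BM (Φ M)) (dep : ∀ M ω ω', mk2 ω = mk2 ω' → Φ M ω = Φ M ω') {F : List V → ℝ}
    (hF : ∀ M, M.Nodup → ∫ ω, Φ M ω ∂(iidUniform (V × Lab)) = F (M.map Prod.fst)) :
    ∫ ω in ncnt D ⁻¹' {n}, Φ (evl D ω) ω ∂(iidUniform (V × Lab)) =
      Real.exp (-1) ^ D.card / n.factorial * ∑ L ∈ wdP D n, F L := by
  have hi : ∀ M, Integrable ((bsP D M).indicator (Φ M)) (iidUniform (V × Lab)) := fun M =>
    ((hΦ M).integrable _).indicator (meas_bsP M)
  rw [← integral_indicator (measurable_ncnt (measurableSet_singleton n)),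
    integral_congr_ae (ae_injOn.mono fun ω hω => point_P hω n Φ),
    integral_finsetSum _ fun L _ => integrable_finsetSum _ fun M _ => hi M, Finset.mul_sum]
  refine Finset.sum_congr rfl fun L hL => ?_
  obtain ⟨h1, h2⟩ := mem_wdP.1 hL
  rw [integral_finsetSum _ fun M _ => hi M, Finset.sum_congr rfl (g := fun _ =>
    (∏ v ∈ D, (Real.exp (-1) / (L.count v).factorial)) * (1 / n.factorial) * F L)]
  · rw [Finset.sum_const, card_enP h2, nsmul_eq_mul, Finset.prod_div_distrib, Finset.prod_const]
    · have : (∏ v ∈ D, ((L.count v).factorial : ℝ)) ≠ 0 :=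
        Finset.prod_ne_zero_iff.2 fun v _ => by positivity
      push_cast
      field_simp
    · intro v
      rw [card_filter_ekP]
      split_ifs with hv
      · rfl
      · exact (List.count_eq_zero.2 fun h => hv (h2 v h)).symm
  · intro M hM
    obtain ⟨a1, -, a3⟩ := mem_enP.1 hM
    rw [int_bsP M (hΦ M) (dep M), prob_bsP a1, hF M a1, a3, ← h1, ← a3, List.length_map]

lemma int_levels_P {X Y : (V × Lab → I) → ℝ} (hX : BM X) (hY : BM Y)
    (h : ∀ n, ∫ ω in ncnt D ⁻¹' {n}, X ω ∂(iidUniform (V × Lab)) =
      ∫ ω in ncnt D ⁻¹' {n}, Y ω ∂(iidUniform (V × Lab))) :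
    ∫ ω, X ω ∂(iidUniform (V × Lab)) = ∫ ω, Y ω ∂(iidUniform (V × Lab)) := by
  have hm : ∀ n, MeasurableSet (ncnt D ⁻¹' {n}) := fun n =>
    measurable_ncnt (measurableSet_singleton n)
  have hd : Pairwise (Function.onFun Disjoint fun n => ncnt D ⁻¹' {n}) := fun a b hab =>
    Disjoint.preimage _ (Set.disjoint_singleton.2 hab)
  have hu : ⋃ n, ncnt D ⁻¹' {n} = Set.univ := by
    ext ω
    simp
  have h1 := hasSum_integral_iUnion hm hd (hX.integrable (iidUniform (V × Lab))).integrableOn
  have h2 := hasSum_integral_iUnion hm hd (hY.integrable (iidUniform (V × Lab))).integrableOn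
  rw [hu, Measure.restrict_univ] at h1 h2
  simp only [h] at h1
  exact h1.unique h2

/-- Poisson clocks give a uniformly random site at each ring. Split on the number of rings and on
the sorted list; counts, keys and marks use disjoint coordinates. -/
theorem ppp [Countable V] (hD : D.Nonempty) {f : S → V → I × I → S} (hf : Ms f) {g : S → ℝ}
    (hg : BM g) (s : S) :
    ∫ ω, g (rnd D f s ω) ∂(iidUniform (V × Lab)) =
      ∫ ω, (op D f)^[ncnt D ω] g s ∂(iidUniform (V × Lab)) := by
  have hN : (0 : ℝ) < D.card := by exact_mod_cast hD.card_pos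
  have hr : Measurable fun ω => rnd D f s ω :=
    (measurable_rnd hf).comp (f := fun ω => (s, ω)) measurable_prodMk_left
  have hr' : ∀ M, Measurable fun ω => runP f M s ω := fun M =>
    (measurable_runP hf M).comp (f := fun ω => (s, ω)) measurable_prodMk_left
  refine int_levels_P (D := D) (hg.comp hr) ?_ fun n => ?_
  · obtain ⟨C, hC⟩ := hg.bdd
    refine ⟨(measurable_of_countable fun n => (op D f)^[n] g s).comp measurable_ncnt, C,
      fun ω => ?_⟩
    rw [op_iter_wdP hf hg, abs_div, abs_of_pos (pow_pos hN _), div_le_iff₀' (pow_pos hN _),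
      ← sum_wdP_const]
    exact (Finset.abs_sum_le_sum_abs _ _).trans
      (Finset.sum_le_sum fun L _ => abs_foldOp_le f hC L s)
  · have h1 := level_P (D := D) n (Φ := fun M ω => g (runP f M s ω))
      (fun M => hg.comp (hr' M))
      (fun M ω ω' h => by rw [runP_congr f s fun e _ => congrFun h e])
      (F := fun L => foldOp f L g s) fun M hM => int_runP hf hg hM s
    have h2 := level_P (D := D) n (Φ := fun _ _ => (op D f)^[n] g s)
      (fun M => BM.const _) (fun _ _ _ _ => rfl) (F := fun _ => (op D f)^[n] g s)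
      fun M _ => by simp
    have hm : MeasurableSet (ncnt D ⁻¹' {n}) := measurable_ncnt (measurableSet_singleton n)
    have h3 : ∫ ω in ncnt D ⁻¹' {n}, g (rnd D f s ω) ∂(iidUniform (V × Lab)) =
        ∫ ω in ncnt D ⁻¹' {n}, g (runP f (evl D ω) s ω) ∂(iidUniform (V × Lab)) := by
      refine integral_congr_ae (ae_restrict_of_ae (ae_injOn.mono fun ω hω => ?_))
      simp only [rnd, runP, if_pos hω.injOn]
    have h4 : ∫ ω in ncnt D ⁻¹' {n}, (op D f)^[ncnt D ω] g s ∂(iidUniform (V × Lab)) =
        ∫ _ω in ncnt D ⁻¹' {n}, (op D f)^[n] g s ∂(iidUniform (V × Lab)) :=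
      setIntegral_congr_fun hm fun ω hω => by
        have : ncnt D ω = n := hω
        simp only [this]
    rw [h3, h4, h1, h2, sum_wdP_const, op_iter_wdP hf hg, mul_div_cancel₀ _ (pow_pos hN _).ne']

end Vale.Agent.P161E
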