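import Vale.Agent.P161E.Mkv
import Vale.Agent.P161E.Num

namespace Vale.Agent.P161E

open MeasureTheory unitInterval Classical SimpleGraph Filter Topology
open Vale.Agent.P161
open Vale.Agent.P143 (BM iidUniform)

variable {V : Type} {G : SimpleGraph V} [G.LocallyFinite] {d : ℕ} {θ : ℝ} {D : Finset V}

omit [G.LocallyFinite] in
lemma btw_nx_q0 (hG : G.IsTree) {x c w : V} (hb : Btw G x c w) (hc : c ≠ w) :
    Btw G x (nx G c w) w ∧ G.dist x (nx G c w) = G.dist x c + 1 := by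
  obtain ⟨h1, h2⟩ := nx_spec hG hc
  have h3 := dist_eq_one_iff_adj.2 h1
  have h4 := hG.connected.dist_triangle (u := x) (v := c) (w := nx G c w)
  have h5 := hG.connected.dist_triangle (u := x) (v := nx G c w) (w := w)
  unfold Btw at *
  omega

omit [G.LocallyFinite] in
lemma FF_nonneg_q0 (s : (V → ℝ) × (V → ℝ)) (c : V) : 0 ≤ FF G θ D s c :=
  Finset.sum_nonneg fun _ _ => abs_nonneg _

lemma Cx.aa_tele (h : Cx G d θ D) (s : (V → ℝ) × (V → ℝ)) {x w : V} (hx : x ∈ D) (hw : w ∈ D) :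
    |aa G θ D s.1 x w - aa G θ D s.2 x w| ≤ ∑ c ∈ D.filter fun c => Btw G x c w ∧ c ≠ w,
      aa G θ D s.1 x c * FF G θ D s c * aa G θ D s.2 (nx G c w) w := by
  have hG := h.tr.tree
  have hθ := h.theta.1
  have nn : ∀ x ∈ D, ∀ c ∈ D, 0 ≤ aa G θ D s.1 x c * FF G θ D s c * aa G θ D s.2 (nx G c w) w :=
    fun x hx c hc => mul_nonneg (mul_nonneg (h.aa_mem _ hx hc).1 (FF_nonneg_q0 s c))
      (h.aa_mem _ (h.nx_mem hc hw) hw).1
  obtain ⟨n, hn⟩ : ∃ n, G.dist x w = n := ⟨_, rfl⟩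
  induction n generalizing x with
  | zero =>
    obtain rfl := hG.connected.dist_eq_zero_iff.1 hn
    rw [aa_self hθ _ hx, aa_self hθ _ hx, sub_self, abs_zero]
    exact Finset.sum_nonneg fun c hc => nn x hx c (Finset.mem_filter.1 hc).1
  | succ n ih =>
    have hne : x ≠ w := by
      rintro rfl
      simp at hn
    have hxx : Btw G x x w := by simp [Btw]
    obtain ⟨b1, b2⟩ := btw_nx_q0 hG hxx hne
    obtain ⟨h1, h2⟩ := nx_spec hG hne
    have hy := h.nx_mem hx hw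
    generalize hyy : nx G x w = y at *
    rw [dist_self] at b2
    have ih' := mul_le_mul_of_nonneg_left (ih hy (by omega)) (h.aa_mem s.1 hx hy).1
    have f1 : |aa G θ D s.1 x y - aa G θ D s.2 x y| ≤ FF G θ D s x :=
      Finset.single_le_sum (f := fun y => |aa G θ D s.1 x y - aa G θ D s.2 x y|)
        (fun _ _ => abs_nonneg _) (Finset.mem_filter.2 ⟨hy, h1⟩)
    have key : ∀ c, Btw G y c w → Btw G x c w ∧ Btw G x y c := fun c hc => by
      have h4 := hG.connected.dist_triangle (u := x) (v := y) (w := c)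
      have h5 := hG.connected.dist_triangle (u := x) (v := c) (w := w)
      unfold Btw at *
      omega
    have hnot : x ∉ D.filter fun c => Btw G y c w ∧ c ≠ w := fun hc => by
      have := (Finset.mem_filter.1 hc).2.1
      unfold Btw at this
      omega
    refine le_trans ?_ (Finset.sum_le_sum_of_subset_of_nonneg
      (s := insert x (D.filter fun c => Btw G y c w ∧ c ≠ w)) (fun c hc => ?_)
      fun c hc _ => nn x hx c (Finset.mem_filter.1 hc).1)
    · rw [Finset.sum_insert hnot, aa_self hθ _ hx, one_mul, hyy, aa_mul hG hθ s.1 hy b1,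
        aa_mul hG hθ s.2 hy b1, Finset.sum_congr rfl fun c hc => by
          rw [aa_mul hG hθ s.1 hy (key c (Finset.mem_filter.1 hc).2.1).2, mul_assoc, mul_assoc,
            ← mul_assoc (aa G θ D s.1 y c)], ← Finset.mul_sum]
      have e : aa G θ D s.1 x y * aa G θ D s.1 y w - aa G θ D s.2 x y * aa G θ D s.2 y w =
          (aa G θ D s.1 x y - aa G θ D s.2 x y) * aa G θ D s.2 y w +
            aa G θ D s.1 x y * (aa G θ D s.1 y w - aa G θ D s.2 y w) := by ring
      rw [e]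
      refine (abs_add_le _ _).trans (add_le_add ?_ ?_)
      · rw [abs_mul, abs_of_nonneg (h.aa_mem s.2 hy hw).1]
        exact mul_le_mul_of_nonneg_right f1 (h.aa_mem s.2 hy hw).1
      · rwa [abs_mul, abs_of_nonneg (h.aa_mem s.1 hx hy).1]
    · rcases Finset.mem_insert.1 hc with rfl | hc
      · exact Finset.mem_filter.2 ⟨hx, hxx, hne⟩
      · obtain ⟨c1, c2, c3⟩ := Finset.mem_filter.1 hc
        exact Finset.mem_filter.2 ⟨c1, (key c c2).1, c3⟩

lemma Cx.tq_nonneg_q0 (h : Cx G d θ D) (s : (V → ℝ) × (V → ℝ)) {x w : V} (hx : x ∈ D)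
    (hw : w ∈ D) {c : V} (hc : c ∈ D) :
    0 ≤ aa G θ D s.1 x c * FF G θ D s c * aa G θ D s.2 w (nx G c w) :=
  mul_nonneg (mul_nonneg (h.aa_mem _ hx hc).1 (FF_nonneg_q0 s c))
    (h.aa_mem _ hw (h.nx_mem hc hw)).1

/-- `δ = (a - a') γ' + a (γ - γ')`, `mI_st`, `gam_le`, `gam_lip`, `aa_flip` -/
lemma Cx.q1 (h : Cx G d θ D) (s : (V → ℝ) × (V → ℝ)) {x w : V} (hx : x ∈ D) (hw : w ∈ D)
    (p : I × I) :
    (Dd G θ D (pr (stp G θ D) ∅ s w p) x - Dd G θ D s x) ^ 2 ≤ 400 * qq G θ D s x w := by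
  have hθ := h.theta.1
  have m1 := mI_open (G := G) hθ s.1 hw
  have m2 := mI_open (G := G) hθ s.2 hw
  have e1 := mI_st (G := G) hθ s.1 hw p.1 x
  have e2 := mI_st (G := G) hθ s.2 hw p.1 x
  have g1 : |gam (mI G θ D s.2 w) p.1| ≤ 2 * vr G θ D s.2 w := gam_le ⟨m2.1.le, m2.2.le⟩ p.1.2
  have g2 := gam_lip ⟨m1.1.le, m1.2.le⟩ ⟨m2.1.le, m2.2.le⟩ p.1.2 p.1.2
  rw [sub_self, abs_zero, add_zero] at g2
  have e : Dd G θ D (pr (stp G θ D) ∅ s w p) x - Dd G θ D s x =
      (aa G θ D s.1 x w - aa G θ D s.2 x w) * gam (mI G θ D s.2 w) p.1 +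
        aa G θ D s.1 x w * (gam (mI G θ D s.1 w) p.1 - gam (mI G θ D s.2 w) p.1) := by
    simp only [Dd, pr, stp, stA, if_pos hw, Finset.notMem_empty, if_false]
    linarith
  have a0 := (h.aa_mem s.1 hx hw).1
  have t1 : |aa G θ D s.1 x w - aa G θ D s.2 x w| * (2 * vr G θ D s.2 w) ≤
      20 * tq G θ D s x w := by
    refine (mul_le_mul_of_nonneg_right (h.aa_tele s hx hw)
      (by linarith [(vr_mem (G := G) (D := D) hθ s.2 w).1])).trans ?_
    rw [tq, Finset.sum_mul, Finset.mul_sum]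
    refine Finset.sum_le_sum fun c hc => ?_
    have hc' := (Finset.mem_filter.1 hc).1
    have f1 := h.aa_flip s.2 (h.nx_mem hc' hw) hw
    have f2 := mul_le_mul_of_nonneg_left (vr_mem (G := G) (D := D) hθ s.2 (nx G c w)).2
      (h.tq_nonneg_q0 s hx hw hc')
    have f3 := h.tq_nonneg_q0 s hx hw hc'
    calc _ = 2 * (aa G θ D s.1 x c * FF G θ D s c *
          (aa G θ D s.2 (nx G c w) w * vr G θ D s.2 w)) := by ring
      _ ≤ _ := by rw [f1, ← mul_assoc (_ * _)]; linarith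
  have t2 : |Dd G θ D (pr (stp G θ D) ∅ s w p) x - Dd G θ D s x| ≤
      20 * (tq G θ D s x w + aa G θ D s.1 x w * |Dd G θ D s w|) := by
    rw [e]
    refine (abs_add_le _ _).trans ?_
    rw [abs_mul, abs_mul, abs_of_nonneg a0]
    have := mul_le_mul_of_nonneg_left g1 (abs_nonneg (aa G θ D s.1 x w - aa G θ D s.2 x w))
    have := mul_le_mul_of_nonneg_left g2 a0
    unfold Dd
    linarith
  have := pow_le_pow_left₀ (abs_nonneg _) t2 2
  rw [sq_abs, mul_pow] at this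
  unfold qq
  linarith

lemma Cx.q1_swap (h : Cx G d θ D) (s : (V → ℝ) × (V → ℝ)) {x w : V} (hx : x ∈ D) (hw : w ∈ D)
    (p : I × I) :
    (Dd G θ D (pr (stp G θ D) ∅ s w p) x - Dd G θ D s x) ^ 2 ≤ 400 * qq G θ D s.swap x w := by
  refine le_of_eq_of_le ?_ (h.q1 s.swap hx hw p)
  simp only [Dd, pr, Finset.notMem_empty, if_false, Prod.fst_swap, Prod.snd_swap]
  ring

lemma Cx.dmu (h : Cx G d θ D) (l : V → ℝ) {z w : V} (hz : z ∈ D) (hw : w ∈ D) (u : I) :
    (mu G θ D (stp G θ D l w u) z - mu G θ D l z) ^ 2 ≤ aa G θ D l w z ^ 2 := by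
  have hθ := h.theta.1
  have m1 := mI_open (G := G) hθ l hw
  have e1 := mI_st (G := G) hθ l hw u z
  have g1 : |gam (mI G θ D l w) u| ≤ 2 * vr G θ D l w := gam_le ⟨m1.1.le, m1.2.le⟩ u.2
  have e : mu G θ D (stp G θ D l w u) z - mu G θ D l z =
      2 * (aa G θ D l z w * gam (mI G θ D l w) u) := by
    simp only [mu, stp, stA, if_pos hw]
    linarith
  have a0 := (h.aa_mem l hz hw).1
  have a1 := (h.aa_mem l hw hz).1
  rw [e, sq_le_sq, abs_mul, abs_mul, abs_of_nonneg a0, abs_of_nonneg a1, abs_two]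
  have f1 := h.aa_flip l hz hw
  have f2 := mul_le_mul_of_nonneg_left (vr_mem (G := G) (D := D) hθ l z).2 a1
  have f3 := mul_le_mul_of_nonneg_left g1 a0
  linarith

lemma Cx.pair_q0 (h : Cx G d θ D) (s : (V → ℝ) × (V → ℝ)) {x w c c' : V}
    (hw : w ∈ D) (hc : c ∈ D.filter fun c => Btw G x c w ∧ c ≠ w)
    (hc' : c' ∈ D.filter fun c => Btw G x c w ∧ c ≠ w) (hd : G.dist x c ≤ G.dist x c') :
    (aa G θ D s.1 x c * FF G θ D s c * aa G θ D s.2 w (nx G c w)) *
      (aa G θ D s.1 x c' * FF G θ D s c' * aa G θ D s.2 w (nx G c' w)) ≤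
      θ ^ (2 * G.dist c c') * ((aa G θ D s.1 x c ^ 2 * FF G θ D s c) *
        ((∑ y ∈ D.filter fun y => G.Adj c' y, aa G θ D s.2 w y ^ 2) * FF G θ D s c')) := by
  have hG := h.tr.tree
  have hθ := h.theta.1
  obtain ⟨c1, c2, c3⟩ := Finset.mem_filter.1 hc
  obtain ⟨d1, d2, d3⟩ := Finset.mem_filter.1 hc'
  have l1 := (btw_lin hG c2 d2 hd).1
  obtain ⟨n1, n2⟩ := btw_nx_q0 hG c2 c3
  obtain ⟨n3, n4⟩ := btw_nx_q0 hG d2 d3
  obtain ⟨l2, l3⟩ := btw_lin hG n1 n3 (by omega)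
  have y1 := h.nx_mem c1 hw
  have y2 := h.nx_mem d1 hw
  have l4 : Btw G w (nx G c' w) (nx G c w) := by
    unfold Btw at *
    rw [dist_comm (u := w), dist_comm (u := w), dist_comm (u := nx G c' w) (v := nx G c w)]
    omega
  have l5 : G.dist (nx G c' w) (nx G c w) = G.dist c c' := by
    unfold Btw at *
    rw [dist_comm]
    omega
  have a1 := h.aa_mem s.1 c1 d1
  have a2 := h.aa_mem s.2 y2 y1
  rw [l5] at a2
  have a3 : aa G θ D s.2 w (nx G c' w) ^ 2 ≤
      ∑ y ∈ D.filter fun y => G.Adj c' y, aa G θ D s.2 w y ^ 2 :=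
    Finset.single_le_sum (f := fun y => aa G θ D s.2 w y ^ 2) (fun _ _ => sq_nonneg _)
      (Finset.mem_filter.2 ⟨y2, (nx_spec hG d3).1⟩)
  have f1 := FF_nonneg_q0 (G := G) (θ := θ) (D := D) s c
  have f2 := FF_nonneg_q0 (G := G) (θ := θ) (D := D) s c'
  have h0 := h.h0
  rw [aa_mul hG hθ s.1 c1 l1, aa_mul hG hθ s.2 y2 l4]
  calc _ = (aa G θ D s.1 c c' * aa G θ D s.2 (nx G c' w) (nx G c w)) *
        ((aa G θ D s.1 x c ^ 2 * FF G θ D s c) *
          (aa G θ D s.2 w (nx G c' w) ^ 2 * FF G θ D s c')) := by ring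
    _ ≤ _ := by
      rw [two_mul, pow_add]
      have := a2.1
      gcongr
      exacts [a1.2, a2.2]

/-- expand the square; for `c` before `c'` on the geodesic both factors gain `θ ^ dist c c'` -/
lemma Cx.q2 (h : Cx G d θ D) (s : (V → ℝ) × (V → ℝ)) {lam : V → ℝ} (h0 : ∀ x, 0 ≤ lam x) :
    ∑ x ∈ D, lam x * ∑ w ∈ D, tq G θ D s x w ^ 2 ≤
      2 * ∑ c ∈ D, ∑ c' ∈ D, θ ^ (2 * G.dist c c') *
        (((∑ x ∈ D, lam x * aa G θ D s.1 x c ^ 2) * FF G θ D s c) *
        ((∑ y ∈ D.filter fun y => G.Adj c' y, ∑ w ∈ D, aa G θ D s.2 w y ^ 2) * FF G θ D s c')) := by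
  set K : V → V → V → V → ℝ := fun x w c c' => θ ^ (2 * G.dist c c') *
    ((aa G θ D s.1 x c ^ 2 * FF G θ D s c) *
      ((∑ y ∈ D.filter fun y => G.Adj c' y, aa G θ D s.2 w y ^ 2) * FF G θ D s c')) with hK
  have K0 : ∀ x w c c', 0 ≤ K x w c c' := fun x w c c' => by
    have f1 := FF_nonneg_q0 (G := G) (θ := θ) (D := D) s c
    have f2 := FF_nonneg_q0 (G := G) (θ := θ) (D := D) s c'
    have := h.h0
    simp only [hK]
    positivity
  have k1 : ∀ x ∈ D, ∀ w ∈ D, tq G θ D s x w ^ 2 ≤ 2 * ∑ c ∈ D, ∑ c' ∈ D, K x w c c' := by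
    intro x hx w hw
    rw [tq, sq, Finset.sum_mul_sum]
    refine le_trans (Finset.sum_le_sum fun c hc => Finset.sum_le_sum
      (g := fun c' => K x w c c' + K x w c' c) fun c' hc' => ?_) ?_
    · rcases le_total (G.dist x c) (G.dist x c') with hd | hd
      · exact (h.pair_q0 s hw hc hc' hd).trans (le_add_of_nonneg_right (K0 _ _ _ _))
      · rw [mul_comm]
        exact (h.pair_q0 s hw hc' hc hd).trans (le_add_of_nonneg_left (K0 _ _ _ _))
    · simp only [Finset.sum_add_distrib]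
      rw [Finset.sum_comm (f := fun c c' => K x w c' c), ← two_mul]
      refine mul_le_mul_of_nonneg_left ?_ zero_le_two
      refine (Finset.sum_le_sum fun c _ => Finset.sum_le_sum_of_subset_of_nonneg
        (Finset.filter_subset _ D) fun _ _ _ => K0 _ _ _ _).trans
        (Finset.sum_le_sum_of_subset_of_nonneg (Finset.filter_subset _ D) fun _ _ _ =>
          Finset.sum_nonneg fun _ _ => K0 _ _ _ _)
  refine (Finset.sum_le_sum fun x hx => mul_le_mul_of_nonneg_left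
    (Finset.sum_le_sum fun w hw => k1 x hx w hw) (h0 x)).trans (le_of_eq ?_)
  have e : ∀ c c', θ ^ (2 * G.dist c c') *
      (((∑ x ∈ D, lam x * aa G θ D s.1 x c ^ 2) * FF G θ D s c) *
        ((∑ y ∈ D.filter fun y => G.Adj c' y, ∑ w ∈ D, aa G θ D s.2 w y ^ 2) * FF G θ D s c')) =
      ∑ x ∈ D, ∑ w ∈ D, lam x * K x w c c' := by
    intro c c'
    rw [Finset.sum_comm (s := D.filter _), Finset.sum_mul, Finset.sum_mul, Finset.mul_sum]
    refine Finset.sum_congr rfl fun x _ => ?_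
    rw [Finset.sum_mul, Finset.mul_sum, Finset.mul_sum]
    refine Finset.sum_congr rfl fun w _ => ?_
    simp only [hK]
    ring
  simp only [e]
  rw [Finset.sum_congr rfl fun c _ => Finset.sum_comm, Finset.sum_comm, Finset.mul_sum]
  refine Finset.sum_congr rfl fun x _ => ?_
  rw [Finset.sum_congr rfl fun c _ => Finset.sum_comm (s := D) (t := D)
    (f := fun c' w => lam x * K x w c c'), Finset.sum_comm (f := fun c w => ∑ c' ∈ D, _)]
  simp only [← Finset.mul_sum]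
  ring

end Vale.Agent.P161E
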