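import Vale.Agent.P161E.Q

namespace Vale.Agent.P161E

open MeasureTheory unitInterval Classical SimpleGraph Filter Topology
open Vale.Agent.P161
open Vale.Agent.P143 (BM iidUniform)

variable {V : Type} {G : SimpleGraph V} [G.LocallyFinite] {d : ℕ} {θ : ℝ} {D : Finset V}

lemma Cx.child_sst (h : Cx G d θ D) {c : V} (hc : c ∈ D) {f : V → ℝ} (hf : ∀ q ∈ D, 0 ≤ f q) :
    ∑ z ∈ D.erase c, f (nx G z c) ≤ d * f c + (d - 1) * ∑ q ∈ D.erase c, f q := by
  rw [← Finset.sum_fiberwise_of_maps_to (t := D) (g := fun z => nx G z c)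
    fun z hz => h.nx_mem (Finset.mem_of_mem_erase hz) hc, Finset.mul_sum]
  have a1 : ∀ q ∈ D, ∑ z ∈ (D.erase c).filter fun z => nx G z c = q, f (nx G z c) ≤
      (if q = c then (d : ℝ) else d - 1) * f q := by
    intro q hq
    rw [Finset.sum_congr rfl fun z hz => congrArg f (Finset.mem_filter.1 hz).2, Finset.sum_const,
      nsmul_eq_mul]
    refine mul_le_mul_of_nonneg_right (le_trans (le_of_eq ?_) (card_children h.tr D c q)) (hf q hq)
    congr 2
    ext z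
    simp only [Finset.mem_filter, Finset.mem_erase]
    tauto
  refine (Finset.sum_le_sum a1).trans (le_of_eq ?_)
  rw [← Finset.add_sum_erase _ _ hc, if_pos rfl]
  congr 1
  exact Finset.sum_congr rfl fun q hq => by rw [if_neg (Finset.ne_of_mem_erase hq)]

lemma Cx.par_sst (h : Cx G d θ D) (l : V → ℝ) {z c : V} (hc : c ∈ D) (hz : z ∈ D.erase c) :
    aa G θ D l z c ^ 2 = aa G θ D l z (nx G z c) ^ 2 * aa G θ D l (nx G z c) c ^ 2 ∧
      aa G θ D l z (nx G z c) ^ 2 ≤ θ ^ 2 := by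
  obtain ⟨z1, z2⟩ := Finset.mem_erase.1 hz
  obtain ⟨a1, a2⟩ := nx_spec h.tr.tree z1
  have a3 := dist_eq_one_iff_adj.2 a1
  have a4 := h.aa_mem l z2 (h.nx_mem z2 hc)
  rw [a3, pow_one] at a4
  refine ⟨?_, pow_le_pow_left₀ a4.1 a4.2 2⟩
  rw [aa_mul h.tr.tree h.theta.1 l (h.nx_mem z2 hc) (show Btw G z (nx G z c) c by
    unfold Btw; omega), mul_pow]

lemma Cx.par_le_sst (h : Cx G d θ D) (l : V → ℝ) {z c : V} (hc : c ∈ D) (hz : z ∈ D.erase c) :
    aa G θ D l z c ^ 2 ≤ θ ^ 2 * aa G θ D l (nx G z c) c ^ 2 :=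
  (h.par_sst l hc hz).1.trans_le (mul_le_mul_of_nonneg_right (h.par_sst l hc hz).2 (sq_nonneg _))

/-- With `t z = aa (nx z c) c ^ 2`: `∑ t z (θ² - aa z (nx z c)²) ≤ θ² d` telescopes
(`aa_mul`, `card_children`), then sum `edge_mu` against `t z` and absorb. -/
lemma sstar (h : Tr G d) : ∃ C, 0 < C ∧ ∀ θ D, Cx G d θ D → ∀ l : V → ℝ, ∀ c ∈ D,
    ∑ z ∈ D.erase c, aa G θ D l (nx G z c) c ^ 2 * mu G θ D l z ^ 2 ≤ C := by
  have h3 : (3 : ℝ) ≤ d := by exact_mod_cast h.hd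
  refine ⟨104 * d, by positivity, fun θ D hx l c hc => ?_⟩
  obtain ⟨hθ, t2, t0⟩ := hx.theta
  have up := hx.up
  have s1 := hx.child_sst hc (f := fun q => aa G θ D l q c ^ 2) fun q _ => sq_nonneg _
  have s2 := hx.child_sst hc (f := fun q => aa G θ D l q c ^ 2 * mu G θ D l q ^ 2)
    fun q _ => by positivity
  simp only [aa_self hθ l hc, one_pow, one_mul, mul_one] at s1 s2
  have s3 : ∑ z ∈ D.erase c, aa G θ D l z c ^ 2 * mu G θ D l z ^ 2 ≤
      θ ^ 2 * ∑ z ∈ D.erase c, aa G θ D l (nx G z c) c ^ 2 * mu G θ D l z ^ 2 := by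
    rw [Finset.mul_sum]
    exact Finset.sum_le_sum fun z hz => (mul_le_mul_of_nonneg_right (hx.par_le_sst l hc hz)
      (sq_nonneg _)).trans_eq (mul_assoc _ _ _)
  have s4 : θ ^ 2 * ∑ z ∈ D.erase c, aa G θ D l (nx G z c) c ^ 2 * mu G θ D l z ^ 2 ≤
      42 * (θ ^ 2 * ∑ z ∈ D.erase c, aa G θ D l (nx G z c) c ^ 2 -
        ∑ z ∈ D.erase c, aa G θ D l z c ^ 2) + 7 / 6 * θ ^ 4 *
        ∑ z ∈ D.erase c, aa G θ D l (nx G z c) c ^ 2 * mu G θ D l (nx G z c) ^ 2 := by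
    simp only [Finset.mul_sum, ← Finset.sum_sub_distrib, ← Finset.sum_add_distrib]
    refine Finset.sum_le_sum fun z hz => ?_
    obtain ⟨z1, z2⟩ := Finset.mem_erase.1 hz
    have := mul_le_mul_of_nonneg_left (hx.edge_mu l z2 (hx.nx_mem z2 hc) (nx_spec h.tree z1).1)
      (sq_nonneg (aa G θ D l (nx G z c) c))
    rw [(hx.par_sst l hc hz).1]
    linarith
  have m1 := mu_sq_le (G := G) (D := D) hθ l c
  have n1 : 0 ≤ ∑ z ∈ D.erase c, aa G θ D l z c ^ 2 := Finset.sum_nonneg fun _ _ => sq_nonneg _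
  have n2 : 0 ≤ ∑ z ∈ D.erase c, aa G θ D l (nx G z c) c ^ 2 * mu G θ D l z ^ 2 :=
    Finset.sum_nonneg fun _ _ => by positivity
  generalize ∑ z ∈ D.erase c, aa G θ D l (nx G z c) c ^ 2 * mu G θ D l z ^ 2 = S at *
  generalize ∑ z ∈ D.erase c, aa G θ D l (nx G z c) c ^ 2 * mu G θ D l (nx G z c) ^ 2 = S1 at *
  generalize ∑ z ∈ D.erase c, aa G θ D l z c ^ 2 * mu G θ D l z ^ 2 = S2 at *
  generalize ∑ z ∈ D.erase c, aa G θ D l (nx G z c) c ^ 2 = S3 at *
  generalize ∑ z ∈ D.erase c, aa G θ D l z c ^ 2 = S4 at *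
  generalize mu G θ D l c ^ 2 = m at *
  have t3 : 0 < θ ^ 2 := by positivity
  rw [show θ ^ 4 = θ ^ 2 * θ ^ 2 by ring] at s4
  generalize θ ^ 2 = t at *
  have b1 : t * S3 - S4 ≤ t * d := by
    nlinarith [mul_le_mul_of_nonneg_left s1 t3.le, mul_le_mul_of_nonneg_right up n1]
  have b2 : S1 ≤ d + S := by
    nlinarith [mul_le_mul_of_nonneg_left s3 (show (0 : ℝ) ≤ d - 1 by linarith),
      mul_le_mul_of_nonneg_right up n2]
  have b3 : t * S1 ≤ 1 / 2 * (d + S) :=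
    (mul_le_mul_of_nonneg_left b2 t3.le).trans (mul_le_mul_of_nonneg_right t2 (by linarith))
  refine le_of_mul_le_mul_left ?_ t3
  nlinarith [mul_le_mul_of_nonneg_left b3 t3.le, mul_pos t3 (show (0 : ℝ) < d by linarith)]

lemma msum (h : Tr G d) : ∃ C, 0 < C ∧ ∀ θ D, Cx G d θ D → ∀ l : V → ℝ, ∀ c ∈ D,
    ∑ x ∈ D, aa G θ D l x c ^ 2 * MM G θ D l x ≤ C := by
  obtain ⟨C, hC, H⟩ := sstar h
  refine ⟨(d + 1) * (1 + C), by positivity, fun θ D hx l c hc => ?_⟩
  have hθ := hx.theta.1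
  have q1 : ∀ x y, aa G θ D l x y ^ 2 ≤ 1 := fun x y =>
    (sq_le_one_iff_abs_le_one _).2 (abs_aa_le hθ l x y)
  refine (near_q h D (f := fun x => aa G θ D l x c ^ 2) (g := fun z => mu G θ D l z ^ 2)
    (k := fun z => if z = c then 1 else aa G θ D l (nx G z c) c ^ 2) (fun _ => sq_nonneg _)
    (fun z => by positivity) fun x _ z hz hd => ?_).trans ?_
  · split_ifs with e
    · exact q1 _ _
    rcases btw_or h.tree e x with b | b
    · rw [aa_mul h.tree hθ l hz b, mul_pow, (hx.par_sst l hc (Finset.mem_erase.2 ⟨e, hz⟩)).1]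
      exact (mul_le_of_le_one_left (by positivity) (q1 _ _)).trans
        (mul_le_of_le_one_left (sq_nonneg _) (q1 _ _))
    · have a1 := dist_eq_one_iff_adj.2 (nx_spec h.tree e).1.symm
      unfold Btw at b
      rw [SimpleGraph.dist_comm] at hd
      rw [h.tree.connected.dist_eq_zero_iff.1 (show G.dist x (nx G z c) = 0 by omega)]
  · refine mul_le_mul_of_nonneg_left ?_ (by positivity)
    rw [← Finset.add_sum_erase _ _ hc, if_pos rfl, one_mul]
    refine add_le_add (mu_sq_le hθ l c) (le_trans (le_of_eq ?_) (H θ D hx l c hc))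
    exact Finset.sum_congr rfl fun q hq => by rw [if_neg (Finset.ne_of_mem_erase hq)]

lemma Cx.Ak_mem (h : Cx G d θ D) (l : V → ℝ) {c : V} (hc : c ∈ D) (k : ℕ) :
    0 ≤ Ak G θ D l c k ∧ Ak G θ D l c k ≤ 2 := by
  refine ⟨Finset.sum_nonneg fun _ _ => sq_nonneg _, ?_⟩
  have h3 : (3 : ℝ) ≤ d := by exact_mod_cast h.tr.hd
  refine (Finset.sum_le_card_nsmul _ _ ((θ ^ 2) ^ k) fun x hx => ?_).trans ?_
  · obtain ⟨x1, x2⟩ := Finset.mem_filter.1 hx
    have a1 := h.aa_mem l x1 hc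
    rw [← pow_mul, mul_comm, pow_mul, ← x2]
    exact pow_le_pow_left₀ a1.1 a1.2 2
  · rw [nsmul_eq_mul]
    refine (mul_le_mul_of_nonneg_right (card_sphere h.tr D c k) (by positivity)).trans ?_
    rw [mul_assoc, ← mul_pow]
    linarith [pow_le_one₀ (n := k) (mul_nonneg (show (0 : ℝ) ≤ d - 1 by linarith) (sq_nonneg θ))
      h.up]

lemma Cx.Ak_anti (h : Cx G d θ D) (l : V → ℝ) {c : V} (hc : c ∈ D) {j k : ℕ} (hj : 1 ≤ j)
    (hjk : j ≤ k) : Ak G θ D l c k ≤ Ak G θ D l c j := by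
  induction k, hjk using Nat.le_induction with
  | base => exact le_rfl
  | succ k hk ih =>
    refine le_trans ?_ ih
    have h3 : (3 : ℝ) ≤ d := by exact_mod_cast h.tr.hd
    have s1 := h.child_sst hc (f := fun q => if G.dist q c = k then aa G θ D l q c ^ 2 else 0)
      fun q _ => by positivity
    have c0 : ∀ m, 1 ≤ m → ¬ G.dist c c = m := fun m hm => by rw [SimpleGraph.dist_self]; omega
    have e : ∀ m, 1 ≤ m → Ak G θ D l c m =
        ∑ q ∈ D.erase c, if G.dist q c = m then aa G θ D l q c ^ 2 else 0 := fun m hm => by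
      rw [Ak, Finset.sum_filter, ← Finset.add_sum_erase _ _ hc, if_neg (c0 m hm), zero_add]
    simp only [if_neg (c0 k (by omega)), mul_zero, zero_add, ← e k (by omega)] at s1
    have s2 : Ak G θ D l c (k + 1) ≤ θ ^ 2 * ∑ z ∈ D.erase c,
        if G.dist (nx G z c) c = k then aa G θ D l (nx G z c) c ^ 2 else 0 := by
      rw [e _ (by omega), Finset.mul_sum]
      refine Finset.sum_le_sum fun z hz => ?_
      have := (nx_spec h.tr.tree (Finset.ne_of_mem_erase hz)).2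
      by_cases e1 : G.dist z c = k + 1
      · rw [if_pos e1, if_pos (by omega)]
        exact h.par_le_sst l hc hz
      · rw [if_neg e1]
        positivity
    nlinarith [mul_le_mul_of_nonneg_left s1 (sq_nonneg θ),
      mul_le_mul_of_nonneg_right h.up (h.Ak_mem l hc k).1]

lemma Cx.Ak_add (h : Cx G d θ D) (l : V → ℝ) {c : V} (hc : c ∈ D) (i k : ℕ) :
    Ak G θ D l c (i + k) ≤
      ∑ z ∈ D.filter fun z => G.dist z c = i, aa G θ D l z c ^ 2 * Ak G θ D l z k := by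
  simp only [Ak, Finset.mul_sum, Finset.sum_filter (s := D) (fun x => G.dist x _ = k)]
  rw [Finset.sum_comm]
  refine le_trans (Finset.sum_le_sum fun x hx => ?_) (Finset.sum_le_sum_of_subset_of_nonneg
    (Finset.filter_subset _ _) fun x _ _ => Finset.sum_nonneg fun z _ => by positivity)
  obtain ⟨x1, x2⟩ := Finset.mem_filter.1 hx
  obtain ⟨z, z1, z2⟩ := btw_exists h.tr.tree x c (i := i) (by omega)
  have z3 := h.cvx x x1 c hc z z1
  refine le_trans (le_of_eq ?_) (Finset.single_le_sum (f := fun z => aa G θ D l z c ^ 2 *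
    if G.dist x z = k then aa G θ D l x z ^ 2 else 0) (fun z _ => by positivity)
    (Finset.mem_filter.2 ⟨z3, z2⟩))
  rw [if_pos (by unfold Btw at z1; omega), aa_mul h.tr.tree h.theta.1 l z3 z1]
  ring

lemma sum_levels (c : V) (f : ℕ → ℝ) (g : V → ℝ) {K : ℕ} (hK : ∀ x ∈ D, G.dist x c < K) :
    ∑ x ∈ D, f (G.dist x c) * g x =
      ∑ k ∈ Finset.range K, f k * ∑ x ∈ D.filter fun x => G.dist x c = k, g x := by
  rw [← Finset.sum_fiberwise_of_maps_to (t := Finset.range K) (g := fun x => G.dist x c)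
    fun x hx => Finset.mem_range.2 (hK x hx)]
  refine Finset.sum_congr rfl fun k _ => ?_
  rw [Finset.mul_sum]
  exact Finset.sum_congr rfl fun x hx => by rw [(Finset.mem_filter.1 hx).2]

end Vale.Agent.P161E
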