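import Vale.Agent.P161E.Q
import Vale.Agent.P161E.Sst
import Vale.Agent.P161E.Bay

namespace Vale.Agent.P161E

open MeasureTheory unitInterval Classical SimpleGraph Filter Topology
open Vale.Agent.P161
open Vale.Agent.P143 (BM iidUniform)

variable {V : Type} {G : SimpleGraph V} [G.LocallyFinite] {d : ℕ} {θ : ℝ} {D : Finset V}

omit [G.LocallyFinite] in
lemma om_nonneg_rb (k : ℕ) : 0 ≤ om k := zero_le_one.trans (om_one k)

omit [G.LocallyFinite] in
lemma swap_rb (hG : G.Connected) (o : V) {g : V → V → ℝ} (h0 : ∀ c ∈ D, ∀ y ∈ D, 0 ≤ g c y) :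
    ∑ c ∈ D, om (G.dist o c) * ∑ y ∈ D.filter fun y => G.dist y c ≤ 1, g c y ≤
      2 * ∑ y ∈ D, om (G.dist o y) * ∑ c ∈ D.filter fun c => G.dist c y ≤ 1, g c y := by
  simp only [Finset.mul_sum, Finset.sum_filter]
  rw [Finset.sum_comm]
  refine Finset.sum_le_sum fun y hy => Finset.sum_le_sum fun c hc => ?_
  rw [G.dist_comm (u := c)]
  split_ifs with h
  · have h1 := hG.dist_triangle (u := o) (v := y) (w := c)
    have h2 := (om_mono (show G.dist o c ≤ G.dist o y + 1 by omega)).trans (om_succ _)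
    have h3 := mul_le_mul_of_nonneg_right h2 (h0 c hc y hy)
    linarith
  · simp

omit [G.LocallyFinite] in
lemma LL_nonneg_rb (n : ℕ) (s : (V → ℝ) × (V → ℝ)) (l : V → ℝ) (c : V) : 0 ≤ LL G θ D n s l c :=
  Finset.sum_nonneg fun _ _ => by positivity

lemma kap_nonneg_rb (d : ℕ) : 0 ≤ kap d := by
  unfold kap
  positivity

lemma Cx.AA_ge_rb (h : Cx G d θ D) (n : ℕ) (s : (V → ℝ) × (V → ℝ)) (y : V) :
    1 + ∑ c ∈ D.filter fun c => G.dist c y ≤ 1, (LL G θ D n s s.1 c + LL G θ D n s s.2 c) ≤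
      AA G θ D d n y s ∧ HH G θ D s.1 y ≤ AA G θ D d n y s ∧
      WW G θ D n y s * (HH G θ D s.1 y + HH G θ D s.2 y) ≤ AA G θ D d n y s ∧
      ∑ x ∈ D, om (G.dist x y) * kap d ^ G.dist x y * WW G θ D n x s ≤ AA G θ D d n y s := by
  obtain ⟨h1, h2, -, h3, -⟩ := h.nonneg n s y
  have h4 : 0 ≤ ∑ c ∈ D.filter fun c => G.dist c y ≤ 1,
      (LL G θ D n s s.1 c + LL G θ D n s s.2 c) :=
    Finset.sum_nonneg fun c _ => add_nonneg (LL_nonneg_rb _ _ _ _) (LL_nonneg_rb _ _ _ _)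
  have h5 : 0 ≤ ∑ x ∈ D, om (G.dist x y) * kap d ^ G.dist x y * WW G θ D n x s :=
    Finset.sum_nonneg fun x _ => mul_nonneg (mul_nonneg (om_nonneg_rb _)
      (pow_nonneg (kap_nonneg_rb d) _)) (h.nonneg n s x).2.2.2.1
  have h6 := mul_nonneg h3 (add_nonneg h1 h2)
  unfold AA
  refine ⟨?_, ?_, ?_, ?_⟩ <;> nlinarith

lemma Cx.T_nonneg_rb (h : Cx G d θ D) (o : V) (n : ℕ) (s : (V → ℝ) × (V → ℝ)) :
    0 ≤ ∑ y ∈ D, om (G.dist o y) * (AA G θ D d n y s * Dd G θ D s y ^ 2) :=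
  Finset.sum_nonneg fun y _ => mul_nonneg (om_nonneg_rb _)
    (mul_nonneg (zero_le_one.trans (h.nonneg n s y).2.2.2.2.2.1) (sq_nonneg _))

theorem ystep (h : Tr G d) : ∃ C, 0 < C ∧ ∀ θ D, Cx G d θ D → ∀ (o : V) (n : ℕ)
    (s : (V → ℝ) × (V → ℝ)), yy G θ D o s ≤ P2 G θ D (yy G θ D o) s ∧
      P2 G θ D (yy G θ D o) s - yy G θ D o s ≤ C / D.card * (B2 G θ D o s +
        ∑ y ∈ D, om (G.dist o y) * (AA G θ D d n y s * Dd G θ D s y ^ 2)) := by
  obtain ⟨C₀, hC₀, h0⟩ := q0 h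
  obtain ⟨C₁, hC₁, h1⟩ := FF_le h
  refine ⟨400 * (1 + C₀ + C₀ * (C₁ * (2 * (d + 1)))), by positivity, fun θ D H o n s => ?_⟩
  have hG := H.tr.tree.connected
  have e : P2 G θ D (yy G θ D o) s - yy G θ D o s = ∑ x ∈ D, om (G.dist o x) *
      P2 G θ D (fun t => (Dd G θ D t x - Dd G θ D s x) ^ 2) s := by
    unfold yy
    rw [H.mk2.sum D fun x _ => (BM.const _).mul (bm_pow (H.bm_Dd x) 2), ← Finset.sum_sub_distrib]
    refine Finset.sum_congr rfl fun x _ => ?_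
    rw [H.mk2.smul, ← mul_sub, H.mk2.var_eq (H.bm_Dd x) (H.mart_Dd x s)]
  have bm : ∀ x, BM fun t => (Dd G θ D t x - Dd G θ D s x) ^ 2 := fun x =>
    bm_pow ((H.bm_Dd x).sub (BM.const _)) 2
  refine ⟨?_, ?_⟩
  · rw [← sub_nonneg, e]
    exact Finset.sum_nonneg fun x _ => mul_nonneg (om_nonneg_rb _)
      (H.mk2.nonneg (bm x) (fun _ => sq_nonneg _) s)
  have a1 : P2 G θ D (yy G θ D o) s - yy G θ D o s ≤
      400 / D.card * ∑ x ∈ D, om (G.dist o x) * (1 * ∑ w ∈ D, qq G θ D s x w) := by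
    rw [e, Finset.mul_sum]
    refine Finset.sum_le_sum fun x hx => ?_
    have := op_le_sum (ms_stp.pr ∅) (bm x) (s := s) fun w hw p => H.q1 s hx hw p
    rw [← Finset.mul_sum] at this
    refine (mul_le_mul_of_nonneg_left this (om_nonneg_rb _)).trans_eq ?_
    ring
  have a2 := h0 θ D H o s (fun _ => 1) (fun _ => zero_le_one) 1 one_pos
  simp only [mul_one, div_one] at a2
  have a3 : ∑ c ∈ D, om (G.dist o c) * (Gw G θ D s.1 c * Dd G θ D s c ^ 2) ≤
      ∑ y ∈ D, om (G.dist o y) * (AA G θ D d n y s * Dd G θ D s y ^ 2) :=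
    Finset.sum_le_sum fun c hc => mul_le_mul_of_nonneg_left (mul_le_mul_of_nonneg_right
      ((H.Gw_le_HH _ hc (by simp)).trans (H.AA_ge_rb n s c).2.1) (sq_nonneg _)) (om_nonneg_rb _)
  have g0 : ∀ y, 0 ≤ (HH G θ D s.1 y ^ 2 + HH G θ D s.2 y ^ 2) * ZZ G θ D s y := fun y =>
    mul_nonneg (by positivity) (H.nonneg n s y).2.2.1
  have a4 : ∑ c ∈ D, om (G.dist o c) * (Gw G θ D s.1 c ^ 2 * FF G θ D s c ^ 2) ≤
      C₁ * ∑ c ∈ D, om (G.dist o c) * ∑ y ∈ D.filter fun y => G.dist y c ≤ 1,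
        (HH G θ D s.1 y ^ 2 + HH G θ D s.2 y ^ 2) * ZZ G θ D s y := by
    rw [Finset.mul_sum]
    refine Finset.sum_le_sum fun c hc => ?_
    rw [mul_left_comm C₁]
    refine mul_le_mul_of_nonneg_left ((mul_le_mul_of_nonneg_left (h1 θ D H s c hc)
      (sq_nonneg _)).trans ?_) (om_nonneg_rb _)
    rw [mul_left_comm, Finset.mul_sum]
    refine mul_le_mul_of_nonneg_left (Finset.sum_le_sum fun y hy => mul_le_mul_of_nonneg_right ?_
      (H.nonneg n s y).2.2.1) hC₁.le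
    have h2 := H.Gw_le_HH s.1 hc (y := y) (by
      rw [G.dist_comm]
      exact (Finset.mem_filter.1 hy).2.trans one_le_two)
    have h3 := pow_le_pow_left₀ (zero_le_one.trans (H.Gw_one s.1 hc)) h2 2
    linarith [sq_nonneg (HH G θ D s.2 y)]
  have a5 := swap_rb (D := D) hG o
    (g := fun _ y => (HH G θ D s.1 y ^ 2 + HH G θ D s.2 y ^ 2) * ZZ G θ D s y) fun _ _ y _ => g0 y
  have a6 : ∑ y ∈ D, om (G.dist o y) * ∑ _c ∈ D.filter fun c => G.dist c y ≤ 1,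
      (HH G θ D s.1 y ^ 2 + HH G θ D s.2 y ^ 2) * ZZ G θ D s y ≤ (d + 1) * B2 G θ D o s := by
    rw [B2, Finset.mul_sum]
    refine Finset.sum_le_sum fun y _ => ?_
    rw [Finset.sum_const, nsmul_eq_mul, mul_left_comm]
    exact mul_le_mul_of_nonneg_right (card_ball_one h D y) (mul_nonneg (om_nonneg_rb _) (g0 y))
  have b0 := (H.nonneg n s o).2.2.2.2.2.2.2.1
  have t0 := H.T_nonneg_rb o n s
  have a7 := mul_le_mul_of_nonneg_left (a5.trans (mul_le_mul_of_nonneg_left a6 zero_le_two)) hC₁.le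
  have a8 := mul_le_mul_of_nonneg_left (a4.trans a7) hC₀.le
  have a9 := mul_le_mul_of_nonneg_left a3 hC₀.le
  refine a1.trans ?_
  rw [mul_div_right_comm, mul_assoc]
  refine mul_le_mul_of_nonneg_left (a2.trans ?_) (by positivity)
  unfold Gw at a8 a9
  have k1 := mul_nonneg hC₀.le b0
  have k2 : 0 ≤ C₀ * (C₁ * (2 * (d + 1))) *
    ∑ y ∈ D, om (G.dist o y) * (AA G θ D d n y s * Dd G θ D s y ^ 2) := by positivity
  nlinarith

lemma core_rb (h : Tr G d) : ∃ C, 0 < C ∧ ∀ θ D, Cx G d θ D → ∀ (o : V) (n : ℕ)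
    (s s' : (V → ℝ) × (V → ℝ)) (η : ℝ), 0 < η → η ≤ 1 → s' = s ∨ s' = s.swap →
      ∑ y ∈ D, om (G.dist o y) * (WW G θ D n y s * MM G θ D s'.1 y * ∑ w ∈ D, qq G θ D s' y w) ≤
        η * B2 G θ D o s +
        C / η * ∑ y ∈ D, om (G.dist o y) * (AA G θ D d n y s * Dd G θ D s y ^ 2) := by
  obtain ⟨C₀, hC₀, h0⟩ := q0 h
  obtain ⟨C₁, hC₁, h1⟩ := FF_le h
  obtain ⟨C₂, hC₂, h2⟩ := msum h
  obtain ⟨K, hK⟩ : ∃ K : ℝ, K = (d + 1) * C₂ := ⟨_, rfl⟩
  have hK0 : 0 < K := by rw [hK]; positivity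
  refine ⟨C₀ * (K * (C₁ * (2 * (d + 1))) * 2) + C₀ * (1 + K), by positivity,
    fun θ D H o n s s' η hη hη1 hs => ?_⟩
  have hG := H.tr.tree.connected
  have e1 : ∀ y, Dd G θ D s' y ^ 2 = Dd G θ D s y ^ 2 := by
    intro y
    rcases hs with rfl | rfl
    · rfl
    · simp only [Dd, Prod.fst_swap, Prod.snd_swap]
      ring
  have e2 : B2 G θ D o s' = B2 G θ D o s := by
    rcases hs with rfl | rfl
    · rfl
    · simp only [B2, ZZ, e1, Prod.fst_swap, Prod.snd_swap, add_comm]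
  have e3 : ∀ y, 1 + ∑ c ∈ D.filter fun c => G.dist c y ≤ 1, LL G θ D n s s'.1 c ≤
      AA G θ D d n y s := by
    intro y
    refine le_trans (add_le_add_right (Finset.sum_le_sum fun c _ => ?_) _) (H.AA_ge_rb n s y).1
    rcases hs with rfl | rfl
    · exact le_add_of_nonneg_right (LL_nonneg_rb _ _ _ _)
    · exact le_add_of_nonneg_left (LL_nonneg_rb _ _ _ _)
  have a1 := h0 θ D H o s' (fun x => WW G θ D n x s * MM G θ D s'.1 x)
    (fun x => mul_nonneg (H.nonneg n s x).2.2.2.1 (H.MM_le _ x).1) η hη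
  have a2 : ∀ c ∈ D, (∑ x ∈ D, om (G.dist x c) * (WW G θ D n x s * MM G θ D s'.1 x) *
      aa G θ D s'.1 x c ^ 2) ^ 2 ≤ K * LL G θ D n s s'.1 c := by
    intro c hc
    have b1 := Finset.sum_sq_le_sum_mul_sum_of_sq_le_mul D
      (r := fun x => om (G.dist x c) * (WW G θ D n x s * MM G θ D s'.1 x) * aa G θ D s'.1 x c ^ 2)
      (f := fun x => (d + 1) * (om (G.dist x c) ^ 2 * WW G θ D n x s ^ 2 * aa G θ D s'.1 x c ^ 2))
      (g := fun x => aa G θ D s'.1 x c ^ 2 * MM G θ D s'.1 x) (fun x _ => by positivity)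
      (fun x _ => mul_nonneg (sq_nonneg _) (H.MM_le _ x).1) fun x _ => by
        have b2 := mul_le_mul_of_nonneg_right (H.MM_le s'.1 x).2 (mul_nonneg (show
          0 ≤ (om (G.dist x c) * WW G θ D n x s * aa G θ D s'.1 x c ^ 2) ^ 2 by positivity)
          (H.MM_le s'.1 x).1)
        refine le_of_eq_of_le (by ring) (b2.trans_eq (by ring))
    rw [← Finset.mul_sum] at b1
    refine b1.trans ((mul_le_mul_of_nonneg_left (h2 θ D H _ c hc)
      (mul_nonneg (by positivity) (LL_nonneg_rb n s _ c))).trans_eq ?_)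
    rw [hK]
    ring
  have a3 : ∑ c ∈ D, om (G.dist o c) * ((∑ x ∈ D, om (G.dist x c) *
      (WW G θ D n x s * MM G θ D s'.1 x) * aa G θ D s'.1 x c ^ 2) * Dd G θ D s' c ^ 2) ≤
      (1 + K) * ∑ y ∈ D, om (G.dist o y) * (AA G θ D d n y s * Dd G θ D s y ^ 2) := by
    rw [Finset.mul_sum]
    refine Finset.sum_le_sum fun c hc => ?_
    rw [e1, mul_left_comm (1 + K), ← mul_assoc (1 + K)]
    refine mul_le_mul_of_nonneg_left (mul_le_mul_of_nonneg_right ?_ (sq_nonneg _)) (om_nonneg_rb _)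
    have b1 := a2 c hc
    have b2 := e3 c
    have b3 := Finset.single_le_sum (f := fun c => LL G θ D n s s'.1 c)
      (fun c _ => LL_nonneg_rb n s _ c)
      (show c ∈ D.filter fun x => G.dist x c ≤ 1 from Finset.mem_filter.2 ⟨hc, by simp⟩)
    have b4 := LL_nonneg_rb (G := G) (θ := θ) (D := D) n s s'.1 c
    generalize ∑ x ∈ D, om (G.dist x c) * (WW G θ D n x s * MM G θ D s'.1 x) *
      aa G θ D s'.1 x c ^ 2 = u at b1
    have b5 : K * LL G θ D n s s'.1 c ≤ K * AA G θ D d n c s :=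
      mul_le_mul_of_nonneg_left (by linarith) hK0.le
    nlinarith [sq_nonneg (u - 1)]
  have a4 : ∑ c ∈ D, om (G.dist o c) * ((∑ x ∈ D, om (G.dist x c) *
      (WW G θ D n x s * MM G θ D s'.1 x) * aa G θ D s'.1 x c ^ 2) ^ 2 * FF G θ D s' c ^ 2) ≤
      K * (C₁ * (2 * (d + 1))) * ∑ c ∈ D, om (G.dist o c) *
        ∑ y ∈ D.filter fun y => G.dist y c ≤ 1, LL G θ D n s s'.1 c * Dd G θ D s y ^ 2 := by
    rw [Finset.mul_sum]
    refine Finset.sum_le_sum fun c hc => ?_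
    rw [mul_left_comm (K * _)]
    refine mul_le_mul_of_nonneg_left ?_ (om_nonneg_rb _)
    have b1 : FF G θ D s' c ^ 2 ≤
        C₁ * (2 * (d + 1) * ∑ y ∈ D.filter fun y => G.dist y c ≤ 1, Dd G θ D s y ^ 2) := by
      refine (h1 θ D H s' c hc).trans (mul_le_mul_of_nonneg_left ?_ hC₁.le)
      rw [Finset.mul_sum]
      refine Finset.sum_le_sum fun y _ => ?_
      rw [ZZ, e1]
      exact mul_le_mul_of_nonneg_right (by linarith [(H.MM_le s'.1 y).2, (H.MM_le s'.2 y).2])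
        (sq_nonneg _)
    refine (mul_le_mul (a2 c hc) b1 (sq_nonneg _)
      (mul_nonneg hK0.le (LL_nonneg_rb _ _ _ _))).trans_eq ?_
    rw [← Finset.mul_sum]
    ring
  have a5 := swap_rb (D := D) hG o (g := fun c y => LL G θ D n s s'.1 c * Dd G θ D s y ^ 2)
    fun c _ y _ => mul_nonneg (LL_nonneg_rb _ _ _ _) (sq_nonneg _)
  have a6 : ∑ y ∈ D, om (G.dist o y) * ∑ c ∈ D.filter fun c => G.dist c y ≤ 1,
      LL G θ D n s s'.1 c * Dd G θ D s y ^ 2 ≤
      ∑ y ∈ D, om (G.dist o y) * (AA G θ D d n y s * Dd G θ D s y ^ 2) := by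
    refine Finset.sum_le_sum fun y _ => mul_le_mul_of_nonneg_left ?_ (om_nonneg_rb _)
    rw [← Finset.sum_mul]
    exact mul_le_mul_of_nonneg_right (by linarith [e3 y]) (sq_nonneg _)
  have t0 := H.T_nonneg_rb o n s
  generalize ∑ y ∈ D, om (G.dist o y) * (AA G θ D d n y s * Dd G θ D s y ^ 2) = T at *
  have a7 := mul_le_mul_of_nonneg_left (a4.trans (mul_le_mul_of_nonneg_left
    (a5.trans (mul_le_mul_of_nonneg_left a6 zero_le_two)) (by positivity)))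
    (show 0 ≤ C₀ / η by positivity)
  have a8 := mul_le_mul_of_nonneg_left a3 hC₀.le
  have a9 : C₀ * ((1 + K) * T) ≤ C₀ * ((1 + K) * T) / η := le_div_self (by positivity) hη hη1
  rw [e2] at a1
  refine a1.trans ?_
  have e4 : (C₀ * (K * (C₁ * (2 * (d + 1))) * 2) + C₀ * (1 + K)) / η * T =
      C₀ / η * (K * (C₁ * (2 * (d + 1))) * (2 * T)) + C₀ * ((1 + K) * T) / η := by ring
  rw [e4]
  linarith

/-- `q0` with `lam = WW * MM` (and for the swapped pair), `msum`, `FF_le`, `q3` -/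
theorem rbound (h : Tr G d) : ∃ C, 0 < C ∧ ∀ θ D, Cx G d θ D → ∀ (o : V) (n : ℕ)
    (s : (V → ℝ) × (V → ℝ)) (η : ℝ), 0 < η → η ≤ 1 →
      ∑ y ∈ D, om (G.dist o y) * (WW G θ D n y s * rr G θ D s y) ≤ η * B2 G θ D o s +
        C / η * ∑ y ∈ D, om (G.dist o y) * (AA G θ D d n y s * Dd G θ D s y ^ 2) := by
  obtain ⟨C₀, hC₀, h0⟩ := core_rb h
  obtain ⟨C₁, hC₁, h1⟩ := q3 h
  refine ⟨4 * C₀ + (1 + (d + 1) * C₁), by positivity, fun θ D H o n s η hη hη1 => ?_⟩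
  have hG := H.tr.tree.connected
  have a1 := h0 θ D H o n s s (η / 2) (by positivity) (by linarith) (Or.inl rfl)
  have a2 := h0 θ D H o n s s.swap (η / 2) (by positivity) (by linarith) (Or.inr rfl)
  have a3 : ∑ y ∈ D, om (G.dist o y) *
      (WW G θ D n y s * (HH G θ D s.1 y + HH G θ D s.2 y) * Dd G θ D s y ^ 2) ≤
      ∑ y ∈ D, om (G.dist o y) * (AA G θ D d n y s * Dd G θ D s y ^ 2) :=
    Finset.sum_le_sum fun y _ => mul_le_mul_of_nonneg_left (mul_le_mul_of_nonneg_right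
      (H.AA_ge_rb n s y).2.2.1 (sq_nonneg _)) (om_nonneg_rb _)
  have a4 : ∑ y ∈ D, om (G.dist o y) * (WW G θ D n y s * ∑ z ∈ D.filter fun z => G.dist z y ≤ 1,
      ∑ w ∈ D, θ ^ (2 * G.dist z w) * qq G θ D s y w) ≤ (d + 1) * C₁ * ∑ y ∈ D, om (G.dist o y) *
        (WW G θ D n y s * ∑ c ∈ D, kap d ^ G.dist y c * Dd G θ D s c ^ 2) := by
    rw [Finset.mul_sum]
    refine Finset.sum_le_sum fun y hy => ?_
    rw [mul_left_comm (_ * C₁), mul_left_comm (_ * C₁)]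
    refine mul_le_mul_of_nonneg_left (mul_le_mul_of_nonneg_left ?_ (H.nonneg n s y).2.2.2.1)
      (om_nonneg_rb _)
    refine (Finset.sum_le_sum fun z hz => h1 θ D H s y hy z (Finset.mem_filter.1 hz).1
      (Finset.mem_filter.1 hz).2).trans ?_
    rw [Finset.sum_const, nsmul_eq_mul, mul_assoc]
    refine mul_le_mul_of_nonneg_right (card_ball_one h D y) (mul_nonneg hC₁.le ?_)
    exact Finset.sum_nonneg fun c _ => mul_nonneg (pow_nonneg (kap_nonneg_rb d) _) (sq_nonneg _)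
  have a5 : ∑ y ∈ D, om (G.dist o y) *
      (WW G θ D n y s * ∑ c ∈ D, kap d ^ G.dist y c * Dd G θ D s c ^ 2) ≤
      ∑ y ∈ D, om (G.dist o y) * (AA G θ D d n y s * Dd G θ D s y ^ 2) := by
    simp only [Finset.mul_sum]
    rw [Finset.sum_comm]
    refine Finset.sum_le_sum fun c _ => le_trans ?_ (mul_le_mul_of_nonneg_left
      (mul_le_mul_of_nonneg_right (H.AA_ge_rb n s c).2.2.2 (sq_nonneg _)) (om_nonneg_rb _))
    rw [Finset.sum_mul, Finset.mul_sum]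
    refine Finset.sum_le_sum fun y _ => ?_
    have b1 := mul_le_mul_of_nonneg_right (om_dist hG o y c) (mul_nonneg (H.nonneg n s y).2.2.2.1
      (mul_nonneg (pow_nonneg (kap_nonneg_rb d) (G.dist y c)) (sq_nonneg (Dd G θ D s c))))
    exact b1.trans_eq (by ring)
  have e : ∑ y ∈ D, om (G.dist o y) * (WW G θ D n y s * rr G θ D s y) =
      ∑ y ∈ D, om (G.dist o y) * (WW G θ D n y s * MM G θ D s.1 y * ∑ w ∈ D, qq G θ D s y w) +
      ∑ y ∈ D, om (G.dist o y) *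
        (WW G θ D n y s * MM G θ D s.swap.1 y * ∑ w ∈ D, qq G θ D s.swap y w) +
      ∑ y ∈ D, om (G.dist o y) *
        (WW G θ D n y s * (HH G θ D s.1 y + HH G θ D s.2 y) * Dd G θ D s y ^ 2) +
      ∑ y ∈ D, om (G.dist o y) * (WW G θ D n y s * ∑ z ∈ D.filter fun z => G.dist z y ≤ 1,
        ∑ w ∈ D, θ ^ (2 * G.dist z w) * qq G θ D s y w) := by
    rw [← Finset.sum_add_distrib, ← Finset.sum_add_distrib, ← Finset.sum_add_distrib]
    refine Finset.sum_congr rfl fun y _ => ?_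
    rw [rr, Prod.fst_swap]
    ring
  have t0 := H.T_nonneg_rb o n s
  generalize ∑ y ∈ D, om (G.dist o y) * (AA G θ D d n y s * Dd G θ D s y ^ 2) = T at *
  have a6 := mul_le_mul_of_nonneg_left a5 (show 0 ≤ ((d : ℝ) + 1) * C₁ by positivity)
  have a7 : (1 + (d + 1) * C₁) * T ≤ (1 + (d + 1) * C₁) * T / η :=
    le_div_self (by positivity) hη hη1
  have e2 : (4 * C₀ + (1 + (d + 1) * C₁)) / η * T =
      2 * (C₀ / (η / 2) * T) + (1 + (d + 1) * C₁) * T / η := by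
    field_simp
    ring
  rw [e, e2]
  linarith

end Vale.Agent.P161E
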