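import Vale.Agent.P161E.Ppp

namespace Vale.Agent.P161E

open MeasureTheory unitInterval Classical SimpleGraph Filter Topology
open Vale.Agent.P161
open Vale.Agent.P143 (BM iidUniform)

variable {V : Type} {G : SimpleGraph V} [G.LocallyFinite] {d : ℕ} {θ : ℝ} {D : Finset V}

variable {S S' : Type}

lemma measurable_sl (j : ℕ) : Measurable fun Ω : V × (ℕ × Lab) → I => sl Ω j := by
  exact measurable_pi_iff.2 fun p => measurable_pi_apply _

lemma measurable_tot (J : ℕ) : Measurable (tot D J) := by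
  exact Finset.measurable_sum _ fun j _ => measurable_ncnt.comp (measurable_sl j)

lemma meas_rnd_rds [Countable V] [MeasurableSpace S] {f : S → V → I × I → S} (hf : Ms f)
    {X : Type} [MeasurableSpace X] {a : X → S} {b : X → V × Lab → I} (ha : Measurable a)
    (hb : Measurable b) : Measurable fun x => rnd D f (a x) (b x) :=
  Measurable.comp (g := fun q : S × (V × Lab → I) => rnd D f q.1 q.2) (f := fun x => (a x, b x))
    (measurable_rnd hf) (ha.prodMk hb)

lemma measurable_rnds [Countable V] [MeasurableSpace S] {f : S → V → I × I → S} (hf : Ms f)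
    (s : S) (J : ℕ) : Measurable fun Ω => rnds D f s Ω J := by
  induction J with
  | zero => exact measurable_const
  | succ J ih => exact meas_rnd_rds hf ih (measurable_sl J)

lemma rnds_congr {f : S → V → I × I → S} (s : S) {Ω Ω' : V × (ℕ × Lab) → I} {J : ℕ}
    (h : ∀ j < J, sl Ω j = sl Ω' j) : rnds D f s Ω J = rnds D f s Ω' J := by
  induction J with
  | zero => rfl
  | succ J ih =>
    simp only [rnds]
    rw [ih fun j hj => h j (hj.trans J.lt_succ_self), h J J.lt_succ_self]

lemma sl_mp_rds (j : ℕ) : MeasurePreserving (fun Ω : V × (ℕ × Lab) → I => sl Ω j)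
    (iidUniform (V × (ℕ × Lab))) (iidUniform (V × Lab)) :=
  reindex_mp (j := fun p : V × Lab => (p.1, (j, p.2))) fun a b h => by
    simp only [Prod.mk.injEq, true_and] at h; exact Prod.ext h.1 h.2

lemma int_mp_rds {X Y : Type*} [MeasurableSpace X] [MeasurableSpace Y] {μ : Measure X}
    {ν : Measure Y} {φ : X → Y} (h : MeasurePreserving φ μ ν) {F : Y → ℝ} (hF : BM F) :
    ∫ x, F (φ x) ∂μ = ∫ y, F y ∂ν := by
  rw [← h.map_eq, integral_map h.measurable.aemeasurable hF.meas.aestronglyMeasurable]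

/-- round `J` is independent of the earlier rounds (`piecewise_mp`, `reindex_mp`) -/
lemma integral_round [Countable V] {F : (V × (ℕ × Lab) → I) × (V × Lab → I) → ℝ} (hF : BM F)
    (J : ℕ) (dep : ∀ Ω Ω' ω, (∀ j < J, sl Ω j = sl Ω' j) → F (Ω, ω) = F (Ω', ω)) :
    ∫ Ω, F (Ω, sl Ω J) ∂(iidUniform (V × (ℕ × Lab))) =
      ∫ Ω, ∫ ω, F (Ω, ω) ∂(iidUniform (V × Lab)) ∂(iidUniform (V × (ℕ × Lab))) := by
  have h1 := P143.piecewise_mp {n : V × (ℕ × Lab) | n.2.1 ≠ J}
  have hG : BM fun Ω : V × (ℕ × Lab) → I => F (Ω, sl Ω J) :=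
    hF.comp (measurable_id.prodMk (measurable_sl J))
  rw [← int_mp_rds h1 hG, integral_prod _ ((hG.comp h1.measurable).integrable _)]
  refine integral_congr_ae (Eventually.of_forall fun Ω => ?_)
  have hΩ : BM fun ω => F (Ω, ω) := hF.comp measurable_prodMk_left
  simp only []
  rw [← int_mp_rds (sl_mp_rds J) hΩ]
  refine integral_congr_ae (Eventually.of_forall fun Ω' => ?_)
  have e : sl ({n : V × (ℕ × Lab) | n.2.1 ≠ J}.piecewise Ω Ω') J = sl Ω' J :=
    funext fun p => Set.piecewise_eq_of_notMem _ _ _ (by simp)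
  simp only [e]
  exact dep _ _ _ fun j hj => funext fun p => Set.piecewise_eq_of_mem _ _ _ hj.ne

lemma bm_iter [MeasurableSpace S] {E : (S → ℝ) → S → ℝ} (h : MK E) {g : S → ℝ} (hg : BM g)
    {X : Type} [MeasurableSpace X] {n : X → ℕ} (hn : Measurable n) {s : X → S}
    (hs : Measurable s) : BM fun x => E^[n x] g (s x) := by
  obtain ⟨C, hC⟩ := hg.bdd
  refine ⟨?_, C, fun x => abs_le.2 ⟨?_, (h.iter _).le_const hg (fun y => (abs_le.1 (hC y)).2) _⟩⟩
  · have : Measurable fun q : S × ℕ => E^[q.2] g q.1 :=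
      measurable_from_prod_countable_left fun k => ((h.iter k).bm g hg).meas
    exact this.comp (hs.prodMk hn)
  · rw [← (h.iter (n x)).const (-C) (s x)]
    exact (h.iter _).mono _ _ (BM.const _) hg (fun y => (abs_le.1 (hC y)).1) _

lemma tot_congr_rds {Ω Ω' : V × (ℕ × Lab) → I} {J : ℕ} (h : ∀ j < J, sl Ω j = sl Ω' j) :
    tot D J Ω = tot D J Ω' :=
  Finset.sum_congr rfl fun j hj => by rw [h j (Finset.mem_range.1 hj)]

theorem pppJ [Countable V] [MeasurableSpace S] (hD : D.Nonempty) {f : S → V → I × I → S}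
    (hf : Ms f) (s : S) (J : ℕ) {g : S → ℝ} (hg : BM g) :
    ∫ Ω, g (rnds D f s Ω J) ∂(iidUniform (V × (ℕ × Lab))) =
      ∫ Ω, (op D f)^[tot D J Ω] g s ∂(iidUniform (V × (ℕ × Lab))) := by
  have hE := mk_op hD hf
  induction J generalizing g with
  | zero => simp [rnds, tot]
  | succ J ih =>
    have m1 := measurable_rnds (D := D) hf s J
    have b1 : BM fun q : (V × (ℕ × Lab) → I) × (V × Lab → I) =>
        g (rnd D f (rnds D f s q.1 J) q.2) :=
      hg.comp (meas_rnd_rds hf (m1.comp measurable_fst) measurable_snd)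
    have b2 : BM fun q : (V × (ℕ × Lab) → I) × (V × Lab → I) =>
        (op D f)^[ncnt D q.2] g (rnds D f s q.1 J) :=
      bm_iter hE hg (measurable_ncnt.comp measurable_snd) (m1.comp measurable_fst)
    have b3 : BM fun q : (V × (ℕ × Lab) → I) × (V × Lab → I) =>
        (op D f)^[tot D J q.1 + ncnt D q.2] g s :=
      bm_iter hE hg (((measurable_tot J).comp measurable_fst).add
        (measurable_ncnt.comp measurable_snd)) measurable_const
    have e1 := integral_round b1 J fun Ω Ω' ω h => by simp only [rnds_congr s h]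
    have e3 := integral_round b3 J fun Ω Ω' ω h => by simp only [tot_congr_rds h]
    simp only [rnds, tot, Finset.sum_range_succ]
    refine e1.trans (Eq.trans ?_ e3.symm)
    simp only [ppp hD hf hg]
    refine (integral_integral_swap (b2.integrable _)).trans
      (Eq.trans ?_ (integral_integral_swap (b3.integrable _)).symm)
    refine integral_congr_ae (Eventually.of_forall fun ω => ?_)
    simp only [Function.iterate_add_apply]
    exact ih ((hE.iter _).bm g hg)

/-- a martingale function times a function of an earlier time -/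
theorem rnds_mart [Countable V] [MeasurableSpace S] (hD : D.Nonempty) {f : S → V → I × I → S}
    (hf : Ms f) (s : S) {M g : S → ℝ} (hM : BM M) (hg : BM g) (mart : ∀ x, op D f M x = M x)
    (J K : ℕ) :
    ∫ Ω, g (rnds D f s Ω J) * M (rnds D f s Ω (J + K)) ∂(iidUniform (V × (ℕ × Lab))) =
      ∫ Ω, g (rnds D f s Ω J) * M (rnds D f s Ω J) ∂(iidUniform (V × (ℕ × Lab))) := by
  induction K with
  | zero => rfl
  | succ K ih =>
    have m1 := measurable_rnds (D := D) hf s J
    have m2 := measurable_rnds (D := D) hf s (J + K)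
    have b1 : BM fun q : (V × (ℕ × Lab) → I) × (V × Lab → I) =>
        g (rnds D f s q.1 J) * M (rnd D f (rnds D f s q.1 (J + K)) q.2) :=
      (hg.comp (m1.comp measurable_fst)).mul
        (hM.comp (meas_rnd_rds hf (m2.comp measurable_fst) measurable_snd))
    have e1 := integral_round b1 (J + K) fun Ω Ω' ω h => by
      simp only [rnds_congr s h, rnds_congr s fun j (hj : j < J) => h j (by omega)]
    refine e1.trans (Eq.trans ?_ ih)
    refine integral_congr_ae (Eventually.of_forall fun Ω => ?_)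
    have hfix : ∀ n, (op D f)^[n] M = M := fun n => Function.iterate_fixed (funext mart) n
    simp only [integral_const_mul, ppp hD hf hM, hfix, integral_const, probReal_univ, one_smul]

lemma rnds_semi {f : S → V → I × I → S} {f' : S' → V → I × I → S'} {π : S → S'}
    (h : ∀ s, ∀ w ∈ D, ∀ p, π (f s w p) = f' (π s) w p) (s : S) (Ω : V × (ℕ × Lab) → I) (J : ℕ) :
    π (rnds D f s Ω J) = rnds D f' (π s) Ω J := by
  induction J with
  | zero => rfl
  | succ J ih => simp only [rnds]; rw [rnd_semi h, ih]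

lemma rnds_sub [Countable V] {D' : Finset V} (hsub : D ⊆ D') {f : S → V → I × I → S}
    (h : ∀ s w p, w ∉ D → f s w p = s) (s : S) :
    ∀ᵐ Ω ∂(iidUniform (V × (ℕ × Lab))), ∀ J, rnds D' f s Ω J = rnds D f s Ω J := by
  filter_upwards [ae_all_iff.2 fun j =>
    (sl_mp_rds (V := V) j).quasiMeasurePreserving.ae ae_injOn] with Ω hΩ J
  induction J with
  | zero => rfl
  | succ J ih => simp only [rnds]; rw [ih, rnd_sub hsub h _ (hΩ J)]

lemma rnds_map (g : V ≃ V) {f : S → V → I × I → S} {f' : S' → V → I × I → S'} {π : S → S'}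
    (h : ∀ s w p, π (f s w p) = f' (π s) (g w) p) (s : S) {Ω Ω' : V × (ℕ × Lab) → I}
    (hΩ : ∀ v k, Ω' (g v, k) = Ω (v, k)) (J : ℕ) :
    π (rnds D f s Ω J) = rnds (D.map g.toEmbedding) f' (π s) Ω' J := by
  induction J with
  | zero => rfl
  | succ J ih =>
    simp only [rnds]
    rw [rnd_map g h _ (ω := sl Ω J) (ω' := sl Ω' J) fun v k => hΩ v (J, k), ih]

lemma rnds_sw (f : S → V → I → S) (A : Finset V) (s : S × S) (Ω : V × (ℕ × Lab) → I) (J : ℕ) :
    rnds D (pr f A) s Ω J = (rnds D (one f) s.1 Ω J, rnds D (one f) s.2 (sw A Ω) J) := by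
  induction J with
  | zero => rfl
  | succ J ih =>
    simp only [rnds]
    refine Prod.ext ?_ ?_
    · rw [rnd_semi (π := Prod.fst) (f' := one f) fun _ _ _ _ => rfl, ih]
    · rw [rnd_semi (π := Prod.snd) (f' := fun s w p => f s w (if w ∈ A then p.2 else p.1))
        fun _ _ _ _ => rfl, ih]
      refine (rnd_marks _ (fun v => ?_) (fun e => ?_) fun s e => ?_).symm
      · simp [sl, sw]
      · by_cases he : e.1 ∈ A
        · simp [sl, sw, ky, he, show Equiv.swap (1 : Fin 3) 2 0 = 0 by decide]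
        · simp [sl, sw, ky, he]
      · by_cases he : e.1 ∈ A
        · simp [sl, sw, mk2, one, he]
        · simp [sl, sw, mk2, one, he]

lemma sw_mp (A : Finset V) : MeasurePreserving (sw A) (iidUniform (V × (ℕ × Lab)))
    (iidUniform (V × (ℕ × Lab))) := by
  refine reindex_mp (j := fun p : V × (ℕ × Lab) => (p.1, (p.2.1, if p.1 ∈ A then
    p.2.2.map fun q => (q.1, Equiv.swap 1 2 q.2) else p.2.2))) ?_
  rintro ⟨v, j, a⟩ ⟨w, k, b⟩ h
  simp only [Prod.mk.injEq] at h ⊢
  obtain ⟨rfl, rfl, h⟩ := h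
  refine ⟨rfl, rfl, ?_⟩
  by_cases hv : v ∈ A
  · simp only [hv, if_true] at h
    refine Option.map_injective (fun p q hpq => ?_) h
    simp only [Prod.mk.injEq, EmbeddingLike.apply_eq_iff_eq] at hpq
    exact Prod.ext hpq.1 hpq.2
  · simpa only [hv, if_false] using h

lemma pois_rds (t : ℝ) :
    Integrable (fun n : ℕ => Real.exp (t * n)) (ProbabilityTheory.poissonMeasure 1) ∧
      ∫ n, Real.exp (t * n) ∂(ProbabilityTheory.poissonMeasure 1) = Real.exp (Real.exp t - 1) := by
  have h := (NormedSpace.expSeries_div_hasSum_exp (Real.exp t)).mul_left (Real.exp (-1))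
  rw [← Real.exp_eq_exp_ℝ, ← Real.exp_add, neg_add_eq_sub] at h
  have e : ∀ n : ℕ, Real.exp (-((1 : NNReal) : ℝ)) * ((1 : NNReal) : ℝ) ^ n / n.factorial *
      Real.exp (t * n) = Real.exp (-1) * (Real.exp t ^ n / n.factorial) := fun n => by
    rw [mul_comm t, Real.exp_nat_mul, NNReal.coe_one]
    ring
  refine ⟨ProbabilityTheory.integrable_poissonMeasure_iff.2 ?_, ?_⟩
  · simp only [Real.norm_eq_abs, Real.abs_exp, e]
    exact h.summable
  · simp only [ProbabilityTheory.integral_poissonMeasure, smul_eq_mul, e]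
    exact h.tsum_eq

/-- moment generating function of the number of rings -/
theorem tot_mgf (J : ℕ) (t : ℝ) :
    Integrable (fun Ω => Real.exp (t * tot D J Ω)) (iidUniform (V × (ℕ × Lab))) ∧
      ∫ Ω, Real.exp (t * tot D J Ω) ∂(iidUniform (V × (ℕ × Lab))) =
        Real.exp (J * D.card * (Real.exp t - 1)) := by
  let X : V × (ℕ × Lab) → (V × (ℕ × Lab) → I) → ℝ := fun i Ω => pq (Ω i)
  have mq : Measurable fun u : I => (pq u : ℝ) := Measurable.of_discrete.comp pq_spec.1
  have hX : ProbabilityTheory.iIndepFun X (iidUniform (V × (ℕ × Lab))) :=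
    ProbabilityTheory.iIndepFun_infinitePi (X := fun _ u => (pq u : ℝ)) fun _ => mq
  have mX : ∀ i, Measurable (X i) := fun i => mq.comp (measurable_pi_apply i)
  have mp : ∀ i, MeasurePreserving (fun Ω : V × (ℕ × Lab) → I => pq (Ω i))
      (iidUniform (V × (ℕ × Lab))) (ProbabilityTheory.poissonMeasure 1) := fun i =>
    MeasurePreserving.comp ⟨pq_spec.1, pq_spec.2⟩ (measurePreserving_eval_infinitePi _ i)
  let A : Finset (V × (ℕ × Lab)) := D ×ˢ Finset.range J ×ˢ {none}
  have e : ∀ Ω, (tot D J Ω : ℝ) = (∑ i ∈ A, X i) Ω := fun Ω => by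
    simp only [A, X, tot, ncnt, cnt, sl, Finset.sum_apply, Finset.sum_product,
      Finset.sum_singleton, Nat.cast_sum]
    exact Finset.sum_comm
  simp only [e]
  refine ⟨hX.integrable_exp_mul_sum mX fun i _ =>
    (mp i).integrable_comp_of_integrable (pois_rds t).1, (hX.mgf_sum mX A).trans ?_⟩
  have e2 : ∀ i, ProbabilityTheory.mgf (X i) (iidUniform (V × (ℕ × Lab))) t =
      Real.exp (Real.exp t - 1) := fun i => by
    rw [← (pois_rds t).2, ← (mp i).map_eq,
      integral_map (mp i).measurable.aemeasurable Measurable.of_discrete.aestronglyMeasurable]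
    rfl
  simp only [e2, Finset.prod_const, A, Finset.card_product, Finset.card_range,
    Finset.card_singleton]
  rw [← Real.exp_nat_mul]
  congr 1
  push_cast
  ring

lemma tot_exp_le (hD : D.Nonempty) (J : ℕ) {C : ℝ} (hC : 0 ≤ C) :
    Integrable (fun Ω => Real.exp (C * tot D J Ω / D.card)) (iidUniform (V × (ℕ × Lab))) ∧
      ∫ Ω, Real.exp (C * tot D J Ω / D.card) ∂(iidUniform (V × (ℕ × Lab))) ≤
        Real.exp (J * Real.exp C) := by
  have hN : (1 : ℝ) ≤ D.card := by exact_mod_cast hD.card_pos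
  have hN0 : (0 : ℝ) < D.card := by linarith
  have h := tot_mgf (D := D) J (C / D.card)
  simp only [div_mul_eq_mul_div] at h
  refine ⟨h.1, h.2.trans_le (Real.exp_le_exp.2 ?_)⟩
  rw [mul_assoc]
  refine mul_le_mul_of_nonneg_left ?_ (Nat.cast_nonneg J)
  have h1 := convexOn_exp.2 (Set.mem_univ C) (Set.mem_univ 0)
    (show (0 : ℝ) ≤ 1 / D.card by positivity) (sub_nonneg.2 ((div_le_one hN0).2 hN)) (by ring)
  simp only [smul_eq_mul, mul_zero, add_zero, Real.exp_zero, mul_one, one_div_mul_eq_div] at h1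
  calc (D.card : ℝ) * (Real.exp (C / D.card) - 1)
      ≤ D.card * (Real.exp C / D.card + (1 - 1 / D.card) - 1) := by gcongr
    _ = Real.exp C - 1 := by field_simp; ring
    _ ≤ Real.exp C := by linarith

lemma tot_exp_neg (hD : D.Nonempty) (J : ℕ) :
    ∫ Ω, Real.exp (-((tot D J Ω : ℝ) / D.card)) ∂(iidUniform (V × (ℕ × Lab))) ≤
      Real.exp (-(J / 2 : ℝ)) := by
  have hN : (1 : ℝ) ≤ D.card := by exact_mod_cast hD.card_pos
  have hN0 : (0 : ℝ) < D.card := by linarith
  have h := (tot_mgf (D := D) J (-1 / D.card)).2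
  simp only [neg_div, neg_mul, one_div_mul_eq_div] at h
  refine h.trans_le (Real.exp_le_exp.2 ?_)
  have h1 : 1 / (D.card : ℝ) + 1 ≤ Real.exp (1 / D.card) := Real.add_one_le_exp _
  have h2 : Real.exp (-(1 / (D.card : ℝ))) ≤ D.card / (1 + D.card) := by
    rw [Real.exp_neg]
    refine (inv_anti₀ (by positivity) h1).trans (le_of_eq ?_)
    field_simp
  have h3 : (D.card : ℝ) * (D.card / (1 + D.card) - 1) ≤ -(1 / 2) := by
    have : (D.card : ℝ) * (D.card / (1 + D.card) - 1) = -(D.card / (1 + D.card)) := by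
      field_simp; ring
    rw [this, neg_le_neg_iff, le_div_iff₀ (by positivity)]
    linarith
  calc (J : ℝ) * D.card * (Real.exp (-(1 / (D.card : ℝ))) - 1)
      ≤ J * (D.card * (D.card / (1 + D.card) - 1)) := by rw [mul_assoc]; gcongr
    _ ≤ J * -(1 / 2) := by gcongr
    _ = -(J / 2 : ℝ) := by ring

end Vale.Agent.P161E
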