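import Vale.Agent.P161E.Op

namespace Vale.Agent.P161E

open MeasureTheory unitInterval Classical SimpleGraph Filter Topology
open Vale.Agent.P161
open Vale.Agent.P143 (BM iidUniform)

variable {V : Type} {G : SimpleGraph V} [G.LocallyFinite] {d : ℕ} {θ : ℝ} {D : Finset V}

variable {S S' : Type}

lemma mem_evs {ω : V × Lab → I} {e : V × ℕ} : e ∈ evs D ω ↔ e.1 ∈ D ∧ e.2 < cnt ω e.1 := by
  simp only [evs, Finset.mem_biUnion, Finset.mem_image, Finset.mem_range]
  constructor
  · rintro ⟨v, hv, i, hi, rfl⟩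
    exact ⟨hv, hi⟩
  · rintro ⟨h1, h2⟩
    exact ⟨e.1, h1, e.2, h2, rfl⟩

lemma evl_perm_rnd (ω : V × Lab → I) : (evl D ω).Perm (evs D ω).toList :=
  List.mergeSort_perm _ _

lemma mem_evl_rnd {ω : V × Lab → I} {e : V × ℕ} : e ∈ evl D ω ↔ e ∈ evs D ω := by
  rw [(evl_perm_rnd ω).mem_iff, Finset.mem_toList]

lemma evl_nodup_rnd (ω : V × Lab → I) : (evl D ω).Nodup :=
  (evl_perm_rnd ω).nodup_iff.2 (Finset.nodup_toList _)

lemma evl_le_rnd (ω : V × Lab → I) : (evl D ω).Pairwise fun e e' => ky ω e ≤ ky ω e' := by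
  have h := List.pairwise_mergeSort (le := fun e e' : V × ℕ => decide (ky ω e ≤ ky ω e'))
    (fun a b c h1 h2 => by
      simp only [decide_eq_true_eq] at h1 h2 ⊢
      exact h1.trans h2)
    (fun a b => by
      simp only [Bool.or_eq_true, decide_eq_true_eq]
      exact le_total _ _) (evs D ω).toList
  exact h.imp fun h => by simpa using h

lemma evl_lt_rnd {ω : V × Lab → I} (h : Set.InjOn (ky ω) (evs D ω)) :
    (evl D ω).Pairwise fun e e' => ky ω e < ky ω e' := by
  refine ((evl_le_rnd ω).and (evl_nodup_rnd ω)).imp_of_mem fun {a b} ha hb hab => ?_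
  exact lt_of_le_of_ne hab.1 fun he =>
    hab.2 (h (Finset.mem_coe.2 (mem_evl_rnd.1 ha)) (Finset.mem_coe.2 (mem_evl_rnd.1 hb)) he)

/-- with injective keys the sorted list is the unique strictly increasing enumeration -/
lemma evl_eq_iff {ω : V × Lab → I} (L : List (V × ℕ)) :
    (Set.InjOn (ky ω) (evs D ω) ∧ evl D ω = L) ↔
      (L.toFinset = evs D ω ∧ L.Pairwise fun e e' => ky ω e < ky ω e') := by
  constructor
  · rintro ⟨h, rfl⟩
    refine ⟨?_, evl_lt_rnd h⟩
    ext e
    rw [List.mem_toFinset, mem_evl_rnd]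
  · rintro ⟨h1, h2⟩
    have hmem : ∀ e, e ∈ L ↔ e ∈ evs D ω := fun e => by rw [← h1, List.mem_toFinset]
    have hn : (L.map (ky ω)).Nodup := by
      rw [List.Nodup, List.pairwise_map]
      exact h2.imp fun h => h.ne
    have hinj : Set.InjOn (ky ω) (evs D ω) := fun a ha b hb hab =>
      List.inj_on_of_nodup_map hn ((hmem a).2 ha) ((hmem b).2 hb) hab
    refine ⟨hinj, ?_⟩
    have hp : (evl D ω).Perm L :=
      (List.perm_ext_iff_of_nodup (evl_nodup_rnd ω) hn.of_map).2 fun e => by
        rw [mem_evl_rnd, hmem]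
    exact hp.eq_of_pairwise (fun a b _ _ hab hba => absurd hab hba.asymm) (evl_lt_rnd hinj) h2

lemma ae_injOn [Countable V] :
    ∀ᵐ ω ∂(iidUniform (V × Lab)), Function.Injective (ky ω) := by
  refine P143.ae_injective (j := fun e : V × ℕ => ((e.1, some (e.2, 0)) : V × Lab)) ?_
  rintro ⟨a, i⟩ ⟨b, j⟩ h
  simpa using h

lemma measurable_cnt_rnd (v : V) : Measurable fun ω : V × Lab → I => cnt ω v :=
  pq_spec.1.comp (measurable_pi_apply _)

lemma measurable_ncnt : Measurable (ncnt D) := by
  exact Finset.measurable_sum D fun v _ => measurable_cnt_rnd v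

lemma measurable_pw_rnd [Countable V] (L : List (V × ℕ)) :
    MeasurableSet {ω : V × Lab → I | L.Pairwise fun e e' => ky ω e < ky ω e'} := by
  induction L with
  | nil => simp
  | cons a L ih =>
    simp only [List.pairwise_cons, Set.ofPred_and, Set.ofPred_forall]
    refine MeasurableSet.inter (MeasurableSet.iInter fun e => MeasurableSet.iInter fun _ => ?_) ih
    exact measurableSet_lt (measurable_pi_apply _) (measurable_pi_apply _)

lemma measurable_evl_rnd [Countable V] (L : List (V × ℕ)) :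
    MeasurableSet {ω : V × Lab → I | Set.InjOn (ky ω) (evs D ω) ∧ evl D ω = L} := by
  simp only [evl_eq_iff, Set.ofPred_and]
  refine MeasurableSet.inter ?_ (measurable_pw_rnd L)
  simp only [Finset.ext_iff, mem_evs, Set.ofPred_forall]
  refine MeasurableSet.iInter fun e => ?_
  have h : MeasurableSet {ω : V × Lab → I | e.2 < cnt ω e.1} :=
    measurableSet_lt measurable_const (measurable_cnt_rnd _)
  exact measurableSet_setOfPred.2
    (measurable_const.iff (measurable_const.and (measurableSet_setOfPred.1 h)))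

lemma measurable_foldl_rnd [MeasurableSpace S] {f : S → V → I × I → S} (hf : Ms f)
    (L : List (V × ℕ)) : Measurable fun q : S × (V × Lab → I) =>
      L.foldl (fun s e => f s e.1 (mk2 q.2 e)) q.1 := by
  induction L with
  | nil => exact measurable_fst
  | cons a L ih =>
    have h1 : Measurable fun q : S × (V × Lab → I) => (q.1, mk2 q.2 a) :=
      measurable_fst.prodMk (((measurable_pi_apply _).comp measurable_snd).prodMk
        ((measurable_pi_apply _).comp measurable_snd))
    exact ih.comp (((hf a.1).comp h1).prodMk measurable_snd)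

lemma measurable_rnd [Countable V] [MeasurableSpace S] {f : S → V → I × I → S} (hf : Ms f) :
    Measurable fun q : S × (V × Lab → I) => rnd D f q.1 q.2 := by
  letI : MeasurableSpace (List (V × ℕ)) := ⊤
  set ℓ : (V × Lab → I) → List (V × ℕ) :=
    fun ω => if Set.InjOn (ky ω) (evs D ω) then evl D ω else [] with hℓ
  have hB : MeasurableSet {ω : V × Lab → I | Set.InjOn (ky ω) (evs D ω)} := by
    have : {ω : V × Lab → I | Set.InjOn (ky ω) (evs D ω)} =
        ⋃ L : List (V × ℕ), {ω | Set.InjOn (ky ω) (evs D ω) ∧ evl D ω = L} := by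
      ext ω
      simp
    rw [this]
    exact MeasurableSet.iUnion fun L => measurable_evl_rnd L
  have hm : Measurable ℓ := by
    refine measurable_to_countable' fun L => ?_
    have : ℓ ⁻¹' {L} = {ω | Set.InjOn (ky ω) (evs D ω) ∧ evl D ω = L} ∪
        ({ω | Set.InjOn (ky ω) (evs D ω)}ᶜ ∩ {_ω | [] = L}) := by
      ext ω
      by_cases h : Set.InjOn (ky ω) (evs D ω) <;> simp [hℓ, h]
    rw [this]
    exact (measurable_evl_rnd L).union (hB.compl.inter (MeasurableSet.const _))
  have h1 : Measurable fun x : (S × (V × Lab → I)) × List (V × ℕ) =>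
      x.2.foldl (fun s e => f s e.1 (mk2 x.1.2 e)) x.1.1 :=
    measurable_from_prod_countable_left fun L => measurable_foldl_rnd hf L
  have h2 := h1.comp (measurable_id.prodMk (hm.comp measurable_snd))
  convert h2 using 1
  ext q
  simp only [rnd, hℓ, Function.comp, id]
  split_ifs <;> rfl

lemma foldl_semi_rnd {E E' : Type} (F : S → E → S) (F' : S' → E' → S') (π : S → S') (g : E → E')
    (L : List E) (h : ∀ s, ∀ e ∈ L, π (F s e) = F' (π s) (g e)) (s : S) :
    π (L.foldl F s) = (L.map g).foldl F' (π s) := by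
  induction L generalizing s with
  | nil => rfl
  | cons a L ih =>
    rw [List.foldl_cons, List.map_cons, List.foldl_cons,
      ih (fun s e he => h s e (List.mem_cons_of_mem _ he)), h s a List.mem_cons_self]

lemma rnd_semi {f : S → V → I × I → S} {f' : S' → V → I × I → S'} {π : S → S'}
    (h : ∀ s, ∀ w ∈ D, ∀ p, π (f s w p) = f' (π s) w p) (s : S) (ω : V × Lab → I) :
    π (rnd D f s ω) = rnd D f' (π s) ω := by
  unfold rnd
  split_ifs
  · rw [foldl_semi_rnd (fun s e => f s e.1 (mk2 ω e)) (fun s e => f' s e.1 (mk2 ω e)) π id _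
      fun s e he => h s _ (mem_evs.1 (mem_evl_rnd.1 he)).1 _, List.map_id]
  · rfl

lemma rnd_sub {D' : Finset V} (hsub : D ⊆ D') {f : S → V → I × I → S}
    (h : ∀ s w p, w ∉ D → f s w p = s) (s : S) {ω : V × Lab → I}
    (hω : Function.Injective (ky ω)) : rnd D' f s ω = rnd D f s ω := by
  have h1 : evl D ω = (evl D' ω).filter fun e => decide (e.1 ∈ D) := by
    refine ((evl_eq_iff _).2 ⟨?_, (evl_lt_rnd hω.injOn).filter _⟩).2
    ext e
    simp only [List.mem_toFinset, List.mem_filter, mem_evl_rnd, mem_evs, decide_eq_true_eq]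
    exact ⟨fun h => ⟨h.2, h.1.2⟩, fun h => ⟨⟨hsub h.1, h.2⟩, h.1⟩⟩
  unfold rnd
  rw [if_pos hω.injOn, if_pos hω.injOn, h1, List.foldl_filter]
  congr 1
  funext s e
  by_cases he : e.1 ∈ D
  · simp [he]
  · simp [he, h s _ _ he]

lemma rnd_map (g : V ≃ V) {f : S → V → I × I → S} {f' : S' → V → I × I → S'} {π : S → S'}
    (h : ∀ s w p, π (f s w p) = f' (π s) (g w) p) (s : S) {ω ω' : V × Lab → I}
    (hω : ∀ v k, ω' (g v, k) = ω (v, k)) :
    π (rnd D f s ω) = rnd (D.map g.toEmbedding) f' (π s) ω' := by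
  have hk : ∀ e, ky ω' (Prod.map g id e) = ky ω e := fun e => hω _ _
  have hm : ∀ e, mk2 ω' (Prod.map g id e) = mk2 ω e := fun e => Prod.ext (hω _ _) (hω _ _)
  have he : ∀ e, Prod.map g id e ∈ evs (D.map g.toEmbedding) ω' ↔ e ∈ evs D ω := fun e => by
    have : cnt ω' (g e.1) = cnt ω e.1 := congrArg pq (hω _ _)
    simp [mem_evs, this]
  unfold rnd
  by_cases hi : Set.InjOn (ky ω) (evs D ω)
  · have h1 := (evl_eq_iff (D := D.map g.toEmbedding) (ω := ω')
      ((evl D ω).map (Prod.map g id))).2 ⟨?_, ?_⟩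
    · rw [if_pos hi, if_pos h1.1, h1.2]
      exact foldl_semi_rnd _ _ π _ _ (fun s e _ => by rw [hm, h]; rfl) s
    · ext e
      obtain ⟨e, rfl⟩ := (g.surjective.prodMap Function.surjective_id) e
      rw [List.mem_toFinset, he,
        List.mem_map_of_injective (g.injective.prodMap Function.injective_id), mem_evl_rnd]
    · rw [List.pairwise_map]
      simp only [hk]
      exact evl_lt_rnd hi
  · rw [if_neg hi, if_neg]
    intro hi'
    refine hi fun a ha b hb hab => (g.injective.prodMap Function.injective_id) ?_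
    exact hi' (Finset.mem_coe.2 ((he a).2 ha)) (Finset.mem_coe.2 ((he b).2 hb))
      (by rw [hk, hk, hab])

/-- changing the marks only -/
lemma rnd_marks {f f' : S → V → I × I → S} (s : S) {ω ω' : V × Lab → I}
    (h1 : ∀ v, ω' (v, none) = ω (v, none)) (h2 : ∀ e, ky ω' e = ky ω e)
    (h3 : ∀ s e, f' s e.1 (mk2 ω' e) = f s e.1 (mk2 ω e)) : rnd D f' s ω' = rnd D f s ω := by
  have hk : ky ω' = ky ω := funext h2
  have he : evs D ω' = evs D ω := by
    ext e
    have : cnt ω' e.1 = cnt ω e.1 := congrArg pq (h1 _)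
    rw [mem_evs, mem_evs, this]
  unfold rnd evl
  simp only [hk, he, h3]

end Vale.Agent.P161E
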