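import Vale.Agent.P161E.Uc2
import Vale.Agent.P161E.Fin

namespace Vale.Agent.P161E

open MeasureTheory unitInterval Classical SimpleGraph Filter Topology
open Vale.Agent.P161
open Vale.Agent.P143 (BM iidUniform)

variable {V : Type} {G : SimpleGraph V} [G.LocallyFinite] {d : ℕ} {θ : ℝ} {D : Finset V}

section spec
variable {Ω : Type} [MeasurableSpace Ω] (μ : Measure Ω) [IsProbabilityMeasure μ]

lemma mk_int_sly : MK fun (g : Ω → ℝ) (_ : Ω) => ∫ ω, g ω ∂μ :=
  ⟨fun _ _ => BM.const _, fun _ _ hg hh _ => integral_add (hg.integrable _) (hh.integrable _),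
    fun _ _ _ => integral_const_mul _ _,
    fun _ _ hg hh H _ => integral_mono (hg.integrable _) (hh.integrable _) H,
    fun _ _ => by simp⟩

noncomputable def Bop (hc : G.Connected) (n : ℕ) (t : ℝ) (F : V → Ω → ℝ) (x : V) (ω : Ω) : ℝ :=
  ∑ y ∈ ballF hc x n, t ^ G.dist x y * F y ω

def Pinv (G : SimpleGraph V) (F F' : V → Ω → ℝ) : Prop :=
  ∀ (g : G ≃g G) x y, ∫ ω, F (g x) ω * F' (g y) ω ∂μ = ∫ ω, F x ω * F' y ω ∂μ

variable {μ} {hc : G.Connected} {n : ℕ} {t : ℝ} {F F' : V → Ω → ℝ}

lemma bm_Bop (hF : ∀ x, BM (F x)) (x : V) : BM (Bop hc n t F x) :=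
  BM.sum _ fun y _ => (BM.const _).mul (hF y)

lemma int_Bop {f : Ω → ℝ} (hf : BM f) (hF : ∀ x, BM (F x)) (y : V) :
    ∫ ω, f ω * Bop hc n t F y ω ∂μ =
      ∑ z ∈ ballF hc y n, t ^ G.dist y z * ∫ ω, f ω * F z ω ∂μ := by
  simp only [Bop, Finset.mul_sum, ← integral_const_mul, mul_left_comm (f _)]
  exact integral_finsetSum _ fun z _ => ((BM.const _).mul (hf.mul (hF z))).integrable _

omit [G.LocallyFinite] [IsProbabilityMeasure μ] in
lemma Pinv.symm (h : Pinv μ G F F') : Pinv μ G F' F := fun g x y => by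
  simpa only [mul_comm] using h g y x

lemma Pinv.right (h : Pinv μ G F F') (hF : ∀ x, BM (F x)) (hF' : ∀ x, BM (F' x)) :
    Pinv μ G F (Bop hc n t F') := fun g x y => by
  rw [int_Bop (hF _) hF', int_Bop (hF _) hF', ← ballF_map, Finset.sum_map]
  exact Finset.sum_congr rfl fun z _ => congrArg₂ (· * ·)
    (congrArg _ (dist_iso hc g y z)) (h g x z)

lemma Pinv.adj (hG : G.IsTree) (hreg : G.IsRegularOfDegree d) (h : Pinv μ G F F')
    (hF : ∀ x, BM (F x)) (hF' : ∀ x, BM (F' x)) (o : V) :
    ∫ ω, Bop hc n t F o ω * F' o ω ∂μ = ∫ ω, F o ω * Bop hc n t F' o ω ∂μ := by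
  simp only [mul_comm (Bop hc n t F o _)]
  rw [int_Bop (hF _) hF', int_Bop (hF' _) hF]
  refine Finset.sum_congr rfl fun z _ => congrArg _ ?_
  obtain ⟨g, g1, g2⟩ := exists_swap hG hreg o z
  rw [← h g o z, g1, g2]
  simp only [mul_comm]

theorem spec_sly (hG : G.IsTree) (hreg : G.IsRegularOfDegree d) (hF : ∀ x, BM (F x))
    (h1 : ∀ x ω, |F x ω| ≤ 1) (inv : Pinv μ G F F) {R : ℕ}
    (rng : ∀ x y, R < G.dist x y → ∫ ω, F x ω * F y ω ∂μ = 0) {r C : ℝ} (t0 : 0 ≤ t) (r0 : 0 < r)
    (r1 : r ≤ 1) (C0 : 0 < C) (hk : ∀ (u w : V) (D : Finset V),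
      ∑ y ∈ D, t ^ G.dist u y * r ^ G.dist w y ≤ C * r ^ G.dist w u) (o : V) :
    ∫ ω, F o ω * Bop hc n t F o ω ∂μ ≤ C := by
  have b : ∀ k x, BM ((Bop hc n t)^[k] F x) := fun k => by
    induction k with
    | zero => exact hF
    | succ k ih => rw [Function.iterate_succ_apply']; exact bm_Bop ih
  have p0 : ∀ {F0 : V → Ω → ℝ}, (∀ x, BM (F0 x)) → Pinv μ G F0 F →
      ∀ j, Pinv μ G F0 ((Bop hc n t)^[j] F) := fun h0 hp j => by
    induction j with
    | zero => exact hp
    | succ k ih => rw [Function.iterate_succ_apply']; exact ih.right h0 (b k)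
  have p : ∀ i j, Pinv μ G ((Bop hc n t)^[i] F) ((Bop hc n t)^[j] F) := fun i j =>
    p0 (b i) (p0 hF inv i).symm j
  have sh : ∀ i j, ∫ ω, (Bop hc n t)^[i] F o ω * (Bop hc n t)^[j] F o ω ∂μ =
      ∫ ω, F o ω * (Bop hc n t)^[i + j] F o ω ∂μ := fun i => by
    induction i with
    | zero => simp
    | succ i ih =>
      intro j
      rw [Function.iterate_succ_apply', (p i j).adj hG hreg (b i) (b j),
        ← Function.iterate_succ_apply' (Bop hc n t), ih, show i + j.succ = i + 1 + j by omega]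
  have q : ∀ x y ω, |F x ω * F y ω| ≤ 1 := fun x y ω => by
    rw [abs_mul]; exact mul_le_one₀ (h1 _ _) (abs_nonneg _) (h1 _ _)
  have q1 : ∀ x y, |∫ ω, F x ω * F y ω ∂μ| ≤ 1 := fun x y => by
    simpa using norm_integral_le_of_norm_le_const (μ := μ) (C := 1)
      (f := fun ω => F x ω * F y ω) (Eventually.of_forall (q x y))
  have bd : ∀ k x, |∫ ω, F o ω * (Bop hc n t)^[k] F x ω ∂μ| ≤
      C ^ k / r ^ R * r ^ G.dist o x := fun k => by
    induction k with
    | zero =>
      intro x
      rcases lt_or_ge R (G.dist o x) with h | h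
      · simp only [Function.iterate_zero, id, rng o x h, abs_zero]
        positivity
      · refine (q1 o x).trans ?_
        rw [pow_zero, div_mul_eq_mul_div, one_mul, one_le_div (by positivity)]
        exact pow_le_pow_of_le_one r0.le r1 h
    | succ k ih =>
      intro x
      rw [Function.iterate_succ_apply', int_Bop (hF o) (b k)]
      refine (Finset.abs_sum_le_sum_abs _ _).trans ((Finset.sum_le_sum
        (g := fun z => C ^ k / r ^ R * (t ^ G.dist x z * r ^ G.dist o z)) fun z _ => ?_).trans ?_)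
      · rw [abs_mul, abs_of_nonneg (pow_nonneg t0 _), mul_left_comm]
        exact mul_le_mul_of_nonneg_left (ih z) (pow_nonneg t0 _)
      · rw [← Finset.mul_sum]
        exact (mul_le_mul_of_nonneg_left (hk x o _) (by positivity)).trans_eq (by ring)
  have cs : ∀ k, (∫ ω, F o ω * (Bop hc n t)^[k] F o ω ∂μ) ^ 2 ≤
      ∫ ω, F o ω * (Bop hc n t)^[k + k] F o ω ∂μ := fun k => by
    obtain ⟨ω0⟩ := μ.nonempty_of_neZero
    have c := (mk_int_sly μ).cs (hF o) (b k o) ω0
    simp only [sq (F o _), sq ((Bop hc n t)^[k] F o _), sh k k] at c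
    refine c.trans (mul_le_of_le_one_left ?_ ((le_abs_self _).trans (q1 o o)))
    rw [← sh]
    exact integral_nonneg fun ω => mul_self_nonneg _
  by_contra hlt
  rw [not_le] at hlt
  have pw : ∀ m, (∫ ω, F o ω * Bop hc n t F o ω ∂μ) ^ 2 ^ m ≤
      ∫ ω, F o ω * (Bop hc n t)^[2 ^ m] F o ω ∂μ := fun m => by
    induction m with
    | zero => simp
    | succ m ih =>
      rw [pow_succ, pow_mul, mul_two]
      exact (pow_le_pow_left₀ (pow_nonneg (C0.trans hlt).le _) ih 2).trans (cs _)
  obtain ⟨m, hm⟩ := pow_unbounded_of_one_lt (1 / r ^ R) ((one_lt_div C0).2 hlt)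
  have a1 := (pw m).trans ((le_abs_self _).trans (bd _ o))
  have a2 := pow_le_pow_right₀ ((one_lt_div C0).2 hlt).le (Nat.lt_two_pow_self (n := m)).le
  rw [SimpleGraph.dist_self, pow_zero, mul_one, div_eq_mul_one_div, ← div_le_iff₀' (by positivity),
    ← div_pow] at a1
  linarith

end spec

section cond
variable {N : Type}

noncomputable def ce (S : Set N) (h : (N → I) → ℝ) (U : N → I) : ℝ :=
  ∫ W, h (pwP S U W) ∂(iidUniform N)

variable {h h' : (N → I) → ℝ} {S S' : Set N}

lemma bm_ce (hh : BM h) : BM (ce S h) :=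
  bm_int_P _ (F := fun q => h (pwP S q.1 q.2)) (hh.comp (pwP_mp S).measurable)

lemma abs_ce (h1 : ∀ U, |h U| ≤ 1) (U : N → I) : |ce S h U| ≤ 1 := by
  simpa [ce] using norm_integral_le_of_norm_le_const (μ := iidUniform N) (C := 1)
    (f := fun W => h (pwP S U W)) (Eventually.of_forall fun W => h1 _)

lemma int_ce (hh : BM h) : ∫ U, ce S h U ∂(iidUniform N) = ∫ U, h U ∂(iidUniform N) :=
  (split_P S hh).symm

lemma ce_indep (hh : BM h) (hh' : BM h') (hS : Disjoint S S') :
    ∫ U, ce S h U * ce S' h' U ∂(iidUniform N) =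
      (∫ U, h U ∂(iidUniform N)) * ∫ U, h' U ∂(iidUniform N) := by
  rw [split_P S ((bm_ce hh).mul (bm_ce hh')), ← int_ce (S := S) hh, ← int_ce (S := S') hh',
    ← integral_mul_const]
  refine integral_congr_ae (Eventually.of_forall fun a => ?_)
  simp only
  rw [← integral_const_mul]
  refine integral_congr_ae (Eventually.of_forall fun b => congrArg₂ (· * ·) ?_ ?_) <;>
    refine integral_congr_ae (Eventually.of_forall fun W => congrArg _ (funext fun v => ?_))
  · by_cases hv : v ∈ S
    · simp only [pwP_mem _ _ hv]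
    · simp only [pwP_not _ _ hv]
  · by_cases hv : v ∈ S'
    · simp only [pwP_mem _ _ hv, pwP_not _ _ (Set.disjoint_right.1 hS hv)]
    · simp only [pwP_not _ _ hv]

lemma ce_close {c : (N → I) → ℝ} (hh : BM h) (hc : BM c) (dep : ∀ U W, c (pwP S U W) = c U) :
    ∫ U, |h U - ce S h U| ∂(iidUniform N) ≤ 2 * ∫ U, |h U - c U| ∂(iidUniform N) := by
  have b := (hh.sub hc).abs
  have e : ∀ U, |h U - ce S h U| ≤ |h U - c U| + ce S (fun U => |h U - c U|) U := fun U => by
    refine (abs_sub_le _ (c U) _).trans (add_le_add le_rfl ?_)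
    have i : Integrable (fun W => h (pwP S U W)) (iidUniform N) :=
      (hh.comp ((pwP_mp S).measurable.comp measurable_prodMk_left)).integrable _
    have : ce S h U - c U = ∫ W, (h (pwP S U W) - c (pwP S U W)) ∂(iidUniform N) := by
      simp only [dep]
      rw [integral_sub i (integrable_const _)]
      simp [ce]
    rw [abs_sub_comm, this]
    exact abs_integral_le_integral_abs
  refine (integral_mono ((hh.sub (bm_ce hh)).abs.integrable _) ((b.add (bm_ce b)).integrable _)
    e).trans ?_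
  rw [integral_add (b.integrable _) ((bm_ce b).integrable _), int_ce b, two_mul]

lemma ce_approx {P : (N → I) → Bool} (hP : Measurable P) {ε : ℝ} (hε : 0 < ε) :
    ∃ S0 : Finset N, ∀ S : Set N, ↑S0 ⊆ S →
      ∫ U, |spin (P U) - ce S (fun U => spin (P U)) U| ∂(iidUniform N) ≤ ε := by
  have mA : MeasurableSet {U | P U = true} := hP (measurableSet_singleton true)
  obtain ⟨t, ht, hμ⟩ := exists_measure_symmDiff_lt_of_generateFrom_isSetRing (μ := iidUniform N)
    isSetRing_measurableCylinders ⟨{Set.univ}, Set.countable_singleton _,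
      Set.singleton_subset_iff.2 (univ_mem_measurableCylinders _), by simp⟩
    generateFrom_measurableCylinders.symm mA (ε := ENNReal.ofReal (ε / 4)) (by simpa)
  have mt := MeasurableSet.of_mem_measurableCylinders ht
  obtain ⟨S0, T, -, e⟩ := (mem_measurableCylinders _).1 ht
  have sb : ∀ Q : (N → I) → Bool, Measurable Q → BM fun U => spin (Q U) := fun Q hQ =>
    ⟨(Measurable.of_discrete (f := spin)).comp hQ, 1, fun U => by
      unfold spin; split_ifs <;> simp⟩
  have mQ : Measurable fun U => decide (U ∈ t) :=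
    (Measurable.of_discrete (f := fun p : Prop => decide p)).comp (measurableSet_setOfPred.1 mt)
  refine ⟨S0, fun S hS => (ce_close (sb P hP) (sb _ mQ) fun U W => ?_).trans ?_⟩
  · have : S0.restrict (pwP S U W) = S0.restrict U := funext fun v => pwP_mem _ _ (hS v.2)
    simp only [e, mem_cylinder, this]
  · have ms := mt.symmDiff mA
    have : ∀ U, |spin (P U) - spin (decide (U ∈ t))| =
        2 * (symmDiff t {U | P U = true}).indicator 1 U := fun U => by
      by_cases a : U ∈ t <;> by_cases b : P U = true <;>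
        norm_num [spin, Set.indicator, Set.mem_symmDiff, a, b]
    simp only [this]
    rw [integral_const_mul, integral_indicator_one ms]
    have := ENNReal.toReal_le_of_le_ofReal (by positivity) hμ.le
    unfold Measure.real
    linarith

lemma ce_map (g : N ≃ N) (hh : BM h) (hh' : BM h') (hS : ∀ v, g v ∈ S' ↔ v ∈ S)
    (e : ∀ᵐ U ∂(iidUniform N), h' (fun v => U (g.symm v)) = h U) :
    ∀ᵐ U ∂(iidUniform N), ce S' h' (fun v => U (g.symm v)) = ce S h U := by
  have mp := reindex_mp (j := g.symm) g.symm.injective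
  filter_upwards [Measure.ae_ae_of_ae_prod ((pwP_mp S).quasiMeasurePreserving.ae e)] with U hU
  rw [ce, ← mp.map_eq, integral_map mp.measurable.aemeasurable
    (f := fun W => h' (pwP S' (fun v => U (g.symm v)) W)) (hh'.comp ((pwP_mp S').measurable.comp measurable_prodMk_left)).meas.aestronglyMeasurable]
  refine integral_congr_ae (hU.mono fun W hW => Eq.trans (congrArg h' (funext fun v => ?_)) hW)
  obtain ⟨v, rfl⟩ := g.surjective v
  by_cases hv : v ∈ S
  · simp only [pwP_mem _ _ hv, pwP_mem _ _ ((hS v).2 hv), g.symm_apply_apply]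
  · simp only [pwP_not _ _ hv, pwP_not _ _ (mt (hS v).1 hv), g.symm_apply_apply]

end cond

section ising
omit [G.LocallyFinite]

lemma conn_sly (hc : G.Connected) {o : V} (hD : GoodAt G o D) :
    (G.induce (D : Set V)).Connected := by
  have key : ∀ n, ∀ y (hy : y ∈ D), G.dist o y = n →
      (G.induce (D : Set V)).Reachable ⟨y, hy⟩ ⟨o, hD.1⟩ := fun n => by
    induction n with
    | zero => intro y hy h; obtain rfl := hc.dist_eq_zero_iff.1 h; rfl
    | succ n ih =>
      intro y hy h
      obtain ⟨p, p1, p2⟩ := exists_parent hc (u := o) (x := y) (by rintro rfl; simp at h)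
      exact (SimpleGraph.Adj.reachable (show (G.induce (D : Set V)).Adj ⟨y, hy⟩
        ⟨p, hD.2 y hy p p1 p2⟩ from p1)).trans (ih p _ (by omega))
  have : Nonempty (D : Set V) := ⟨⟨o, hD.1⟩⟩
  exact ⟨fun a b => (key _ a.1 a.2 rfl).trans (key _ b.1 b.2 rfl).symm⟩

lemma int_ising [Countable V] (hG : G.IsTree) (hθ : θ ∈ Set.Ico (0 : ℝ) 1) {μ : Measure (V → Bool)}
    (hμ : IsFreeIsing G θ μ) {o : V} (hD : GoodAt G o D) (g : Finset V → ℝ) :
    ∫ ξ, g (D.filter fun v => ξ v = true) ∂μ = ex G θ D 0 g := by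
  have := hμ.1
  have mS : ∀ η : V → Bool, MeasurableSet {τ : V → Bool | ∀ v ∈ D, τ v = η v} := fun η =>
    measurableSet_setOfPred.2 (Measurable.forall fun v => measurable_const.imp
      (measurableSet_setOfPred.1 (measurableSet_eq_fun (measurable_pi_apply v) measurable_const)))
  have e : ∀ ξ : V → Bool, g (D.filter fun v => ξ v = true) = ∑ T ∈ D.powerset,
      {τ : V → Bool | ∀ v ∈ D, τ v = decide (v ∈ T)}.indicator (fun _ => g T) ξ := fun ξ => by
    rw [Finset.sum_eq_single (D.filter fun v => ξ v = true), Set.indicator_of_mem]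
    · intro v hv; simp [hv]
    · intro T hT hne
      refine Set.indicator_of_notMem (fun h => hne ?_) _
      ext v
      rw [Finset.mem_filter]
      exact ⟨fun hv => ⟨Finset.mem_powerset.1 hT hv, by
        rw [h v (Finset.mem_powerset.1 hT hv)]; simpa⟩, fun hv => by simpa [hv.2] using h v hv.1⟩
    · exact fun hn => (hn (Finset.mem_powerset.2 (Finset.filter_subset _ _))).elim
  simp only [e]
  rw [integral_finsetSum _ fun T _ => (integrable_const _).indicator (mS _), ex,
    SI_good hG hθ hD, SI_zero, Finset.sum_div]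
  refine Finset.sum_congr rfl fun T _ => ?_
  have w : wI G θ D T = ∏ e ∈ D.sym2 with e ∈ G.edgeSet,
      (1 + θ * (e.map fun v => spin (decide (v ∈ T))).mul) / 2 :=
    Finset.prod_congr rfl fun e _ => by congr 5; funext v; simp [sp, spin]
  rw [integral_indicator_const _ (mS _), Measure.real, hμ.2 D (conn_sly hG.connected hD), ← w,
    ENNReal.toReal_ofReal (by have := wI_pos (G := G) hθ D T; positivity), smul_eq_mul]
  ring

lemma mI_half (hG : G.IsTree) (hθ : θ ∈ Set.Ico (0 : ℝ) 1) {x : V} (hx : x ∈ D) :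
    mI G θ D 0 x = 1 / 2 := by
  have h0 : GoodAt G x {x} := ⟨Finset.mem_singleton_self x, fun y hy z _ h => by
    rw [Finset.mem_singleton.1 hy, SimpleGraph.dist_self] at h; omega⟩
  have := SI_cyl_fin hG hθ h0 (Finset.singleton_subset_iff.2 hx) fun _ => true
  have he : edgesIn G ({x} : Finset V) = ∅ := by
    ext e
    induction e using Sym2.ind with
    | _ a b =>
      simp only [mk_mem_edgesIn, Finset.mem_singleton, Finset.notMem_empty, iff_false]
      rintro ⟨rfl, rfl, h⟩; exact h.ne rfl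
  simpa [cylF, wI, he, ex_ind] using this

lemma cov_zero (hG : G.IsTree) (hθ : θ ∈ Set.Ico (0 : ℝ) 1) {o : V} (hD : GoodAt G o D) (n : ℕ) :
    ∀ x ∈ D, G.dist o x = n → cov G θ D 0 x o = θ ^ n / 4 := by
  induction n with
  | zero =>
    intro x hx h
    obtain rfl := hG.connected.dist_eq_zero_iff.1 h
    rw [← aa_vr hθ 0 o hx, aa_self hθ 0 hx, vr, mI_half hG hθ hx]
    norm_num
  | succ n ih =>
    intro x hx h
    obtain ⟨p, p1, p2⟩ := exists_parent hG.connected (u := o) (x := x) (by rintro rfl; simp at h)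
    have hp := hD.2 x hx p p1 p2
    obtain ⟨α, β, a1, a2, a3, a4, a5, -⟩ := edge_struct hG hθ 0 hx hp p1
    have t : ∀ a b : ℝ, |a| < 1 → |b| < 1 → 1 + θ * a * b ≠ 0 := fun a b ha hb => by
      have : |θ * a * b| < 1 := by
        rw [abs_mul, abs_mul, abs_of_nonneg hθ.1]
        exact mul_lt_one_of_nonneg_of_lt_one_right
          (mul_le_one₀ hθ.2.le (abs_nonneg _) ha.le) (abs_nonneg _) hb
      linarith [(abs_lt.1 this).1]
    rw [mu, mI_half hG hθ hx, em, eq_div_iff (t _ _ a1 a2)] at a3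
    rw [mu, mI_half hG hθ hp, em, eq_div_iff (t _ _ a2 a1)] at a4
    have a0 : α = 0 := by
      have : α * (1 - θ ^ 2) = 0 := by linear_combination θ * a4 - a3
      exact (mul_eq_zero.1 this).resolve_right (by nlinarith [hθ.1, hθ.2])
    rw [cov_mul hG hθ 0 hp (show Btw G x p o by
      unfold Btw
      rw [dist_eq_one_iff_adj.2 p1, SimpleGraph.dist_comm (u := p), SimpleGraph.dist_comm (u := x)]
      omega), ih p hp (by omega), a5, a0, eg]
    ring

end ising

lemma two_point [Countable V] (hG : G.IsTree) (hθ : θ ∈ Set.Ico (0 : ℝ) 1) {μ : Measure (V → Bool)}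
    (hμ : IsFreeIsing G θ μ) (o x : V) :
    ∫ ξ, spin (ξ o) ∂μ = 0 ∧ ∫ ξ, spin (ξ o) * spin (ξ x) ∂μ = θ ^ G.dist o x := by
  have hD := good_ballF hG.connected o (G.dist o x)
  have hx := (mem_ballF hG.connected).2 (le_refl (G.dist o x))
  generalize ballF hG.connected o (G.dist o x) = D at hD hx
  have e : ∀ (ξ : V → Bool), ∀ v ∈ D, spin (ξ v) = 2 * ind (D.filter fun v => ξ v = true) v + -1 :=
    fun ξ v hv => by cases h : ξ v <;> norm_num [spin, ind, h, hv]
  have c := cov_zero hG hθ hD _ x hx rfl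
  simp only [e _ o hD.1, e _ x hx]
  rw [int_ising hG hθ hμ hD fun T => 2 * ind T o + -1,
    int_ising hG hθ hμ hD fun T => (2 * ind T o + -1) * (2 * ind T x + -1),
    ex_congr (h := fun T => 4 * (ind T x * ind T o) + (-2 * ind T o + (-2 * ind T x + 1))) 0
      (g := fun T => (2 * ind T o + -1) * (2 * ind T x + -1)) fun T _ => by ring]
  rw [cov] at c
  simp only [ex_add, ex_smul, ex_const hθ, ex_ind, mI_half hG hθ hD.1, mI_half hG hθ hx] at c ⊢
  constructor <;> linarith

lemma sphere_ge (hG : G.IsTree) (hreg : G.IsRegularOfDegree d) (c : V) (k : ℕ) :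
    (d - 1) ^ k ≤ ((ballF hG.connected c k).filter fun x => G.dist x c = k).card := by
  have hc := hG.connected
  let S : ℕ → Finset V := fun k => (ballF hc c k).filter fun x => G.dist x c = k
  have mS : ∀ k x, x ∈ S k ↔ G.dist c x = k := fun k x => by
    simp only [S, Finset.mem_filter, mem_ballF, SimpleGraph.dist_comm (u := x)]
    exact ⟨fun h => h.2, fun h => ⟨h.le, h⟩⟩
  have grow : ∀ k, (d - 1) * (S k).card ≤ (S (k + 1)).card := by
    intro k
    have hne : ∀ x ∈ S (k + 1), x ≠ c := fun x hx e => by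
      have := (mS _ _).1 hx
      rw [e, SimpleGraph.dist_self] at this
      omega
    refine Finset.mul_card_image_le_card_of_maps_to (f := fun x => nx G x c) (fun x hx => ?_) _
      fun b hb => ?_
    · have h1 := (nx_spec hG (hne x hx)).2
      have h2 := (mS _ _).1 hx
      rw [mS, dist_comm]
      rw [dist_comm] at h2
      omega
    · have hb' := (mS _ _).1 hb
      have e := Finset.card_filter_add_card_filter_not (s := G.neighborFinset b)
        fun z => G.dist c z + 1 = G.dist c b
      rw [card_neighborFinset_eq_degree, hreg.degree_eq b] at e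
      have one : ((G.neighborFinset b).filter fun z => G.dist c z + 1 = G.dist c b).card ≤ 1 :=
        Finset.card_le_one.2 fun x hx y hy => by
          rw [Finset.mem_filter, mem_neighborFinset] at hx hy
          exact parent_unique hG hx.1 hy.1 hx.2 hy.2
      have sub : ((G.neighborFinset b).filter fun z => ¬ G.dist c z + 1 = G.dist c b) ⊆
          (S (k + 1)).filter fun x => nx G x c = b := by
        intro z hz
        rw [Finset.mem_filter, mem_neighborFinset] at hz
        have h3 := hG.dist_eq_dist_add_one_of_adj c hz.1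
        have h4 : G.dist c z = k + 1 := by omega
        refine Finset.mem_filter.2 ⟨(mS _ _).2 h4, nx_eq hG hz.1.symm ?_⟩
        rw [dist_comm, dist_comm (u := z)]
        omega
      have := Finset.card_le_card sub
      omega
  induction k with
  | zero => exact Finset.card_pos.2 ⟨c, (mS _ _).2 (by simp)⟩
  | succ k ih => rw [pow_succ']; exact (Nat.mul_le_mul_left _ ih).trans (grow k)

theorem sly [Countable V] (hG : G.IsTree) (hreg : G.IsRegularOfDegree d) (hd : 3 ≤ d)
    (hθ : θ ∈ Set.Ico (0 : ℝ) 1) {Φ : (V → I) → V → Bool} (mΦ : Measurable Φ)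
    (eq : ∀ g : G ≃g G, ∀ᵐ U ∂(iidUniform V),
      Φ (fun v => U (g.symm v)) = fun v => Φ U (g.symm v))
    (law : IsFreeIsing G θ ((iidUniform V).map Φ)) : ((d : ℝ) - 1) * θ ^ 2 ≤ 1 := by
  by_contra hlt
  rw [not_le] at hlt
  have hc := hG.connected
  obtain ⟨o⟩ := hc.nonempty
  have h3 : (3 : ℝ) ≤ d := by exact_mod_cast hd
  have t0 : 0 < θ := lt_of_le_of_ne hθ.1 (by rintro rfl; norm_num at hlt)
  obtain ⟨b, hb⟩ : ∃ b : ℝ, b = d - 1 := ⟨_, rfl⟩
  have b2 : 2 ≤ b := by linarith
  rw [← hb] at hlt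
  obtain ⟨r, r0, r2⟩ : ∃ r : ℝ, 0 < r ∧ r ^ 2 * b = 1 :=
    ⟨√(1 / b), by positivity, by rw [Real.sq_sqrt (by positivity)]; field_simp⟩
  have r1 : r ≤ 1 := by nlinarith
  have rθ : r < θ := lt_of_pow_lt_pow_left₀ 2 t0.le (by nlinarith)
  have tr : 1 / (θ * b) < r := by rw [div_lt_iff₀ (by positivity)]; nlinarith
  obtain ⟨C, C1, hk⟩ := kernel_bound hG (fun v => (hreg v).le) (θ := 1 / (θ * b)) (by positivity)
    tr (by rw [← hb]; nlinarith [mul_lt_mul_of_pos_right tr (show 0 < r * b by positivity)])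
  obtain ⟨n, hn⟩ := exists_nat_gt (C + 1)
  have sb : ∀ x, BM fun U => spin (Φ U x) := fun x =>
    ⟨(Measurable.of_discrete (f := spin)).comp ((measurable_pi_apply x).comp mΦ), 1, fun U => by
      unfold spin; split_ifs <;> simp⟩
  have s1 : ∀ x U, |spin (Φ U x)| ≤ 1 := fun x U => by unfold spin; split_ifs <;> simp
  have ms : ∀ x, Measurable fun ξ : V → Bool => spin (ξ x) := fun x =>
    (Measurable.of_discrete (f := spin)).comp (measurable_pi_apply x)
  have tp : ∀ x y, ∫ U, spin (Φ U x) ∂(iidUniform V) = 0 ∧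
      ∫ U, spin (Φ U x) * spin (Φ U y) ∂(iidUniform V) = θ ^ G.dist x y := fun x y => by
    have := two_point hG hθ law x y
    rwa [integral_map mΦ.aemeasurable (ms x).aestronglyMeasurable, integral_map mΦ.aemeasurable
      (f := fun ξ => spin (ξ x) * spin (ξ y)) ((ms x).mul (ms y)).aestronglyMeasurable] at this
  obtain ⟨M, hM⟩ : ∃ M : ℝ, M = ∑ y ∈ ballF hc o n, (1 / (θ * b)) ^ G.dist o y := ⟨_, rfl⟩
  have M0 : 0 ≤ M := hM ▸ Finset.sum_nonneg fun _ _ => by positivity
  choose S hS using fun x => ce_approx ((measurable_pi_apply x).comp mΦ)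
    (ε := 1 / (2 * (M + 1))) (by positivity)
  obtain ⟨R, hR⟩ : ∃ R : ℕ, ∀ y ∈ ballF hc o n, S y ⊆ ballF hc y R :=
    ⟨(ballF hc o n).sup fun y => (S y).sup (G.dist y), fun y hy z hz => (mem_ballF hc).2
      ((Finset.le_sup hz).trans (Finset.le_sup (f := fun y => (S y).sup (G.dist y)) hy))⟩
  set F : V → (V → I) → ℝ := fun x => ce (ballF hc x R) fun U => spin (Φ U x) with hF
  have bF : ∀ x, BM (F x) := fun x => bm_ce (sb x)
  have F1 : ∀ x U, |F x U| ≤ 1 := fun x => abs_ce (s1 x)
  have sp := spec_sly (μ := iidUniform V) (hc := hc) (n := n) hG hreg bF F1 (fun g x y => ?_)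
    (R := 2 * R) (fun x y hxy => ?_) (by positivity) r0 r1 (by linarith) hk o
  rotate_left
  · have mp := reindex_mp (j := g.symm) g.symm.injective
    have k : ∀ x, ∀ᵐ U ∂(iidUniform V), F (g x) (fun v => U (g.symm v)) = F x U := fun x =>
      ce_map g.toEquiv (sb x) (sb (g x)) (fun v => by
        simp only [Finset.mem_coe, mem_ballF]
        rw [← dist_iso hc g x v]; rfl) ((eq g).mono fun U hU => by
          rw [show (fun v => U (g.toEquiv.symm v)) = fun v => U (g.symm v) from rfl, hU]; simp)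
    conv_lhs => rw [← mp.map_eq]
    rw [integral_map mp.measurable.aemeasurable ((bF _).mul (bF _)).meas.aestronglyMeasurable]
    exact integral_congr_ae (by filter_upwards [k x, k y] with U h1 h2; rw [h1, h2])
  · rw [ce_indep (sb x) (sb y), (tp x x).1, zero_mul]
    refine Set.disjoint_left.2 fun v h1 h2 => ?_
    rw [Finset.mem_coe, mem_ballF] at h1 h2
    have := hc.dist_triangle (u := x) (v := v) (w := y)
    rw [SimpleGraph.dist_comm (u := v)] at this
    omega
  rw [int_Bop (bF o) bF] at sp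
  have a1 : ∀ y ∈ ballF hc o n, θ ^ G.dist o y - 1 / (M + 1) ≤
      ∫ U, F o U * F y U ∂(iidUniform V) := fun y hy => by
    have c1 := hS y _ (Finset.coe_subset.2 (hR y hy))
    have c2 := hS o _ (Finset.coe_subset.2 (hR o (by simp [mem_ballF])))
    have i1 := ((sb o).sub (bF o)).abs.integrable (iidUniform V)
    have i2 := ((sb y).sub (bF y)).abs.integrable (iidUniform V)
    have i3 := ((bF o).mul (bF y)).integrable (iidUniform V)
    have c3 := integral_mono (((sb o).mul (sb y)).integrable _) (i3.add (i1.add i2)) fun U => by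
      have e1 := neg_abs_le ((F o U - spin (Φ U o)) * F y U)
      have e2 := neg_abs_le (spin (Φ U o) * (F y U - spin (Φ U y)))
      rw [abs_mul, abs_sub_comm] at e1 e2
      have e3 := mul_le_of_le_one_right (abs_nonneg (spin (Φ U o) - F o U)) (F1 y U)
      have e4 := mul_le_of_le_one_left (abs_nonneg (spin (Φ U y) - F y U)) (s1 o U)
      simp only [Pi.add_apply]
      linarith
    rw [integral_add' i3 (i1.add i2), integral_add' i1 i2, (tp o y).2] at c3
    have : 1 / (M + 1) = 1 / (2 * (M + 1)) + 1 / (2 * (M + 1)) := by field_simp; norm_num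
    simp only [Function.comp_apply] at c1 c2
    linarith
  have a2 := (Finset.sum_le_sum fun y hy => mul_le_mul_of_nonneg_left (a1 y hy)
    (show 0 ≤ (1 / (θ * b)) ^ G.dist o y by positivity)).trans sp
  simp only [mul_sub, Finset.sum_sub_distrib, ← Finset.sum_mul, ← hM, ← mul_pow] at a2
  have a3 : M * (1 / (M + 1)) ≤ 1 := by rw [mul_one_div, div_le_one (by positivity)]; linarith
  have a4 : (n : ℝ) ≤ ∑ y ∈ ballF hc o n, (1 / (θ * b) * θ) ^ G.dist o y := by
    have := sum_levels (G := G) (D := ballF hc o n) o (fun k => (1 / b) ^ k) (fun _ => 1) (K := n + 1)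
      fun x hx => by rw [SimpleGraph.dist_comm]; exact Nat.lt_succ_of_le ((mem_ballF hc).1 hx)
    simp only [mul_one, SimpleGraph.dist_comm (v := o)] at this
    rw [show 1 / (θ * b) * θ = 1 / b by field_simp, this]
    refine le_trans (by simp) (Finset.card_nsmul_le_sum (Finset.range (n + 1)) _ 1 fun k hk => ?_)
    have c1 := (sphere_ge hG hreg o k).trans (Finset.card_le_card (Finset.filter_subset_filter _
      (ballF_mono hc o (Nat.lt_succ_iff.1 (Finset.mem_range.1 hk)))))
    have c2 : b ^ k ≤ (((ballF hc o n).filter fun x => G.dist o x = k).card : ℝ) := by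
      simp only [SimpleGraph.dist_comm (v := o)] at c1
      rw [hb, ← Nat.cast_pred (by omega)]
      exact_mod_cast c1
    rw [Finset.sum_const, nsmul_eq_mul, mul_one, one_div, inv_pow, ← div_eq_inv_mul,
      one_le_div (by positivity)]
    exact c2
  linarith

end Vale.Agent.P161E
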