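import Vale.Agent.P161E.Q
import Vale.Agent.P161E.Bay
import Vale.Agent.P161E.Carl

namespace Vale.Agent.P161E

open MeasureTheory unitInterval Classical SimpleGraph Filter Topology
open Vale.Agent.P161
open Vale.Agent.P143 (BM iidUniform)

variable {V : Type} {G : SimpleGraph V} [G.LocallyFinite] {d : ℕ} {θ : ℝ} {D : Finset V}

lemma Cx.aa_sq_sub (h : Cx G d θ D) (l : V → ℝ) {z c : V} (hz : z ∈ D) (hc : c ∈ D) :
    aa G θ D l z c ^ 2 ≤ (θ ^ 2) ^ G.dist c z := by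
  have a1 := h.aa_mem l hz hc
  rw [← pow_mul, mul_comm, pow_mul, dist_comm]
  exact pow_le_pow_left₀ a1.1 a1.2 2

lemma Cx.lam_sub (h : Cx G d θ D) {t K : ℝ} (t0 : 0 < t) {x : V}
    (K1 : ∀ u, ∑ y ∈ D, (θ ^ 2) ^ G.dist u y * t ^ G.dist x y ≤ K * t ^ G.dist x u)
    (l : V → ℝ) {c : V} (hc : c ∈ D) :
    ∑ z ∈ D, t ^ G.dist x z * aa G θ D l z c ^ 2 ≤ K * t ^ G.dist x c :=
  (Finset.sum_le_sum fun z hz => (mul_le_mul_of_nonneg_left (h.aa_sq_sub l hz hc)
    (by positivity)).trans_eq (mul_comm _ _)).trans (K1 c)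

lemma Cx.tq_sub (h : Cx G d θ D) {t K : ℝ} (t0 : 0 < t) (K0 : 0 < K) {x : V}
    (K1 : ∀ u, ∑ y ∈ D, (θ ^ 2) ^ G.dist u y * t ^ G.dist x y ≤ K * t ^ G.dist x u)
    (K2 : ∀ u, ∑ y ∈ D, (θ ^ 2) ^ G.dist u y ≤ K) (s : (V → ℝ) × (V → ℝ)) :
    ∑ z ∈ D, t ^ G.dist x z * ∑ w ∈ D, tq G θ D s z w ^ 2 ≤
      2 * K ^ 3 * (d + 1) * ∑ c ∈ D, t ^ G.dist x c * FF G θ D s c ^ 2 := by
  refine (h.q2 s (lam := fun z => t ^ G.dist x z) fun z => by positivity).trans ?_
  have a1 : ∀ c ∈ D, ∀ c' ∈ D, θ ^ (2 * G.dist c c') *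
      (((∑ z ∈ D, t ^ G.dist x z * aa G θ D s.1 z c ^ 2) * FF G θ D s c) *
        ((∑ y ∈ D.filter fun y => G.Adj c' y, ∑ w ∈ D, aa G θ D s.2 w y ^ 2) * FF G θ D s c')) ≤
      K ^ 2 * (d + 1) / 2 * ((θ ^ 2) ^ G.dist c c' * (t ^ G.dist x c * FF G θ D s c ^ 2) +
        (θ ^ 2) ^ G.dist c' c * t ^ G.dist x c * FF G θ D s c' ^ 2) := by
    intro c hc c' hc'
    have b1 := h.lam_sub t0 K1 s.1 hc
    have b2 : ∑ y ∈ D.filter fun y => G.Adj c' y, ∑ w ∈ D, aa G θ D s.2 w y ^ 2 ≤ (d + 1) * K := by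
      refine (Finset.sum_le_card_nsmul _ _ K fun y hy => (Finset.sum_le_sum fun w hw =>
        h.aa_sq_sub s.2 hw (Finset.mem_filter.1 hy).1).trans (K2 y)).trans ?_
      rw [nsmul_eq_mul]
      refine mul_le_mul_of_nonneg_right (le_trans ?_ (card_ball_one h.tr D c')) K0.le
      exact_mod_cast Finset.card_le_card (Finset.monotone_filter_right D fun y _ hy =>
        (dist_eq_one_iff_adj.2 (G.adj_symm hy)).le)
    have f1 := FF_nonneg_q0 (G := G) (θ := θ) (D := D) s c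
    have f2 := FF_nonneg_q0 (G := G) (θ := θ) (D := D) s c'
    have b0 : 0 ≤ ∑ y ∈ D.filter fun y => G.Adj c' y, ∑ w ∈ D, aa G θ D s.2 w y ^ 2 :=
      Finset.sum_nonneg fun _ _ => Finset.sum_nonneg fun _ _ => sq_nonneg _
    rw [pow_mul, dist_comm (u := c')]
    refine (mul_le_mul_of_nonneg_left (mul_le_mul (mul_le_mul_of_nonneg_right b1 f1)
      (mul_le_mul_of_nonneg_right b2 f2) (mul_nonneg b0 f2) (by positivity))
      (by positivity)).trans ?_
    have := mul_nonneg (show 0 ≤ K ^ 2 * (d + 1) / 2 * ((θ ^ 2) ^ G.dist c c' * t ^ G.dist x c) by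
      positivity) (sq_nonneg (FF G θ D s c - FF G θ D s c'))
    linarith
  refine (mul_le_mul_of_nonneg_left (Finset.sum_le_sum fun c hc => Finset.sum_le_sum fun c' hc' =>
    a1 c hc c' hc') zero_le_two).trans ?_
  simp only [← Finset.mul_sum, Finset.sum_add_distrib]
  have a2 : ∑ c ∈ D, ∑ c' ∈ D, (θ ^ 2) ^ G.dist c c' * (t ^ G.dist x c * FF G θ D s c ^ 2) ≤
      K * ∑ c ∈ D, t ^ G.dist x c * FF G θ D s c ^ 2 := by
    rw [Finset.mul_sum]
    refine Finset.sum_le_sum fun c _ => ?_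
    rw [← Finset.sum_mul]
    exact mul_le_mul_of_nonneg_right (K2 c) (by positivity)
  have a3 : ∑ c ∈ D, ∑ c' ∈ D, (θ ^ 2) ^ G.dist c' c * t ^ G.dist x c * FF G θ D s c' ^ 2 ≤
      K * ∑ c ∈ D, t ^ G.dist x c * FF G θ D s c ^ 2 := by
    rw [Finset.mul_sum, Finset.sum_comm]
    refine Finset.sum_le_sum fun c _ => ?_
    rw [← Finset.sum_mul, ← mul_assoc]
    exact mul_le_mul_of_nonneg_right (K1 c) (by positivity)
  have := mul_le_mul_of_nonneg_left (add_le_add a2 a3) (show 0 ≤ K ^ 2 * (d + 1) by positivity)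
  linarith

lemma Cx.ff_sub (h : Cx G d θ D) {t C : ℝ} (t0 : 0 < t) (t1 : t ≤ 1) (C0 : 0 < C) (x : V)
    (s : (V → ℝ) × (V → ℝ)) (hF : ∀ c ∈ D,
      FF G θ D s c ^ 2 ≤ C * ∑ y ∈ D.filter fun y => G.dist y c ≤ 1, ZZ G θ D s y) :
    ∑ c ∈ D, t ^ G.dist x c * FF G θ D s c ^ 2 ≤
      C * ((d + 1) * (2 * (d + 1) / t)) * ∑ c ∈ D, t ^ G.dist x c * Dd G θ D s c ^ 2 := by
  have a1 := near_q h.tr D (f := fun c => t ^ G.dist x c) (g := fun y => ZZ G θ D s y)
    (k := fun y => t ^ G.dist x y / t) (fun y => (h.nonneg 0 s y).2.2.1)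
    (fun y => by positivity) fun c _ y _ hy => by
      rw [le_div_iff₀ t0, ← pow_succ]
      refine pow_le_pow_of_le_one t0.le t1 ?_
      have := h.tr.tree.connected.dist_triangle (u := x) (v := c) (w := y)
      rw [dist_comm] at hy
      omega
  refine le_trans (Finset.sum_le_sum fun c hc' => mul_le_mul_of_nonneg_left (hF c hc')
    (by positivity)) ?_
  simp only [mul_left_comm _ C]
  rw [← Finset.mul_sum, mul_assoc]
  refine mul_le_mul_of_nonneg_left (a1.trans ?_) C0.le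
  rw [mul_assoc, Finset.mul_sum D _ (_ / _)]
  refine mul_le_mul_of_nonneg_left (Finset.sum_le_sum fun y _ => ?_) (by positivity)
  have a2 : ZZ G θ D s y ≤ 2 * (d + 1) * Dd G θ D s y ^ 2 :=
    mul_le_mul_of_nonneg_right (by linarith [(h.MM_le s.1 y).2, (h.MM_le s.2 y).2])
      (sq_nonneg _)
  exact (mul_le_mul_of_nonneg_left a2 (by positivity)).trans (le_of_eq (by ring))

lemma Cx.step_sub (h : Cx G d θ D) {lam : V → ℝ} (h0 : ∀ z, 0 ≤ lam z)
    (s : (V → ℝ) × (V → ℝ)) :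
    P2 G θ D (fun s => ∑ z ∈ D, lam z * Dd G θ D s z ^ 2) s ≤ ∑ z ∈ D, lam z * Dd G θ D s z ^ 2 +
      400 / D.card * ∑ z ∈ D, lam z * ∑ w ∈ D, qq G θ D s z w := by
  rw [h.mk2.sum _ fun z _ => (BM.const _).mul (bm_pow (h.bm_Dd z) 2), Finset.mul_sum,
    ← Finset.sum_add_distrib]
  refine Finset.sum_le_sum fun z hz => ?_
  rw [h.mk2.smul, mul_left_comm, ← mul_add]
  refine mul_le_mul_of_nonneg_left ?_ (h0 z)
  have a1 := h.mk2.var_eq (h.bm_Dd z) (h.mart_Dd z s)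
  have a2 := op_le_sum (D := D) (ms_stp.pr ∅) (bm_pow ((h.bm_Dd z).sub (BM.const (Dd G θ D s z))) 2)
    fun w hw p => h.q1 s hz hw p
  rw [← Finset.mul_sum, mul_div_right_comm] at a2
  exact sub_le_iff_le_add'.1 (a1.trans_le a2)

/-- Subcritical bound. Take `θ < r`, `r² (d-1) < 1`, weights `r ^ (2 dist x z)`; by `q1`, `q2`,
`aa_mem`, `kernel_bound`, `schur` (kernel `θ² / r`) and `FF_le` the weighted sum
`y = ∑ z, r ^ (2 dist x z) * Dd z ^ 2` has `P2 y ≤ (1 + C / N) y`; then `MK.gron`. -/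
theorem sub_infl (h : Tr G d) (hθ : ((d : ℝ) - 1) * θ ^ 2 < 1) : ∃ C r : ℝ, 0 < C ∧ 0 < r ∧
    r ^ 2 * (d - 1) < 1 ∧ ∀ D, Cx G d θ D → ∀ x ∈ D, ∀ u ∈ D, ∀ (k : ℕ) (l : V → ℝ) (a a' : I),
      (P2 G θ D)^[k] (fun s => Dd G θ D s x ^ 2) (st G θ D l u a, st G θ D l u a') ≤
        C * Real.exp (C * k / D.card) * r ^ (2 * G.dist x u) := by
  have h3 : (3 : ℝ) ≤ d := by exact_mod_cast h.hd
  obtain ⟨t, ht1, ht2⟩ := exists_between (show θ ^ 2 < 1 / ((d : ℝ) - 1) by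
    rw [lt_div_iff₀ (by linarith)]; linarith)
  have t0 : 0 < t := (sq_nonneg θ).trans_lt ht1
  rw [lt_div_iff₀ (by linarith)] at ht2
  have t1 : t ≤ 1 := by nlinarith
  obtain ⟨K1, k1, hK1⟩ := kernel_bound h.tree h.deg (sq_nonneg θ) ht1 (by nlinarith)
  obtain ⟨K2, k2, hK2⟩ := kernel_bound h.tree h.deg (r := 1) (sq_nonneg θ) (by linarith)
    (by linarith)
  obtain ⟨CF, hF0, hF⟩ := FF_le h
  obtain ⟨K, hK⟩ : ∃ K : ℝ, K = K1 + K2 := ⟨_, rfl⟩
  have K0 : 0 < K := by linarith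
  obtain ⟨C, hC⟩ : ∃ C : ℝ, C = 400 * (2 * (2 * K ^ 3 * (d + 1) *
    (CF * ((d + 1) * (2 * (d + 1) / t)))) + 2 * K) := ⟨_, rfl⟩
  have C0 : 0 < C := by rw [hC]; positivity
  refine ⟨C + K, √t, by positivity, Real.sqrt_pos.2 t0, by rwa [Real.sq_sqrt t0.le],
    fun D hx x xD u uD k l a a' => ?_⟩
  have hN : (0 : ℝ) < D.card := by exact_mod_cast hx.ne.card_pos
  have L1 : ∀ u, ∑ y ∈ D, (θ ^ 2) ^ G.dist u y * t ^ G.dist x y ≤ K * t ^ G.dist x u := fun u =>
    (hK1 u x D).trans (mul_le_mul_of_nonneg_right (by linarith) (by positivity))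
  have L2 : ∀ u, ∑ y ∈ D, (θ ^ 2) ^ G.dist u y ≤ K := fun u => by
    have := hK2 u u D
    simp only [one_pow, mul_one] at this
    linarith
  have by1 : BM fun s => ∑ z ∈ D, t ^ G.dist x z * Dd G θ D s z ^ 2 :=
    BM.sum _ fun z _ => (BM.const _).mul (bm_pow (hx.bm_Dd z) 2)
  have y0 : ∀ s, 0 ≤ ∑ z ∈ D, t ^ G.dist x z * Dd G θ D s z ^ 2 := fun s =>
    Finset.sum_nonneg fun z _ => by positivity
  have gr := hx.mk2.gron by1 y0 (c := 1 + C / D.card) (by positivity) (fun s => by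
    refine (hx.step_sub (lam := fun z => t ^ G.dist x z) (fun z => by positivity) s).trans ?_
    rw [add_mul, one_mul, div_mul_eq_mul_div, div_mul_eq_mul_div, hC, mul_assoc 400]
    refine add_le_add le_rfl (div_le_div_of_nonneg_right
      (mul_le_mul_of_nonneg_left ?_ (by norm_num)) hN.le)
    have b1 := (hx.tq_sub t0 K0 L1 L2 s).trans (mul_le_mul_of_nonneg_left
      (hx.ff_sub t0 t1 hF0 x s (hF θ D hx s)) (by positivity))
    have b2 : ∑ z ∈ D, t ^ G.dist x z * ∑ w ∈ D, aa G θ D s.1 z w ^ 2 * Dd G θ D s w ^ 2 ≤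
        K * ∑ z ∈ D, t ^ G.dist x z * Dd G θ D s z ^ 2 := by
      simp only [Finset.mul_sum]
      rw [Finset.sum_comm]
      refine Finset.sum_le_sum fun w hw => ?_
      simp only [← mul_assoc, ← Finset.sum_mul]
      exact mul_le_mul_of_nonneg_right (hx.lam_sub t0 L1 s.1 hw) (sq_nonneg _)
    have b3 : ∑ z ∈ D, t ^ G.dist x z * ∑ w ∈ D, qq G θ D s z w ≤
        2 * ∑ z ∈ D, t ^ G.dist x z * ∑ w ∈ D, tq G θ D s z w ^ 2 +
        2 * ∑ z ∈ D, t ^ G.dist x z * ∑ w ∈ D, aa G θ D s.1 z w ^ 2 * Dd G θ D s w ^ 2 := by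
      rw [← mul_add, ← Finset.sum_add_distrib, Finset.mul_sum]
      refine Finset.sum_le_sum fun z _ => ?_
      rw [← mul_add, ← Finset.sum_add_distrib, mul_left_comm, Finset.mul_sum D _ 2]
      refine mul_le_mul_of_nonneg_left (Finset.sum_le_sum fun w _ => ?_) (by positivity)
      rw [qq, ← sq_abs (Dd G θ D s w), ← mul_pow]
      exact add_sq_le
    linarith) k (st G θ D l u a, st G θ D l u a')
  refine le_trans ((hx.mk2.iter k).mono _ _ (bm_pow (hx.bm_Dd x) 2) by1 (fun s => ?_) _)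
    (gr.trans ?_)
  · refine le_trans (le_of_eq (by simp)) (Finset.single_le_sum
      (f := fun z => t ^ G.dist x z * Dd G θ D s z ^ 2) (fun z _ => by positivity) xD)
  have e1 : (1 + C / D.card) ^ k ≤ Real.exp ((C + K) * k / D.card) := by
    refine (pow_le_pow_left₀ (by positivity) (show _ ≤ Real.exp (C / D.card) by
      linarith [Real.add_one_le_exp (C / D.card)]) k).trans ?_
    rw [← Real.exp_nat_mul, Real.exp_le_exp, mul_comm, div_mul_eq_mul_div]
    gcongr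
    linarith
  have e2 : ∑ z ∈ D, t ^ G.dist x z * Dd G θ D (st G θ D l u a, st G θ D l u a') z ^ 2 ≤
      (C + K) * t ^ G.dist x u := by
    refine le_trans (Finset.sum_le_sum fun z _ => mul_le_mul_of_nonneg_left ?_ (by positivity))
      ((hx.lam_sub t0 L1 l uD).trans (mul_le_mul_of_nonneg_right (by linarith) (by positivity)))
    have hm := mI_mem (G := G) hx.theta.1 D l u
    have g1 := abs_le.1 (gam_le hm a.2)
    have g2 := abs_le.1 (gam_le hm a'.2)
    have e : Dd G θ D (st G θ D l u a, st G θ D l u a') z =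
        aa G θ D l z u * (gam (mI G θ D l u) a - gam (mI G θ D l u) a') := by
      simp only [Dd]
      linarith [mI_st (G := G) hx.theta.1 l uD a z, mI_st (G := G) hx.theta.1 l uD a' z]
    rw [e, mul_pow]
    refine mul_le_of_le_one_right (sq_nonneg _) ?_
    rw [sq_le_one_iff_abs_le_one, abs_le]
    constructor <;> nlinarith [sq_nonneg (2 * mI G θ D l u - 1)]
  rw [pow_mul, Real.sq_sqrt t0.le, mul_right_comm, mul_comm _ (Real.exp _)]
  exact mul_le_mul e1 e2 (y0 _) (by positivity)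

/-- `es_event`, `sub_infl`, `sum_geo` -/
theorem sub_tail (h : Tr G d) (hθ : ((d : ℝ) - 1) * θ ^ 2 < 1) : ∃ C : ℝ, 0 < C ∧ ∀ η : ℝ, 0 < η →
    ∃ L : ℕ, ∀ D, Cx G d θ D → ∀ x ∈ D, ∀ A ⊆ D, (∀ u ∈ A, L < G.dist x u) → ∀ n : ℕ,
      ∑ u ∈ A, ESn G θ D x {u} n ≤ η * Real.exp (C * n / D.card) := by
  obtain ⟨C, r, hC, r0, r1, H⟩ := sub_infl h hθ
  obtain ⟨Cg, g0, hg⟩ := sum_geo h (sq_nonneg r) r1
  refine ⟨C + 1, by positivity, fun η hη => ?_⟩
  obtain ⟨L, hL⟩ := exists_nat_ge (C * Cg / η)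
  refine ⟨L, fun D hx x xD A hA hd n => ?_⟩
  have hN : (0 : ℝ) < D.card := by exact_mod_cast hx.ne.card_pos
  have a1 : ∀ u ∈ A, ESn G θ D x {u} n ≤
      C * Real.exp ((C + 1) * n / D.card) * (r ^ 2) ^ G.dist u x := by
    intro u hu
    have uD := hA hu
    have mp : Measurable fun q : (V → ℝ) × (I × I) =>
        (stp G θ D q.1 u q.2.1, stp G θ D q.1 u q.2.2) :=
      ((ms_stp u).comp (measurable_fst.prodMk measurable_snd.fst)).prodMk
        ((ms_stp u).comp (measurable_fst.prodMk measurable_snd.snd))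
    have bq : ∀ k, BM fun q : (V → ℝ) × (I × I) => (P2 G θ D)^[k] (fun s => Dd G θ D s x ^ 2)
        (stp G θ D q.1 u q.2.1, stp G θ D q.1 u q.2.2) := fun k =>
      ((hx.mk2.iter k).bm _ (bm_pow (hx.bm_Dd x) 2)).comp mp
    have bi : ∀ k, BM fun l => (∫ p : I × I, (P2 G θ D)^[k] (fun s => Dd G θ D s x ^ 2)
        (stp G θ D l u p.1, stp G θ D l u p.2)) / D.card := fun k => by
      obtain ⟨c, hc⟩ := (bq k).bdd
      refine bm_div ⟨((bq k).meas.stronglyMeasurable.integral_prod_right'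
        (ν := volume)).measurable, c, fun l => ?_⟩ _
      simpa using norm_integral_le_of_norm_le_const (μ := (volume : Measure (I × I))) (C := c)
        (f := fun p => (P2 G θ D)^[k] (fun s => Dd G θ D s x ^ 2)
          (stp G θ D l u p.1, stp G θ D l u p.2))
        (Eventually.of_forall fun p => hc (l, p))
    refine (es_event hx.ne ms_stp (bm_mI hx.theta.1 x) uD n (0 : V → ℝ)).trans ?_
    refine (Finset.sum_le_card_nsmul _ _
      (C * Real.exp (C * n / D.card) * (r ^ 2) ^ G.dist u x / D.card) fun j _ =>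
      (hx.mkP.iter j).le_const (bi (n - 1 - j)) (fun l => ?_) 0).trans ?_
    · refine div_le_div_of_nonneg_right ((integral_mono
        (((bq _).comp measurable_prodMk_left).integrable _) (integrable_const
          (C * Real.exp (C * n / D.card) * (r ^ 2) ^ G.dist u x))
        fun p => ?_).trans (le_of_eq (by simp))) hN.le
      simp only [stp, stA, if_pos uD]
      refine (H D hx x xD u uD _ l p.1 p.2).trans ?_
      have : ((n - 1 - j : ℕ) : ℝ) ≤ n := by exact_mod_cast (by omega)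
      rw [pow_mul, dist_comm]
      gcongr
    · rw [nsmul_eq_mul, Finset.card_range, add_mul, add_div, Real.exp_add, one_mul]
      have := mul_le_mul_of_nonneg_left (show (n : ℝ) / D.card ≤ Real.exp (n / D.card) by
        linarith [Real.add_one_le_exp ((n : ℝ) / D.card)])
        (show 0 ≤ C * Real.exp (C * n / D.card) * (r ^ 2) ^ G.dist u x by positivity)
      refine le_trans (le_of_eq (by ring)) (this.trans (le_of_eq (by ring)))
  refine (Finset.sum_le_sum a1).trans ?_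
  rw [← Finset.mul_sum, mul_right_comm]
  refine mul_le_mul_of_nonneg_right ?_ (by positivity)
  have a2 : ((L : ℝ) + 1) * ∑ u ∈ A, (r ^ 2) ^ G.dist u x ≤ Cg := by
    rw [Finset.mul_sum]
    refine le_trans (Finset.sum_le_sum fun u hu => mul_le_mul_of_nonneg_right ?_ (by positivity))
      (hg A x)
    have := hd u hu
    rw [SimpleGraph.dist_comm] at this
    exact_mod_cast (by omega)
  rw [div_le_iff₀ hη] at hL
  have s0 : 0 ≤ ∑ u ∈ A, (r ^ 2) ^ G.dist u x := Finset.sum_nonneg fun _ _ => by positivity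
  refine le_of_mul_le_mul_left ?_ (show (0 : ℝ) < L + 1 by positivity)
  have := mul_le_mul_of_nonneg_left a2 hC.le
  linarith

end Vale.Agent.P161E
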