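import Vale.Agent.P161E.Tr0

namespace Vale.Agent.P161E

open MeasureTheory unitInterval Classical SimpleGraph Filter Topology
open Vale.Agent.P161
open Vale.Agent.P143 (BM iidUniform)

variable {V : Type} {G : SimpleGraph V} [G.LocallyFinite] {d : ℕ} {θ : ℝ} {D : Finset V}

/-- a bijection between two neighbourhoods with at most two prescribed values -/
lemma exists_loc_swap (hreg : G.IsRegularOfDegree d) (v v' a b a' b' : V) (P Q : Prop)
    (hP : P → G.Adj v a ∧ G.Adj v' a') (hQ : Q → G.Adj v b ∧ G.Adj v' b')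
    (hPQ : P → Q → b ≠ a ∧ b' ≠ a') :
    ∃ e : V → V, Set.BijOn e (G.neighborSet v) (G.neighborSet v') ∧ (P → e a = a') ∧
      (Q → e b = b') := by
  have hc : Fintype.card (G.neighborSet v) = (G.neighborFinset v').card := by
    rw [card_neighborSet_eq_degree, card_neighborFinset_eq_degree, hreg.degree_eq,
      hreg.degree_eq]
  obtain ⟨g, hg⟩ := Finset.exists_equiv_extend_of_card_eq hc
    (s := Finset.univ.filter fun i : G.neighborSet v => (P ∧ i.1 = a) ∨ (Q ∧ i.1 = b))
    (f := fun i => if P ∧ i.1 = a then a' else b') (by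
      intro y hy
      obtain ⟨i, hi, rfl⟩ := Finset.mem_image.1 hy
      rw [mem_neighborFinset]
      split_ifs with h
      · exact (hP h.1).2
      · exact (hQ (((Finset.mem_filter.1 hi).2).resolve_left h).1).2) (by
      intro i hi k hk hik
      have hi' := (Finset.mem_filter.1 (Finset.mem_coe.1 hi)).2
      have hk' := (Finset.mem_filter.1 (Finset.mem_coe.1 hk)).2
      simp only at hik
      by_cases h1 : P ∧ i.1 = a <;> by_cases h2 : P ∧ k.1 = a
      · exact Subtype.ext (h1.2.trans h2.2.symm)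
      · rw [if_pos h1, if_neg h2] at hik
        exact absurd hik.symm (hPQ h1.1 (hk'.resolve_left h2).1).2
      · rw [if_neg h1, if_pos h2] at hik
        exact absurd hik (hPQ h2.1 (hi'.resolve_left h1).1).2
      · exact Subtype.ext ((hi'.resolve_left h1).2.trans (hk'.resolve_left h2).2.symm))
  refine ⟨fun y => if h : y ∈ G.neighborSet v then (g ⟨y, h⟩ : V) else y, ⟨?_, ?_, ?_⟩, ?_, ?_⟩
  · intro y hy
    simp only [dif_pos hy]
    exact (mem_neighborFinset G v' _).1 (g ⟨y, hy⟩).2
  · intro y hy y' hy' h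
    simp only [dif_pos hy, dif_pos hy'] at h
    exact congrArg Subtype.val (g.injective (Subtype.ext h))
  · intro y hy
    obtain ⟨i, hi⟩ := g.surjective ⟨y, (mem_neighborFinset G v' _).2 hy⟩
    refine ⟨i.1, i.2, ?_⟩
    simp only [dif_pos i.2, Subtype.coe_eta, hi]
  · intro h
    have ha : a ∈ G.neighborSet v := (hP h).1
    simp only [dif_pos ha]
    rw [hg _ (Finset.mem_filter.2 ⟨Finset.mem_univ _, Or.inl ⟨h, rfl⟩⟩), if_pos ⟨h, rfl⟩]
  · intro h
    have hb : b ∈ G.neighborSet v := (hQ h).1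
    simp only [dif_pos hb]
    rw [hg _ (Finset.mem_filter.2 ⟨Finset.mem_univ _, Or.inr ⟨h, rfl⟩⟩),
      if_neg fun h' => (hPQ h'.1 h).1 h'.2]

/-- the recursive construction -/
noncomputable def gnSwap (G : SimpleGraph V) (x u : V) (e : V → V → V → V) : ℕ → V → V
  | 0, _ => u
  | n + 1, v => e (nx G v x) (gnSwap G x u e n (nx G v x)) v

omit [G.LocallyFinite] in
lemma adj_cases_swap (hG : G.IsTree) (x : V) {v w : V} (h : G.Adj v w) :
    (v ≠ x ∧ nx G v x = w) ∨ (w ≠ x ∧ nx G w x = v) := by
  rcases hG.dist_eq_dist_add_one_of_adj x h with h1 | h1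
  · left
    rw [G.dist_comm (u := x), G.dist_comm (u := x)] at h1
    refine ⟨?_, nx_eq hG h h1.symm⟩
    rintro rfl
    rw [SimpleGraph.dist_self] at h1
    omega
  · right
    rw [G.dist_comm (u := x), G.dist_comm (u := x)] at h1
    refine ⟨?_, nx_eq hG h.symm h1.symm⟩
    rintro rfl
    rw [SimpleGraph.dist_self] at h1
    omega

omit [G.LocallyFinite] in
lemma exists_iso_swap (hG : G.IsTree) (x u : V) (e : V → V → V → V)
    (he : ∀ v v', Set.BijOn (e v v') (G.neighborSet v) (G.neighborSet v'))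
    (hp : ∀ v v', v ≠ x → v' ≠ u → e v v' (nx G v x) = nx G v' u) :
    ∃ g : G ≃g G, g x = u ∧ (∀ v, G.dist (g v) u = G.dist v x) ∧
      ∀ v, v ≠ x → g v = e (nx G v x) (g (nx G v x)) v := by
  let g : V → V := fun v => gnSwap G x u e (G.dist v x) v
  have hz : ∀ {a b : V}, G.dist a b = 0 ↔ a = b := hG.connected.dist_eq_zero_iff
  have g0 : g x = u := by simp only [g, SimpleGraph.dist_self, gnSwap]
  have g1 : ∀ v, v ≠ x → g v = e (nx G v x) (g (nx G v x)) v := by
    intro v hv
    simp only [g]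
    rw [← (nx_spec hG hv).2, gnSwap]
  have g2 : ∀ v, v ≠ x → G.Adj (g (nx G v x)) (g v) := by
    intro v hv
    rw [g1 v hv]
    exact (he _ _).mapsTo (nx_spec hG hv).1.symm
  have c1 : ∀ n v, G.dist v x = n → G.dist (g v) u = n := by
    intro n
    induction n with
    | zero => intro v hv; rw [hz.1 hv, g0, SimpleGraph.dist_self]
    | succ n ih =>
      intro v hv
      have hvx : v ≠ x := fun h => by rw [h, SimpleGraph.dist_self] at hv; omega
      obtain ⟨h1, h2⟩ := nx_spec hG hvx
      have h3 := ih (nx G v x) (by omega)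
      rcases adj_cases_swap hG u (g2 v hvx) with ⟨h4, h5⟩ | ⟨h4, h5⟩
      · have h6 : nx G v x ≠ x := fun h => h4 (by rw [h, g0])
        obtain ⟨h7, h8⟩ := nx_spec hG h6
        rw [g1 v hvx, ← hp _ _ h6 h4] at h5
        have := (he _ _).injOn h7 h1.symm h5
        rw [this] at h8
        omega
      · have := (nx_spec hG h4).2
        rw [h5] at this
        omega
  have c1' : ∀ v, G.dist (g v) u = G.dist v x := fun v => c1 _ v rfl
  have c0 : ∀ v, v ≠ x → g v ≠ u := fun v hv h => hv (hz.1 (by rw [← c1', h, SimpleGraph.dist_self]))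
  have c2 : ∀ v, v ≠ x → nx G (g v) u = g (nx G v x) := by
    intro v hv
    refine nx_eq hG (g2 v hv).symm ?_
    rw [c1', c1']
    exact (nx_spec hG hv).2
  have inj : ∀ n v w, G.dist v x = n → g v = g w → v = w := by
    intro n
    induction n with
    | zero =>
      intro v w hv h
      have h1 := c1' w
      rw [← h, c1', hv] at h1
      rw [hz.1 hv, hz.1 h1.symm]
    | succ n ih =>
      intro v w hv h
      have h1 := c1' w
      rw [← h, c1', hv] at h1
      have hvx : v ≠ x := fun h => by rw [h, SimpleGraph.dist_self] at hv; omega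
      have hwx : w ≠ x := fun h => by rw [h, SimpleGraph.dist_self] at h1; omega
      have h2 := (nx_spec hG hvx).2
      have h3 : nx G v x = nx G w x := ih _ _ (by omega) (by rw [← c2 v hvx, ← c2 w hwx, h])
      rw [g1 v hvx, g1 w hwx, ← h3] at h
      exact (he _ _).injOn (nx_spec hG hvx).1.symm (h3 ▸ (nx_spec hG hwx).1.symm) h
  have surj : ∀ n w, G.dist w u = n → ∃ v, g v = w := by
    intro n
    induction n with
    | zero => intro w hw; exact ⟨x, by rw [g0, hz.1 hw]⟩
    | succ n ih =>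
      intro w hw
      have hwu : w ≠ u := fun h => by rw [h, SimpleGraph.dist_self] at hw; omega
      obtain ⟨h1, h2⟩ := nx_spec hG hwu
      obtain ⟨p, hp'⟩ := ih (nx G w u) (by omega)
      obtain ⟨v, hv, hvw⟩ := (he p (g p)).surjOn (show w ∈ G.neighborSet (g p) from hp' ▸ h1.symm)
      rcases adj_cases_swap hG x (show G.Adj p v from hv) with ⟨h4, h5⟩ | ⟨h4, h5⟩
      · rw [← h5, hp _ _ h4 (c0 p h4)] at hvw
        have := (nx_spec hG (c0 p h4)).2
        rw [hvw, hp'] at this
        omega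
      · exact ⟨v, by rw [g1 v h4, h5, hvw]⟩
  have hinj : Function.Injective g := fun v w h => inj _ v w rfl h
  refine ⟨⟨Equiv.ofBijective g ⟨hinj, fun w => surj _ w rfl⟩, ?_⟩, g0, c1', g1⟩
  intro v w
  change G.Adj (g v) (g w) ↔ G.Adj v w
  constructor
  · intro h
    rcases adj_cases_swap hG u h with ⟨h4, h5⟩ | ⟨h4, h5⟩
    · have hv : v ≠ x := fun h => h4 (by rw [h, g0])
      rw [c2 v hv] at h5
      exact hinj h5 ▸ (nx_spec hG hv).1
    · have hw : w ≠ x := fun h => h4 (by rw [h, g0])
      rw [c2 w hw] at h5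
      exact hinj h5 ▸ (nx_spec hG hw).1.symm
  · intro h
    rcases adj_cases_swap hG x h with ⟨h4, h5⟩ | ⟨h4, h5⟩
    · exact h5 ▸ (g2 v h4).symm
    · exact h5 ▸ g2 w h4

/-- an automorphism of the regular tree exchanging two given vertices -/
theorem exists_swap (hG : G.IsTree) (hreg : G.IsRegularOfDegree d) (x u : V) :
    ∃ g : G ≃g G, g x = u ∧ g u = x := by
  have hex : ∀ v v' : V, ∃ e : V → V, Set.BijOn e (G.neighborSet v) (G.neighborSet v') ∧
      (v ≠ x ∧ v' ≠ u → e (nx G v x) = nx G v' u) ∧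
      (v ≠ u ∧ v' ≠ x ∧ (v ≠ x ∧ v' ≠ u → nx G v u ≠ nx G v x ∧ nx G v' x ≠ nx G v' u) →
        e (nx G v u) = nx G v' x) := fun v v' =>
    exists_loc_swap hreg v v' _ _ _ _ _ _ (fun h => ⟨(nx_spec hG h.1).1, (nx_spec hG h.2).1⟩)
      (fun h => ⟨(nx_spec hG h.1).1, (nx_spec hG h.2.1).1⟩) fun h h' => h'.2.2 h
  choose e he hp hq using hex
  obtain ⟨g, g0, c1, g1⟩ := exists_iso_swap hG x u e he fun v v' h h' => hp v v' ⟨h, h'⟩
  have hz : ∀ {a b : V}, G.dist a b = 0 ↔ a = b := hG.connected.dist_eq_zero_iff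
  have tri : ∀ v, G.dist x u ≤ G.dist v x + G.dist v u := fun v => by
    rw [G.dist_comm (u := v) (v := x)]
    exact hG.connected.dist_triangle
  have ne : ∀ v, v ≠ x → v ≠ u → G.dist v x + G.dist v u = G.dist x u → nx G v u ≠ nx G v x := by
    intro v h1 h2 h3 h4
    have h5 := (nx_spec hG h1).2
    have h6 := (nx_spec hG h2).2
    have h7 := tri (nx G v x)
    rw [h4] at h6
    omega
  have key : ∀ n v, G.dist v x = n → G.dist v x + G.dist v u = G.dist x u →
      G.dist (g v) x = G.dist v u := by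
    intro n
    induction n with
    | zero =>
      intro v hv _
      rw [hz.1 hv, g0, G.dist_comm]
    | succ n ih =>
      intro v hv hb
      have hvx : v ≠ x := fun h => by rw [h, SimpleGraph.dist_self] at hv; omega
      obtain ⟨h1, h2⟩ := nx_spec hG hvx
      have h3 := tri (nx G v x)
      have h4 : G.dist (nx G v x) u ≤ G.dist (nx G v x) v + G.dist v u :=
        hG.connected.dist_triangle
      rw [dist_eq_one_iff_adj.2 h1.symm] at h4
      have h5 : G.dist v u + 1 = G.dist (nx G v x) u := by omega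
      have h6 := ih (nx G v x) (by omega) (by omega)
      have h7 : nx G (nx G v x) u = v := nx_eq hG h1.symm h5
      have h8 : nx G v x ≠ u := fun h => by rw [h, SimpleGraph.dist_self] at h5; omega
      have h9 : g (nx G v x) ≠ x := fun h => by rw [h, SimpleGraph.dist_self] at h6; omega
      have h10 := hq (nx G v x) (g (nx G v x)) ⟨h8, h9, fun h =>
        ⟨ne _ h.1 h8 (by omega), (ne _ h9 h.2 (by rw [c1]; omega)).symm⟩⟩
      rw [h7, ← g1 v hvx] at h10
      have h11 := (nx_spec hG h9).2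
      rw [← h10] at h11
      omega
  refine ⟨g, g0, hz.1 ?_⟩
  rw [key _ u rfl (by rw [SimpleGraph.dist_self, G.dist_comm, add_zero]), SimpleGraph.dist_self]

end Vale.Agent.P161E
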