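import Vale.Agent.P161E.Tr0

namespace Vale.Agent.P161E

open MeasureTheory unitInterval Classical SimpleGraph Filter Topology
open Vale.Agent.P161
open Vale.Agent.P143 (BM iidUniform)

variable {V : Type} {G : SimpleGraph V} [G.LocallyFinite] {d : ℕ} {θ : ℝ} {D : Finset V}

lemma card_children (h : Tr G d) (D : Finset V) (c p : V) :
    ((D.filter fun z => z ≠ c ∧ nx G z c = p).card : ℝ) ≤ if p = c then (d : ℝ) else d - 1 := by
  split_ifs with e
  · have sub : (D.filter fun z => z ≠ c ∧ nx G z c = p) ⊆ G.neighborFinset p := fun z hz => by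
      obtain ⟨-, h1, h2⟩ := Finset.mem_filter.1 hz
      rw [mem_neighborFinset, ← h2]
      exact (nx_spec h.tree h1).1.symm
    have := Finset.card_le_card sub
    rw [card_neighborFinset_eq_degree] at this
    exact_mod_cast this.trans (h.deg p)
  · obtain ⟨a, b⟩ := nx_spec h.tree e
    have sub : (D.filter fun z => z ≠ c ∧ nx G z c = p) ⊆ (G.neighborFinset p).erase (nx G p c) :=
      fun z hz => by
        obtain ⟨-, h1, h2⟩ := Finset.mem_filter.1 hz
        obtain ⟨a', b'⟩ := nx_spec h.tree h1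
        rw [h2] at a' b'
        refine Finset.mem_erase.2 ⟨?_, (mem_neighborFinset G p z).2 a'.symm⟩
        intro hz'
        rw [hz'] at b'
        omega
    have h1 := Finset.card_le_card sub
    rw [Finset.card_erase_of_mem ((mem_neighborFinset G p _).2 a),
      card_neighborFinset_eq_degree] at h1
    have h2 := h.deg p
    have h3 := h.hd
    have h4 : (D.filter fun z => z ≠ c ∧ nx G z c = p).card + 1 ≤ d := by omega
    have h5 : ((D.filter fun z => z ≠ c ∧ nx G z c = p).card : ℝ) + 1 ≤ d := by exact_mod_cast h4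
    linarith

lemma card_sphere (h : Tr G d) (D : Finset V) (c : V) (k : ℕ) :
    ((D.filter fun x => G.dist x c = k).card : ℝ) ≤ 3 / 2 * ((d : ℝ) - 1) ^ k := by
  have hd : (3 : ℝ) ≤ d := by exact_mod_cast h.hd
  have zero : ∀ D : Finset V, (D.filter fun x => G.dist x c = 0).card ≤ 1 := fun D =>
    Finset.card_le_one.2 fun a ha b hb => by
      rw [h.tree.connected.dist_eq_zero_iff.1 (Finset.mem_filter.1 ha).2,
        h.tree.connected.dist_eq_zero_iff.1 (Finset.mem_filter.1 hb).2]
  have step : ∀ (D : Finset V) (k : ℕ) (m : ℝ),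
      (∀ p, G.dist p c = k → (if p = c then (d : ℝ) else d - 1) ≤ m) →
      ∃ D' : Finset V, ((D.filter fun x => G.dist x c = k + 1).card : ℝ) ≤
        m * (D'.filter fun x => G.dist x c = k).card := by
    intro D k m hm
    set S := D.filter fun x => G.dist x c = k + 1 with hS
    have hne : ∀ x ∈ S, x ≠ c := fun x hx e => by
      have := (Finset.mem_filter.1 hx).2
      rw [e, SimpleGraph.dist_self] at this
      omega
    refine ⟨S.image fun x => nx G x c, ?_⟩
    have maps : ∀ x ∈ S, nx G x c ∈ (S.image fun x => nx G x c).filter fun x => G.dist x c = k :=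
      fun x hx => Finset.mem_filter.2 ⟨Finset.mem_image_of_mem _ hx, by
        have h1 := (nx_spec h.tree (hne x hx)).2
        have h2 := (Finset.mem_filter.1 hx).2
        omega⟩
    rw [Finset.card_eq_sum_card_fiberwise maps, Nat.cast_sum, mul_comm, ← nsmul_eq_mul]
    refine Finset.sum_le_card_nsmul _ _ _ fun p hp => ?_
    refine le_trans ?_ ((card_children h S c p).trans (hm p (Finset.mem_filter.1 hp).2))
    exact_mod_cast Finset.card_le_card fun x hx => by
      obtain ⟨h1, h2⟩ := Finset.mem_filter.1 hx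
      exact Finset.mem_filter.2 ⟨h1, hne x h1, h2⟩
  induction k generalizing D with
  | zero =>
    have : ((D.filter fun x => G.dist x c = 0).card : ℝ) ≤ 1 := by exact_mod_cast zero D
    rw [pow_zero]
    linarith
  | succ k ih =>
    rcases Nat.eq_zero_or_pos k with rfl | hk
    · obtain ⟨D', hD'⟩ := step D 0 d fun p _ => by split_ifs <;> linarith
      have : ((D'.filter fun x => G.dist x c = 0).card : ℝ) ≤ 1 := by exact_mod_cast zero D'
      rw [zero_add, pow_one] at *
      nlinarith
    · obtain ⟨D', hD'⟩ := step D k (d - 1) fun p hp => by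
        rw [if_neg]
        rintro rfl
        rw [SimpleGraph.dist_self] at hp
        omega
      refine hD'.trans ?_
      rw [pow_succ]
      have := mul_le_mul_of_nonneg_left (ih D') (show (0 : ℝ) ≤ d - 1 by linarith)
      linarith

lemma mem_nb_tr (hG : G.IsTree) {z y : V} (h : G.dist z y ≤ 1) :
    z ∈ insert y (G.neighborFinset y) := by
  rw [Finset.mem_insert, mem_neighborFinset]
  rcases Nat.le_one_iff_eq_zero_or_eq_one.1 h with h | h
  · exact Or.inl (hG.connected.dist_eq_zero_iff.1 h)
  · exact Or.inr (dist_eq_one_iff_adj.1 h).symm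

lemma card_nb_tr (h : Tr G d) (y : V) : (insert y (G.neighborFinset y)).card ≤ d + 1 := by
  have h1 := Finset.card_insert_le y (G.neighborFinset y)
  rw [card_neighborFinset_eq_degree] at h1
  have := h.deg y
  omega

lemma card_ball_one (h : Tr G d) (D : Finset V) (y : V) :
    ((D.filter fun z => G.dist z y ≤ 1).card : ℝ) ≤ d + 1 := by
  have sub : (D.filter fun z => G.dist z y ≤ 1) ⊆ insert y (G.neighborFinset y) :=
    fun z hz => mem_nb_tr h.tree (Finset.mem_filter.1 hz).2
  exact_mod_cast (Finset.card_le_card sub).trans (card_nb_tr h y)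

lemma card_ball_two (h : Tr G d) (D : Finset V) (y : V) :
    ((D.filter fun z => G.dist z y ≤ 2).card : ℝ) ≤ (d + 1) ^ 2 := by
  have sub : (D.filter fun z => G.dist z y ≤ 2) ⊆
      (insert y (G.neighborFinset y)).biUnion fun p => insert p (G.neighborFinset p) := by
    intro z hz
    have h2 := (Finset.mem_filter.1 hz).2
    by_cases e : z = y
    · exact Finset.mem_biUnion.2 ⟨y, Finset.mem_insert_self _ _, e ▸ Finset.mem_insert_self _ _⟩
    · obtain ⟨a, b⟩ := nx_spec h.tree e
      exact Finset.mem_biUnion.2 ⟨nx G z y, mem_nb_tr h.tree (by omega),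
        mem_nb_tr h.tree (dist_eq_one_iff_adj.2 a).le⟩
  have h1 := (Finset.card_le_card sub).trans
    (Finset.card_biUnion_le_card_mul _ _ (d + 1) fun p _ => card_nb_tr h p)
  have h2 := h1.trans (Nat.mul_le_mul_right (d + 1) (card_nb_tr h y))
  rw [← sq] at h2
  exact_mod_cast h2

/-- summing a radial bound over spheres -/
lemma sum_radial (h : Tr G d) (D : Finset V) (c : V) {f : ℕ → ℝ} (hf : ∀ k, 0 ≤ f k) :
    ∃ K, ∑ x ∈ D, f (G.dist x c) ≤ ∑ k ∈ Finset.range K, 3 / 2 * ((d : ℝ) - 1) ^ k * f k := by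
  refine ⟨D.sup (fun x => G.dist x c) + 1, ?_⟩
  rw [← Finset.sum_fiberwise_of_maps_to (s := D)
    (t := Finset.range (D.sup (fun x => G.dist x c) + 1)) (g := fun x => G.dist x c)
    fun x hx => Finset.mem_range.2 (Nat.lt_succ_of_le (Finset.le_sup (f := fun x => G.dist x c) hx))]
  refine Finset.sum_le_sum fun k _ => ?_
  rw [Finset.sum_congr rfl (g := fun _ => f k) fun x hx => by rw [(Finset.mem_filter.1 hx).2],
    Finset.sum_const, nsmul_eq_mul]
  exact mul_le_mul_of_nonneg_right (card_sphere h D c k) (hf k)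

lemma sum_geo (h : Tr G d) {κ : ℝ} (h0 : 0 ≤ κ) (h1 : κ * (d - 1) < 1) :
    ∃ C, 0 < C ∧ ∀ (D : Finset V) (c : V),
      ∑ x ∈ D, ((G.dist x c : ℝ) + 1) * κ ^ G.dist x c ≤ C := by
  have hd : (3 : ℝ) ≤ d := by exact_mod_cast h.hd
  have q0 : 0 ≤ κ * (d - 1) := mul_nonneg h0 (by linarith)
  have s1 : Summable fun k : ℕ => (k : ℝ) ^ 1 * (κ * (d - 1)) ^ k :=
    summable_pow_mul_geometric_of_norm_lt_one 1 (by rwa [Real.norm_of_nonneg q0])
  have s2 := summable_geometric_of_lt_one q0 h1
  have s3 := (s1.add s2).mul_left (3 / 2)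
  have nn : ∀ k : ℕ, 0 ≤ 3 / 2 * ((k : ℝ) ^ 1 * (κ * (d - 1)) ^ k + (κ * (d - 1)) ^ k) :=
    fun k => by positivity
  refine ⟨∑' k : ℕ, 3 / 2 * ((k : ℝ) ^ 1 * (κ * (d - 1)) ^ k + (κ * (d - 1)) ^ k) + 1,
    add_pos_of_nonneg_of_pos (tsum_nonneg nn) one_pos, fun D c => ?_⟩
  obtain ⟨K, hK⟩ := sum_radial h D c (f := fun k => ((k : ℝ) + 1) * κ ^ k) fun k => by positivity
  refine hK.trans ?_
  have := s3.sum_le_tsum (Finset.range K) fun k _ => nn k
  refine le_trans (le_of_eq (Finset.sum_congr rfl fun k _ => ?_)) (this.trans (by linarith))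
  rw [mul_pow]
  ring

/-- Schur test with weight `(d-1)^(-dist/2)`, via `kernel_bound` -/
lemma schur (h : Tr G d) {κ : ℝ} (h0 : 0 ≤ κ) (h1 : κ ^ 2 * (d - 1) < 1) :
    ∃ C, 0 < C ∧ ∀ (D : Finset V) (u v : V → ℝ) (η : ℝ), 0 < η →
      ∑ c ∈ D, ∑ c' ∈ D, κ ^ G.dist c c' * (u c * v c') ≤
        η * ∑ c ∈ D, v c ^ 2 + C / η * ∑ c ∈ D, u c ^ 2 := by
  have hd : (3 : ℝ) ≤ d := by exact_mod_cast h.hd
  have hb : (0 : ℝ) < d - 1 := by linarith
  set t := √((d : ℝ) - 1) with ht
  have t0 : 0 < t := Real.sqrt_pos.2 hb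
  have t2 : t ^ 2 = d - 1 := Real.sq_sqrt hb.le
  have kt : κ * t < 1 := by
    rw [← t2, ← mul_pow] at h1
    exact lt_of_pow_lt_pow_left₀ 2 zero_le_one (by rwa [one_pow])
  obtain ⟨C, C1, hC⟩ := kernel_bound h.tree h.deg h0 (r := 1 / t)
    (by rwa [lt_div_iff₀ t0]) (by rw [← t2]; field_simp; exact kt)
  obtain ⟨o⟩ := h.tree.connected.nonempty
  have C0 : 0 < C := by linarith
  refine ⟨C ^ 2, by positivity, fun D u v η hη => ?_⟩
  set g : V → ℝ := fun y => (1 / t) ^ G.dist o y with hg
  have g0 : ∀ y, 0 < g y := fun y => by positivity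
  have pt : ∀ c c', κ ^ G.dist c c' * (u c * v c') ≤
      η / C * (v c' ^ 2 / g c') * (κ ^ G.dist c' c * g c) +
        C / η * (u c ^ 2 / g c) * (κ ^ G.dist c c' * g c') := by
    intro c c'
    have a0 : 0 < η / C * (g c / g c') := by have := g0 c; have := g0 c'; positivity
    have key : ∀ a x y : ℝ, 0 < a → x * y ≤ a * y ^ 2 + x ^ 2 / a := fun a x y ha => by
      have e : a * y ^ 2 + x ^ 2 / a - x * y = ((x - a * y) ^ 2 + x ^ 2 + (a * y) ^ 2) / (2 * a) := by
        field_simp
        ring
      have : 0 ≤ ((x - a * y) ^ 2 + x ^ 2 + (a * y) ^ 2) / (2 * a) := by positivity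
      linarith
    have := mul_le_mul_of_nonneg_left (key _ (u c) (v c') a0) (pow_nonneg h0 (G.dist c c'))
    refine this.trans (le_of_eq ?_)
    rw [dist_comm (u := c')]
    have := (g0 c).ne'
    have := (g0 c').ne'
    field_simp
  refine (Finset.sum_le_sum fun c _ => Finset.sum_le_sum fun c' _ => pt c c').trans ?_
  simp only [Finset.sum_add_distrib]
  rw [Finset.sum_comm, Finset.mul_sum, Finset.mul_sum]
  refine add_le_add (Finset.sum_le_sum fun c _ => ?_) (Finset.sum_le_sum fun c _ => ?_)
  · rw [← Finset.mul_sum]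
    have g1 := g0 c
    refine (mul_le_mul_of_nonneg_left (hC c o D) (by positivity)).trans (le_of_eq ?_)
    change _ * (C * g c) = _
    field_simp
  · rw [← Finset.mul_sum]
    have g1 := g0 c
    refine (mul_le_mul_of_nonneg_left (hC c o D) (by positivity)).trans (le_of_eq ?_)
    change _ * (C * g c) = _
    field_simp

lemma card_ballF (hG : G.IsTree) (hreg : G.IsRegularOfDegree d) (hd : 3 ≤ d) (c : V) (r : ℕ) :
    2 ^ (r + 1) ≤ (ballF hG.connected c r).card + 1 := by
  have hc := hG.connected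
  let S : ℕ → Finset V := fun k => (ballF hc c k).filter fun x => G.dist c x = k
  have mS : ∀ k x, x ∈ S k ↔ G.dist c x = k := fun k x => by
    simp only [S, Finset.mem_filter, mem_ballF]
    exact ⟨fun h => h.2, fun h => ⟨h.le, h⟩⟩
  have grow : ∀ k, 2 * (S k).card ≤ (S (k + 1)).card := by
    intro k
    have hne : ∀ x ∈ S (k + 1), x ≠ c := fun x hx e => by
      have := (mS _ _).1 hx
      rw [e, SimpleGraph.dist_self] at this
      omega
    refine Finset.mul_card_image_le_card_of_maps_to (f := fun x => nx G x c) (fun x hx => ?_) 2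
      fun b hb => ?_
    · have h1 := (nx_spec hG (hne x hx)).2
      have h2 := (mS _ _).1 hx
      rw [mS, dist_comm]
      rw [dist_comm] at h2
      omega
    · have hb' := (mS _ _).1 hb
      have e := Finset.card_filter_add_card_filter_not (s := G.neighborFinset b)
        fun z => G.dist c z + 1 = G.dist c b
      rw [card_neighborFinset_eq_degree, hreg.degree_eq b] at e
      have one : ((G.neighborFinset b).filter fun z => G.dist c z + 1 = G.dist c b).card ≤ 1 :=
        Finset.card_le_one.2 fun x hx y hy => by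
          rw [Finset.mem_filter, mem_neighborFinset] at hx hy
          exact parent_unique hG hx.1 hy.1 hx.2 hy.2
      have sub : ((G.neighborFinset b).filter fun z => ¬ G.dist c z + 1 = G.dist c b) ⊆
          (S (k + 1)).filter fun x => nx G x c = b := by
        intro z hz
        rw [Finset.mem_filter, mem_neighborFinset] at hz
        have h3 := hG.dist_eq_dist_add_one_of_adj c hz.1
        have h4 : G.dist c z = k + 1 := by omega
        refine Finset.mem_filter.2 ⟨(mS _ _).2 h4, nx_eq hG hz.1.symm ?_⟩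
        rw [dist_comm, dist_comm (u := z)]
        omega
      have := Finset.card_le_card sub
      omega
  have pw : ∀ k, 2 ^ k ≤ (S k).card := by
    intro k
    induction k with
    | zero => exact Finset.card_pos.2 ⟨c, (mS _ _).2 (by simp)⟩
    | succ k ih => have := grow k; rw [pow_succ]; omega
  induction r with
  | zero =>
    have : 0 < (ballF hc c 0).card := Finset.card_pos.2 ⟨c, (mem_ballF hc).2 (by simp)⟩
    omega
  | succ r ih =>
    have dj : Disjoint (ballF hc c r) (S (r + 1)) := Finset.disjoint_left.2 fun x h1 h2 => by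
      rw [mem_ballF] at h1
      rw [mS] at h2
      omega
    have sub : ballF hc c r ∪ S (r + 1) ⊆ ballF hc c (r + 1) :=
      Finset.union_subset (ballF_mono hc c (Nat.le_succ r)) (Finset.filter_subset _ _)
    have h1 := Finset.card_le_card sub
    rw [Finset.card_union_of_disjoint dj] at h1
    have h2 := pw (r + 1)
    rw [pow_succ]
    omega

lemma cx_ball (hG : G.IsTree) (hreg : G.IsRegularOfDegree d) (hd : 3 ≤ d) (h0 : 0 ≤ θ)
    (up : ((d : ℝ) - 1) * θ ^ 2 ≤ 1) (low : 1 ≤ 2 * ((d : ℝ) - 1) * θ ^ 2) (c : V) (r : ℕ) :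
    Cx G d θ (ballF hG.connected c r) := by
  have hc := hG.connected
  refine ⟨⟨hG, fun v => (hreg.degree_eq v).le, hd⟩, h0, up, low,
    ⟨c, (mem_ballF hc).2 (by simp)⟩, fun x hx y hy e he => ?_, fun x hx y hy => ?_⟩
  · rw [mem_ballF] at hx hy ⊢
    obtain ⟨m, m1, m2, m3⟩ := exists_median hG c x y
    have t := hc.dist_triangle (u := c) (v := m) (w := e)
    have c1 : G.dist m e = G.dist e m := dist_comm
    have c2 : G.dist m x = G.dist x m := dist_comm
    rcases le_total (G.dist x e) (G.dist x m) with h | h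
    · obtain ⟨a, b⟩ := btw_lin hG he m3 h
      unfold Btw at *
      omega
    · obtain ⟨a, b⟩ := btw_lin hG m3 he h
      unfold Btw at *
      omega
  · rw [mem_ballF] at hx hy
    have t := hc.dist_triangle (u := x) (v := c) (w := y)
    rw [dist_comm (u := x) (v := c)] at t
    have h1 := card_ballF hG hreg hd c r
    have h2 : ∀ n : ℕ, n ^ 2 + 1 ≤ 2 ^ (n + 1) := fun n => by
      induction n with
      | zero => norm_num
      | succ n ih =>
        have := Nat.lt_two_pow_self (n := n)
        rw [pow_succ 2 n] at ih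
        rw [pow_succ, pow_succ 2 (n + 1), pow_succ 2 n]
        nlinarith
    have h3 := h2 r
    have h4 : G.dist x y ^ 2 ≤ (2 * r) ^ 2 := Nat.pow_le_pow_left (by omega) 2
    rw [mul_pow] at h4
    omega

end Vale.Agent.P161E
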