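import Vale.Agent.P161E.Defs

namespace Vale.Agent.P161E

open MeasureTheory unitInterval Classical SimpleGraph Filter Topology
open Vale.Agent.P161
open Vale.Agent.P143 (BM iidUniform)

variable {V : Type} {G : SimpleGraph V} [G.LocallyFinite] {d : ℕ} {θ : ℝ} {D : Finset V}

omit [G.LocallyFinite] in
lemma nx_spec (hG : G.IsTree) {c w : V} (h : c ≠ w) :
    G.Adj c (nx G c w) ∧ G.dist (nx G c w) w + 1 = G.dist c w := by
  have hex : ∃ p, G.Adj c p ∧ G.dist w p + 1 = G.dist w c := exists_parent hG.connected h
  have e : nx G c w = hex.choose := by unfold nx; rw [dif_pos hex]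
  obtain ⟨h1, h2⟩ := hex.choose_spec
  rw [e]
  exact ⟨h1, by rw [dist_comm, dist_comm (u := c)]; exact h2⟩

omit [G.LocallyFinite] in
lemma nx_eq (hG : G.IsTree) {c w p : V} (h1 : G.Adj c p) (h2 : G.dist p w + 1 = G.dist c w) :
    nx G c w = p := by
  have hne : c ≠ w := by
    rintro rfl
    rw [SimpleGraph.dist_self] at h2
    omega
  obtain ⟨a, b⟩ := nx_spec hG hne
  refine parent_unique hG (u := w) a h1 ?_ ?_
  · rw [dist_comm, dist_comm (u := w)]; exact b
  · rw [dist_comm, dist_comm (u := w)]; exact h2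

omit [G.LocallyFinite] in
/-- T1: either `z` lies between `x` and `c`, or its successor towards `c` lies between `x`, `z`.
Proof: adjacent vertices have distances to `x` differing by one; induct on `dist z c`. -/
lemma btw_or (hG : G.IsTree) {z c : V} (h : z ≠ c) (x : V) :
    Btw G x z c ∨ Btw G x (nx G z c) z := by
  have key : ∀ (n : ℕ) (z : V), G.dist z c = n + 1 →
      G.dist x (nx G z c) = G.dist x z + 1 → G.dist x c = G.dist x z + (n + 1) := by
    intro n
    induction n with
    | zero =>
      intro z hz h1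
      have hne : z ≠ c := by rintro rfl; rw [SimpleGraph.dist_self] at hz; omega
      obtain ⟨-, b⟩ := nx_spec hG hne
      have : nx G z c = c := hG.connected.dist_eq_zero_iff.1 (by omega)
      rw [this] at h1
      omega
    | succ n ih =>
      intro z hz h1
      have hne : z ≠ c := by rintro rfl; rw [SimpleGraph.dist_self] at hz; omega
      obtain ⟨a, b⟩ := nx_spec hG hne
      have hp : G.dist (nx G z c) c = n + 1 := by omega
      have hne' : nx G z c ≠ c := by
        intro e; rw [e, SimpleGraph.dist_self] at hp; omega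
      obtain ⟨a', b'⟩ := nx_spec hG hne'
      rcases hG.dist_eq_dist_add_one_of_adj x a' with h2 | h2
      · have := parent_unique hG (u := x) a' a.symm h2.symm h1.symm
        rw [this] at b'
        omega
      · have := ih _ hp h2
        omega
  obtain ⟨a, b⟩ := nx_spec hG h
  rcases hG.dist_eq_dist_add_one_of_adj x a with h2 | h2
  · right
    unfold Btw
    rw [dist_eq_one_iff_adj.2 a.symm]
    omega
  · left
    unfold Btw
    have := key (G.dist (nx G z c) c) z b.symm h2
    omega

omit [G.LocallyFinite] in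
lemma btw_exists_t0 (hG : G.IsTree) (x w : V) {i : ℕ} (hi : i ≤ G.dist x w) :
    ∃ c, Btw G x c w ∧ G.dist c w = i := by
  induction i with
  | zero => exact ⟨w, by simp [Btw], by simp⟩
  | succ i ih =>
    obtain ⟨c, hc, hd⟩ := ih (by omega)
    have hne : c ≠ x := by
      rintro rfl
      omega
    obtain ⟨a, b⟩ := nx_spec hG hne
    have t1 := hG.connected.dist_triangle (u := nx G c x) (v := c) (w := w)
    have t2 := hG.connected.dist_triangle (u := x) (v := nx G c x) (w := w)
    have d1 : G.dist (nx G c x) c = 1 := dist_eq_one_iff_adj.2 a.symm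
    have c1 : G.dist x (nx G c x) = G.dist (nx G c x) x := dist_comm
    have c2 : G.dist x c = G.dist c x := dist_comm
    refine ⟨nx G c x, ?_, ?_⟩ <;> unfold Btw at * <;> omega

omit [G.LocallyFinite] in
lemma btw_unique_t0 (hG : G.IsTree) {x w c c' : V} (h1 : Btw G x c w) (h2 : Btw G x c' w)
    (h : G.dist c w = G.dist c' w) : c = c' := by
  have step : ∀ {w c : V}, Btw G x c w → w ≠ c →
      G.dist x (nx G w c) + 1 = G.dist x w ∧ Btw G x c (nx G w c) ∧
        G.dist c (nx G w c) + 1 = G.dist c w := by
    intro w c h1 hne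
    obtain ⟨a, b⟩ := nx_spec hG hne
    have t1 := hG.connected.dist_triangle (u := x) (v := nx G w c) (w := w)
    have t2 := hG.connected.dist_triangle (u := x) (v := c) (w := nx G w c)
    have d1 : G.dist (nx G w c) w = 1 := dist_eq_one_iff_adj.2 a.symm
    have c1 : G.dist c (nx G w c) = G.dist (nx G w c) c := dist_comm
    have c2 : G.dist c w = G.dist w c := dist_comm
    unfold Btw at *
    omega
  obtain ⟨n, hn⟩ : ∃ n, G.dist c w = n := ⟨_, rfl⟩
  induction n generalizing w with
  | zero =>
    have e1 := hG.connected.dist_eq_zero_iff.1 hn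
    have e2 := hG.connected.dist_eq_zero_iff.1 (h ▸ hn)
    rw [e1, e2]
  | succ n ih =>
    have n1 : w ≠ c := by rintro rfl; rw [SimpleGraph.dist_self] at hn; omega
    have n2 : w ≠ c' := by rintro rfl; rw [SimpleGraph.dist_self] at h; omega
    obtain ⟨a1, a2, a3⟩ := step h1 n1
    obtain ⟨b1, b2, b3⟩ := step h2 n2
    have e := parent_unique hG (u := x) (nx_spec hG n1).1 (nx_spec hG n2).1 a1 b1
    rw [← e] at b2 b3
    exact ih a2 b2 (by omega) (by omega)

omit [G.LocallyFinite] in
/-- T2: points of a geodesic are linearly ordered -/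
lemma btw_lin (hG : G.IsTree) {x w c c' : V} (h1 : Btw G x c w) (h2 : Btw G x c' w)
    (h : G.dist x c ≤ G.dist x c') : Btw G x c c' ∧ Btw G c c' w := by
  obtain ⟨e, he, hd⟩ := btw_exists_t0 hG x c' (i := G.dist x c' - G.dist x c) (by omega)
  have t1 := hG.connected.dist_triangle (u := e) (v := c') (w := w)
  have t2 := hG.connected.dist_triangle (u := x) (v := e) (w := w)
  have he' : Btw G x e w := by unfold Btw at *; omega
  have : e = c := btw_unique_t0 hG he' h1 (by unfold Btw at *; omega)
  subst this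
  unfold Btw at *
  omega

omit [G.LocallyFinite] in
lemma btw_exists (hG : G.IsTree) (x w : V) {i : ℕ} (hi : i ≤ G.dist x w) :
    ∃ c, Btw G x c w ∧ G.dist c w = i := by
  exact btw_exists_t0 hG x w hi

omit [G.LocallyFinite] in
lemma btw_unique (hG : G.IsTree) {x w c c' : V} (h1 : Btw G x c w) (h2 : Btw G x c' w)
    (h : G.dist c w = G.dist c' w) : c = c' := by
  exact btw_unique_t0 hG h1 h2 h

omit [G.LocallyFinite] in
lemma exists_median (hG : G.IsTree) (x c w : V) :
    ∃ z, Btw G x z c ∧ Btw G x z w ∧ Btw G c z w := by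
  have hne : ∃ n, ∃ z, Btw G c z w ∧ G.dist x z = n := ⟨_, w, by simp [Btw], rfl⟩
  obtain ⟨z, hz, hn⟩ := Nat.find_spec hne
  have hmin : ∀ z', Btw G c z' w → G.dist x z ≤ G.dist x z' := fun z' h' => by
    rw [hn]; exact Nat.find_min' hne ⟨z', h', rfl⟩
  have key : ∀ a b : V, Btw G a z b → (∀ z', Btw G a z' b → G.dist x z ≤ G.dist x z') →
      Btw G x z a := by
    intro a b hab hm
    by_cases e : z = a
    · subst e; simp [Btw]
    · rcases btw_or hG e x with h | h
      · exact h
      · exfalso
        obtain ⟨p, q⟩ := nx_spec hG e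
        have t1 := hG.connected.dist_triangle (u := nx G z a) (v := z) (w := b)
        have t2 := hG.connected.dist_triangle (u := a) (v := nx G z a) (w := b)
        have d1 : G.dist (nx G z a) z = 1 := dist_eq_one_iff_adj.2 p.symm
        have c1 : G.dist a (nx G z a) = G.dist (nx G z a) a := dist_comm
        have c2 : G.dist a z = G.dist z a := dist_comm
        have := hm (nx G z a) (by unfold Btw at *; omega)
        unfold Btw at *
        omega
  have sym : ∀ a b e : V, Btw G a e b → Btw G b e a := fun a b e h => by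
    unfold Btw at *
    have c1 : G.dist b e = G.dist e b := dist_comm
    have c2 : G.dist e a = G.dist a e := dist_comm
    have c3 : G.dist b a = G.dist a b := dist_comm
    omega
  exact ⟨z, key c w hz hmin, key w c (sym _ _ _ hz) fun z' h' => hmin z' (sym _ _ _ h'), hz⟩

lemma Cx.nx_mem (h : Cx G d θ D) {c w : V} (hc : c ∈ D) (hw : w ∈ D) : nx G c w ∈ D := by
  by_cases e : c = w
  · subst e
    have : nx G c c = c := by
      unfold nx
      rw [dif_neg]
      rintro ⟨p, -, hp⟩
      rw [SimpleGraph.dist_self] at hp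
      omega
    rwa [this]
  · obtain ⟨a, b⟩ := nx_spec h.tr.tree e
    refine h.cvx c hc w hw _ ?_
    unfold Btw
    rw [dist_eq_one_iff_adj.2 a]
    omega

lemma Cx.theta (h : Cx G d θ D) : θ ∈ Set.Ico (0 : ℝ) 1 ∧ θ ^ 2 ≤ 1 / 2 ∧ 0 < θ := by
  have hd : (3 : ℝ) ≤ d := by exact_mod_cast h.tr.hd
  have h0 := h.h0
  have h1 := h.up
  have h2 := h.low
  have a : θ ^ 2 ≤ 1 / 2 := by nlinarith [sq_nonneg θ]
  refine ⟨⟨h0, by nlinarith⟩, a, lt_of_le_of_ne h0 ?_⟩
  rintro rfl
  norm_num at h2

end Vale.Agent.P161E
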