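import Vale.Agent.P161E.Om
import Vale.Agent.P161E.Main
import Vale.Agent.P161E.Sub
import Vale.Agent.P161E.Err
import Vale.Agent.P161E.Cmp
import Vale.Agent.P161E.Swap

namespace Vale.Agent.P161E

open MeasureTheory unitInterval Classical SimpleGraph Filter Topology
open Vale.Agent.P161
open Vale.Agent.P143 (BM iidUniform)

variable {V : Type} {G : SimpleGraph V} [G.LocallyFinite] {d : ℕ} {θ : ℝ} {D : Finset V}

lemma int_sqrt_uc1 {X : Type} [MeasurableSpace X] (μ : Measure X) [IsProbabilityMeasure μ]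
    {f : X → ℝ} (hf : BM f) (h0 : ∀ x, 0 ≤ f x) : ∫ x, √(f x) ∂μ ≤ √(∫ x, f x ∂μ) := by
  have hg := bm_sqrt hf
  set c := ∫ x, √(f x) ∂μ with hc
  refine Real.le_sqrt_of_sq_le ?_
  have h1 : ∫ x, (2 * c * √(f x) - c ^ 2) ∂μ ≤ ∫ x, f x ∂μ :=
    integral_mono ((((BM.const _).mul hg).sub (BM.const _)).integrable _) (hf.integrable _)
      fun x => by nlinarith [Real.sq_sqrt (h0 x), sq_nonneg (√(f x) - c)]
  rw [integral_sub (((BM.const _).mul hg).integrable _) (integrable_const _), integral_const_mul,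
    ← hc] at h1
  simp only [integral_const, probReal_univ, smul_eq_mul, one_mul] at h1
  linarith

lemma card_ball_uc1 (h : Tr G d) (x : V) (L : ℕ) : ((ballF h.tree.connected x L).card : ℝ) ≤
    ∑ k ∈ Finset.range (L + 1), 3 / 2 * ((d : ℝ) - 1) ^ k := by
  rw [Finset.card_eq_sum_card_fiberwise (f := fun z => G.dist z x) (t := Finset.range (L + 1))
    fun z hz => by
      have := (mem_ballF _).1 hz
      rw [SimpleGraph.dist_comm] at this
      simpa using Nat.lt_succ_of_le this]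
  push_cast
  exact Finset.sum_le_sum fun k _ => by convert card_sphere h _ x k

lemma Cx.bm_ESn (h : Cx G d θ D) (x : V) (A : Finset V) (D' : Finset V) (J : ℕ) :
    BM fun Ω => ESn G θ D x A (tot D' J Ω) :=
  bm_iter (mk_op h.ne (ms_stp.pr A)) (bm_pow (h.bm_Dd x) 2) (measurable_tot J) measurable_const

lemma Cx.ESn_nn (h : Cx G d θ D) (x : V) (A : Finset V) (n : ℕ) : 0 ≤ ESn G θ D x A n :=
  ((mk_op h.ne (ms_stp.pr A)).iter n).nonneg (bm_pow (h.bm_Dd x) 2) (fun _ => sq_nonneg _) _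

lemma u_cmp0 (h : Tr G d) (L : ℕ) : ∃ (C : ℝ) (N0 : ℕ), 0 < C ∧ ∀ ε : ℝ, 0 < ε → ∃ R : ℕ, L ≤ R ∧
    ∀ θ D D' o x, Cx G d θ D' → N0 ≤ D'.card → GoodAt G o D → D ⊆ D' →
      ballF h.tree.connected x R ⊆ D → ∀ n, Dl G θ D D' x n ≤
        2 * √(ESn G θ D' x (D' \ ballF h.tree.connected x L) n) +
          ε * C * Real.exp (C * n / D'.card) := by
  obtain ⟨C, N0, hC, inf⟩ := influence h
  obtain ⟨M, hM⟩ : ∃ M : ℝ, M = ∑ k ∈ Finset.range (L + 1), 3 / 2 * ((d : ℝ) - 1) ^ k := ⟨_, rfl⟩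
  have d1 : (0 : ℝ) ≤ d - 1 := by
    have : (3 : ℝ) ≤ d := by exact_mod_cast h.hd
    linarith
  have M0 : 0 ≤ M := hM ▸ Finset.sum_nonneg fun k _ => by positivity
  refine ⟨1 + 9 * M * C + C + 2, N0, by positivity, fun ε hε => ?_⟩
  obtain ⟨R0, er⟩ := err_small h (η := ε ^ 2) (by positivity)
  refine ⟨L + R0, by omega, fun θ D D' o x hx hN0 hD hsub hR n => ?_⟩
  have hN : (0 : ℝ) < D'.card := by exact_mod_cast hx.ne.card_pos
  have hc := h.tree.connected
  have hB : ballF hc x L ⊆ D := (ballF_mono _ _ (by omega)).trans hR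
  have xB : x ∈ ballF hc x L := by simp [mem_ballF]
  set τ : ℝ := n / D'.card with hτ
  have τ0 : 0 ≤ τ := by positivity
  have E1 : 1 ≤ Real.exp (C * τ) := Real.one_le_exp (by positivity)
  have cm := hx.cmp hD hsub hB (hB xB) n (e := ε ^ 2 * (1 + τ)) (K := C * Real.exp (C * τ))
    (by positivity) (by positivity) (fun w hw j hj => ?_) (fun w hw => ?_)
  · refine cm.trans ?_
    rw [add_assoc]
    refine add_le_add le_rfl ?_
    have t1 : 1 + τ ≤ Real.exp τ := by linarith [Real.add_one_le_exp τ]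
    have s1 : √(ε ^ 2 * (1 + τ)) ≤ ε * Real.exp τ := by
      refine Real.sqrt_le_iff.2 ⟨by positivity, ?_⟩
      rw [mul_pow]
      exact mul_le_mul_of_nonneg_left (by nlinarith) (sq_nonneg _)
    have s2 : ((ballF hc x L).card : ℝ) * (C * Real.exp (C * τ)) * √(ε ^ 2 * (1 + τ)) *
        (9 * (1 + τ)) ≤ M * (C * Real.exp (C * τ)) * (ε * Real.exp τ) * (9 * Real.exp τ) := by
      have := hM ▸ card_ball_uc1 h x L
      gcongr
    have s3 : Real.exp (C * τ) * Real.exp τ * Real.exp τ ≤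
        Real.exp ((1 + 9 * M * C + C + 2) * n / D'.card) := by
      rw [← Real.exp_add, ← Real.exp_add, Real.exp_le_exp, mul_div_assoc, ← hτ]
      have : 0 ≤ (1 + 9 * M * C) * τ := by positivity
      linarith
    have s4 : Real.exp τ ≤ Real.exp (C * τ) * Real.exp τ * Real.exp τ := by
      have : 1 ≤ Real.exp (C * τ) * Real.exp τ := one_le_mul_of_one_le_of_one_le E1 (by linarith)
      exact le_mul_of_one_le_left (by positivity) this
    generalize Real.exp ((1 + 9 * M * C + C + 2) * n / D'.card) = X at s3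
    have s5 := mul_le_mul_of_nonneg_left s3 (show 0 ≤ ε * (1 + 9 * M * C + C + 2) by positivity)
    have s6 := mul_le_mul_of_nonneg_left s4 hε.le
    have s7 : 0 ≤ ε * (C + 2) * (Real.exp (C * τ) * Real.exp τ * Real.exp τ) := by positivity
    linarith
  · rw [Finset.insert_eq_of_mem xB] at hw
    refine (er θ D D' hx hsub w (hsub (hB hw)) (fun z _ hz => hR ?_) j).trans ?_
    · rw [mem_ballF] at hw ⊢
      have := hc.dist_triangle (u := x) (v := w) (w := z)
      rw [SimpleGraph.dist_comm] at hz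
      omega
    · have : (j : ℝ) ≤ n := by exact_mod_cast hj
      rw [hτ]
      gcongr
  · obtain ⟨Z, z1, z2, z3, z4⟩ := inf θ D' hx hN0 w (hsub (hB hw))
    refine ⟨Z, z1, z2, fun j l => (z3 j l).trans ?_, fun k hk l a a' => ?_⟩
    · have := (zero_le_one.trans (rho_one D'.card j))
      exact mul_le_mul_of_nonneg_right (le_mul_of_one_le_right hC.le E1) (by positivity)
    · refine le_trans ((hx.mk2.iter k).mono _ _ (bm_pow (hx.bm_Dd x) 2) (hx.bm_yy w)
        (fun s => ?_) _) ((z4 k l a a').trans ?_)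
      · refine le_trans (le_mul_of_one_le_left (sq_nonneg _) (om_one (G.dist w x))) ?_
        exact Finset.single_le_sum (f := fun x => om (G.dist w x) * Dd G θ D' s x ^ 2)
          (fun z _ => mul_nonneg (om_nn _) (sq_nonneg _)) (hsub (hB xB))
      · have : (k : ℝ) ≤ n := by exact_mod_cast hk
        have := z2 l
        rw [hτ, mul_div_assoc]
        gcongr

variable [Countable V]

/-- `cmp`, `influence`, `err_small`, `Del_eq`, `Inf_eq`, `tot_exp_le` -/
lemma u_cmp (h : Tr G d) (J L : ℕ) {η : ℝ} (hη : 0 < η) : ∃ R N0 : ℕ, L ≤ R ∧ ∀ θ D D' o x,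
    Cx G d θ D' → N0 ≤ D'.card → GoodAt G o D → D ⊆ D' → ballF h.tree.connected x R ⊆ D →
      Del G θ D D' J x ≤ 2 * √(Inf G θ D' J x (D' \ ballF h.tree.connected x L)) + η := by
  obtain ⟨C, N0, hC, H⟩ := u_cmp0 h L
  obtain ⟨R, hR, H⟩ := H (η / (C * Real.exp (J * Real.exp C))) (by positivity)
  refine ⟨R, N0, hR, fun θ D D' o x hx hN0 hD hsub hB => ?_⟩
  have hθ := hx.theta.1
  obtain ⟨i1, i2⟩ := tot_exp_le hx.ne J hC.le
  have bE := hx.bm_ESn x (D' \ ballF h.tree.connected x L) D' J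
  have i3 := ((BM.const 2).mul (bm_sqrt bE)).integrable (iidUniform (V × (ℕ × Lab)))
  rw [Del_eq hθ hx.ne hsub, Inf_eq hθ hx.ne]
  refine (integral_mono ((bm_iter (mk_op hx.ne (ms_two D')) (((bm_mI hθ x).comp
    measurable_fst).sub ((bm_mI hθ x).comp measurable_snd)).abs (measurable_tot J)
    measurable_const).integrable _) (i3.add (i1.const_mul _))
    fun Ω => H θ D D' o x hx hN0 hD hsub hB _).trans ?_
  simp only [Pi.add_apply]
  rw [integral_add i3 (i1.const_mul _), integral_const_mul, integral_const_mul]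
  refine add_le_add (mul_le_mul_of_nonneg_left (int_sqrt_uc1 _ bE fun _ => hx.ESn_nn _ _ _)
    (by norm_num)) ((mul_le_mul_of_nonneg_left i2 (by positivity)).trans (le_of_eq ?_))
  field_simp

lemma u_add (h : Cx G d θ D) (J : ℕ) (x : V) (A : Finset V) :
    Inf G θ D J x A ≤ ∑ u ∈ A, Inf G θ D J x {u} := by
  have hθ := h.theta.1
  simp only [Inf_eq hθ h.ne]
  rw [← integral_finsetSum _ fun u _ => (h.bm_ESn x {u} D J).integrable _]
  exact integral_mono ((h.bm_ESn x A D J).integrable _)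
    ((BM.sum _ fun u _ => h.bm_ESn x {u} D J).integrable _)
    fun Ω => es_one h.ne ms_stp (bm_mI hθ x) A _ (0 : V → ℝ)

lemma u_sub (h : Tr G d) (hθ : ((d : ℝ) - 1) * θ ^ 2 < 1) (J : ℕ) {η : ℝ} (hη : 0 < η) :
    ∃ L : ℕ, ∀ D, Cx G d θ D → ∀ x ∈ D, ∀ A ⊆ D, (∀ u ∈ A, L < G.dist x u) →
      ∑ u ∈ A, Inf G θ D J x {u} ≤ η := by
  obtain ⟨C, hC, H⟩ := sub_tail h hθ
  obtain ⟨L, H⟩ := H (η / Real.exp (J * Real.exp C)) (by positivity)
  refine ⟨L, fun D hx x xD A hA hL => ?_⟩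
  obtain ⟨i1, i2⟩ := tot_exp_le hx.ne J hC.le
  simp only [Inf_eq hx.theta.1 hx.ne]
  rw [← integral_finsetSum _ fun u _ => (hx.bm_ESn x {u} D J).integrable _]
  refine (integral_mono ((BM.sum _ fun u _ => hx.bm_ESn x {u} D J).integrable _)
    (i1.const_mul _) fun Ω => H D hx x xD A hA hL _).trans ?_
  rw [integral_const_mul]
  refine (mul_le_mul_of_nonneg_left i2 (by positivity)).trans (le_of_eq ?_)
  field_simp

lemma u_loc (h : Tr G d) (J : ℕ) : ∃ (C : ℝ) (N0 : ℕ), 0 < C ∧ ∀ θ D, Cx G d θ D → N0 ≤ D.card →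
    ∀ u ∈ D, ∑ z ∈ D, om (G.dist u z) * Inf G θ D J z {u} ≤ C := by
  obtain ⟨C, N0, hC, H⟩ := local_sum h
  refine ⟨C * Real.exp (J * Real.exp C), N0, by positivity, fun θ D hx hN u hu => ?_⟩
  obtain ⟨i1, i2⟩ := tot_exp_le hx.ne J hC.le
  simp only [Inf_eq hx.theta.1 hx.ne, ← integral_const_mul]
  rw [← integral_finsetSum _ fun z _ => ((BM.const _).mul (hx.bm_ESn z {u} D J)).integrable _]
  refine (integral_mono ((BM.sum _ fun z _ => (BM.const _).mul
    (hx.bm_ESn z {u} D J)).integrable _) (i1.const_mul _) fun Ω => H θ D hx hN u hu _).trans ?_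
  rw [integral_const_mul]
  exact mul_le_mul_of_nonneg_left i2 hC.le

end Vale.Agent.P161E
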