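import Vale.Agent.P161E.Uc1

namespace Vale.Agent.P161E

open MeasureTheory unitInterval Classical SimpleGraph Filter Topology
open Vale.Agent.P161
open Vale.Agent.P143 (BM iidUniform)

variable {V : Type} {G : SimpleGraph V} [G.LocallyFinite] {d : ℕ} {θ : ℝ} {D : Finset V}

lemma ballF_map (hG : G.Connected) (g : G ≃g G) (x : V) (r : ℕ) :
    (ballF hG x r).map g.toEquiv.toEmbedding = ballF hG (g x) r := by
  ext v
  rw [Finset.mem_map_equiv, mem_ballF, mem_ballF, ← dist_iso hG g,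
    show g (g.toEquiv.symm v) = v from g.toEquiv.apply_symm_apply v]

lemma tr_uc2 (hG : G.IsTree) (hreg : G.IsRegularOfDegree d) (hd : 3 ≤ d) : Tr G d :=
  ⟨hG, fun v => (hreg v).le, hd⟩

lemma card_uc2 (hG : G.IsTree) (hreg : G.IsRegularOfDegree d) (hd : 3 ≤ d) (c : V) {r N : ℕ}
    (h : N ≤ r) : N ≤ (ballF hG.connected c r).card := by
  have h1 := card_ballF hG hreg hd c r
  have h2 : r + 1 < 2 ^ (r + 1) := Nat.lt_two_pow_self
  omega

variable [Countable V]

omit [G.LocallyFinite] [Countable V] in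
lemma Inf_nn (J : ℕ) (x : V) (A : Finset V) : 0 ≤ Inf G θ D J x A :=
  integral_nonneg fun _ => sq_nonneg _

/-- Cauchy property given locality at radius `L` in all large balls -/
lemma cauchy_of_local (hG : G.IsTree) (hreg : G.IsRegularOfDegree d) (hd : 3 ≤ d) (J L : ℕ)
    {η : ℝ} (hη : 0 < η) : ∃ R : ℕ, ∀ θ : ℝ, 0 ≤ θ → ((d : ℝ) - 1) * θ ^ 2 ≤ 1 →
      1 ≤ 2 * ((d : ℝ) - 1) * θ ^ 2 → ∀ (x : V) (R' : ℕ),
      (∀ r, R' ≤ r → Inf G θ (ballF hG.connected x r) J x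
        (ballF hG.connected x r \ ballF hG.connected x L) ≤ η ^ 2) →
      ∀ (c1 c2 : V) (r1 r2 : ℕ), ballF hG.connected x R ⊆ ballF hG.connected c1 r1 →
        ballF hG.connected x R ⊆ ballF hG.connected c2 r2 →
        Del G θ (ballF hG.connected c1 r1) (ballF hG.connected c2 r2) J x ≤ 6 * η := by
  obtain ⟨R, N0, -, H⟩ := u_cmp (tr_uc2 hG hreg hd) J L hη
  refine ⟨R, fun θ h0 up low x R' loc c1 c2 r1 r2 h1 h2 => ?_⟩
  obtain ⟨n1, s1⟩ := subset_ballF hG.connected x (ballF hG.connected c1 r1)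
  obtain ⟨n2, s2⟩ := subset_ballF hG.connected x (ballF hG.connected c2 r2)
  have hx := cx_ball hG hreg hd h0 up low x (n1 + n2 + N0 + R')
  have hN := card_uc2 hG hreg hd x (N := N0) (r := n1 + n2 + N0 + R') (by omega)
  have q : √(Inf G θ (ballF hG.connected x (n1 + n2 + N0 + R')) J x
      (ballF hG.connected x (n1 + n2 + N0 + R') \ ballF hG.connected x L)) ≤ η :=
    Real.sqrt_le_iff.2 ⟨hη.le, loc _ (by omega)⟩
  have a1 := H θ _ _ c1 x hx hN (good_ballF _ c1 r1) (s1 _ (by omega)) h1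
  have a2 := H θ _ _ c2 x hx hN (good_ballF _ c2 r2) (s2 _ (by omega)) h2
  linarith [Del_tri (G := G) hx.theta.1 (ballF hG.connected c1 r1) (ballF hG.connected c2 r2)
    (ballF hG.connected x (n1 + n2 + N0 + R')) J x]

lemma sub_local (hG : G.IsTree) (hreg : G.IsRegularOfDegree d) (hd : 3 ≤ d) (h0 : 0 ≤ θ)
    (up : ((d : ℝ) - 1) * θ ^ 2 < 1) (low : 1 ≤ 2 * ((d : ℝ) - 1) * θ ^ 2) (J : ℕ) {η : ℝ}
    (hη : 0 < η) : ∃ L : ℕ, ∀ (x : V) (r : ℕ),
      ∑ u ∈ ballF hG.connected x r \ ballF hG.connected x L,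
        Inf G θ (ballF hG.connected x r) J x {u} ≤ η := by
  obtain ⟨L, H⟩ := u_sub (tr_uc2 hG hreg hd) up J hη
  refine ⟨L, fun x r => H _ (cx_ball hG hreg hd h0 up.le low x r) x (by simp [mem_ballF]) _
    Finset.sdiff_subset fun u hu => ?_⟩
  have := (Finset.mem_sdiff.1 hu).2
  rw [mem_ballF] at this
  omega

lemma sub_cauchy (hG : G.IsTree) (hreg : G.IsRegularOfDegree d) (hd : 3 ≤ d) (h0 : 0 ≤ θ)
    (up : ((d : ℝ) - 1) * θ ^ 2 < 1) (low : 1 ≤ 2 * ((d : ℝ) - 1) * θ ^ 2) (J : ℕ) {η : ℝ}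
    (hη : 0 < η) : ∃ R : ℕ, ∀ (x c1 c2 : V) (r1 r2 : ℕ),
      ballF hG.connected x R ⊆ ballF hG.connected c1 r1 →
      ballF hG.connected x R ⊆ ballF hG.connected c2 r2 →
      Del G θ (ballF hG.connected c1 r1) (ballF hG.connected c2 r2) J x ≤ 6 * η := by
  obtain ⟨L, H⟩ := sub_local hG hreg hd h0 up low J (η := η ^ 2) (by positivity)
  obtain ⟨R, K⟩ := cauchy_of_local hG hreg hd J L hη
  exact ⟨R, fun x => K θ h0 up.le low x 0 fun r _ =>
    (u_add (cx_ball hG hreg hd h0 up.le low x r) J x _).trans (H x r)⟩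

/-- mass transport: locality with a radius that does not depend on the subcritical `θ` -/
lemma unif_local (hG : G.IsTree) (hreg : G.IsRegularOfDegree d) (hd : 3 ≤ d) (J : ℕ)
    {η : ℝ} (hη : 0 < η) : ∃ L : ℕ, ∀ θ : ℝ, 0 ≤ θ → ((d : ℝ) - 1) * θ ^ 2 < 1 →
      1 ≤ 2 * ((d : ℝ) - 1) * θ ^ 2 → ∃ R' : ℕ, ∀ (x : V) (r : ℕ), R' ≤ r →
        Inf G θ (ballF hG.connected x r) J x
          (ballF hG.connected x r \ ballF hG.connected x L) ≤ η := by
  have tr := tr_uc2 hG hreg hd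
  have hc := hG.connected
  obtain ⟨C, N0, hC, loc⟩ := u_loc tr J
  obtain ⟨L, hL⟩ := (om_tendsto.eventually_ge_atTop (9 * C / η)).exists
  refine ⟨L, fun θ h0 up low => ?_⟩
  obtain ⟨L', far⟩ := sub_local hG hreg hd h0 up low J (η := η / 3) (by positivity)
  obtain ⟨M, hM⟩ : ∃ M : ℝ, M = ∑ k ∈ Finset.range (L' + 1), 3 / 2 * ((d : ℝ) - 1) ^ k := ⟨_, rfl⟩
  have d1 : (0 : ℝ) ≤ d - 1 := by
    have : (3 : ℝ) ≤ d := by exact_mod_cast hd
    linarith
  have M0 : 0 ≤ M := hM ▸ Finset.sum_nonneg fun k _ => by positivity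
  obtain ⟨R, cau⟩ := sub_cauchy hG hreg hd h0 up low J (η := η / (108 * (M + 1))) (by positivity)
  refine ⟨R + L' + N0, fun x r hr => ?_⟩
  have hx := cx_ball hG hreg hd h0 up.le low x r
  have hθ := hx.theta.1
  refine (u_add hx J x _).trans ?_
  have sp : ballF hc x r \ ballF hc x L ⊆
      (ballF hc x r \ ballF hc x L') ∪ (ballF hc x L' \ ballF hc x L) := by
    intro u hu
    simp only [Finset.mem_union, Finset.mem_sdiff] at hu ⊢
    tauto
  refine (Finset.sum_le_sum_of_subset_of_nonneg sp fun u _ _ => Inf_nn _ _ _).trans ?_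
  refine (le_add_of_nonneg_right (Finset.sum_nonneg (s := (ballF hc x r \ ballF hc x L') ∩
    (ballF hc x L' \ ballF hc x L)) fun u _ =>
    Inf_nn (G := G) (θ := θ) (D := ballF hc x r) J x {u})).trans ?_
  rw [Finset.sum_union_inter]
  have mid : ∀ u ∈ ballF hc x L' \ ballF hc x L, Inf G θ (ballF hc x r) J x {u} ≤
      η / (3 * C) * (om (G.dist x u) * Inf G θ (ballF hc x r) J u {x}) + η / (3 * (M + 1)) := by
    intro u hu
    obtain ⟨u1, u2⟩ := Finset.mem_sdiff.1 hu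
    rw [mem_ballF] at u1 u2
    obtain ⟨g, g1, g2⟩ := exists_swap hG hreg x u
    rw [← Inf_map hθ g, ballF_map, g1, g2]
    refine (Inf_le hθ _ (ballF hc x r) J u _).trans (add_le_add ?_ ?_)
    · rw [← mul_assoc]
      refine mul_le_mul_of_nonneg_right ?_ (Inf_nn _ _ _)
      refine le_trans (le_of_eq (by field_simp; norm_num)) (mul_le_mul_of_nonneg_left
        (hL.trans (om_mono (by omega))) (by positivity))
    · have := cau u u x r r (ballF_mono _ _ (by omega)) fun v hv => by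
        rw [mem_ballF] at hv ⊢
        have := hc.dist_triangle (u := x) (v := u) (w := v)
        omega
      refine (mul_le_mul_of_nonneg_left this (by norm_num)).trans (le_of_eq ?_)
      field_simp
      norm_num
  have m2 := Finset.sum_le_sum mid
  rw [Finset.sum_add_distrib, ← Finset.mul_sum, Finset.sum_const, nsmul_eq_mul] at m2
  have m3 : ∑ u ∈ ballF hc x L' \ ballF hc x L, om (G.dist x u) *
      Inf G θ (ballF hc x r) J u {x} ≤ C :=
    (Finset.sum_le_sum_of_subset_of_nonneg (Finset.sdiff_subset.trans (ballF_mono _ _ (by omega)))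
      fun u _ _ => mul_nonneg (om_nn _) (Inf_nn _ _ _)).trans
      (loc θ _ hx (card_uc2 hG hreg hd x (by omega)) x (by simp [mem_ballF]))
  have m4 : ((ballF hc x L' \ ballF hc x L).card : ℝ) ≤ M + 1 := by
    have := hM ▸ card_ball_uc1 tr x L'
    have h2 : ((ballF hc x L' \ ballF hc x L).card : ℝ) ≤ (ballF hc x L').card := by
      exact_mod_cast Finset.card_le_card Finset.sdiff_subset
    linarith
  have m5 := mul_le_mul_of_nonneg_left m3 (show 0 ≤ η / (3 * C) by positivity)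
  have m6 := mul_le_mul_of_nonneg_right m4 (show 0 ≤ η / (3 * (M + 1)) by positivity)
  have e1 : η / (3 * C) * C = η / 3 := by field_simp
  have e2 : (M + 1) * (η / (3 * (M + 1))) = η / 3 := by field_simp
  linarith [far x r]

theorem ucauchy (hG : G.IsTree) (hreg : G.IsRegularOfDegree d) (hd : 3 ≤ d) (h0 : 0 ≤ θ)
    (hc : ((d : ℝ) - 1) * θ ^ 2 = 1) (J : ℕ) {η : ℝ} (hη : 0 < η) :
    ∃ R : ℕ, ∀ (x c1 c2 : V) (r1 r2 : ℕ), ballF hG.connected x R ⊆ ballF hG.connected c1 r1 →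
      ballF hG.connected x R ⊆ ballF hG.connected c2 r2 →
      Del G θ (ballF hG.connected c1 r1) (ballF hG.connected c2 r2) J x ≤ η := by
  obtain ⟨L, loc⟩ := unif_local hG hreg hd J (η := (η / 6) ^ 2) (by positivity)
  obtain ⟨R, cau⟩ := cauchy_of_local hG hreg hd J L (η := η / 6) (by positivity)
  refine ⟨R, fun x c1 c2 r1 r2 h1 h2 => ?_⟩
  obtain ⟨⟨-, t1⟩, -, t0⟩ := (cx_ball hG hreg hd h0 hc.le (by linarith) x 0).theta
  have d1 : (0 : ℝ) < d - 1 := by
    have : (3 : ℝ) ≤ d := by exact_mod_cast hd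
    linarith
  have ct := ((Del_cont (G := G) (ballF hG.connected c1 r1) (ballF hG.connected c2 r2) J x).continuousAt
    (Ico_mem_nhds t0 t1)).tendsto.mono_left (nhdsWithin_le_nhds (s := Set.Iio θ))
  refine le_of_tendsto ct ?_
  filter_upwards [Ioo_mem_nhdsLT (show 9 / 10 * θ < θ by linarith)] with t ht
  have a0 : 0 ≤ t := by linarith [ht.1]
  have a1 : ((d : ℝ) - 1) * t ^ 2 < 1 :=
    (mul_lt_mul_of_pos_left (pow_lt_pow_left₀ ht.2 a0 two_ne_zero) d1).trans_eq hc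
  have a2 : 1 ≤ 2 * ((d : ℝ) - 1) * t ^ 2 := by
    have := mul_le_mul_of_nonneg_left
      (pow_le_pow_left₀ (by positivity : 0 ≤ 9 / 10 * θ) ht.1.le 2) d1.le
    linarith
  obtain ⟨R', H⟩ := loc t a0 a1 a2
  linarith [cau t a0 a1.le a2 x R' (H x) c1 c2 r1 r2 h1 h2]

end Vale.Agent.P161E
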