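import Vale.Agent.P161E.Sst

namespace Vale.Agent.P161E

open MeasureTheory unitInterval Classical SimpleGraph Filter Topology
open Vale.Agent.P161
open Vale.Agent.P143 (BM iidUniform)

variable {V : Type} {G : SimpleGraph V} [G.LocallyFinite] {d : ℕ} {θ : ℝ} {D : Finset V}

lemma bessel_abs_var {M ι : Type*} [AddCommGroup M] [Module ℝ M] (B : M →ₗ[ℝ] M →ₗ[ℝ] ℝ)
    (symm : ∀ g h, B g h = B h g) (pos : ∀ g, 0 ≤ B g g) (A : Finset ι) (ξ : ι → M)
    (β v : ι → ℝ) (F : M) (h1 : ∀ z ∈ A, B F (ξ z) = β z * v z)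
    (h2 : ∀ z ∈ A, B (ξ z) (ξ z) = v z)
    (h3 : ∀ z ∈ A, ∀ z' ∈ A, z' ≠ z → B (ξ z') (ξ z) = 0) :
    ∑ z ∈ A, v z * β z ^ 2 ≤ B F F := by
  set P := ∑ z ∈ A, β z • ξ z with hP
  have e1 : B F P = ∑ z ∈ A, v z * β z ^ 2 := by
    rw [hP, map_sum]
    refine Finset.sum_congr rfl fun z hz => ?_
    rw [map_smul, h1 z hz, smul_eq_mul]
    ring
  have e2 : B P P = ∑ z ∈ A, v z * β z ^ 2 := by
    conv_lhs => rw [hP, map_sum]
    refine Finset.sum_congr rfl fun z hz => ?_
    rw [map_smul, map_sum, LinearMap.sum_apply, Finset.sum_eq_single z]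
    · rw [map_smul, LinearMap.smul_apply, h2 z hz, smul_eq_mul, smul_eq_mul]
      ring
    · intro z' hz' hne
      rw [map_smul, LinearMap.smul_apply, h3 z hz z' hz' hne, smul_zero]
    · intro h
      exact absurd hz h
  have h := pos (F - P)
  simp only [map_sub, LinearMap.sub_apply] at h
  rw [symm P F, e1, e2] at h
  linarith

/-- the covariance form -/
noncomputable def cvVar (G : SimpleGraph V) (θ : ℝ) (D : Finset V) (l : V → ℝ) :
    (Finset V → ℝ) →ₗ[ℝ] (Finset V → ℝ) →ₗ[ℝ] ℝ :=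
  LinearMap.mk₂ ℝ (fun g h => ex G θ D l (fun T => g T * h T) - ex G θ D l g * ex G θ D l h)
    (fun g g' h => by
      have e1 := ex_add (G := G) (θ := θ) (D := D) l (fun T => g T * h T) (fun T => g' T * h T)
      have e2 := ex_add (G := G) (θ := θ) (D := D) l g g'
      simp only [Pi.add_apply, add_mul]
      rw [e1, show g + g' = fun T => g T + g' T from rfl, e2]
      ring)
    (fun c g h => by
      have e1 := ex_smul (G := G) (θ := θ) (D := D) l c (fun T => g T * h T)
      have e2 := ex_smul (G := G) (θ := θ) (D := D) l c g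
      simp only [Pi.smul_apply, smul_eq_mul, mul_assoc]
      rw [e1, show c • g = fun T => c * g T from rfl, e2]
      ring)
    (fun g h h' => by
      have e1 := ex_add (G := G) (θ := θ) (D := D) l (fun T => g T * h T) (fun T => g T * h' T)
      have e2 := ex_add (G := G) (θ := θ) (D := D) l h h'
      simp only [Pi.add_apply, mul_add]
      rw [e1, show h + h' = fun T => h T + h' T from rfl, e2]
      ring)
    (fun c g h => by
      have e1 := ex_smul (G := G) (θ := θ) (D := D) l c (fun T => g T * h T)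
      have e2 := ex_smul (G := G) (θ := θ) (D := D) l c h
      simp only [Pi.smul_apply, smul_eq_mul, mul_left_comm (g _) c]
      rw [e1, show c • h = fun T => c * h T from rfl, e2]
      ring)

omit [G.LocallyFinite] in
lemma cvVar_apply (l : V → ℝ) (g h : Finset V → ℝ) : cvVar G θ D l g h =
    ex G θ D l (fun T => g T * h T) - ex G θ D l g * ex G θ D l h := rfl

lemma cvVar_nonneg (hθ : θ ∈ Set.Ico (0 : ℝ) 1) (l : V → ℝ) (g : Finset V → ℝ) :
    0 ≤ cvVar G θ D l g g := by
  rw [cvVar_apply]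
  set m := ex G θ D l g with hm
  have h1 := ex_mono (G := G) (D := D) hθ l (g := fun T => 2 * m * g T + -m ^ 2)
    (h := fun T => g T * g T) fun T _ => by nlinarith [sq_nonneg (g T - m)]
  rw [ex_add, ex_smul, ex_const hθ] at h1
  nlinarith

lemma btw_nx_var (hG : G.IsTree) {z c : V} (h : z ≠ c) : Btw G z (nx G z c) c := by
  obtain ⟨h1, h2⟩ := nx_spec hG h
  unfold Btw
  rw [SimpleGraph.dist_eq_one_iff_adj.2 h1]
  omega

lemma cov_xi_var (h : Cx G d θ D) (l : V → ℝ) {c z : V} (hc : c ∈ D) (hz : z ∈ D) (hzc : z ≠ c)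
    (x : V) : cov G θ D l x z - aa G θ D l z (nx G z c) * cov G θ D l x (nx G z c) =
      if Btw G x z c then aa G θ D l x z *
        (vr G θ D l z * (1 - aa G θ D l z (nx G z c) * aa G θ D l (nx G z c) z)) else 0 := by
  have hG := h.tr.tree
  have hθ := h.theta.1
  obtain ⟨h1, h2⟩ := nx_spec hG hzc
  have h3 := SimpleGraph.dist_eq_one_iff_adj.2 h1
  split_ifs with hb
  · have hb' : Btw G x z (nx G z c) := by
      unfold Btw at hb ⊢
      have t1 := hG.connected.dist_triangle (u := x) (v := z) (w := nx G z c)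
      have t2 := hG.connected.dist_triangle (u := x) (v := nx G z c) (w := c)
      omega
    rw [cov_mul hG hθ l hz hb', ← aa_vr hθ l x hz, cov_comm l z, ← aa_vr hθ l _ hz]
    ring
  · have hb' : Btw G z (nx G z c) x := by
      have := (btw_or hG hzc x).resolve_left hb
      unfold Btw at this ⊢
      rw [SimpleGraph.dist_comm (u := z), SimpleGraph.dist_comm (v := x),
        SimpleGraph.dist_comm (u := z) (v := x)]
      omega
    rw [cov_comm l x z, cov_mul hG hθ l (h.nx_mem hz hc) hb', cov_comm l x]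
    ring

/-- Bessel inequality for the orthogonal innovations
`ξ z = (ind z - m z) - aa z p * (ind p - m p)`, `p = nx z c`, `z ≠ c`:
`Cov (ind x, ξ z) = aa x z * Var (ξ z)` if `Btw x z c`, and `0` otherwise (`btw_or`, `cov_mul`);
`Var (ξ z) = vr z * (1 - aa z p * aa p z) ≥ vr z / 2`. -/
lemma Cx.bessel (h : Cx G d θ D) (l : V → ℝ) {c : V} (hc : c ∈ D) (f : V → ℝ) :
    ∑ z ∈ D.erase c, vr G θ D l z / 2 *
      (∑ x ∈ D.filter fun x => Btw G x z c, f x * aa G θ D l x z) ^ 2 ≤ vrF G θ D f l := by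
  have hG := h.tr.tree
  have hθ := h.theta.1
  set X : V → Finset V → ℝ := fun x T => ind T x with hX
  set v : V → ℝ := fun z =>
    vr G θ D l z * (1 - aa G θ D l z (nx G z c) * aa G θ D l (nx G z c) z) with hv
  set ξ : V → Finset V → ℝ := fun z => X z - aa G θ D l z (nx G z c) • X (nx G z c) with hξ
  have hC : ∀ z ∈ D.erase c, ∀ x, cvVar G θ D l (X x) (ξ z) =
      if Btw G x z c then aa G θ D l x z * v z else 0 := by
    intro z hz x
    rw [← cov_xi_var h l hc (Finset.mem_of_mem_erase hz) (Finset.ne_of_mem_erase hz) x]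
    simp only [hξ, map_sub, map_smul, smul_eq_mul]
    rfl
  have hL : ∀ y W, cvVar G θ D l (ξ y) W =
      cvVar G θ D l (X y) W - aa G θ D l y (nx G y c) * cvVar G θ D l (X (nx G y c)) W := by
    intro y W
    simp only [hξ, map_sub, map_smul, LinearMap.sub_apply, LinearMap.smul_apply, smul_eq_mul]
  have hF : lin D f = ∑ x ∈ D, f x • X x := by
    funext T
    simp only [lin, Finset.sum_apply, Pi.smul_apply, smul_eq_mul, hX]
  have hnb : ∀ z, z ≠ c → ∀ y, ¬ Btw G z y c → ¬ Btw G (nx G z c) y c := by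
    intro z hz y h1 h2
    obtain ⟨h3, h4⟩ := nx_spec hG hz
    have h5 := SimpleGraph.dist_eq_one_iff_adj.2 h3
    refine h1 ?_
    unfold Btw at h2 ⊢
    have t1 := hG.connected.dist_triangle (u := z) (v := nx G z c) (w := y)
    have t2 := hG.connected.dist_triangle (u := z) (v := y) (w := c)
    omega
  have key := bessel_abs_var (cvVar G θ D l) (fun g g' => by
      simp only [cvVar_apply, mul_comm]) (cvVar_nonneg hθ l) (D.erase c) ξ
    (fun z => ∑ x ∈ D.filter fun x => Btw G x z c, f x * aa G θ D l x z) v (lin D f)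
    (fun z hz => by
      rw [hF, map_sum, LinearMap.sum_apply, Finset.sum_mul, Finset.sum_filter]
      refine Finset.sum_congr rfl fun x _ => ?_
      rw [map_smul, LinearMap.smul_apply, hC z hz, smul_eq_mul]
      split_ifs
      · ring
      · ring)
    (fun z hz => by
      have hzc := Finset.ne_of_mem_erase hz
      obtain ⟨h3, h4⟩ := nx_spec hG hzc
      have h6 : ¬ Btw G (nx G z c) z c := by
        unfold Btw
        omega
      have h7 : Btw G z z c := by simp [Btw]
      rw [hL, hC z hz, hC z hz, if_pos h7, if_neg h6, aa_self hθ l (Finset.mem_of_mem_erase hz)]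
      ring)
    (fun z hz y hy hne => by
      have hyc := Finset.ne_of_mem_erase hy
      rw [hL, hC z hz, hC z hz]
      by_cases hb : Btw G y z c
      · have h1 : G.dist y (nx G y c) ≤ G.dist y z := by
          rw [SimpleGraph.dist_eq_one_iff_adj.2 (nx_spec hG hyc).1]
          exact hG.connected.pos_dist_of_ne hne
        obtain ⟨h2, h3⟩ := btw_lin hG (btw_nx_var hG hyc) hb h1
        rw [if_pos hb, if_pos h3,
          aa_mul hG hθ l (h.nx_mem (Finset.mem_of_mem_erase hy) hc) h2]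
        ring
      · rw [if_neg hb, if_neg (hnb y hyc z hb)]
        ring)
  have hv2 : cvVar G θ D l (lin D f) (lin D f) = vrF G θ D f l := by
    simp only [cvVar_apply, vrF, sq]
  rw [hv2] at key
  refine le_trans (Finset.sum_le_sum fun z hz => ?_) key
  refine mul_le_mul_of_nonneg_right ?_ (sq_nonneg _)
  have hzD := Finset.mem_of_mem_erase hz
  have hp := h.nx_mem hzD hc
  have h1 := SimpleGraph.dist_eq_one_iff_adj.2 (nx_spec hG (Finset.ne_of_mem_erase hz)).1
  have h2 := h.aa_mem l hzD hp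
  have h3 := h.aa_mem l hp hzD
  rw [SimpleGraph.dist_comm, h1, pow_one] at h3
  rw [h1, pow_one] at h2
  have h4 : aa G θ D l z (nx G z c) * aa G θ D l (nx G z c) z ≤ 1 / 2 := by
    have := mul_le_mul h2.2 h3.2 h3.1 h.h0
    nlinarith [h.theta.2.1]
  have h5 := (vr_mem (G := G) (D := D) hθ l z).1
  simp only [hv]
  nlinarith

lemma parent_sum_var (h : Cx G d θ D) (l : V → ℝ) {c : V} (hc : c ∈ D) (i : ℕ) :
    ∑ z ∈ D.filter fun z => G.dist z c = i + 1, aa G θ D l (nx G z c) c ^ 2 ≤
      2 * ((d : ℝ) - 1) := by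
  have hG := h.tr.tree
  have hd : (3 : ℝ) ≤ d := by exact_mod_cast h.tr.hd
  have hne : ∀ z, G.dist z c = i + 1 → z ≠ c := by
    rintro z hz rfl
    simp at hz
  rw [← Finset.sum_fiberwise_of_maps_to (t := D.filter fun p => G.dist p c = i)
    (g := fun z => nx G z c) (fun z hz => by
      obtain ⟨h1, h2⟩ := Finset.mem_filter.1 hz
      have := (nx_spec hG (hne z h2)).2
      exact Finset.mem_filter.2 ⟨h.nx_mem h1 hc, by omega⟩)]
  have h1 : ∀ p, ∑ z ∈ (D.filter fun z => G.dist z c = i + 1).filter fun z => nx G z c = p,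
      aa G θ D l (nx G z c) c ^ 2 ≤ (if p = c then (d : ℝ) else d - 1) * aa G θ D l p c ^ 2 := by
    intro p
    rw [Finset.sum_congr rfl (g := fun _ => aa G θ D l p c ^ 2)
      fun z hz => by rw [(Finset.mem_filter.1 hz).2], Finset.sum_const, nsmul_eq_mul]
    refine mul_le_mul_of_nonneg_right (le_trans ?_ (card_children h.tr D c p)) (sq_nonneg _)
    refine Nat.cast_le.2 (Finset.card_le_card fun z hz => ?_)
    obtain ⟨h2, h3⟩ := Finset.mem_filter.1 hz
    obtain ⟨h4, h5⟩ := Finset.mem_filter.1 h2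
    exact Finset.mem_filter.2 ⟨h4, hne z h5, h3⟩
  refine (Finset.sum_le_sum fun p _ => h1 p).trans ?_
  rcases Nat.eq_zero_or_pos i with rfl | hi
  · have h2 : (D.filter fun p => G.dist p c = 0) = {c} := by
      ext p
      rw [Finset.mem_filter, Finset.mem_singleton, hG.connected.dist_eq_zero_iff]
      exact ⟨fun h => h.2, fun h => ⟨h ▸ hc, h⟩⟩
    rw [h2, Finset.sum_singleton, if_pos rfl, aa_self h.theta.1 l hc]
    linarith
  · rw [Finset.sum_congr rfl (g := fun p => ((d : ℝ) - 1) * aa G θ D l p c ^ 2) fun p hp => by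
      rw [if_neg]
      rintro rfl
      have := (Finset.mem_filter.1 hp).2
      simp only [SimpleGraph.dist_self] at this
      omega, ← Finset.mul_sum]
    have h3 := (h.Ak_mem l hc i).2
    unfold Ak at h3
    nlinarith

lemma level_var (h : Cx G d θ D) (l : V → ℝ) {c : V} (hc : c ∈ D) {k i : ℕ} (hi : i + 1 ≤ k) :
    ∑ x ∈ D.filter fun x => G.dist x c ∈ Finset.Ioc k (2 * k), aa G θ D l x c ^ 2 ≤
      ∑ z ∈ D.filter fun z => G.dist z c = i + 1, aa G θ D l (nx G z c) c *
        (aa G θ D l z (nx G z c) * ∑ x ∈ D.filter fun x => Btw G x z c,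
          (if k < G.dist x c ∧ G.dist x c ≤ 2 * k then θ ^ G.dist x c else 0) *
            aa G θ D l x z) := by
  have hG := h.tr.tree
  have hθ := h.theta.1
  simp only [Finset.mul_sum]
  simp only [Finset.sum_filter (p := fun x => Btw G x _ c)]
  rw [Finset.sum_comm]
  have hnn : ∀ x ∈ D, ∀ z ∈ D.filter fun z => G.dist z c = i + 1,
      0 ≤ if Btw G x z c then aa G θ D l (nx G z c) c * (aa G θ D l z (nx G z c) *
        ((if k < G.dist x c ∧ G.dist x c ≤ 2 * k then θ ^ G.dist x c else 0) * aa G θ D l x z))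
        else 0 := by
    intro x hx z hz
    have hzD := (Finset.mem_filter.1 hz).1
    have h1 := (h.aa_mem l (h.nx_mem hzD hc) hc).1
    have h2 := (h.aa_mem l hzD (h.nx_mem hzD hc)).1
    have h3 := (h.aa_mem l hx hzD).1
    have h4 := h.h0
    split_ifs <;> positivity
  refine le_trans (Finset.sum_le_sum fun x hx => ?_)
    (Finset.sum_le_sum_of_subset_of_nonneg (Finset.filter_subset _ D)
      fun x hx _ => Finset.sum_nonneg (hnn x hx))
  obtain ⟨hxD, hxk⟩ := Finset.mem_filter.1 hx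
  rw [Finset.mem_Ioc] at hxk
  obtain ⟨z, hb, hz⟩ := btw_exists hG x c (i := i + 1) (by omega)
  have hzD := h.cvx x hxD c hc z hb
  have hzc : z ≠ c := by
    rintro rfl
    simp at hz
  refine le_trans ?_ (Finset.single_le_sum (hnn x hxD) (Finset.mem_filter.2 ⟨hzD, hz⟩))
  rw [if_pos hb, if_pos hxk]
  have e1 := aa_mul hG hθ l hzD hb
  have e2 := aa_mul hG hθ l (h.nx_mem hzD hc) (btw_nx_var hG hzc)
  have h1 := h.aa_mem l hxD hc
  calc aa G θ D l x c ^ 2 = aa G θ D l x c * aa G θ D l x c := sq _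
    _ ≤ θ ^ G.dist x c * aa G θ D l x c := mul_le_mul_of_nonneg_right h1.2 h1.1
    _ = _ := by
        rw [e1, e2]
        ring

/-- use `bessel`, `edge_vr`, Cauchy–Schwarz on each level `1 ≤ i ≤ k`, `Ak_anti`, `Ak_mem` -/
lemma Cx.var_lower (h : Cx G d θ D) (l : V → ℝ) {c : V} (hc : c ∈ D) (k : ℕ) :
    (k : ℝ) ^ 3 * Ak G θ D l c (2 * k) ^ 2 ≤ 192 * vrF G θ D
      (fun x => if k < G.dist x c ∧ G.dist x c ≤ 2 * k then θ ^ G.dist x c else 0) l := by
  have hG := h.tr.tree
  have hθ := h.theta.1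
  have hd : (3 : ℝ) ≤ d := by exact_mod_cast h.tr.hd
  set f : V → ℝ := fun x => if k < G.dist x c ∧ G.dist x c ≤ 2 * k then θ ^ G.dist x c else 0
    with hf
  set g : V → ℝ := fun z => vr G θ D l z / 2 *
    (∑ x ∈ D.filter fun x => Btw G x z c, f x * aa G θ D l x z) ^ 2 with hg
  have hg0 : ∀ z, 0 ≤ g z := fun z => by
    have := (vr_mem (G := G) (D := D) hθ l z).1
    simp only [hg]
    positivity
  have hA : (k : ℝ) * Ak G θ D l c (2 * k) ≤
      ∑ x ∈ D.filter fun x => G.dist x c ∈ Finset.Ioc k (2 * k), aa G θ D l x c ^ 2 := by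
    rw [← Finset.sum_fiberwise_eq_sum_filter]
    have := Finset.card_nsmul_le_sum (Finset.Ioc k (2 * k)) (fun j => Ak G θ D l c j)
      (Ak G θ D l c (2 * k)) fun j hj => by
        rw [Finset.mem_Ioc] at hj
        exact h.Ak_anti l hc (by omega) hj.2
    rw [Nat.card_Ioc, nsmul_eq_mul, show 2 * k - k = k by omega] at this
    exact this
  have hA0 : 0 ≤ (k : ℝ) * Ak G θ D l c (2 * k) :=
    mul_nonneg (Nat.cast_nonneg k) (h.Ak_mem l hc _).1
  have hlev : ∀ j ∈ Finset.Icc 1 k, ((k : ℝ) * Ak G θ D l c (2 * k)) ^ 2 ≤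
      192 * ∑ z ∈ D.filter fun z => G.dist z c = j, g z := by
    intro j hj
    rw [Finset.mem_Icc] at hj
    obtain ⟨i, rfl⟩ : ∃ i, j = i + 1 := ⟨j - 1, by omega⟩
    have h1 := pow_le_pow_left₀ hA0 (hA.trans (level_var h l hc hj.2)) 2
    have h2 := h1.trans (Finset.sum_mul_sq_le_sq_mul_sq _ _ _)
    have h3 : ∑ z ∈ D.filter fun z => G.dist z c = i + 1, (aa G θ D l z (nx G z c) *
        ∑ x ∈ D.filter fun x => Btw G x z c, f x * aa G θ D l x z) ^ 2 ≤
        96 * θ ^ 2 * ∑ z ∈ D.filter fun z => G.dist z c = i + 1, g z := by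
      rw [Finset.mul_sum]
      refine Finset.sum_le_sum fun z hz => ?_
      obtain ⟨hzD, hz'⟩ := Finset.mem_filter.1 hz
      have hzc : z ≠ c := by
        rintro rfl
        simp at hz'
      have h4 := h.edge_vr l hzD (h.nx_mem hzD hc) (nx_spec hG hzc).1
      rw [mul_pow]
      refine (mul_le_mul_of_nonneg_right h4 (sq_nonneg _)).trans (le_of_eq ?_)
      simp only [hg]
      ring
    have h5 : 0 ≤ ∑ z ∈ D.filter fun z => G.dist z c = i + 1, g z :=
      Finset.sum_nonneg fun z _ => hg0 z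
    refine h2.trans ((mul_le_mul (parent_sum_var h l hc i) h3
      (Finset.sum_nonneg fun _ _ => sq_nonneg _) (by linarith)).trans ?_)
    nlinarith [mul_le_mul_of_nonneg_right h.up h5]
  have h6 := Finset.card_nsmul_le_sum _ _ _ hlev
  rw [Nat.card_Icc, nsmul_eq_mul, show k + 1 - 1 = k by omega, ← Finset.mul_sum,
    Finset.sum_fiberwise_eq_sum_filter] at h6
  have h7 : ∑ z ∈ D.filter fun z => G.dist z c ∈ Finset.Icc 1 k, g z ≤ ∑ z ∈ D.erase c, g z := by
    refine Finset.sum_le_sum_of_subset_of_nonneg (fun z hz => ?_) fun z _ _ => hg0 z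
    obtain ⟨hzD, hz'⟩ := Finset.mem_filter.1 hz
    refine Finset.mem_erase.2 ⟨?_, hzD⟩
    rintro rfl
    simp at hz'
  have h8 := h.bessel l hc f
  calc (k : ℝ) ^ 3 * Ak G θ D l c (2 * k) ^ 2
      = k * ((k : ℝ) * Ak G θ D l c (2 * k)) ^ 2 := by ring
    _ ≤ _ := h6.trans (mul_le_mul_of_nonneg_left (h7.trans h8) (by norm_num))

end Vale.Agent.P161E
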